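import Crest.Agent.H2.PlDefs

/-! Bochner's theorem for the discrete group of algebraic numbers. -/

set_option autoImplicit false
set_option linter.style.haveILetI false

namespace Crest.Agent.H9.Pl

open Crest.Agent.H2.Pl MeasureTheory WeakDual
open scoped InnerProductSpace CompactlySupported BoundedContinuousFunction ComplexConjugate

/-- a state of a commutative C⋆-algebra is a measure on the spectrum -/
lemma exists_measure {X : Type*} [TopologicalSpace X] [CompactSpace X] [T2Space X]
    [MeasurableSpace X] [BorelSpace X] (φ : C(X, ℂ) →ₗ[ℂ] ℂ)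
    (hφ : ∀ g, 0 ≤ (φ (star g * g)).re) (hs : ∀ g, φ (star g) = conj (φ g)) :
    ∃ μ : Measure X, IsFiniteMeasure μ ∧ ∀ g : C(X, ℂ), ∫ x, g x ∂μ = φ g := by
  let c : C(X, ℝ) → C(X, ℂ) := fun f => ⟨fun x => (f x : ℂ), by fun_prop⟩
  have hpos : ∀ f : C(X, ℝ), (∀ x, 0 ≤ f x) → 0 ≤ (φ (c f)).re := fun f hf => by
    have : c f = star (c ⟨fun x => √(f x), by fun_prop⟩) * c ⟨fun x => √(f x), by fun_prop⟩ := by
      ext x
      simp only [c, ContinuousMap.coe_mk, ContinuousMap.mul_apply, ContinuousMap.star_apply,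
        Complex.star_def, Complex.conj_ofReal]
      rw [← Complex.ofReal_mul, Real.mul_self_sqrt (hf x)]
    rw [this]; exact hφ _
  have cadd : ∀ f g : C(X, ℝ), c (f + g) = c f + c g := fun f g => by ext x; simp [c]
  have csub : ∀ f g : C(X, ℝ), c (f - g) = c f - c g := fun f g => by ext x; simp [c]
  have csmul : ∀ (r : ℝ) (f : C(X, ℝ)), c (r • f) = (r : ℂ) • c f := fun f g => by ext x; simp [c]
  let Λ : C_c(X, ℝ) →ₚ[ℝ] ℝ :=
    { toFun := fun f => (φ (c f.toContinuousMap)).re
      map_add' := fun f g => by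
        rw [← Complex.add_re, ← map_add, ← cadd]; rfl
      map_smul' := fun r f => by
        have : (r • f).toContinuousMap = r • f.toContinuousMap := rfl
        rw [this, csmul, map_smul]; simp
      monotone' := fun f g hfg => by
        have := hpos (g.toContinuousMap - f.toContinuousMap) fun x => sub_nonneg.2 (hfg x)
        rw [csub, map_sub, Complex.sub_re] at this
        exact sub_nonneg.1 this }
  have hreal : ∀ f : C(X, ℝ), ((∫ x, f x ∂(RealRMK.rieszMeasure Λ) : ℝ) : ℂ) = φ (c f) := by
    intro f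
    have h1 := RealRMK.integral_rieszMeasure Λ ⟨f, HasCompactSupport.of_compactSpace _⟩
    have h2 : star (c f) = c f := by ext x; simp [c]
    have h3 := hs (c f)
    rw [h2] at h3
    exact (congrArg _ h1).trans (Complex.conj_eq_iff_re.1 h3.symm)
  refine ⟨RealRMK.rieszMeasure Λ, inferInstance, fun g => ?_⟩
  let a : C(X, ℝ) := ⟨fun x => (g x).re, by fun_prop⟩
  let b : C(X, ℝ) := ⟨fun x => (g x).im, by fun_prop⟩
  have e : g = c a + Complex.I • c b := by
    ext x
    simp only [c, a, b, ContinuousMap.add_apply, ContinuousMap.smul_apply, ContinuousMap.coe_mk,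
      smul_eq_mul]
    rw [mul_comm, Complex.re_add_im]
  have hi : Integrable g (RealRMK.rieszMeasure Λ) :=
    g.continuous.integrable_of_hasCompactSupport (HasCompactSupport.of_compactSpace _)
  conv_rhs => rw [e, map_add, map_smul, ← hreal, ← hreal, smul_eq_mul, mul_comm]
  exact (integral_re_add_im hi).symm

/-- the characters of `L` -/
def Ch : Set (L → ℂ) := {χ | (∀ z, ‖χ z‖ = 1) ∧ ∀ z w, χ (z + w) = χ z * χ w}

lemma isClosed_Ch : IsClosed Ch := by
  simp only [Ch, Set.ofPred_and, Set.ofPred_forall]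
  exact (isClosed_iInter fun z => isClosed_eq (by fun_prop) (by fun_prop)).inter
    (isClosed_iInter fun z => isClosed_iInter fun w => isClosed_eq (by fun_prop) (by fun_prop))

instance : PolishSpace Ch := isClosed_Ch.polishSpace

lemma Ch.zero (y : Ch) : y.1 0 = 1 := by
  have h1 := y.2.2 0 0
  have h2 : y.1 0 ≠ 0 := fun h => by simpa [h] using y.2.1 0
  rw [add_zero] at h1
  exact (mul_eq_left₀ h2).1 h1.symm

lemma Ch.neg (y : Ch) (z : L) : y.1 (-z) = conj (y.1 z) := by
  have h1 := y.2.2 (-z) z
  rw [neg_add_cancel, Ch.zero] at h1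
  have h2 : conj (y.1 z) * y.1 z = 1 := by rw [Complex.conj_mul', y.2.1 z]; simp
  have h3 : y.1 z ≠ 0 := fun h => by simpa [h] using y.2.1 z
  exact mul_right_cancel₀ h3 (h1.symm.trans h2.symm)

/-- evaluation -/
noncomputable def ev (z : L) : Ch →ᵇ ℂ :=
  BoundedContinuousFunction.ofNormedAddCommGroup (fun y => y.1 z)
    ((continuous_apply z).comp continuous_subtype_val) 1
    fun y => (y.2.1 z).le

lemma ev_apply (z : L) (y : Ch) : ev z y = y.1 z := rfl

lemma ext_Ch {P Q : Measure Ch} [IsFiniteMeasure P] [IsFiniteMeasure Q]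
    (h : ∀ z, ∫ y, y.1 z ∂P = ∫ y, y.1 z ∂Q) : P = Q := by
  let S : Submodule ℂ (Ch →ᵇ ℂ) := Submodule.span ℂ (Set.range ev)
  let A : StarSubalgebra ℂ (Ch →ᵇ ℂ) :=
    { toSubalgebra := S.toSubalgebra
        (Submodule.subset_span ⟨0, by ext y; exact Ch.zero y⟩) (fun f g hf hg => by
          have := Submodule.mul_mem_mul hf hg
          rw [Submodule.span_mul_span] at this
          refine Submodule.span_mono ?_ this
          rintro _ ⟨_, ⟨z, rfl⟩, _, ⟨w, rfl⟩, rfl⟩
          exact ⟨z + w, by ext y; exact y.2.2 z w⟩)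
      star_mem' := fun {f} hf => by
        change star f ∈ S
        induction hf using Submodule.span_induction with
        | mem f hf =>
          obtain ⟨z, rfl⟩ := hf
          exact Submodule.subset_span ⟨-z, by ext y; exact Ch.neg y z⟩
        | zero => simp
        | add f g _ _ hf hg => rw [star_add]; exact add_mem hf hg
        | smul c f _ hf => rw [star_smul]; exact S.smul_mem _ hf }
  refine ext_of_forall_mem_subalgebra_integral_eq_of_polish (𝕜 := ℂ) (A := A) ?_ fun g hg => ?_
  · intro y y' hne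
    obtain ⟨z, hz⟩ : ∃ z, y.1 z ≠ y'.1 z := by
      by_contra hc
      push Not at hc
      exact hne (Subtype.ext (funext hc))
    exact ⟨_, ⟨_, ⟨ev z, Submodule.subset_span ⟨z, rfl⟩, rfl⟩, rfl⟩, hz⟩
  · change g ∈ S at hg
    induction hg using Submodule.span_induction with
    | mem f hf => obtain ⟨z, rfl⟩ := hf; exact h z
    | zero => simp
    | add f g _ _ hf hg =>
      simp only [BoundedContinuousFunction.coe_add, Pi.add_apply]
      rw [integral_add (f.integrable _) (g.integrable _),
        integral_add (f.integrable _) (g.integrable _), hf, hg]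
    | smul c f _ hf =>
      simp only [BoundedContinuousFunction.coe_smul]
      rw [integral_smul, integral_smul, hf]

/-- rotation of characters -/
noncomputable def rot (u : U) (y : Ch) : Ch :=
  ⟨fun z => y.1 (u • z), fun z => y.2.1 _, fun z w => by
    simp only [smul_add]; exact y.2.2 _ _⟩

lemma continuous_rot (u : U) : Continuous (rot u) :=
  Continuous.subtype_mk (continuous_pi fun z => (ev (u • z)).continuous) _

lemma exists_Ch_abs {H : Type} [NormedAddCommGroup H] [InnerProductSpace ℂ H] [CompleteSpace H]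
    {A : Type} [CommCStarAlgebra A] (ρ : A →⋆ₐ[ℂ] (H →L[ℂ] H)) (ξ : H) (q : L → A)
    (qadd : ∀ z w, q (z + w) = q z * q w) (qstar : ∀ z, star (q z) * q z = 1) :
    ∃ ν : Measure Ch, IsFiniteMeasure ν ∧ ∀ z, ∫ y, y.1 z ∂ν = ⟪ξ, ρ (q z) ξ⟫_ℂ := by
  letI : MeasurableSpace (characterSpace ℂ A) := borel _
  haveI : BorelSpace (characterSpace ℂ A) := ⟨rfl⟩
  let Γ := gelfandStarTransform A
  let φ : C(characterSpace ℂ A, ℂ) →ₗ[ℂ] ℂ :=
    { toFun := fun g => ⟪ξ, ρ (Γ.symm g) ξ⟫_ℂ
      map_add' := fun g g' => by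
        rw [map_add, map_add, add_apply, inner_add_right]
      map_smul' := fun c g => by
        rw [map_smul, map_smul, RingHom.id_apply, smul_apply, inner_smul_right, smul_eq_mul] }
  have hφ : ∀ g, φ g = ⟪ξ, ρ (Γ.symm g) ξ⟫_ℂ := fun g => rfl
  obtain ⟨μ, _, hμ⟩ := exists_measure φ (fun g => by
      rw [hφ, map_mul, map_star, map_mul, map_star, mul_apply_eq_comp,
        ContinuousLinearMap.star_eq_adjoint, ContinuousLinearMap.adjoint_inner_right]
      exact inner_self_nonneg (𝕜 := ℂ))
    (fun g => by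
      rw [hφ, hφ, map_star, map_star, ContinuousLinearMap.star_eq_adjoint,
        ContinuousLinearMap.adjoint_inner_right, inner_conj_symm])
  let Φ : characterSpace ℂ A → Ch := fun χ => ⟨fun z => χ (q z), fun z => by
      have := congrArg χ (qstar z)
      rw [map_mul, map_star, map_one, Complex.star_def, Complex.conj_mul'] at this
      have h1 : ‖χ (q z)‖ ^ 2 = 1 := by exact_mod_cast this
      exact (pow_eq_one_iff_of_nonneg (norm_nonneg _) two_ne_zero).1 h1,
    fun z w => by simp only [qadd, map_mul]⟩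
  have hΦ : Continuous Φ :=
    Continuous.subtype_mk (continuous_pi fun z => (Γ (q z)).continuous) _
  refine ⟨μ.map Φ, inferInstance, fun z => ?_⟩
  have h1 := integral_map (μ := μ) hΦ.measurable.aemeasurable
    (ev z).continuous.aestronglyMeasurable
  have h2 := hμ (Γ (q z))
  rw [hφ, StarAlgEquiv.symm_apply_apply] at h2
  exact h1.trans h2

lemma exists_Ch {H : Type} [NormedAddCommGroup H] [InnerProductSpace ℂ H] [CompleteSpace H]
    (R : Rep H) (ξ : H) :
    ∃ ν : Measure Ch, IsFiniteMeasure ν ∧ ∀ z, ∫ y, y.1 z ∂ν = ⟪ξ, R.π z ξ⟫_ℂ := by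
  let p : L → H →L[ℂ] H := fun z => (R.π z).toContinuousLinearMap
  have p0 : p 0 = 1 := by ext x; exact R.zero x
  have padd : ∀ z w, p (z + w) = p z * p w := fun z w => by ext x; exact R.add z w x
  have pstar : ∀ z, star (p z) = p (-z) := fun z => by
    rw [ContinuousLinearMap.star_eq_adjoint, eq_comm, ContinuousLinearMap.eq_adjoint_iff]
    intro x y
    change ⟪R.π (-z) x, y⟫_ℂ = ⟪x, R.π z y⟫_ℂ
    rw [← (R.π z).inner_map_map, ← R.add, add_neg_cancel, R.zero]
  let A : StarSubalgebra ℂ (H →L[ℂ] H) :=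
    StarSubalgebra.centralizer ℂ (StarSubalgebra.centralizer ℂ (Set.range p) : Set (H →L[ℂ] H))
  have hp : ∀ z, p z ∈ StarSubalgebra.centralizer ℂ (Set.range p) := fun z => by
    rw [StarSubalgebra.mem_centralizer_iff]
    rintro _ ⟨w, rfl⟩
    simp only [pstar, ← padd, add_comm, and_self]
  have hpA : ∀ z, p z ∈ A := fun z => by
    rw [StarSubalgebra.mem_centralizer_iff]
    intro g hg
    exact ⟨((StarSubalgebra.mem_centralizer_iff ℂ).1 hg _ ⟨z, rfl⟩).1.symm,
      ((StarSubalgebra.mem_centralizer_iff ℂ).1 (star_mem hg) _ ⟨z, rfl⟩).1.symm⟩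
  have hA : ∀ a ∈ A, a ∈ StarSubalgebra.centralizer ℂ (Set.range p) := fun a ha => by
    rw [StarSubalgebra.mem_centralizer_iff]
    rintro _ ⟨w, rfl⟩
    exact (StarSubalgebra.mem_centralizer_iff ℂ).1 ha _ (hp w)
  haveI : IsClosed (A : Set (H →L[ℂ] H)) := by
    rw [StarSubalgebra.coe_centralizer]
    exact Set.isClosed_centralizer _
  letI : CommCStarAlgebra A :=
    { (inferInstance : CStarAlgebra A) with
      mul_comm := fun a b => Subtype.ext
        ((StarSubalgebra.mem_centralizer_iff ℂ).1 b.2 _ (hA a a.2)).1 }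
  exact exists_Ch_abs (A := A) A.subtype ξ (fun z => ⟨p z, hpA z⟩)
    (fun z w => Subtype.ext (padd z w)) (fun z => Subtype.ext (by
      change star (p z) * p z = 1
      rw [pstar, ← padd, neg_add_cancel, p0]))

theorem bochnerStmt : BochnerStmt := by
  intro H _ _ _ R ξ hξ hinv
  obtain ⟨ν, _, hν⟩ := exists_Ch R ξ
  have hP : IsProbabilityMeasure ν := by
    have := hν 0
    simp only [Ch.zero, R.zero, inner_self_eq_norm_sq_to_K, hξ, integral_const] at this
    refine isProbabilityMeasure_iff_real.2 ?_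
    have h1 : ((ν.real Set.univ : ℝ) : ℂ) = 1 := by simpa using this
    exact_mod_cast h1
  refine ⟨Ch, inferInstance, inferInstance, ν, hP,
    { F := fun z y => y.1 z
      T := rot
      meas := fun z => (ev z).continuous.measurable
      norm := fun z y => y.2.1 z
      add := fun z w y => y.2.2 z w
      mp := fun u => ⟨(continuous_rot u).measurable, ext_Ch fun z => ?_⟩
      T_one := fun y => Subtype.ext (funext fun z => congrArg y.1 (one_smul _ z))
      T_mul := fun u v y => Subtype.ext (funext fun z => congrArg y.1 (by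
        rw [mul_comm, mul_smul]))
      F_T := fun z u y => rfl }, hν⟩
  rw [hν, ← hinv u z, ← hν]
  exact integral_map (continuous_rot u).measurable.aemeasurable
    (ev z).continuous.aestronglyMeasurable

end Crest.Agent.H9.Pl
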