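import Crest.Agent.H2.PlDefs
import Crest.Agent.H7.KadMO

/-! Abelian groups are amenable. -/

set_option autoImplicit false

namespace Crest.Agent.H9.Pl

open Crest.Agent.H2.Pl Finset

variable {G : Type} [CommGroup G]

/-- some average of translates of `F` is almost bounded by `r` -/
def Le (F : G → ℝ) (r : ℝ) : Prop := ∀ ε > 0, ∃ (ι : Type) (_ : Fintype ι) (_ : Nonempty ι)
  (t : ι → G), ∀ x, ∑ i, F (x * t i) ≤ (r + ε) * Fintype.card ι

lemma Le.of_le {F : G → ℝ} {r : ℝ} (h : ∀ x, F x ≤ r) : Le F r := fun ε hε =>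
  ⟨Unit, inferInstance, inferInstance, fun _ => 1, fun x => by simp; linarith [h x]⟩

lemma Le.add {F F' : G → ℝ} {r r' : ℝ} (h : Le F r) (h' : Le F' r') : Le (F + F') (r + r') := by
  intro ε hε
  obtain ⟨ι, _, _, t, ht⟩ := h (ε / 2) (by positivity)
  obtain ⟨κ, _, _, s, hs⟩ := h' (ε / 2) (by positivity)
  refine ⟨ι × κ, inferInstance, inferInstance, fun p => t p.1 * s p.2, fun x => ?_⟩
  have h1 : ∑ p : ι × κ, F (x * (t p.1 * s p.2)) ≤
      Fintype.card κ * ((r + ε / 2) * Fintype.card ι) := by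
    rw [Fintype.sum_prod_type_right]
    refine (sum_le_sum fun k _ => (le_of_eq ?_).trans (ht (x * s k))).trans (by simp)
    exact sum_congr rfl fun i _ => by rw [mul_comm (t i), mul_assoc]
  have h2 : ∑ p : ι × κ, F' (x * (t p.1 * s p.2)) ≤
      Fintype.card ι * ((r' + ε / 2) * Fintype.card κ) := by
    rw [Fintype.sum_prod_type]
    refine (sum_le_sum fun i _ => (le_of_eq ?_).trans (hs (x * t i))).trans (by simp)
    exact sum_congr rfl fun k _ => by rw [mul_assoc]
  simp only [Pi.add_apply, sum_add_distrib, Fintype.card_prod]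
  push_cast
  linarith

lemma Le.smul {F : G → ℝ} {r c : ℝ} (hc : 0 ≤ c) (h : Le F r) : Le (c • F) (c * r) := by
  intro ε hε
  obtain ⟨ι, _, _, t, ht⟩ := h (ε / (c + 1)) (by positivity)
  refine ⟨ι, inferInstance, inferInstance, t, fun x => ?_⟩
  simp only [Pi.smul_apply, smul_eq_mul, ← mul_sum]
  refine (mul_le_mul_of_nonneg_left (ht x) hc).trans ?_
  rw [← mul_assoc]
  refine mul_le_mul_of_nonneg_right ?_ (by positivity)
  have : c * (ε / (c + 1)) ≤ ε := by
    rw [mul_div_assoc', div_le_iff₀ (by positivity)]; nlinarith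
  linarith

lemma Le.nonneg {r : ℝ} (h : Le (0 : G → ℝ) r) : 0 ≤ r := by
  refine le_of_forall_pos_le_add fun ε hε => ?_
  obtain ⟨ι, _, _, t, ht⟩ := h ε hε
  have := ht 1
  simp only [Pi.zero_apply, sum_const_zero] at this
  have h0 : (0 : ℝ) < Fintype.card ι := by exact_mod_cast Fintype.card_pos
  exact nonneg_of_mul_nonneg_left this h0

lemma Le.cob {f : G → ℝ} {C : ℝ} (hf : ∀ x, |f x| ≤ C) (h : G) :
    Le (fun x => f (x * h) - f x) 0 := by
  intro ε hε
  obtain ⟨n, hn⟩ := exists_nat_gt (2 * C / ε)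
  refine ⟨Fin (n + 1), inferInstance, inferInstance, fun i => h ^ (i : ℕ), fun x => ?_⟩
  rw [Fin.sum_univ_eq_sum_range (fun i => f (x * h ^ i * h) - f (x * h ^ i))]
  simp only [mul_assoc, ← pow_succ]
  rw [sum_range_sub (fun i => f (x * h ^ i))]
  rw [div_lt_iff₀ hε] at hn
  have h1 := abs_le.1 (hf (x * h ^ (n + 1)))
  have h2 := abs_le.1 (hf (x * h ^ 0))
  simp only [Fintype.card_fin]
  push_cast
  nlinarith

theorem meanStmt : MeanStmt := by
  intro G _
  let J := {p : (G → ℝ) × ℝ // (∃ C, ∀ x, |p.1 x| ≤ C) ∧ Le p.1 p.2}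
  obtain ⟨l, hl⟩ := H7.Kad.mazur_orlicz (fun j : J => j.1.1) (fun j => j.1.2)
    (fun s c hc h0 => by
      have : Le (∑ j ∈ s, c j • j.1.1) (∑ j ∈ s, c j * j.1.2) := by
        classical
        clear h0
        induction s using Finset.induction_on with
        | empty => exact Le.of_le (by simp)
        | insert a s ha ih => rw [sum_insert ha, sum_insert ha]; exact (a.2.2.smul (hc a)).add ih
      rw [h0] at this
      exact this.nonneg)
    (fun j => by
      obtain ⟨C, hC⟩ := j.2.1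
      exact ⟨⟨(-j.1.1, C), ⟨C, by simpa using hC⟩,
        Le.of_le fun x => (neg_le_abs _).trans (hC x)⟩, rfl⟩)
  have key : ∀ (F : G → ℝ) (r C : ℝ), (∀ x, |F x| ≤ C) → Le F r → l F ≤ r := fun F r C h1 h2 =>
    hl ⟨(F, r), ⟨C, h1⟩, h2⟩
  have inv : ∀ (f : G → ℝ) (h : G) (C : ℝ), (∀ x, |f x| ≤ C) → l (fun x => f (x * h)) ≤ l f := by
    intro f h C hf
    have := key _ 0 (C + C) (fun x => (abs_sub _ _).trans (add_le_add (hf _) (hf _))) (Le.cob hf h)
    rw [← sub_nonpos, ← map_sub]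
    exact this
  refine ⟨⟨l, le_antisymm (key _ 1 1 (by simp) (Le.of_le (by simp))) ?_, ?_, ?_⟩⟩
  · have := key (-fun _ => 1) (-1) 1 (by simp) (Le.of_le (by simp))
    rw [map_neg] at this; linarith
  · rintro f ⟨C, hC⟩ hf
    have := key (-f) 0 C (by simpa using hC) (Le.of_le (by simpa using hf))
    rw [map_neg] at this; linarith
  · rintro f h ⟨C, hC⟩
    have h2 := inv (-f) h C (by simpa using hC)
    have e : (fun x => (-f) (x * h)) = -fun x => f (x * h) := rfl
    rw [e, map_neg, map_neg] at h2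
    exact le_antisymm (inv f h C hC) (by linarith)

end Crest.Agent.H9.Pl
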