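import Mathlib

/-! von Neumann algebra toolkit, part a: projections onto closed spans, range projections,
spectral projections, Riemann sums. -/

set_option autoImplicit false
open scoped InnerProductSpace
open Filter Topology

namespace Crest.Agent.H9.VN

variable {K : Type*} [NormedAddCommGroup K] [InnerProductSpace ℂ K] [CompleteSpace K]

/-- closed linear span -/
noncomputable def cs (S : Set K) : Submodule ℂ K := (Submodule.span ℂ S).topologicalClosure

instance (S : Set K) : CompleteSpace (cs S) :=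
  (Submodule.isClosed_topologicalClosure _).completeSpace_coe

/-- orthogonal projection onto the closed span of `S` -/
noncomputable def prS (S : Set K) : K →L[ℂ] K := (cs S).starProjection

lemma prS_proj (S : Set K) : IsStarProjection (prS S) := isStarProjection_starProjection

lemma prS_apply_mem_cs (S : Set K) (v : K) : prS S v ∈ cs S := Submodule.starProjection_apply_mem _ _

lemma prS_apply_of_mem_cs {S : Set K} {v : K} (hv : v ∈ cs S) : prS S v = v :=
  Submodule.starProjection_eq_self_iff.2 hv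

omit [CompleteSpace K] in
lemma mem_cs_of_mem {S : Set K} {v : K} (hv : v ∈ S) : v ∈ cs S :=
  Submodule.le_topologicalClosure _ (Submodule.subset_span hv)

lemma prS_apply_of_mem {S : Set K} {v : K} (hv : v ∈ S) : prS S v = v :=
  prS_apply_of_mem_cs (mem_cs_of_mem hv)

omit [CompleteSpace K] in
lemma cs_le {S : Set K} {U : Submodule ℂ K} (hU : IsClosed (U : Set K)) (h : S ⊆ U) : cs S ≤ U :=
  Submodule.topologicalClosure_minimal _ (Submodule.span_le.2 h) hU

omit [CompleteSpace K] in
lemma map_cs {S S' : Set K} (T : K →L[ℂ] K) (h : ∀ v ∈ S, T v ∈ cs S') :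
    ∀ v ∈ cs S, T v ∈ cs S' := by
  have : cs S ≤ (cs S').comap (T : K →ₗ[ℂ] K) := by
    apply cs_le
    · exact (Submodule.isClosed_topologicalClosure _).preimage T.continuous
    · exact h
  exact fun v hv => this hv

omit [CompleteSpace K] in
lemma zero_on_cs {S : Set K} (T : K →L[ℂ] K) (h : ∀ v ∈ S, T v = 0) : ∀ v ∈ cs S, T v = 0 := by
  have : cs S ≤ T.ker := by
    apply cs_le
    · exact T.isClosed_ker
    · exact h
  exact fun v hv => this hv

lemma mul_prS_eq_zero {S : Set K} (T : K →L[ℂ] K) (h : ∀ v ∈ S, T v = 0) : T * prS S = 0 := by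
  ext v
  exact zero_on_cs T h _ (prS_apply_mem_cs S v)

lemma prS_mul_mul {S : Set K} (a : K →L[ℂ] K) (h : ∀ v ∈ S, a v ∈ cs S) :
    prS S * (a * prS S) = a * prS S := by
  ext v
  exact prS_apply_of_mem_cs (map_cs a h _ (prS_apply_mem_cs S v))

lemma commute_prS {S : Set K} (a : K →L[ℂ] K) (h1 : ∀ v ∈ S, a v ∈ cs S)
    (h2 : ∀ v ∈ S, star a v ∈ cs S) : Commute (prS S) a := by
  have e1 := prS_mul_mul a h1
  have e2 := congrArg star (prS_mul_mul (star a) h2)
  simp only [star_mul, star_star, (prS_proj S).isSelfAdjoint.star_eq] at e2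
  rw [commute_iff_eq, ← e1, ← e2, mul_assoc]

lemma mem_of_commute (P : VonNeumannAlgebra K) {x : K →L[ℂ] K}
    (h : ∀ y ∈ P.commutant, Commute x y) : x ∈ P := by
  rw [← P.commutant_commutant, VonNeumannAlgebra.mem_commutant_iff]
  exact fun g hg => (h g hg).symm.eq

lemma commute_of_mem {P : VonNeumannAlgebra K} {x y : K →L[ℂ] K} (hx : x ∈ P)
    (hy : y ∈ P.commutant) : Commute x y :=
  VonNeumannAlgebra.mem_commutant_iff.1 hy x hx

lemma smul_mem' (P : VonNeumannAlgebra K) (c : ℂ) {x : K →L[ℂ] K} (hx : x ∈ P) : c • x ∈ P :=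
  P.toStarSubalgebra.smul_mem hx c

lemma rsmul_mem (P : VonNeumannAlgebra K) (c : ℝ) {x : K →L[ℂ] K} (hx : x ∈ P) : c • x ∈ P :=
  mem_of_commute P fun _ hy => (commute_of_mem hx hy).smul_left c

lemma prS_mem (P : VonNeumannAlgebra K) {S : Set K}
    (h : ∀ y ∈ P.commutant, ∀ v ∈ S, y v ∈ cs S) : prS S ∈ P :=
  mem_of_commute P fun y hy => commute_prS y (h y hy) (h _ (star_mem hy))

lemma cfc_mem (P : VonNeumannAlgebra K) {a : K →L[ℂ] K} (ha : a ∈ P) (f : ℝ → ℝ) : cfc f a ∈ P :=
  mem_of_commute P fun _ hy => (commute_of_mem ha hy).cfc_real f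

/-- range projection -/
noncomputable def rp (x : K →L[ℂ] K) : K →L[ℂ] K := prS (Set.range x)

lemma rp_proj (x : K →L[ℂ] K) : IsStarProjection (rp x) := prS_proj _

lemma rp_mul (x : K →L[ℂ] K) : rp x * x = x := by
  ext v
  exact prS_apply_of_mem ⟨v, rfl⟩

lemma mul_rp_eq_zero {T x : K →L[ℂ] K} (h : T * x = 0) : T * rp x = 0 := by
  apply mul_prS_eq_zero
  rintro _ ⟨v, rfl⟩
  exact congrArg (fun S : K →L[ℂ] K => S v) h

lemma mul_rp_eq_self {q x : K →L[ℂ] K} (h : q * x = x) : q * rp x = rp x := by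
  have : (1 - q) * rp x = 0 := mul_rp_eq_zero (by rw [sub_mul, one_mul, h, sub_self])
  rw [sub_mul, one_mul, sub_eq_zero] at this
  exact this.symm

lemma commute_rp {x a : K →L[ℂ] K} (h1 : Commute x a) (h2 : Commute x (star a)) :
    Commute (rp x) a := by
  apply commute_prS
  · rintro _ ⟨v, rfl⟩
    exact mem_cs_of_mem ⟨a v, congrArg (fun S : K →L[ℂ] K => S v) h1.eq⟩
  · rintro _ ⟨v, rfl⟩
    exact mem_cs_of_mem ⟨star a v, congrArg (fun S : K →L[ℂ] K => S v) h2.eq⟩

lemma rp_mem (P : VonNeumannAlgebra K) {x : K →L[ℂ] K} (hx : x ∈ P) : rp x ∈ P :=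
  mem_of_commute P fun _ hy =>
    commute_rp (commute_of_mem hx hy) (commute_of_mem hx (star_mem hy))

lemma eq_zero_of_rp {x : K →L[ℂ] K} (h : rp x = 0) : x = 0 := by
  rw [← rp_mul x, h, zero_mul]

/-- spectral projection of `a` for the interval `(t, ∞)` -/
noncomputable def sp (a : K →L[ℂ] K) (t : ℝ) : K →L[ℂ] K :=
  rp (cfc (fun s : ℝ => max (s - t) 0) a)

lemma sp_proj (a : K →L[ℂ] K) (t : ℝ) : IsStarProjection (sp a t) := rp_proj _

lemma sp_mem (P : VonNeumannAlgebra K) {a : K →L[ℂ] K} (ha : a ∈ P) (t : ℝ) : sp a t ∈ P :=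
  rp_mem P (cfc_mem P ha _)

lemma commute_sp {a b : K →L[ℂ] K} (h1 : Commute a b) (h2 : Commute a (star b)) (t : ℝ) :
    Commute (sp a t) b :=
  commute_rp (h1.cfc_real _) (h2.cfc_real _)

lemma commute_sp_cfc (a : K →L[ℂ] K) (t : ℝ) (f : ℝ → ℝ) : Commute (sp a t) (cfc f a) := by
  have h : Commute a (cfc f a) := ((Commute.refl a).cfc_real f).symm
  refine commute_sp h ?_ t
  rwa [(cfc_predicate f a : IsSelfAdjoint _).star_eq]

lemma cfc_mul_sp_eq_zero {a : K →L[ℂ] K} (t : ℝ) (g : ℝ → ℝ) (hg : Continuous g)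
    (h : ∀ s, t < s → g s = 0) : cfc g a * sp a t = 0 := by
  apply mul_rp_eq_zero
  rw [← cfc_mul _ _ a hg.continuousOn (by fun_prop)]
  have : (fun s : ℝ => g s * max (s - t) 0) = fun _ => 0 := by
    funext s
    rcases le_or_gt s t with hs | hs
    · rw [max_eq_right (by linarith), mul_zero]
    · rw [h s hs, zero_mul]
  rw [this]
  exact cfc_const_zero ℝ a

lemma sp_mul_cfc {a : K →L[ℂ] K} (t : ℝ) (f g : ℝ → ℝ) (hg : Continuous g)
    (h : ∀ s, f s = max (s - t) 0 * g s) : sp a t * cfc f a = cfc f a := by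
  have : f = fun s => max (s - t) 0 * g s := funext h
  rw [this, cfc_mul _ _ a (by fun_prop) hg.continuousOn, ← mul_assoc, sp, rp_mul]

lemma proj_le_one {p : K →L[ℂ] K} (hp : IsStarProjection p) : p ≤ 1 := hp.le_one

/-- one slice of the Riemann sum -/
lemma slice_bounds {a : K →L[ℂ] K} (ha : IsSelfAdjoint a) (t ε : ℝ) (hε : 0 < ε) :
    ε • sp a (t + ε) ≤ cfc (fun s : ℝ => min (max (s - t) 0) ε) a ∧
      cfc (fun s : ℝ => min (max (s - t) 0) ε) a ≤ ε • sp a t := by
  set f : ℝ → ℝ := fun s => min (max (s - t) 0) ε with hf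
  have hfc : Continuous f := by fun_prop
  have hf0 : 0 ≤ cfc f a := cfc_nonneg fun s _ => le_min (le_max_right _ _) hε.le
  have hf1 : cfc f a ≤ ε • (1 : K →L[ℂ] K) := by
    have := cfc_le_algebraMap f ε a (fun s _ => min_le_right _ _) hfc.continuousOn ha
    rwa [Algebra.algebraMap_eq_smul_one] at this
  constructor
  · set e := sp a (t + ε)
    have he := sp_proj a (t + ε)
    have h1 : cfc (fun s => ε - f s) a * e = 0 := by
      apply cfc_mul_sp_eq_zero _ _ (by fun_prop)
      intro s hs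
      simp only [hf]
      rw [min_eq_right (le_max_of_le_left (by linarith)), sub_self]
    rw [cfc_sub _ _ a (by fun_prop) hfc.continuousOn, cfc_const ε a ha,
      Algebra.algebraMap_eq_smul_one, sub_mul, smul_mul_assoc, one_mul, sub_eq_zero] at h1
    have hc : Commute e (cfc f a) := commute_sp_cfc a _ f
    have h2 : 0 ≤ star (1 - e) * cfc f a * (1 - e) := star_left_conjugate_nonneg hf0 _
    rw [he.one_sub.isSelfAdjoint.star_eq] at h2
    have h3 : (1 - e) * cfc f a * (1 - e) = cfc f a - ε • e := by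
      have h4 : (1 - e) * cfc f a = cfc f a * (1 - e) := ((Commute.one_left _).sub_left hc).eq
      rw [h4, mul_assoc, he.one_sub.isIdempotentElem.eq, mul_sub, mul_one, h1]
    rw [h3] at h2
    exact sub_nonneg.1 h2
  · set e := sp a t
    have he := sp_proj a t
    have h1 : e * cfc f a = cfc f a := by
      apply sp_mul_cfc t f (fun s => ε / max (s - t) ε)
      · exact continuous_const.div (by fun_prop) fun s => (lt_max_of_lt_right hε).ne'
      · intro s
        simp only [hf]
        rcases le_total (s - t) 0 with h | h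
        · rw [max_eq_right h, zero_mul, min_eq_left hε.le]
        · rw [max_eq_left h]
          rcases le_total (s - t) ε with h' | h'
          · rw [min_eq_left h', max_eq_right h', div_self hε.ne', mul_one]
          · rw [min_eq_right h', max_eq_left h']
            have : s - t ≠ 0 := by linarith
            field_simp
    have hc : Commute e (cfc f a) := commute_sp_cfc a _ f
    have h2 := star_left_conjugate_le_conjugate hf1 e
    rw [he.isSelfAdjoint.star_eq, h1, ← hc.eq, h1, mul_smul_comm, mul_one, smul_mul_assoc,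
      he.isIdempotentElem.eq] at h2
    exact h2

lemma sum_slices (ε : ℝ) (hε : 0 < ε) (N : ℕ) (s : ℝ) :
    ∑ i ∈ Finset.range N, min (max (s - i * ε) 0) ε = min (max s 0) (N * ε) := by
  induction N with
  | zero => simp
  | succ n ih =>
    rw [Finset.sum_range_succ, ih]
    push_cast
    have hn : 0 ≤ (n : ℝ) * ε := by positivity
    rcases le_total s 0 with h | h
    · rw [max_eq_right h, max_eq_right (by linarith), min_eq_left hn, min_eq_left hε.le,
        min_eq_left (by linarith)]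
      ring
    · rw [max_eq_left h]
      rcases le_total s (n * ε) with h' | h'
      · rw [min_eq_left h', max_eq_right (by linarith), min_eq_left hε.le,
          min_eq_left (by linarith)]
        ring
      · rw [min_eq_right h', max_eq_left (by linarith)]
        rcases le_total (s - n * ε) ε with h'' | h''
        · rw [min_eq_left h'', min_eq_left (by linarith)]
          ring
        · rw [min_eq_right h'', min_eq_right (by linarith)]
          ring

/-- Riemann lemma -/
theorem riemann {a : K →L[ℂ] K} (ha : 0 ≤ a) (ε : ℝ) (hε : 0 < ε) (N : ℕ) (hN : ‖a‖ ≤ N * ε) :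
    ε • ∑ i ∈ Finset.range N, sp a ((i + 1 : ℕ) * ε) ≤ a ∧
      a ≤ ε • ∑ i ∈ Finset.range N, sp a (i * ε) := by
  have hsa : IsSelfAdjoint a := ha.isSelfAdjoint
  have hsum : a = ∑ i ∈ Finset.range N, cfc (fun s : ℝ => min (max (s - i * ε) 0) ε) a := by
    rw [← cfc_sum _ a _ (fun i _ => by fun_prop)]
    conv_lhs => rw [← cfc_id ℝ a hsa]
    apply cfc_congr
    intro s hs
    have h0 : 0 ≤ s := spectrum_nonneg_of_nonneg ha hs
    have h1 : s ≤ ‖a‖ :=
      (le_algebraMap_iff_spectrum_le (r := ‖a‖) hsa).1 hsa.le_algebraMap_norm_self s hs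
    simp only [id, Finset.sum_apply]
    rw [sum_slices ε hε, max_eq_left h0, min_eq_left (h1.trans hN)]
  constructor
  · conv_rhs => rw [hsum]
    rw [Finset.smul_sum]
    apply Finset.sum_le_sum
    intro i _
    have := (slice_bounds hsa (i * ε) ε hε).1
    push_cast
    rwa [add_mul, one_mul]
  · conv_lhs => rw [hsum]
    rw [Finset.smul_sum]
    exact Finset.sum_le_sum fun i _ => (slice_bounds hsa (i * ε) ε hε).2

lemma riemann_norm {a : K →L[ℂ] K} (ha : 0 ≤ a) (ε : ℝ) (hε : 0 < ε) (N : ℕ) (hN : ‖a‖ ≤ N * ε) :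
    ‖a - ε • ∑ i ∈ Finset.range N, sp a ((i + 1 : ℕ) * ε)‖ ≤ ε := by
  obtain ⟨h1, h2⟩ := riemann ha ε hε N hN
  have h3 : a - ε • ∑ i ∈ Finset.range N, sp a ((i + 1 : ℕ) * ε) ≤ algebraMap ℝ _ ε := by
    have e : ∑ i ∈ Finset.range N, sp a (i * ε) + sp a (N * ε) =
        ∑ i ∈ Finset.range N, sp a ((i + 1 : ℕ) * ε) + sp a ((0 : ℕ) * ε) := by
      rw [← Finset.sum_range_succ (fun i : ℕ => sp a (i * ε)),
        Finset.sum_range_succ' (fun i : ℕ => sp a (i * ε))]
    have e2 : ∑ i ∈ Finset.range N, sp a (i * ε) ≤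
        ∑ i ∈ Finset.range N, sp a ((i + 1 : ℕ) * ε) + 1 := by
      calc _ ≤ ∑ i ∈ Finset.range N, sp a (i * ε) + sp a (N * ε) :=
            le_add_of_nonneg_right (sp_proj _ _).nonneg
        _ = _ := e
        _ ≤ _ := by gcongr; exact (sp_proj _ _).le_one
    have e3 := h2.trans (smul_le_smul_of_nonneg_left e2 hε.le)
    rw [smul_add] at e3
    rw [Algebra.algebraMap_eq_smul_one, sub_le_iff_le_add']
    exact e3
  exact (CStarAlgebra.norm_le_iff_le_algebraMap _ hε.le (sub_nonneg.2 h1)).2 h3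

/-- an operator commuting with all spectral projections of a positive `a` commutes with `a` -/
lemma commute_of_sp {a b : K →L[ℂ] K} (ha : 0 ≤ a) (h : ∀ t : ℝ, 0 < t → Commute (sp a t) b) :
    Commute a b := by
  have key : ∀ ε : ℝ, 0 < ε → ‖a * b - b * a‖ ≤ 2 * ‖b‖ * ε := by
    intro ε hε
    obtain ⟨N, hN⟩ := exists_nat_ge (‖a‖ / ε)
    have hN' : ‖a‖ ≤ N * ε := by rwa [div_le_iff₀ hε] at hN
    set s := ε • ∑ i ∈ Finset.range N, sp a ((i + 1 : ℕ) * ε)
    have hs : Commute s b :=
      (Commute.sum_left _ _ _ fun i _ => h _ (by positivity)).smul_left ε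
    have h1 : ‖a - s‖ ≤ ε := riemann_norm ha ε hε N hN'
    have : a * b - b * a = (a - s) * b - b * (a - s) := by
      rw [sub_mul, mul_sub, hs.eq]; abel
    rw [this]
    calc _ ≤ ‖(a - s) * b‖ + ‖b * (a - s)‖ := norm_sub_le _ _
      _ ≤ ‖a - s‖ * ‖b‖ + ‖b‖ * ‖a - s‖ := add_le_add (norm_mul_le _ _) (norm_mul_le _ _)
      _ ≤ ε * ‖b‖ + ‖b‖ * ε := by gcongr
      _ = _ := by ring
  have : ‖a * b - b * a‖ ≤ 0 := by
    apply le_of_forall_pos_le_add
    intro δ hδ
    have := key (δ / (2 * ‖b‖ + 1)) (by positivity)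
    calc _ ≤ _ := this
      _ ≤ (2 * ‖b‖ + 1) * (δ / (2 * ‖b‖ + 1)) := by gcongr; linarith
      _ = 0 + δ := by field_simp; ring
  exact sub_eq_zero.1 (norm_le_zero_iff.1 this)

end Crest.Agent.H9.VN
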