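import Mathlib
import Crest.Agent.H9.VNa

/-! von Neumann algebra toolkit, part b: orthogonal strong sums, maximal orthogonal families,
halving and matrix units. -/

set_option autoImplicit false
open scoped InnerProductSpace
open Filter Topology

namespace Crest.Agent.H9.VN

variable {K : Type*} [NormedAddCommGroup K] [InnerProductSpace ℂ K] [CompleteSpace K]

lemma inner_star_left (a : K →L[ℂ] K) (v w : K) : ⟪star a v, w⟫_ℂ = ⟪v, a w⟫_ℂ := by
  rw [ContinuousLinearMap.star_eq_adjoint, ContinuousLinearMap.adjoint_inner_left]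

lemma inner_star_right (a : K →L[ℂ] K) (v w : K) : ⟪v, star a w⟫_ℂ = ⟪a v, w⟫_ℂ := by
  rw [ContinuousLinearMap.star_eq_adjoint, ContinuousLinearMap.adjoint_inner_right]

omit [CompleteSpace K] in
lemma norm_sq_sum_orth {ι : Type*} (s : Finset ι) (f : ι → K)
    (h : ∀ i j, i ≠ j → ⟪f i, f j⟫_ℂ = 0) : ‖∑ i ∈ s, f i‖ ^ 2 = ∑ i ∈ s, ‖f i‖ ^ 2 := by
  classical
  induction s using Finset.induction_on with
  | empty => simp
  | insert a s ha ih =>
    rw [Finset.sum_insert ha, Finset.sum_insert ha, ← ih]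
    have : ⟪f a, ∑ i ∈ s, f i⟫_ℂ = 0 := by
      rw [inner_sum]
      exact Finset.sum_eq_zero fun i hi => h a i (fun e => ha (e ▸ hi))
    rw [@norm_add_sq ℂ, this]
    simp

lemma summable_orth {ι : Type*} (f : ι → K) (h : ∀ i j, i ≠ j → ⟪f i, f j⟫_ℂ = 0) (C : ℝ)
    (hC : ∀ s : Finset ι, ∑ i ∈ s, ‖f i‖ ^ 2 ≤ C) : Summable f := by
  have hs : Summable fun i => ‖f i‖ ^ 2 := summable_of_sum_le (fun i => sq_nonneg _) hC
  rw [summable_iff_vanishing_norm] at hs ⊢
  intro ε hε
  obtain ⟨s, hs⟩ := hs (ε ^ 2) (by positivity)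
  refine ⟨s, fun t ht => ?_⟩
  have h1 := hs t ht
  rw [← norm_sq_sum_orth t f h, Real.norm_of_nonneg (sq_nonneg _)] at h1
  exact lt_of_pow_lt_pow_left₀ 2 hε.le h1

lemma bessel_proj {ι : Type*} (q : ι → K →L[ℂ] K) (hq : ∀ i, IsStarProjection (q i))
    (ho : ∀ i j, i ≠ j → q i * q j = 0) (s : Finset ι) (v : K) :
    ∑ i ∈ s, ‖q i v‖ ^ 2 ≤ ‖v‖ ^ 2 := by
  classical
  have hp : IsStarProjection (∑ i ∈ s, q i) := by
    induction s using Finset.induction_on with
    | empty => simp
    | insert a s ha ih =>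
      rw [Finset.sum_insert ha]
      refine (hq a).add ih ?_
      rw [Finset.mul_sum]
      exact Finset.sum_eq_zero fun i hi => ho a i (fun e => ha (e ▸ hi))
  rw [← norm_sq_sum_orth s (fun i => q i v)]
  · have : ‖(∑ i ∈ s, q i) v‖ ≤ ‖v‖ := by
      calc _ ≤ ‖∑ i ∈ s, q i‖ * ‖v‖ := ContinuousLinearMap.le_opNorm _ _
        _ ≤ 1 * ‖v‖ := by gcongr; exact hp.norm_le
        _ = _ := one_mul _
    rw [ContinuousLinearMap.sum_apply] at this
    exact pow_le_pow_left₀ (norm_nonneg _) this 2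
  · intro i j hij
    rw [← (hq i).isSelfAdjoint.star_eq, inner_star_left]
    have : q i (q j v) = 0 := congrArg (fun S : K →L[ℂ] K => S v) (ho i j hij)
    rw [this, inner_zero_right]

lemma bessel {ι : Type*} (a : ι → K →L[ℂ] K) (hn : ∀ i, ‖a i‖ ≤ 1)
    (h2 : ∀ i j, i ≠ j → a i * star (a j) = 0) (s : Finset ι) (v : K) :
    ∑ i ∈ s, ‖a i v‖ ^ 2 ≤ ‖v‖ ^ 2 := by
  refine le_trans ?_ (bessel_proj (fun i => rp (star (a i))) (fun i => rp_proj _) ?_ s v)
  · refine Finset.sum_le_sum fun i _ => pow_le_pow_left₀ (norm_nonneg _) ?_ 2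
    have e : a i * rp (star (a i)) = a i := by
      have := congrArg star (rp_mul (star (a i)))
      rwa [star_mul, star_star, (rp_proj _).isSelfAdjoint.star_eq] at this
    calc ‖a i v‖ = ‖a i (rp (star (a i)) v)‖ := by
          rw [← ContinuousLinearMap.mul_apply, e]
      _ ≤ ‖a i‖ * ‖rp (star (a i)) v‖ := ContinuousLinearMap.le_opNorm _ _
      _ ≤ 1 * ‖rp (star (a i)) v‖ := by gcongr; exact hn i
      _ = _ := one_mul _
  · intro i j hij
    apply mul_rp_eq_zero
    have := congrArg star (mul_rp_eq_zero (h2 j i hij.symm))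
    rwa [star_mul, (rp_proj _).isSelfAdjoint.star_eq, star_zero] at this

lemma exists_sum_aux {ι : Type*} (a : ι → K →L[ℂ] K) (hn : ∀ i, ‖a i‖ ≤ 1)
    (h1 : ∀ i j, i ≠ j → star (a i) * a j = 0) (h2 : ∀ i j, i ≠ j → a i * star (a j) = 0) :
    ∃ A : K →L[ℂ] K, ‖A‖ ≤ 1 ∧ ∀ v, HasSum (fun i => a i v) (A v) := by
  have ho : ∀ v, ∀ i j, i ≠ j → ⟪a i v, a j v⟫_ℂ = 0 := by
    intro v i j hij
    rw [← inner_star_right]
    have : star (a i) (a j v) = 0 := congrArg (fun S : K →L[ℂ] K => S v) (h1 i j hij)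
    rw [this, inner_zero_right]
  have hs : ∀ v, Summable fun i => a i v := fun v =>
    summable_orth _ (ho v) _ fun s => bessel a hn h2 s v
  let L : K →ₗ[ℂ] K :=
    { toFun := fun v => ∑' i, a i v
      map_add' := fun v w => by simp only [map_add]; exact (hs v).tsum_add (hs w)
      map_smul' := fun c v => by simp only [map_smul, RingHom.id_apply]; exact (hs v).tsum_const_smul c }
  have hL : ∀ v, ‖L v‖ ≤ 1 * ‖v‖ := by
    intro v
    rw [one_mul]
    refine le_of_tendsto' (hs v).hasSum.norm fun s => ?_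
    have := bessel a hn h2 s v
    rw [← norm_sq_sum_orth s _ (ho v)] at this
    exact le_of_sq_le_sq this (norm_nonneg _) |> fun h => h
  exact ⟨L.mkContinuous 1 hL, L.mkContinuous_norm_le zero_le_one hL, fun v => (hs v).hasSum⟩

/-- orthogonal strong sums -/
theorem exists_orth_sum (P : VonNeumannAlgebra K) {ι : Type*} (a : ι → K →L[ℂ] K)
    (hP : ∀ i, a i ∈ P) (hn : ∀ i, ‖a i‖ ≤ 1)
    (h1 : ∀ i j, i ≠ j → star (a i) * a j = 0) (h2 : ∀ i j, i ≠ j → a i * star (a j) = 0) :
    ∃ A ∈ P, ‖A‖ ≤ 1 ∧ (∀ v, HasSum (fun i => a i v) (A v)) ∧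
      ∀ v, HasSum (fun i => star (a i) v) (star A v) := by
  obtain ⟨A, hA, hs⟩ := exists_sum_aux a hn h1 h2
  obtain ⟨B, -, hs'⟩ := exists_sum_aux (fun i => star (a i)) (fun i => by rw [norm_star]; exact hn i)
    (fun i j hij => by rw [star_star]; exact h2 i j hij)
    (fun i j hij => by rw [star_star]; exact h1 i j hij)
  have hB : star A = B := by
    ext w
    refine ext_inner_right ℂ fun v => ?_
    rw [inner_star_left]
    have e1 := (hs v).mapL (innerSL ℂ w)
    have e2 := ((hs' w).mapL (innerSL ℂ v)).star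
    simp only [innerSL_apply_apply] at e1 e2
    have e3 : (fun i => star ⟪v, star (a i) w⟫_ℂ) = fun i => ⟪w, a i v⟫_ℂ := by
      funext i
      rw [inner_star_right]
      exact inner_conj_symm _ _
    rw [e3] at e2
    rw [e1.unique e2]
    exact inner_conj_symm _ _
  refine ⟨A, ?_, hA, hs, hB ▸ hs'⟩
  refine mem_of_commute P fun y hy => ?_
  ext v
  have e1 := hs (y v)
  have e2 := (hs v).mapL y
  have e3 : (fun i => a i (y v)) = fun i => y (a i v) := funext fun i =>
    congrArg (fun S : K →L[ℂ] K => S v) (commute_of_mem (hP i) hy).eq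
  rw [e3] at e1
  exact e1.unique e2

section sums
variable {ι : Type*} {a : ι → K →L[ℂ] K} {A : K →L[ℂ] K}
omit [CompleteSpace K]

lemma sum_mul_eq_zero (hs : ∀ v, HasSum (fun i => a i v) (A v)) {T : K →L[ℂ] K}
    (h : ∀ i, a i * T = 0) : A * T = 0 := by
  ext v
  have e := hs (T v)
  have : (fun i => a i (T v)) = fun _ => 0 := funext fun i =>
    congrArg (fun S : K →L[ℂ] K => S v) (h i)
  rw [this] at e
  exact e.unique hasSum_zero

lemma mul_sum_eq_zero (hs : ∀ v, HasSum (fun i => a i v) (A v)) {T : K →L[ℂ] K}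
    (h : ∀ i, T * a i = 0) : T * A = 0 := by
  ext v
  have e := (hs v).mapL T
  have : (fun i => T (a i v)) = fun _ => 0 := funext fun i =>
    congrArg (fun S : K →L[ℂ] K => S v) (h i)
  rw [this] at e
  exact e.unique hasSum_zero

lemma sum_mul_single (hs : ∀ v, HasSum (fun i => a i v) (A v)) {T : K →L[ℂ] K} (j : ι)
    (h : ∀ i, i ≠ j → a i * T = 0) : A * T = a j * T := by
  ext v
  have e := hs (T v)
  exact e.unique (hasSum_single j fun i hi => congrArg (fun S : K →L[ℂ] K => S v) (h i hi))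

lemma mul_sum_single (hs : ∀ v, HasSum (fun i => a i v) (A v)) {T : K →L[ℂ] K} (j : ι)
    (h : ∀ i, i ≠ j → T * a i = 0) : T * A = T * a j := by
  ext v
  have e := (hs v).mapL T
  exact e.unique (hasSum_single j fun i hi => congrArg (fun S : K →L[ℂ] K => S v) (h i hi))

end sums

/-- maximal pairwise related families -/
theorem exists_maximal_pairwise {α : Type*} (Q : α → Prop) (R : α → α → Prop) :
    ∃ S : Set α, (∀ x ∈ S, Q x) ∧ S.Pairwise R ∧
      ∀ y, Q y → (∀ x ∈ S, R x y ∧ R y x) → y ∈ S := by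
  obtain ⟨S, hS⟩ := zorn_subset {S : Set α | (∀ x ∈ S, Q x) ∧ S.Pairwise R} (by
    intro c hc hch
    refine ⟨⋃₀ c, ⟨?_, ?_⟩, fun s hs => Set.subset_sUnion_of_mem hs⟩
    · rintro x ⟨s, hs, hx⟩
      exact (hc hs).1 x hx
    · rintro x ⟨s, hs, hx⟩ y ⟨t, ht, hy⟩ hxy
      rcases hch.total hs ht with h | h
      · exact (hc ht).2 (h hx) hy hxy
      · exact (hc hs).2 hx (h hy) hxy)
  refine ⟨S, hS.prop.1, hS.prop.2, fun y hy hR => ?_⟩
  have : insert y S ∈ {S : Set α | (∀ x ∈ S, Q x) ∧ S.Pairwise R} := by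
    refine ⟨?_, ?_⟩
    · rintro x (rfl | hx)
      · exact hy
      · exact hS.prop.1 x hx
    · rintro x (rfl | hx) z (rfl | hz) hxz
      · exact (hxz rfl).elim
      · exact (hR z hz).2
      · exact (hR x hx).1
      · exact hS.prop.2 hx hz hxz
  exact hS.le_of_ge this (Set.subset_insert y S) (Set.mem_insert y S)

lemma norm_le_one_of_pi {v : K →L[ℂ] K} (h : v * (star v * v) = v) : ‖v‖ ≤ 1 := by
  have hp : IsStarProjection (star v * v) :=
    ⟨by rw [IsIdempotentElem, mul_assoc, h], IsSelfAdjoint.star_mul_self v⟩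
  have := hp.norm_le
  rw [CStarRing.norm_star_mul_self] at this
  nlinarith [norm_nonneg v]

/-- a nonzero square-zero element yields a nonzero square-zero partial isometry -/
lemma exists_pi_of_nil (P : VonNeumannAlgebra K) {r x : K →L[ℂ] K} (hr : IsStarProjection r)
    (hx : x ∈ P) (hx0 : x ≠ 0) (h1 : r * x = x) (h2 : x * r = x) (h3 : x * x = 0) :
    ∃ v ∈ P, v ≠ 0 ∧ r * v = v ∧ v * r = v ∧ v * v = 0 ∧ v * (star v * v) = v := by
  set a := star x * x with ha
  have ha0 : 0 ≤ a := star_mul_self_nonneg x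
  have hsa : IsSelfAdjoint a := ha0.isSelfAdjoint
  have haP : a ∈ P := mul_mem (star_mem hx) hx
  have hxn : 0 < ‖x‖ := norm_pos_iff.2 hx0
  set t := ‖x‖ ^ 2 / 2 with ht
  have ht0 : 0 < t := by positivity
  set e := sp a t with he
  have hep : IsStarProjection e := sp_proj a t
  have hg : Continuous fun s : ℝ => max (s - t) 0 / max s t :=
    Continuous.div (by fun_prop) (by fun_prop) fun s => (lt_max_of_lt_right ht0).ne'
  have hfac : cfc (fun s : ℝ => max (s - t) 0) a = a * cfc (fun s : ℝ => max (s - t) 0 / max s t) a := by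
    conv_rhs => lhs; rw [← cfc_id' ℝ a hsa]
    rw [← cfc_mul _ _ a (by fun_prop) hg.continuousOn]
    apply cfc_congr
    intro s _
    simp only
    rcases le_total s t with h | h
    · rw [max_eq_right (by linarith)]; simp
    · rw [max_eq_left h]
      have : s ≠ 0 := by linarith
      field_simp
  have he0 : e ≠ 0 := by
    intro h
    have h4 := eq_zero_of_rp h
    have h5 : a ≤ algebraMap ℝ _ t := by
      rw [le_algebraMap_iff_spectrum_le hsa]
      intro s hs
      have h6 := cfc_map_spectrum (R := ℝ) (fun s : ℝ => max (s - t) 0) a hsa (by fun_prop)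
      rw [h4] at h6
      have h7 : max (s - t) 0 ∈ spectrum ℝ (0 : K →L[ℂ] K) := h6 ▸ ⟨s, hs, rfl⟩
      have h8 := (le_algebraMap_iff_spectrum_le (r := (0 : ℝ)) (IsSelfAdjoint.zero _)).1
        (by simp) _ h7
      linarith [le_max_left (s - t) 0]
    have h6 := (CStarAlgebra.norm_le_iff_le_algebraMap a ht0.le ha0).2 h5
    rw [ha, CStarRing.norm_star_mul_self] at h6
    nlinarith
  have hxe : star x * star x = 0 := by rw [← star_mul, h3, star_zero]
  have hex : e * x = 0 := by
    have : star x * e = 0 := by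
      apply mul_rp_eq_zero
      rw [hfac, ha, ← mul_assoc, ← mul_assoc, hxe, zero_mul, zero_mul]
    have := congrArg star this
    rwa [star_mul, star_star, hep.isSelfAdjoint.star_eq, star_zero] at this
  have hre : e * r = e := by
    have h4 : r * star x = star x := by
      have := congrArg star h2
      rwa [star_mul, hr.isSelfAdjoint.star_eq] at this
    have : r * e = e := by
      apply mul_rp_eq_self
      rw [hfac, ha, ← mul_assoc, ← mul_assoc, h4]
    have := congrArg star this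
    rwa [star_mul, hep.isSelfAdjoint.star_eq, hr.isSelfAdjoint.star_eq] at this
  set h : ℝ → ℝ := fun s => (√(max s t))⁻¹ with hh
  have hhc : Continuous h :=
    Continuous.inv₀ (by fun_prop) fun s => (Real.sqrt_pos.2 (lt_max_of_lt_right ht0)).ne'
  set b := cfc h a with hb
  have hbs : IsSelfAdjoint b := cfc_predicate h a
  have hbe : Commute e b := commute_sp_cfc a t h
  have hbab : b * a * b * e = e := by
    have e1 : b * a * b = cfc (fun s => h s * s * h s) a := by
      rw [cfc_mul _ _ a (by fun_prop) hhc.continuousOn, cfc_mul _ _ a hhc.continuousOn (by fun_prop),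
        cfc_id' ℝ a hsa]
    have e2 : cfc (fun s => 1 - h s * s * h s) a * e = 0 := by
      apply cfc_mul_sp_eq_zero t _ (by fun_prop)
      intro s hs
      simp only [hh]
      rw [max_eq_left hs.le]
      have hs0 : 0 < s := ht0.trans hs
      have := Real.mul_self_sqrt hs0.le
      have h9 : √s ≠ 0 := (Real.sqrt_pos.2 hs0).ne'
      field_simp
      nlinarith
    rw [cfc_sub _ _ a (by fun_prop) (by fun_prop), cfc_const 1 a hsa, map_one, ← e1, sub_mul,
      one_mul, sub_eq_zero] at e2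
    exact e2.symm
  have hvv : star (x * b * e) * (x * b * e) = e := by
    rw [star_mul, star_mul, hbs.star_eq, hep.isSelfAdjoint.star_eq]
    calc e * (b * star x) * (x * b * e) = e * (b * (star x * x) * b * e) := by
          simp only [mul_assoc]
      _ = e := by rw [← ha, hbab, hep.isIdempotentElem.eq]
  refine ⟨x * b * e, mul_mem (mul_mem hx (cfc_mem P haP h)) (sp_mem P haP t), ?_, ?_, ?_, ?_, ?_⟩
  · intro h0
    rw [h0, mul_zero] at hvv
    exact he0 hvv.symm
  · rw [← mul_assoc, ← mul_assoc, h1]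
  · rw [mul_assoc, hre]
  · calc x * b * e * (x * b * e) = x * b * (e * x) * b * e := by simp only [mul_assoc]
      _ = 0 := by rw [hex]; simp
  · rw [hvv, mul_assoc, hep.isIdempotentElem.eq]

/-- every nonzero subprojection of `q` has a nonzero square-zero element in its corner -/
def NoAb (P : VonNeumannAlgebra K) (q : K →L[ℂ] K) : Prop :=
  ∀ r ∈ P, IsStarProjection r → r ≠ 0 → q * r = r →
    ∃ x ∈ P, x ≠ 0 ∧ r * x = x ∧ x * r = x ∧ x * x = 0

/-- halving -/
theorem halving (P : VonNeumannAlgebra K) {q : K →L[ℂ] K} (hqP : q ∈ P) (hq : IsStarProjection q)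
    (H : NoAb P q) :
    ∃ V ∈ P, q * V = V ∧ V * q = V ∧ V * V = 0 ∧ V * (star V * V) = V ∧
      star V * V + V * star V = q := by
  obtain ⟨S, hS, hpw, hmax⟩ := exists_maximal_pairwise
    (fun v : K →L[ℂ] K => v ∈ P ∧ v ≠ 0 ∧ q * v = v ∧ v * q = v ∧ v * v = 0 ∧ v * (star v * v) = v)
    (fun v w => star v * w = 0 ∧ v * star w = 0 ∧ v * w = 0)
  have hne : ∀ i j : S, i ≠ j → (i : K →L[ℂ] K) ≠ j := fun i j h e => h (Subtype.ext e)
  obtain ⟨V, hV, -, hs, hs'⟩ := exists_orth_sum P (fun i : S => (i : K →L[ℂ] K))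
    (fun i => (hS i i.2).1) (fun i => norm_le_one_of_pi (hS i i.2).2.2.2.2.2)
    (fun i j h => (hpw i.2 j.2 (hne i j h)).1) (fun i j h => (hpw i.2 j.2 (hne i j h)).2.1)
  have hVw : ∀ w : S, V * w = 0 := fun w => sum_mul_eq_zero hs fun i => by
    by_cases h : i = w
    · rw [h]; exact (hS w w.2).2.2.2.2.1
    · exact (hpw i.2 w.2 (hne i w h)).2.2
  have hVV : V * V = 0 := mul_sum_eq_zero hs hVw
  have e1 : ∀ w : S, star V * w = star (w : K →L[ℂ] K) * w := fun w =>
    sum_mul_single hs' w fun i h => (hpw i.2 w.2 (hne i w h)).1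
  have e2 : ∀ w : S, V * star (w : K →L[ℂ] K) = w * star (w : K →L[ℂ] K) := fun w =>
    sum_mul_single hs w fun i h => (hpw i.2 w.2 (hne i w h)).2.1
  have e3 : ∀ w : S, V * star V * w = w := fun w => by
    rw [mul_assoc, e1, ← mul_assoc, e2, mul_assoc, (hS w w.2).2.2.2.2.2]
  have e4 : ∀ w : S, (w : K →L[ℂ] K) * (star V * V) = w := fun w => by
    have a1 := congrArg star (e1 w)
    have a2 := congrArg star (e2 w)
    simp only [star_mul, star_star] at a1 a2
    rw [← mul_assoc, a2, mul_assoc, a1, (hS w w.2).2.2.2.2.2]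
  have hpi : V * (star V * V) = V := by
    have : (V * star V - 1) * V = 0 :=
      mul_sum_eq_zero hs fun w => by rw [sub_mul, e3, one_mul, sub_self]
    rwa [sub_mul, one_mul, sub_eq_zero, mul_assoc] at this
  have hqV : q * V = V := by
    have : (q - 1) * V = 0 :=
      mul_sum_eq_zero hs fun w => by rw [sub_mul, (hS w w.2).2.2.1, one_mul, sub_self]
    rwa [sub_mul, one_mul, sub_eq_zero] at this
  have hVq : V * q = V := by
    have : V * (q - 1) = 0 :=
      sum_mul_eq_zero hs fun w => by rw [mul_sub, (hS w w.2).2.2.2.1, mul_one, sub_self]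
    rwa [mul_sub, mul_one, sub_eq_zero] at this
  refine ⟨V, hV, hqV, hVq, hVV, hpi, ?_⟩
  have hp1 : IsStarProjection (star V * V) :=
    ⟨by rw [IsIdempotentElem, mul_assoc, hpi], IsSelfAdjoint.star_mul_self V⟩
  have hp2 : IsStarProjection (V * star V) :=
    ⟨by rw [IsIdempotentElem, ← mul_assoc, mul_assoc V, hpi], IsSelfAdjoint.mul_star_self V⟩
  have hp : IsStarProjection (star V * V + V * star V) :=
    hp1.add hp2 (by rw [mul_assoc, ← mul_assoc V V, hVV, zero_mul, mul_zero])
  have hqV' : q * star V = star V := by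
    have := congrArg star hVq
    rwa [star_mul, hq.isSelfAdjoint.star_eq] at this
  have hqp : q * (star V * V + V * star V) = star V * V + V * star V := by
    rw [mul_add, ← mul_assoc, ← mul_assoc, hqV, hqV']
  set p := star V * V + V * star V with hpdef
  have hr : IsStarProjection (q - p) := hp.sub_of_mul_eq_right hq hqp
  by_contra hne'
  have hr0 : q - p ≠ 0 := fun h => hne' (sub_eq_zero.1 h).symm
  have hqr : q * (q - p) = q - p := by rw [mul_sub, hq.isIdempotentElem.eq, hqp]
  have hrq : (q - p) * q = q - p := by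
    have := congrArg star hqr
    rwa [star_mul, hr.isSelfAdjoint.star_eq, hq.isSelfAdjoint.star_eq] at this
  obtain ⟨x, hx, hx0, h1, h2, h3⟩ := H (q - p)
    (sub_mem hqP (add_mem (mul_mem (star_mem hV) hV) (mul_mem hV (star_mem hV)))) hr hr0 hqr
  obtain ⟨v, hv, hv0, g1, g2, g3, g4⟩ := exists_pi_of_nil P hr hx hx0 h1 h2 h3
  have hrw : ∀ w : S, (q - p) * w = 0 := fun w => by
    rw [sub_mul, (hS w w.2).2.2.1, hpdef, add_mul, e3, mul_assoc, hVw, mul_zero, zero_add, sub_self]
  have hwr : ∀ w : S, (w : K →L[ℂ] K) * (q - p) = 0 := fun w => by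
    have : (w : K →L[ℂ] K) * V = 0 := mul_sum_eq_zero hs fun i => by
      by_cases h : w = i
      · rw [← h]; exact (hS w w.2).2.2.2.2.1
      · exact (hpw w.2 i.2 (hne w i h)).2.2
    rw [mul_sub, (hS w w.2).2.2.2.1, hpdef, mul_add, e4, ← mul_assoc, this, zero_mul, add_zero,
      sub_self]
  have hrw' : ∀ w : S, star (w : K →L[ℂ] K) * (q - p) = 0 := fun w => by
    have := congrArg star (hrw w)
    rwa [star_mul, hr.isSelfAdjoint.star_eq, star_zero] at this
  have hwr' : ∀ w : S, (q - p) * star (w : K →L[ℂ] K) = 0 := fun w => by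
    have := congrArg star (hwr w)
    rwa [star_mul, hr.isSelfAdjoint.star_eq, star_zero] at this
  have g1' : star v * (q - p) = star v := by
    have := congrArg star g1
    rwa [star_mul, hr.isSelfAdjoint.star_eq] at this
  have g2' : (q - p) * star v = star v := by
    have := congrArg star g2
    rwa [star_mul, hr.isSelfAdjoint.star_eq] at this
  have hvS : v ∈ S := by
    apply hmax v ⟨hv, hv0, by rw [← g1, ← mul_assoc, hqr], by rw [← g2, mul_assoc, hrq], g3, g4⟩
    intro w hw
    refine ⟨⟨?_, ?_, ?_⟩, ?_, ?_, ?_⟩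
    · rw [← g1, ← mul_assoc, hrw' ⟨w, hw⟩, zero_mul]
    · rw [← g2', ← mul_assoc, hwr ⟨w, hw⟩, zero_mul]
    · rw [← g1, ← mul_assoc, hwr ⟨w, hw⟩, zero_mul]
    · rw [← g1', mul_assoc, hrw ⟨w, hw⟩, mul_zero]
    · rw [← g2, mul_assoc, hwr' ⟨w, hw⟩, mul_zero]
    · rw [← g2, mul_assoc, hrw ⟨w, hw⟩, mul_zero]
  apply hv0
  rw [← g1]
  exact hrw ⟨v, hvS⟩

lemma NoAb.mono {P : VonNeumannAlgebra K} {q e : K →L[ℂ] K} (H : NoAb P q) (h : q * e = e) :
    NoAb P e := fun r hr hp h0 her =>
  H r hr hp h0 (by rw [← her, ← mul_assoc, h])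

lemma units_aux (P : VonNeumannAlgebra K) {q : K →L[ℂ] K} (hqP : q ∈ P) (hq : IsStarProjection q)
    (H : NoAb P q) (k : ℕ) :
    ∃ (ι : Type) (_ : Fintype ι) (_ : DecidableEq ι) (e : K →L[ℂ] K) (w : ι → K →L[ℂ] K),
      Fintype.card ι = 2 ^ k ∧ e ∈ P ∧ IsStarProjection e ∧ q * e = e ∧ (∀ i, w i ∈ P) ∧
      (∀ i, w i * e = w i) ∧ (∀ i j, star (w i) * w j = if i = j then e else 0) ∧
      ∑ i, w i * star (w i) = q := by
  induction k with
  | zero =>
    refine ⟨Unit, inferInstance, inferInstance, q, fun _ => q, by simp, hqP, hq,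
      hq.isIdempotentElem.eq, fun _ => hqP, fun _ => hq.isIdempotentElem.eq, fun _ _ => ?_, ?_⟩
    · simp [hq.isSelfAdjoint.star_eq, hq.isIdempotentElem.eq]
    · simp [hq.isSelfAdjoint.star_eq, hq.isIdempotentElem.eq]
  | succ k ih =>
    obtain ⟨ι, _, _, e, w, hc, heP, he, hqe, hw, hwe, hww, hsum⟩ := ih
    obtain ⟨V, hV, heV, hVe, hVV, hpi, hhalf⟩ := halving P heP he (H.mono hqe)
    have hp1 : IsStarProjection (star V * V) :=
      ⟨by rw [IsIdempotentElem, mul_assoc, hpi], IsSelfAdjoint.star_mul_self V⟩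
    have heV' : e * star V = star V := by
      have := congrArg star hVe
      rwa [star_mul, he.isSelfAdjoint.star_eq] at this
    set e' := star V * V with he'
    have hee : e * e' = e' := by rw [he', ← mul_assoc, heV']
    have h0 : e' * V = 0 := by rw [he', mul_assoc, hVV, mul_zero]
    have h0' : star V * e' = 0 := by
      have := congrArg star h0
      rwa [star_mul, hp1.isSelfAdjoint.star_eq, star_zero] at this
    refine ⟨ι ⊕ ι, inferInstance, inferInstance, e', Sum.elim (fun i => w i * e') (fun i => w i * V),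
      by rw [Fintype.card_sum, hc]; ring, mul_mem (star_mem hV) hV, hp1,
      by rw [← hee, ← mul_assoc, hqe], ?_, ?_, ?_, ?_⟩
    · rintro (i | i)
      · exact mul_mem (hw i) (mul_mem (star_mem hV) hV)
      · exact mul_mem (hw i) hV
    · rintro (i | i)
      · simp only [Sum.elim_inl]; rw [mul_assoc, hp1.isIdempotentElem.eq]
      · simp only [Sum.elim_inr]; rw [mul_assoc, hpi]
    · have key : ∀ (i j : ι) (s t : K →L[ℂ] K), star (w i * s) * (w j * t) =
          if i = j then star s * (e * t) else 0 := by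
        intro i j s t
        rw [star_mul, mul_assoc, ← mul_assoc (star (w i)), hww]
        split_ifs <;> simp
      rintro (i | i) (j | j)
      · simp only [Sum.elim_inl, key, Sum.inl.injEq, hee, hp1.isSelfAdjoint.star_eq,
          hp1.isIdempotentElem.eq]
      · simp only [Sum.elim_inl, Sum.elim_inr, key, heV, hp1.isSelfAdjoint.star_eq, h0]
        simp
      · simp only [Sum.elim_inl, Sum.elim_inr, key, hee, h0']
        simp
      · simp only [Sum.elim_inr, key, Sum.inr.injEq, heV, he']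
    · rw [Fintype.sum_sum_type, ← Finset.sum_add_distrib, ← hsum]
      refine Finset.sum_congr rfl fun i _ => ?_
      simp only [Sum.elim_inl, Sum.elim_inr, star_mul, hp1.isSelfAdjoint.star_eq]
      calc w i * e' * (e' * star (w i)) + w i * V * (star V * star (w i))
          = w i * (e' * e' + V * star V) * star (w i) := by
            simp only [mul_add, add_mul, mul_assoc]
        _ = w i * star (w i) := by rw [hp1.isIdempotentElem.eq, hhalf, hwe]

/-- matrix units of arbitrarily large size summing to `q` -/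
theorem exists_units (P : VonNeumannAlgebra K) {q : K →L[ℂ] K} (hqP : q ∈ P)
    (hq : IsStarProjection q) (H : NoAb P q) (n : ℕ) :
    ∃ m : ℕ, n ≤ m ∧ ∃ F : Fin m → Fin m → (K →L[ℂ] K),
      (∀ i j, F i j ∈ P) ∧ (∀ i j, star (F i j) = F j i) ∧
      (∀ i j k l, F i j * F k l = if j = k then F i l else 0) ∧ ∑ i, F i i = q := by
  obtain ⟨ι, _, _, e, w, hc, -, -, -, hw, hwe, hww, hsum⟩ := units_aux P hqP hq H n
  let σ : Fin (Fintype.card ι) ≃ ι := (Fintype.equivFin ι).symm
  refine ⟨Fintype.card ι, hc ▸ Nat.lt_two_pow_self.le, fun i j => w (σ i) * star (w (σ j)),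
    fun i j => mul_mem (hw _) (star_mem (hw _)), fun i j => by rw [star_mul, star_star],
    fun i j k l => ?_, ?_⟩
  · rw [mul_assoc, ← mul_assoc (star _), hww]
    by_cases h : j = k
    · subst h
      rw [if_pos rfl, if_pos rfl, ← mul_assoc, hwe]
    · rw [if_neg h, if_neg (fun e => h (σ.injective e)), zero_mul, mul_zero]
  · rw [← hsum]
    exact σ.sum_comp fun i => w i * star (w i)

end Crest.Agent.H9.VN
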