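import Mathlib
import Crest.Agent.H9.VNb
import Crest.Agent.H7.KadGT

/-! von Neumann algebra toolkit, part c: abelian projections and the type I part. -/

set_option autoImplicit false
open scoped InnerProductSpace
open Filter Topology

namespace Crest.Agent.H9.VN

variable {K : Type*} [NormedAddCommGroup K] [InnerProductSpace ℂ K] [CompleteSpace K]

/-- abelian projections -/
def Ab (P : VonNeumannAlgebra K) (r : K →L[ℂ] K) : Prop :=
  r ∈ P ∧ IsStarProjection r ∧
    ∀ a ∈ P, ∀ b ∈ P, r * a = a → a * r = a → r * b = b → b * r = b → Commute a b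

lemma star_left_eq {r a : K →L[ℂ] K} (hr : IsStarProjection r) (h : a * r = a) :
    r * star a = star a := by
  have := congrArg star h
  rwa [star_mul, hr.isSelfAdjoint.star_eq] at this

lemma star_right_eq {r a : K →L[ℂ] K} (hr : IsStarProjection r) (h : r * a = a) :
    star a * r = star a := by
  have := congrArg star h
  rwa [star_mul, hr.isSelfAdjoint.star_eq] at this

lemma cfc_posPart_fac {a : K →L[ℂ] K} (hsa : IsSelfAdjoint a) {t : ℝ} (ht0 : 0 < t) :
    cfc (fun s : ℝ => max (s - t) 0) a = a * cfc (fun s : ℝ => max (s - t) 0 / max s t) a := by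
  have hg : Continuous fun s : ℝ => max (s - t) 0 / max s t :=
    Continuous.div (by fun_prop) (by fun_prop) fun s => (lt_max_of_lt_right ht0).ne'
  conv_rhs => lhs; rw [← cfc_id' ℝ a hsa]
  rw [← cfc_mul _ _ a (by fun_prop) hg.continuousOn]
  apply cfc_congr
  intro s _
  simp only
  rcases le_total s t with h | h
  · rw [max_eq_right (by linarith)]; simp
  · rw [max_eq_left h]
    have : s ≠ 0 := by linarith
    field_simp

lemma mul_sp_eq_self {r a : K →L[ℂ] K} (hsa : IsSelfAdjoint a) (h : r * a = a) {t : ℝ}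
    (ht : 0 < t) : r * sp a t = sp a t := by
  apply mul_rp_eq_self
  rw [cfc_posPart_fac hsa ht, ← mul_assoc, h]

lemma ab_of_nilfree (P : VonNeumannAlgebra K) {r : K →L[ℂ] K} (hrP : r ∈ P)
    (hr : IsStarProjection r) (H : ∀ x ∈ P, r * x = x → x * r = x → x * x = 0 → x = 0) :
    Ab P r := by
  have h1 : ∀ e ∈ P, IsStarProjection e → r * e = e → ∀ b ∈ P, b * r = b → e * b = e * b * e := by
    intro e heP he hre b hb hbr
    have her : e * r = e := by
      have := star_right_eq hr hre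
      rwa [he.isSelfAdjoint.star_eq] at this
    have h0 : (r - e) * e = 0 := by rw [sub_mul, hre, he.isIdempotentElem.eq, sub_self]
    have := H (e * b * (r - e)) (mul_mem (mul_mem heP hb) (sub_mem hrP heP))
      (by rw [← mul_assoc, ← mul_assoc, hre])
      (by rw [mul_assoc, sub_mul, hr.isIdempotentElem.eq, her])
      (by
        calc e * b * (r - e) * (e * b * (r - e)) = e * b * ((r - e) * e) * b * (r - e) := by
              simp only [mul_assoc]
          _ = 0 := by rw [h0]; simp)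
    rw [mul_sub, mul_assoc, hbr, sub_eq_zero] at this
    exact this
  have h2 : ∀ e ∈ P, IsStarProjection e → r * e = e → ∀ b ∈ P, r * b = b → b * r = b →
      Commute e b := by
    intro e heP he hre b hb hrb hbr
    have e1 := h1 e heP he hre b hb hbr
    have e2 := congrArg star (h1 e heP he hre (star b) (star_mem hb) (star_right_eq hr hrb))
    simp only [star_mul, star_star, he.isSelfAdjoint.star_eq] at e2
    rw [commute_iff_eq, e1, e2, mul_assoc]
  have h3 : ∀ a ∈ P, a * r = a → ∀ b ∈ P, r * b = b → b * r = b → Commute (star a * a) b := by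
    intro a ha har b hb hrb hbr
    refine commute_of_sp (star_mul_self_nonneg a) fun t ht => ?_
    refine h2 _ (sp_mem P (mul_mem (star_mem ha) ha) t) (sp_proj _ _) ?_ b hb hrb hbr
    exact mul_sp_eq_self (IsSelfAdjoint.star_mul_self a)
      (by rw [← mul_assoc, star_left_eq hr har]) ht
  have h4 : ∀ a ∈ P, r * a = a → a * r = a → ∀ b ∈ P, r * b = b → b * r = b →
      Commute (a + star a) b := by
    intro a ha hra har b hb hrb hbr
    have c1 := h3 (a + r) (add_mem ha hrP) (by rw [add_mul, har, hr.isIdempotentElem.eq]) b hb hrb hbr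
    have c2 := h3 a ha har b hb hrb hbr
    have c3 : Commute r b := by rw [commute_iff_eq, hrb, hbr]
    have : a + star a = star (a + r) * (a + r) - star a * a - r := by
      rw [star_add, hr.isSelfAdjoint.star_eq, add_mul, mul_add, mul_add, hra,
        star_right_eq hr hra, hr.isIdempotentElem.eq]
      abel
    rw [this]
    exact (c1.sub_left c2).sub_left c3
  refine ⟨hrP, hr, fun a ha b hb hra har hrb hbr => ?_⟩
  have c1 := h4 a ha hra har b hb hrb hbr
  have c2 := h4 (Complex.I • a) (smul_mem' P _ ha) (by rw [mul_smul_comm, hra])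
    (by rw [smul_mul_assoc, har]) b hb hrb hbr
  have : a = (1 / 2 : ℂ) • ((a + star a) - Complex.I • (Complex.I • a + star (Complex.I • a))) := by
    rw [star_smul, smul_add, smul_smul, smul_smul]
    simp only [RCLike.star_def, Complex.conj_I, mul_neg, Complex.I_mul_I, neg_neg]
    module
  rw [this]
  exact (c1.sub_left (c2.smul_left _)).smul_left _

/-- the vectors `a r ξ` -/
def gen (P : VonNeumannAlgebra K) (r : K →L[ℂ] K) : Set K := {v | ∃ a ∈ P, ∃ ξ, v = a (r ξ)}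

/-- all vectors generated by abelian projections -/
def genAb (P : VonNeumannAlgebra K) : Set K := {v | ∃ r, Ab P r ∧ v ∈ gen P r}

lemma gen_mul {P : VonNeumannAlgebra K} {r b : K →L[ℂ] K} (hb : b ∈ P) {v : K} (hv : v ∈ gen P r) :
    b v ∈ gen P r := by
  obtain ⟨a, ha, ξ, rfl⟩ := hv
  exact ⟨b * a, mul_mem hb ha, ξ, rfl⟩

lemma gen_comm {P : VonNeumannAlgebra K} {r y : K →L[ℂ] K} (hr : r ∈ P) (hy : y ∈ P.commutant)
    {v : K} (hv : v ∈ gen P r) : y v ∈ gen P r := by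
  obtain ⟨a, ha, ξ, rfl⟩ := hv
  exact ⟨a, ha, y ξ,
    (congrArg (fun S : K →L[ℂ] K => S ξ) (commute_of_mem (mul_mem ha hr) hy).eq).symm⟩

lemma prS_gen_mem {P : VonNeumannAlgebra K} {r : K →L[ℂ] K} (hr : r ∈ P) : prS (gen P r) ∈ P :=
  prS_mem P fun _ hy _ hv => mem_cs_of_mem (gen_comm hr hy hv)

lemma prS_gen_commute {P : VonNeumannAlgebra K} (r : K →L[ℂ] K) {a : K →L[ℂ] K} (ha : a ∈ P) :
    Commute (prS (gen P r)) a :=
  commute_prS a (fun _ hv => mem_cs_of_mem (gen_mul ha hv))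
    (fun _ hv => mem_cs_of_mem (gen_mul (star_mem ha) hv))

lemma prS_gen_mul (P : VonNeumannAlgebra K) (r : K →L[ℂ] K) : prS (gen P r) * r = r := by
  ext ξ
  exact prS_apply_of_mem ⟨1, one_mem _, ξ, rfl⟩

/-- the type I central projection -/
noncomputable def zI (P : VonNeumannAlgebra K) : K →L[ℂ] K := prS (genAb P)

lemma zI_proj (P : VonNeumannAlgebra K) : IsStarProjection (zI P) := prS_proj _

lemma zI_mem (P : VonNeumannAlgebra K) : zI P ∈ P :=
  prS_mem P fun _ hy _ ⟨r, hr, hv⟩ => mem_cs_of_mem ⟨r, hr, gen_comm hr.1 hy hv⟩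

lemma zI_commute {P : VonNeumannAlgebra K} {a : K →L[ℂ] K} (ha : a ∈ P) : Commute (zI P) a :=
  commute_prS a (fun _ ⟨r, hr, hv⟩ => mem_cs_of_mem ⟨r, hr, gen_mul ha hv⟩)
    (fun _ ⟨r, hr, hv⟩ => mem_cs_of_mem ⟨r, hr, gen_mul (star_mem ha) hv⟩)

lemma noAb_zI (P : VonNeumannAlgebra K) : NoAb P (1 - zI P) := by
  intro r hrP hr hr0 hq
  by_contra hne
  push Not at hne
  have hab : Ab P r := ab_of_nilfree P hrP hr fun x hx h1 h2 h3 => by
    by_contra h0
    exact hne x hx h0 h1 h2 h3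
  have h1 : zI P * r = r := by
    ext ξ
    exact prS_apply_of_mem ⟨r, hab, 1, one_mem _, ξ, rfl⟩
  rw [sub_mul, one_mul, h1, sub_self] at hq
  exact hr0 hq.symm

lemma ab_zero (P : VonNeumannAlgebra K) : Ab P 0 :=
  ⟨zero_mem _, IsStarProjection.zero _, fun a _ b _ h1 _ _ _ => by
    rw [← h1, zero_mul]; exact Commute.zero_left b⟩

lemma ab_directed {P : VonNeumannAlgebra K} {r₁ r₂ : K →L[ℂ] K} (h₁ : Ab P r₁) (h₂ : Ab P r₂) :
    ∃ r, Ab P r ∧ cs (gen P r₁) ≤ cs (gen P r) ∧ cs (gen P r₂) ≤ cs (gen P r) := by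
  set c := prS (gen P r₁) with hc
  have hcP : c ∈ P := prS_gen_mem h₁.1
  have hcp : IsStarProjection c := prS_proj _
  have hcc : ∀ a ∈ P, Commute c a := fun a ha => prS_gen_commute r₁ ha
  have hdc : ∀ a ∈ P, Commute (1 - c) a := fun a ha => (Commute.one_left a).sub_left (hcc a ha)
  have hcr : c * r₁ = r₁ := prS_gen_mul P r₁
  have hd1 : (1 - c) * r₁ = 0 := by rw [sub_mul, one_mul, hcr, sub_self]
  have hd1' : r₁ * (1 - c) = 0 := by rw [← (hdc r₁ h₁.1).eq, hd1]
  obtain ⟨s, hs⟩ : ∃ s, s = (1 - c) * r₂ := ⟨_, rfl⟩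
  have hsP : s ∈ P := hs ▸ mul_mem (sub_mem (one_mem _) hcP) h₂.1
  have hsp : IsStarProjection s := hs ▸ hcp.one_sub.mul h₂.2.1 (hdc r₂ h₂.1)
  have x1 : ∀ a ∈ P, r₁ * a * s = 0 := fun a ha => by
    rw [hs, ← mul_assoc, mul_assoc r₁, ← (hdc a ha).eq, ← mul_assoc, hd1', zero_mul, zero_mul]
  have x2 : ∀ a ∈ P, s * a * r₁ = 0 := fun a ha => by
    have := congrArg star (x1 (star a) (star_mem ha))
    rwa [star_mul, star_mul, star_star, hsp.isSelfAdjoint.star_eq, h₁.2.1.isSelfAdjoint.star_eq,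
      star_zero, ← mul_assoc] at this
  have y1 : r₁ * s = 0 := by simpa using x1 1 (one_mem _)
  have y2 : s * r₁ = 0 := by simpa using x2 1 (one_mem _)
  have hrs : r₂ * s = s := by
    rw [hs, ← mul_assoc, ← (hdc r₂ h₂.1).eq, mul_assoc, h₂.2.1.isIdempotentElem.eq]
  have hsr : s * r₂ = s := by rw [hs, mul_assoc, h₂.2.1.isIdempotentElem.eq]
  have hr1 : (r₁ + s) * r₁ = r₁ := by rw [add_mul, y2, h₁.2.1.isIdempotentElem.eq, add_zero]
  have hr2 : (r₁ + s) * s = s := by rw [add_mul, y1, hsp.isIdempotentElem.eq, zero_add]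
  have hsub : cs (gen P r₁) ≤ cs (gen P (r₁ + s)) := by
    apply cs_le (Submodule.isClosed_topologicalClosure _)
    rintro _ ⟨a, ha, ξ, rfl⟩
    refine mem_cs_of_mem ⟨a, ha, r₁ ξ, ?_⟩
    exact congrArg (fun S : K →L[ℂ] K => a (S ξ)) hr1.symm
  refine ⟨r₁ + s, ⟨add_mem h₁.1 hsP, h₁.2.1.add hsp y1, ?_⟩, hsub, ?_⟩
  · have dec : ∀ a ∈ P, (r₁ + s) * a = a → a * (r₁ + s) = a → a = r₁ * a * r₁ + s * a * s := by
      intro a ha e1 e2
      conv_lhs => rw [← e2, ← e1]
      rw [add_mul, add_mul, mul_add, mul_add, x1 a ha, x2 a ha, add_zero, zero_add]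
    have i1 := h₁.2.1.isIdempotentElem.eq
    intro a ha b hb e1 e2 e3 e4
    rw [dec a ha e1 e2, dec b hb e3 e4]
    have m1 : ∀ a ∈ P, r₁ * a * r₁ ∈ P := fun a ha => mul_mem (mul_mem h₁.1 ha) h₁.1
    have m2 : ∀ a ∈ P, s * a * s ∈ P := fun a ha => mul_mem (mul_mem hsP ha) hsP
    have z1 : ∀ a b : K →L[ℂ] K, Commute (r₁ * a * r₁) (s * b * s) := fun a b => by
      rw [commute_iff_eq]
      calc r₁ * a * r₁ * (s * b * s) = r₁ * a * (r₁ * s) * b * s := by simp only [mul_assoc]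
        _ = 0 := by rw [y1]; simp
        _ = s * b * (s * r₁) * a * r₁ := by rw [y2]; simp
        _ = _ := by simp only [mul_assoc]
    refine Commute.add_left (Commute.add_right ?_ (z1 a b)) (Commute.add_right (z1 b a).symm ?_)
    · refine h₁.2.2 _ (m1 a ha) _ (m1 b hb) ?_ ?_ ?_ ?_
      · rw [← mul_assoc, ← mul_assoc, i1]
      · rw [mul_assoc, i1]
      · rw [← mul_assoc, ← mul_assoc, i1]
      · rw [mul_assoc, i1]
    · refine h₂.2.2 _ (m2 a ha) _ (m2 b hb) ?_ ?_ ?_ ?_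
      · rw [← mul_assoc, ← mul_assoc, hrs]
      · rw [mul_assoc, hsr]
      · rw [← mul_assoc, ← mul_assoc, hrs]
      · rw [mul_assoc, hsr]
  · apply cs_le (Submodule.isClosed_topologicalClosure _)
    rintro _ ⟨a, ha, ξ, rfl⟩
    have e : a * r₂ = c * (a * r₂) + a * ((r₁ + s) * s) := by
      rw [hr2, hs, ← mul_assoc a, ← (hdc a ha).eq, mul_assoc, ← add_mul, add_sub_cancel, one_mul]
    have e' : a (r₂ ξ) = c (a (r₂ ξ)) + a ((r₁ + s) (s ξ)) :=
      congrArg (fun S : K →L[ℂ] K => S ξ) e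
    rw [SetLike.mem_coe, e']
    exact add_mem (hsub (prS_apply_mem_cs _ _)) (mem_cs_of_mem ⟨a, ha, s ξ, rfl⟩)

lemma span_genAb {P : VonNeumannAlgebra K} {v : K} (hv : v ∈ Submodule.span ℂ (genAb P)) :
    ∃ r, Ab P r ∧ v ∈ cs (gen P r) := by
  induction hv using Submodule.span_induction with
  | mem x hx =>
    obtain ⟨r, hr, hx⟩ := hx
    exact ⟨r, hr, mem_cs_of_mem hx⟩
  | zero => exact ⟨0, ab_zero P, zero_mem _⟩
  | add x y _ _ hx hy =>
    obtain ⟨r₁, h₁, hx⟩ := hx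
    obtain ⟨r₂, h₂, hy⟩ := hy
    obtain ⟨r, hr, e1, e2⟩ := ab_directed h₁ h₂
    exact ⟨r, hr, add_mem (e1 hx) (e2 hy)⟩
  | smul c x _ hx =>
    obtain ⟨r, hr, hx⟩ := hx
    exact ⟨r, hr, Submodule.smul_mem _ c hx⟩

omit [CompleteSpace K] in
lemma approx_cs {S : Set K} {v : K} (hv : v ∈ cs S) {δ : ℝ} (hδ : 0 < δ) :
    ∃ w ∈ Submodule.span ℂ S, ‖v - w‖ < δ := by
  have : v ∈ closure (Submodule.span ℂ S : Set K) := hv
  obtain ⟨w, hw, h⟩ := Metric.mem_closure_iff.1 this δ hδ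
  exact ⟨w, hw, by rwa [← dist_eq_norm]⟩

lemma exists_common_ab {P : VonNeumannAlgebra K} {ι : Type*} (s : Finset ι) (ξ : ι → K)
    (h : ∀ i, ξ i ∈ Submodule.span ℂ (genAb P)) :
    ∃ r, Ab P r ∧ ∀ i ∈ s, ξ i ∈ cs (gen P r) := by
  classical
  induction s using Finset.induction_on with
  | empty => exact ⟨0, ab_zero P, by simp⟩
  | insert a s _ ih =>
    obtain ⟨r₁, h₁, e₁⟩ := ih
    obtain ⟨r₂, h₂, e₂⟩ := span_genAb (h a)
    obtain ⟨r, hr, f1, f2⟩ := ab_directed h₁ h₂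
    refine ⟨r, hr, fun i hi => ?_⟩
    rcases Finset.mem_insert.1 hi with rfl | hi
    · exact f2 e₂
    · exact f1 (e₁ i hi)

lemma span_gen_bound {P : VonNeumannAlgebra K} {r : K →L[ℂ] K} (hr : Ab P r) {v : K}
    (hv : v ∈ Submodule.span ℂ (gen P r)) :
    ∃ (T : Finset (K →L[ℂ] K)) (C : ℝ), 0 ≤ C ∧ (∀ w ∈ T, w ∈ P ∧ w * r = w) ∧
      ∀ b : K →L[ℂ] K, ‖b v‖ ≤ C * ∑ w ∈ T, ‖b * w‖ := by
  classical
  induction hv using Submodule.span_induction with
  | mem x hx =>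
    obtain ⟨a, ha, ξ, rfl⟩ := hx
    refine ⟨{a * r}, ‖ξ‖, norm_nonneg _, ?_, fun b => ?_⟩
    · intro w hw
      rw [Finset.mem_singleton.1 hw]
      exact ⟨mul_mem ha hr.1, by rw [mul_assoc, hr.2.1.isIdempotentElem.eq]⟩
    · rw [Finset.sum_singleton, mul_comm]
      exact (b * (a * r)).le_opNorm ξ
  | zero => exact ⟨∅, 0, le_rfl, by simp, by simp⟩
  | add x y _ _ hx hy =>
    obtain ⟨T₁, C₁, c1, t1, b1⟩ := hx
    obtain ⟨T₂, C₂, c2, t2, b2⟩ := hy
    refine ⟨T₁ ∪ T₂, C₁ + C₂, by positivity, ?_, fun b => ?_⟩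
    · intro w hw
      rcases Finset.mem_union.1 hw with h | h
      · exact t1 w h
      · exact t2 w h
    · have s1 : ∑ w ∈ T₁, ‖b * w‖ ≤ ∑ w ∈ T₁ ∪ T₂, ‖b * w‖ :=
        Finset.sum_le_sum_of_subset_of_nonneg Finset.subset_union_left fun _ _ _ => norm_nonneg _
      have s2 : ∑ w ∈ T₂, ‖b * w‖ ≤ ∑ w ∈ T₁ ∪ T₂, ‖b * w‖ :=
        Finset.sum_le_sum_of_subset_of_nonneg Finset.subset_union_right fun _ _ _ => norm_nonneg _
      rw [map_add, add_mul]
      exact (norm_add_le _ _).trans (add_le_add ((b1 b).trans (by gcongr)) ((b2 b).trans (by gcongr)))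
  | smul c x _ hx =>
    obtain ⟨T, C, c1, t1, b1⟩ := hx
    refine ⟨T, ‖c‖ * C, by positivity, t1, fun b => ?_⟩
    rw [map_smul, norm_smul, mul_assoc]
    gcongr
    exact b1 b

/-- normalisation of a row -/
lemma normalise_row (P : VonNeumannAlgebra K) (T : Finset (K →L[ℂ] K)) (hT : ∀ w ∈ T, w ∈ P)
    {ε : ℝ} (hε : 0 < ε) :
    ∃ b ∈ P, ‖∑ w ∈ T, (b * w) * star (b * w)‖ ≤ 1 ∧
      ∀ w ∈ T, ‖(1 - ∑ w ∈ T, (b * w) * star (b * w)) * w‖ ≤ ε := by
  set s := ∑ w ∈ T, w * star w with hs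
  have hs0 : 0 ≤ s := Finset.sum_nonneg fun w _ => mul_star_self_nonneg w
  have hsa : IsSelfAdjoint s := hs0.isSelfAdjoint
  have hsP : s ∈ P := sum_mem fun w hw => mul_mem (hT w hw) (star_mem (hT w hw))
  have hε2 : 0 < ε ^ 2 := by positivity
  set f : ℝ → ℝ := fun t => (√(max t 0 + ε ^ 2))⁻¹ with hf
  have hpos : ∀ t : ℝ, 0 < max t 0 + ε ^ 2 := fun t => by have := le_max_right t 0; linarith
  have hfc : Continuous f := Continuous.inv₀ (by fun_prop) fun t => (Real.sqrt_pos.2 (hpos t)).ne'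
  have hb : IsSelfAdjoint (cfc f s) := cfc_predicate f s
  have hff : ∀ t : ℝ, 0 ≤ t → f t * t * f t = t / (t + ε ^ 2) := fun t ht => by
    simp only [hf, max_eq_left ht]
    have h1 : 0 < t + ε ^ 2 := by linarith
    have h2 := Real.mul_self_sqrt h1.le
    have h3 : √(t + ε ^ 2) ≠ 0 := (Real.sqrt_pos.2 h1).ne'
    field_simp
    rw [Real.sq_sqrt h1.le]
  have hsum : ∑ w ∈ T, (cfc f s * w) * star (cfc f s * w) = cfc (fun t => f t * t * f t) s := by
    rw [cfc_mul _ _ s (by fun_prop) hfc.continuousOn, cfc_mul _ _ s hfc.continuousOn (by fun_prop),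
      cfc_id' ℝ s hsa]
    conv_rhs => enter [1, 2]; rw [hs]
    rw [Finset.mul_sum, Finset.sum_mul]
    refine Finset.sum_congr rfl fun w _ => ?_
    rw [star_mul, hb.star_eq]
    simp only [mul_assoc]
  refine ⟨cfc f s, cfc_mem P hsP f, ?_, fun w hw => ?_⟩
  · rw [hsum]
    refine norm_cfc_le zero_le_one fun t ht => ?_
    have h0 : 0 ≤ t := spectrum_nonneg_of_nonneg hs0 ht
    rw [hff t h0, Real.norm_of_nonneg (by positivity), div_le_one (by linarith)]
    linarith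
  · rw [hsum]
    set g : ℝ → ℝ := fun t => 1 - f t * t * f t with hg
    have hgc : Continuous g := by fun_prop
    have e1 : 1 - cfc (fun t => f t * t * f t) s = cfc g s := by
      rw [hg, cfc_sub _ _ s (by fun_prop) (by fun_prop), cfc_const 1 s hsa, map_one]
    rw [e1]
    have hgs : IsSelfAdjoint (cfc g s) := cfc_predicate g s
    have e2 : ‖cfc g s * s * cfc g s‖ ≤ ε ^ 2 := by
      have : cfc g s * s * cfc g s = cfc (fun t => g t * t * g t) s := by
        rw [cfc_mul _ _ s (by fun_prop) hgc.continuousOn,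
          cfc_mul _ _ s hgc.continuousOn (by fun_prop), cfc_id' ℝ s hsa]
      rw [this]
      refine norm_cfc_le hε2.le fun t ht => ?_
      have h0 : 0 ≤ t := spectrum_nonneg_of_nonneg hs0 ht
      have h1 : 0 < t + ε ^ 2 := by linarith
      have h2 : g t = ε ^ 2 / (t + ε ^ 2) := by
        simp only [hg]; rw [hff t h0]; field_simp; ring
      rw [h2, Real.norm_of_nonneg (by positivity)]
      have h3 : ε ^ 2 / (t + ε ^ 2) ≤ 1 := by rw [div_le_one h1]; linarith
      have h4 : ε ^ 2 / (t + ε ^ 2) * t ≤ ε ^ 2 := by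
        rw [div_mul_eq_mul_div, div_le_iff₀ h1]; nlinarith
      calc _ ≤ ε ^ 2 * 1 := by gcongr
        _ = _ := mul_one _
    have e3 : w * star w ≤ s := Finset.single_le_sum (fun w _ => mul_star_self_nonneg w) hw
    have e4 := star_left_conjugate_le_conjugate e3 (cfc g s)
    rw [hgs.star_eq] at e4
    have e5 : cfc g s * (w * star w) * cfc g s = (cfc g s * w) * star (cfc g s * w) := by
      rw [star_mul, hgs.star_eq]; simp only [mul_assoc]
    rw [e5] at e4
    have e6 := CStarAlgebra.norm_le_norm_of_nonneg_of_le (mul_star_self_nonneg _) e4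
    rw [CStarRing.norm_self_mul_star] at e6
    exact le_of_sq_le_sq (by nlinarith) hε.le

/-- vectors of the type I part are approximately fixed by a normalised row over an abelian
projection -/
theorem approx_typeI (P : VonNeumannAlgebra K) {ι : Type*} [Fintype ι] (ξ : ι → K) {δ : ℝ}
    (hδ : 0 < δ) :
    ∃ (r : K →L[ℂ] K) (T : Finset (K →L[ℂ] K)) (v : (K →L[ℂ] K) → K →L[ℂ] K), Ab P r ∧
      (∀ w ∈ T, v w ∈ P ∧ v w * r = v w) ∧ ‖∑ w ∈ T, v w * star (v w)‖ ≤ 1 ∧
      ∀ i, ‖zI P (ξ i) - (∑ w ∈ T, v w * star (v w)) (zI P (ξ i))‖ ≤ δ := by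
  classical
  choose ξ₁ h₁ e₁ using fun i => approx_cs (prS_apply_mem_cs (genAb P) (ξ i))
    (show 0 < δ / 8 by positivity)
  obtain ⟨r, hr, h₂⟩ := exists_common_ab Finset.univ ξ₁ h₁
  choose ξ₂ h₃ e₂ using fun i => approx_cs (h₂ i (Finset.mem_univ i)) (show 0 < δ / 8 by positivity)
  choose T C c0 hT hb using fun i => span_gen_bound hr (h₃ i)
  set U := Finset.univ.biUnion T with hU
  have hUP : ∀ w ∈ U, w ∈ P ∧ w * r = w := fun w hw => by
    obtain ⟨i, -, hi⟩ := Finset.mem_biUnion.1 hw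
    exact hT i w hi
  set M := ∑ i, C i * (T i).card + 1 with hM
  have hM0 : 0 < M := by
    have : 0 ≤ ∑ i, C i * (T i).card :=
      Finset.sum_nonneg fun i _ => mul_nonneg (c0 i) (Nat.cast_nonneg _)
    linarith
  obtain ⟨b, hbP, n1, n2⟩ := normalise_row P U (fun w hw => (hUP w hw).1)
    (show 0 < δ / 2 / M by positivity)
  refine ⟨r, U, fun w => b * w, hr, fun w hw => ⟨mul_mem hbP (hUP w hw).1,
    by rw [mul_assoc, (hUP w hw).2]⟩, n1, fun i => ?_⟩
  set p := ∑ w ∈ U, (b * w) * star (b * w) with hp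
  have n3 : ‖1 - p‖ ≤ 2 := by
    have : ‖(1 : K →L[ℂ] K)‖ ≤ 1 := ContinuousLinearMap.norm_id_le
    linarith [norm_sub_le 1 p]
  have a1 : ‖(1 - p) (ξ₂ i)‖ ≤ δ / 2 := by
    refine (hb i _).trans ?_
    have : ∑ w ∈ T i, ‖(1 - p) * w‖ ≤ (T i).card * (δ / 2 / M) := by
      rw [← nsmul_eq_mul]
      exact Finset.sum_le_card_nsmul _ _ _ fun w hw =>
        n2 w (Finset.mem_biUnion.2 ⟨i, Finset.mem_univ _, hw⟩)
    have h4 : C i * (T i).card ≤ M := by
      have := Finset.single_le_sum (f := fun i => C i * ((T i).card : ℝ))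
        (fun j _ => by have := c0 j; positivity) (Finset.mem_univ i)
      linarith
    calc _ ≤ C i * ((T i).card * (δ / 2 / M)) := by have := c0 i; gcongr
      _ = C i * (T i).card * (δ / 2 / M) := by ring
      _ ≤ M * (δ / 2 / M) := by gcongr
      _ = δ / 2 := by field_simp
  have a2 : ‖zI P (ξ i) - ξ₂ i‖ ≤ δ / 4 := by
    have := norm_sub_le_norm_sub_add_norm_sub (zI P (ξ i)) (ξ₁ i) (ξ₂ i)
    have b1 : ‖zI P (ξ i) - ξ₁ i‖ < δ / 8 := e₁ i
    linarith [e₂ i]
  have a3 : zI P (ξ i) - p (zI P (ξ i)) = (1 - p) (zI P (ξ i) - ξ₂ i) + (1 - p) (ξ₂ i) := by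
    rw [← map_add, sub_add_cancel]; rfl
  rw [a3]
  refine (norm_add_le _ _).trans ?_
  have a4 : ‖(1 - p) (zI P (ξ i) - ξ₂ i)‖ ≤ 2 * (δ / 4) :=
    ((1 - p).le_opNorm _).trans (by gcongr)
  linarith

end Crest.Agent.H9.VN
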