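import Mathlib
import Crest.Agent.H9.VNc

/-! von Neumann algebra toolkit, part d: averaging over commuting unitaries and the type I core. -/

set_option autoImplicit false
open scoped InnerProductSpace
open Filter Topology

namespace Crest.Agent.H9.VN

variable {K : Type*} [NormedAddCommGroup K] [InnerProductSpace ℂ K] [CompleteSpace K]

lemma norm_unitary_le_one {u : K →L[ℂ] K} (hu : u ∈ unitary (K →L[ℂ] K)) : ‖u‖ ≤ 1 := by
  have := CStarRing.norm_mem_unitary_mul (1 : K →L[ℂ] K) hu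
  rw [mul_one] at this
  rw [this]
  exact ContinuousLinearMap.norm_id_le

lemma norm_conj_unitary {u : K →L[ℂ] K} (hu : u ∈ unitary (K →L[ℂ] K)) (X : K →L[ℂ] K) :
    ‖u * X * star u‖ = ‖X‖ := by
  rw [CStarRing.norm_mul_mem_unitary _ (Unitary.star_mem hu), CStarRing.norm_mem_unitary_mul _ hu]

omit [CompleteSpace K] in
lemma norm_avg_le {N : ℕ} (hN : 0 < N) (f : ℕ → K →L[ℂ] K) {M : ℝ} (h : ∀ j, ‖f j‖ ≤ M) :
    ‖(N : ℝ)⁻¹ • ∑ j ∈ Finset.range N, f j‖ ≤ M := by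
  have hN' : (0 : ℝ) < N := by exact_mod_cast hN
  rw [norm_smul, Real.norm_of_nonneg (by positivity), inv_mul_le_iff₀ hN']
  refine (norm_sum_le _ _).trans ?_
  have := Finset.sum_le_card_nsmul (Finset.range N) (fun j => ‖f j‖) M fun j _ => h j
  rwa [Finset.card_range, nsmul_eq_mul] at this

/-- the invariant kept along the averaging -/
def QY (P : VonNeumannAlgebra K) (Y : K →L[ℂ] K) (g : ℝ) (Z : K →L[ℂ] K) : Prop :=
  (∀ u ∈ P, u ∈ unitary (K →L[ℂ] K) → ‖u * Z * star u - Y‖ ≤ g) ∧ ‖Z‖ ≤ ‖Y‖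

lemma QY_self {P : VonNeumannAlgebra K} {Y : K →L[ℂ] K} {g : ℝ} (hg : 0 ≤ g)
    (hY : ∀ a ∈ P, ‖Y * a - a * Y‖ ≤ g * ‖a‖) : QY P Y g Y := by
  refine ⟨fun u hu hu' => ?_, le_rfl⟩
  have : u * Y * star u - Y = -(Y * u - u * Y) * star u := by
    rw [neg_sub, sub_mul, mul_assoc Y, Unitary.mul_star_self_of_mem hu', mul_one]
  rw [this, CStarRing.norm_mul_mem_unitary _ (Unitary.star_mem hu'), norm_neg]
  refine (hY u hu).trans ?_
  have := norm_unitary_le_one hu'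
  nlinarith

lemma avg_step {P : VonNeumannAlgebra K} {Y Z u : K →L[ℂ] K} {g : ℝ} (hZ : QY P Y g Z)
    (huP : u ∈ P) (hu : u ∈ unitary (K →L[ℂ] K)) {N : ℕ} (hN : 0 < N) :
    ∃ Z', QY P Y g Z' ∧
      (∀ a, Commute u a → Commute (star u) a → ‖Z' * a - a * Z'‖ ≤ ‖Z * a - a * Z‖) ∧
      ‖Z' * u - u * Z'‖ ≤ 2 * ‖Y‖ / N := by
  have hN' : (0 : ℝ) < N := by exact_mod_cast hN
  set f : ℕ → K →L[ℂ] K := fun j => u ^ j * Z * star (u ^ j) with hf
  have hup : ∀ j, u ^ j ∈ unitary (K →L[ℂ] K) := fun j => pow_mem hu j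
  refine ⟨(N : ℝ)⁻¹ • ∑ j ∈ Finset.range N, f j, ⟨fun w hwP hw => ?_, ?_⟩, fun a h1 h2 => ?_, ?_⟩
  · have : w * ((N : ℝ)⁻¹ • ∑ j ∈ Finset.range N, f j) * star w - Y =
        (N : ℝ)⁻¹ • ∑ j ∈ Finset.range N, (w * u ^ j * Z * star (w * u ^ j) - Y) := by
      rw [Finset.sum_sub_distrib, smul_sub, Finset.sum_const, Finset.card_range,
        ← Nat.cast_smul_eq_nsmul ℝ, smul_smul, inv_mul_cancel₀ hN'.ne', one_smul, mul_smul_comm,
        smul_mul_assoc, Finset.mul_sum, Finset.sum_mul]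
      congr 2
      refine Finset.sum_congr rfl fun j _ => ?_
      simp only [hf, star_mul, mul_assoc]
    rw [this]
    exact norm_avg_le hN _ fun j => hZ.1 _ (mul_mem hwP (pow_mem huP j)) (mul_mem hw (hup j))
  · exact norm_avg_le hN _ fun j => (norm_conj_unitary (hup j) Z).le.trans hZ.2
  · have : ((N : ℝ)⁻¹ • ∑ j ∈ Finset.range N, f j) * a - a * ((N : ℝ)⁻¹ • ∑ j ∈ Finset.range N, f j) =
        (N : ℝ)⁻¹ • ∑ j ∈ Finset.range N, (u ^ j * (Z * a - a * Z) * star (u ^ j)) := by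
      rw [smul_mul_assoc, mul_smul_comm, ← smul_sub, Finset.sum_mul, Finset.mul_sum,
        ← Finset.sum_sub_distrib]
      congr 1
      refine Finset.sum_congr rfl fun j _ => ?_
      have c1 : Commute (u ^ j) a := h1.pow_left j
      have c2 : Commute (star (u ^ j)) a := by rw [star_pow]; exact h2.pow_left j
      simp only [hf]
      rw [mul_assoc, c2.eq, ← mul_assoc a, ← mul_assoc a, ← c1.eq, mul_sub, sub_mul]
      simp only [mul_assoc]
    rw [this]
    exact norm_avg_le hN _ fun j => (norm_conj_unitary (hup j) _).le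
  · set Z' := (N : ℝ)⁻¹ • ∑ j ∈ Finset.range N, f j with hZ'
    have e1 : u * Z' * star u - Z' = (N : ℝ)⁻¹ • (f N - f 0) := by
      rw [← Finset.sum_range_sub, Finset.sum_sub_distrib, smul_sub, hZ', mul_smul_comm,
        smul_mul_assoc, Finset.mul_sum, Finset.sum_mul]
      congr 2
      refine Finset.sum_congr rfl fun j _ => ?_
      simp only [hf, pow_succ', star_mul, mul_assoc]
    have e2 : Z' * u - u * Z' = -(u * Z' * star u - Z') * u := by
      rw [neg_sub, sub_mul, mul_assoc (u * Z'), Unitary.star_mul_self_of_mem hu, mul_one]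
    rw [e2, CStarRing.norm_mul_mem_unitary _ hu, norm_neg, e1, norm_smul,
      Real.norm_of_nonneg (by positivity), div_eq_inv_mul]
    gcongr
    have a1 : ‖f N‖ ≤ ‖Y‖ := (norm_conj_unitary (hup N) Z).le.trans hZ.2
    have a2 : ‖f 0‖ ≤ ‖Y‖ := (norm_conj_unitary (hup 0) Z).le.trans hZ.2
    linarith [norm_sub_le (f N) (f 0)]

lemma exists_unitary (P : VonNeumannAlgebra K) {a : K →L[ℂ] K} (haP : a ∈ P)
    (ha : IsSelfAdjoint a) (h1 : ‖a‖ ≤ 1) :
    ∃ u ∈ P, u ∈ unitary (K →L[ℂ] K) ∧ u + star u = a + a ∧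
      ∀ b, Commute a b → Commute u b ∧ Commute (star u) b := by
  set c := cfc (fun s : ℝ => √(1 - s * s)) a with hc
  have hcs : IsSelfAdjoint c := cfc_predicate _ a
  have hac : Commute c a := (Commute.refl a).cfc_real _
  have hcc : c * c = 1 - a * a := by
    rw [hc, ← cfc_mul _ _ a (by fun_prop) (by fun_prop)]
    conv_rhs => rw [← cfc_id' ℝ a ha, ← cfc_mul _ _ a (by fun_prop) (by fun_prop),
      ← map_one (algebraMap ℝ (K →L[ℂ] K)), ← cfc_const 1 a ha,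
      ← cfc_sub _ _ a (by fun_prop) (by fun_prop)]
    apply cfc_congr
    intro s hs
    have b1 : s ≤ ‖a‖ :=
      (le_algebraMap_iff_spectrum_le (r := ‖a‖) ha).1 ha.le_algebraMap_norm_self s hs
    have b2 : -‖a‖ ≤ s := by
      refine (algebraMap_le_iff_le_spectrum (r := -‖a‖) ha).1 ?_ s hs
      rw [map_neg]
      exact ha.neg_algebraMap_norm_le_self
    exact Real.mul_self_sqrt (by nlinarith)
  have hst : star (a + Complex.I • c) = a - Complex.I • c := by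
    rw [star_add, star_smul, ha.star_eq, hcs.star_eq, RCLike.star_def, Complex.conj_I, neg_smul,
      sub_eq_add_neg]
  have hII : (Complex.I • c) * (Complex.I • c) = a * a - 1 := by
    rw [smul_mul_assoc, mul_smul_comm, smul_smul, Complex.I_mul_I, hcc, neg_smul, one_smul, neg_sub]
  have hc' : Commute (Complex.I • c) a := hac.smul_left _
  refine ⟨a + Complex.I • c, add_mem haP (smul_mem' P _ (cfc_mem P haP _)), ?_, ?_, fun b hb => ?_⟩
  · rw [Unitary.mem_iff, hst]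
    constructor
    · rw [sub_mul, mul_add, mul_add, hII, hc'.eq]; abel
    · rw [add_mul, mul_sub, mul_sub, hII, hc'.eq]; abel
  · rw [hst]; abel
  · rw [hst]
    have : Commute (Complex.I • c) b := (hb.cfc_real _).smul_left _
    exact ⟨hb.add_left this, hb.sub_left this⟩

lemma exists_avg_sa {P : VonNeumannAlgebra K} {Y : K →L[ℂ] K} {g : ℝ} (hg : 0 ≤ g)
    (hY : ∀ a ∈ P, ‖Y * a - a * Y‖ ≤ g * ‖a‖) {ι : Type*} (a : ι → K →L[ℂ] K) (haP : ∀ i, a i ∈ P)
    (ha : ∀ i, IsSelfAdjoint (a i)) (hc : ∀ i j, Commute (a i) (a j)) {δ : ℝ} (hδ : 0 < δ)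
    (s : Finset ι) : ∃ Z, QY P Y g Z ∧ ∀ i ∈ s, ‖Z * a i - a i * Z‖ ≤ δ := by
  classical
  induction s using Finset.induction_on with
  | empty => exact ⟨Y, QY_self hg hY, by simp⟩
  | insert k s _ ih =>
    obtain ⟨Z, hZ, h⟩ := ih
    set t : ℝ := ‖a k‖ + 1 with ht
    have ht0 : 0 < t := by positivity
    have hb : ‖t⁻¹ • a k‖ ≤ 1 := by
      rw [norm_smul, Real.norm_of_nonneg (by positivity), inv_mul_le_iff₀ ht0]
      linarith
    obtain ⟨u, huP, hu, e, hcom⟩ := exists_unitary P (rsmul_mem P t⁻¹ (haP k))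
      ((IsSelfAdjoint.all t⁻¹).smul (ha k)) hb
    obtain ⟨N, hN⟩ := exists_nat_gt (t * (2 * ‖Y‖) / δ)
    have hN0 : (0 : ℝ) < N := lt_of_le_of_lt (by positivity) hN
    obtain ⟨Z', hZ', h1, h2⟩ := avg_step hZ huP hu (N := N) (by exact_mod_cast hN0)
    refine ⟨Z', hZ', fun i hi => ?_⟩
    rcases Finset.mem_insert.1 hi with rfl | hi
    · have h3 : ‖Z' * star u - star u * Z'‖ ≤ 2 * ‖Y‖ / N := by
        have : Z' * star u - star u * Z' = -(star u * (Z' * u - u * Z') * star u) := by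
          rw [mul_sub, sub_mul, ← mul_assoc, ← mul_assoc, Unitary.star_mul_self_of_mem hu, one_mul,
            mul_assoc, Unitary.mul_star_self_of_mem hu, mul_one, neg_sub]
        rw [this, norm_neg, CStarRing.norm_mul_mem_unitary _ (Unitary.star_mem hu),
          CStarRing.norm_mem_unitary_mul _ (Unitary.star_mem hu)]
        exact h2
      have e2 : a i = (t / 2) • (u + star u) := by
        rw [e, ← two_smul ℝ, smul_smul, smul_smul]
        field_simp
        simp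
      have e3 : Z' * a i - a i * Z' = (t / 2) • ((Z' * u - u * Z') + (Z' * star u - star u * Z')) := by
        rw [e2, mul_smul_comm, smul_mul_assoc, ← smul_sub, mul_add, add_mul]
        congr 1
        abel
      rw [e3, norm_smul, Real.norm_of_nonneg (by positivity)]
      have h4 := (norm_add_le _ _).trans (add_le_add h2 h3)
      calc _ ≤ t / 2 * (2 * ‖Y‖ / N + 2 * ‖Y‖ / N) := by gcongr
        _ = t * (2 * ‖Y‖) / N := by ring
        _ ≤ δ := by
          rw [div_le_iff₀ hN0]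
          rw [div_lt_iff₀ hδ] at hN
          linarith
    · obtain ⟨c1, c2⟩ := hcom (a i) ((hc k i).smul_left _)
      exact (h1 _ c1 c2).trans (h i hi)

lemma exists_avg {P : VonNeumannAlgebra K} {Y : K →L[ℂ] K} {g : ℝ} (hg : 0 ≤ g)
    (hY : ∀ a ∈ P, ‖Y * a - a * Y‖ ≤ g * ‖a‖) {r : K →L[ℂ] K} (hr : Ab P r) {ι : Type*} [Fintype ι]
    (t : ι → K →L[ℂ] K) (htP : ∀ i, t i ∈ P) (h1 : ∀ i, r * t i = t i) (h2 : ∀ i, t i * r = t i)
    {δ : ℝ} (hδ : 0 < δ) : ∃ Z, ‖Z - Y‖ ≤ g ∧ ∀ i, ‖Z * t i - t i * Z‖ ≤ δ := by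
  let a : ι ⊕ ι → K →L[ℂ] K :=
    Sum.elim (fun i => t i + star (t i)) (fun i => Complex.I • (t i - star (t i)))
  have haP : ∀ i, a i ∈ P := by
    rintro (i | i)
    · exact add_mem (htP i) (star_mem (htP i))
    · exact smul_mem' P _ (sub_mem (htP i) (star_mem (htP i)))
  have l1 : ∀ i, r * a i = a i := by
    rintro (i | i)
    · simp only [a, Sum.elim_inl]; rw [mul_add, h1, star_left_eq hr.2.1 (h2 i)]
    · simp only [a, Sum.elim_inr]; rw [mul_smul_comm, mul_sub, h1, star_left_eq hr.2.1 (h2 i)]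
  have l2 : ∀ i, a i * r = a i := by
    rintro (i | i)
    · simp only [a, Sum.elim_inl]; rw [add_mul, h2, star_right_eq hr.2.1 (h1 i)]
    · simp only [a, Sum.elim_inr]; rw [smul_mul_assoc, sub_mul, h2, star_right_eq hr.2.1 (h1 i)]
  have hsa : ∀ i, IsSelfAdjoint (a i) := by
    rintro (i | i)
    · exact IsSelfAdjoint.add_star_self _
    · simp only [a, Sum.elim_inr]
      rw [IsSelfAdjoint, star_smul, star_sub, star_star, RCLike.star_def, Complex.conj_I, neg_smul,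
        ← smul_neg, neg_sub]
  obtain ⟨Z, hZ, h⟩ := exists_avg_sa hg hY a haP hsa
    (fun i j => hr.2.2 _ (haP i) _ (haP j) (l1 i) (l2 i) (l1 j) (l2 j)) hδ Finset.univ
  refine ⟨Z, by simpa using hZ.1 1 (one_mem _) (one_mem _), fun i => ?_⟩
  have e : t i = (1 / 2 : ℂ) • (a (Sum.inl i) - Complex.I • a (Sum.inr i)) := by
    simp only [a, Sum.elim_inl, Sum.elim_inr]
    rw [smul_smul, Complex.I_mul_I]
    module
  have e' : Z * t i - t i * Z = (1 / 2 : ℂ) • ((Z * a (Sum.inl i) - a (Sum.inl i) * Z) -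
      Complex.I • (Z * a (Sum.inr i) - a (Sum.inr i) * Z)) := by
    conv_lhs => rw [e]
    simp only [mul_smul_comm, smul_mul_assoc, mul_sub, sub_mul]
    module
  rw [e', norm_smul]
  have b1 := h (Sum.inl i) (Finset.mem_univ _)
  have b2 := h (Sum.inr i) (Finset.mem_univ _)
  have b3 := norm_sub_le (Z * a (Sum.inl i) - a (Sum.inl i) * Z)
    (Complex.I • (Z * a (Sum.inr i) - a (Sum.inr i) * Z))
  rw [norm_smul, Complex.norm_I, one_mul] at b3
  have : ‖(1 / 2 : ℂ)‖ = 1 / 2 := by simp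
  rw [this]
  linarith

lemma col_bound {ι : Type*} (T : Finset ι) (v : ι → K →L[ℂ] K)
    (hn : ‖∑ w ∈ T, v w * star (v w)‖ ≤ 1) (ξ : K) : ∑ w ∈ T, ‖star (v w) ξ‖ ^ 2 ≤ ‖ξ‖ ^ 2 := by
  have e : ⟪ξ, (∑ w ∈ T, v w * star (v w)) ξ⟫_ℂ = ((∑ w ∈ T, ‖star (v w) ξ‖ ^ 2 : ℝ) : ℂ) := by
    rw [sum_apply, inner_sum]
    push_cast
    refine Finset.sum_congr rfl fun w _ => ?_
    change ⟪ξ, v w (star (v w) ξ)⟫_ℂ = _
    rw [← inner_star_left, inner_self_eq_norm_sq_to_K]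
    rfl
  have h1 : ‖⟪ξ, (∑ w ∈ T, v w * star (v w)) ξ⟫_ℂ‖ ≤ ‖ξ‖ * (1 * ‖ξ‖) :=
    (norm_inner_le_norm _ _).trans (by
      gcongr
      exact (ContinuousLinearMap.le_opNorm _ _).trans (by gcongr))
  rw [e, Complex.norm_real, Real.norm_of_nonneg (Finset.sum_nonneg fun _ _ => sq_nonneg _)] at h1
  nlinarith

lemma row_bound {ι : Type*} (T : Finset ι) (v : ι → K →L[ℂ] K)
    (hn : ‖∑ w ∈ T, v w * star (v w)‖ ≤ 1) (ζ : ι → K) :
    ‖∑ w ∈ T, v w (ζ w)‖ ^ 2 ≤ ∑ w ∈ T, ‖ζ w‖ ^ 2 := by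
  have := H7.Kad.row_of_col T ζ (∑ w ∈ T, v w (ζ w))
    (fun w => star (v w) (∑ w ∈ T, v w (ζ w))) 1 zero_le_one ?_ ?_
  · rwa [one_mul] at this
  · conv_lhs => rw [inner_sum]
    exact Finset.sum_congr rfl fun w _ => (inner_star_left _ _ _).symm
  · rw [one_mul]
    exact col_bound T v hn _

lemma row_op_bound {ι : Type*} (T : Finset ι) (v : ι → K →L[ℂ] K)
    (hn : ‖∑ w ∈ T, v w * star (v w)‖ ≤ 1) (S : ι → K →L[ℂ] K) {M : ℝ} (hM : 0 ≤ M)
    (hS : ∀ ξ, ∑ w ∈ T, ‖S w ξ‖ ^ 2 ≤ M ^ 2 * ‖ξ‖ ^ 2) : ‖∑ w ∈ T, v w * S w‖ ≤ M := by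
  refine ContinuousLinearMap.opNorm_le_bound _ hM fun ξ => ?_
  rw [sum_apply]
  refine le_of_sq_le_sq ?_ (by positivity)
  rw [mul_pow]
  exact (row_bound T v hn fun w => S w ξ).trans (hS ξ)

lemma phi_norm {ι : Type*} (T : Finset ι) (v : ι → K →L[ℂ] K)
    (hn : ‖∑ w ∈ T, v w * star (v w)‖ ≤ 1) (E : K →L[ℂ] K) :
    ‖∑ w ∈ T, v w * (E * star (v w))‖ ≤ ‖E‖ := by
  refine row_op_bound T v hn _ (norm_nonneg _) fun ξ => ?_
  refine le_trans ?_ (mul_le_mul_of_nonneg_left (col_bound T v hn ξ) (sq_nonneg ‖E‖))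
  rw [Finset.mul_sum]
  refine Finset.sum_le_sum fun w _ => ?_
  rw [← mul_pow]
  exact pow_le_pow_left₀ (norm_nonneg _) (E.le_opNorm _) 2

lemma phi_left {P : VonNeumannAlgebra K} {Y : K →L[ℂ] K} {g : ℝ} (hg : 0 ≤ g)
    (hY : ∀ a ∈ P, ‖Y * a - a * Y‖ ≤ g * ‖a‖) {ι : Type*} (T : Finset ι) (v : ι → K →L[ℂ] K)
    (hv : ∀ w ∈ T, v w ∈ P) (hn : ‖∑ w ∈ T, v w * star (v w)‖ ≤ 1) :
    ‖(∑ w ∈ T, v w * star (v w)) * Y - ∑ w ∈ T, v w * (Y * star (v w))‖ ≤ 4 * g := by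
  have e : (∑ w ∈ T, v w * star (v w)) * Y - ∑ w ∈ T, v w * (Y * star (v w)) =
      -∑ w ∈ T, v w * (Y * star (v w) - star (v w) * Y) := by
    rw [Finset.sum_mul, ← Finset.sum_sub_distrib, ← Finset.sum_neg_distrib]
    refine Finset.sum_congr rfl fun w _ => ?_
    rw [mul_sub, neg_sub, mul_assoc]
  rw [e, norm_neg]
  refine row_op_bound T v hn _ (by positivity) fun ξ => ?_
  have := H7.Kad.comm_col_vN P Y g hg hY T (fun w => star (v w)) (fun w hw => star_mem (hv w hw)) ξ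
  simp only [star_star] at this
  refine this.trans ?_
  have : 10 * g ^ 2 * ‖∑ w ∈ T, v w * star (v w)‖ ≤ (4 * g) ^ 2 := by nlinarith [sq_nonneg g]
  gcongr

/-- the type I core -/
theorem core_typeI {P : VonNeumannAlgebra K} {Y : K →L[ℂ] K} {g : ℝ} (hg : 0 ≤ g)
    (hY : ∀ a ∈ P, ‖Y * a - a * Y‖ ≤ g * ‖a‖) {r : K →L[ℂ] K} (hr : Ab P r) {ι : Type*}
    (T : Finset ι) (v : ι → K →L[ℂ] K) (hv : ∀ w ∈ T, v w ∈ P ∧ v w * r = v w)
    (hn : ‖∑ w ∈ T, v w * star (v w)‖ ≤ 1) {κ : Type*} [Fintype κ] (x : κ → K →L[ℂ] K)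
    (hx : ∀ k, x k ∈ P) {δ : ℝ} (hδ : 0 < δ) :
    ∃ A, ‖(∑ w ∈ T, v w * star (v w)) * Y - A‖ ≤ 5 * g ∧
      ‖Y * (∑ w ∈ T, v w * star (v w)) - A‖ ≤ 5 * g ∧
      ∀ k, ‖A * x k * (∑ w ∈ T, v w * star (v w)) - (∑ w ∈ T, v w * star (v w)) * x k * A‖ ≤ δ := by
  set M := (∑ w ∈ T, ‖v w‖) ^ 2 + 1 with hM
  have hM0 : 0 < M := by positivity
  obtain ⟨Z, hZ, h⟩ := exists_avg hg hY hr
    (fun i : κ × T × T => star (v i.2.1) * x i.1 * v i.2.2)
    (fun i => mul_mem (mul_mem (star_mem (hv _ i.2.1.2).1) (hx _)) (hv _ i.2.2.2).1)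
    (fun i => by rw [← mul_assoc, ← mul_assoc, star_left_eq hr.2.1 (hv _ i.2.1.2).2])
    (fun i => by rw [mul_assoc, (hv _ i.2.2.2).2]) (show 0 < δ / M by positivity)
  set p := ∑ w ∈ T, v w * star (v w) with hp
  have hps : star p = p := by
    rw [hp, star_sum]
    exact Finset.sum_congr rfl fun w _ => by rw [star_mul, star_star]
  have hY' : ∀ a ∈ P, ‖star Y * a - a * star Y‖ ≤ g * ‖a‖ := fun a ha => by
    have := hY (star a) (star_mem ha)
    rw [← norm_star, star_sub, star_mul, star_mul, star_star, norm_star, norm_sub_rev] at this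
    exact this
  have b1 := phi_left hg hY T v (fun w hw => (hv w hw).1) hn
  have b2 := phi_left hg hY' T v (fun w hw => (hv w hw).1) hn
  rw [← norm_star, star_sub, star_mul, star_star, ← hp, hps, star_sum] at b2
  simp only [star_mul, star_star, mul_assoc] at b2
  have b3 : ‖∑ w ∈ T, v w * (Y * star (v w)) - ∑ w ∈ T, v w * (Z * star (v w))‖ ≤ g := by
    have := phi_norm T v hn (Y - Z)
    simp only [sub_mul, mul_sub, Finset.sum_sub_distrib] at this
    rw [norm_sub_rev] at hZ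
    exact this.trans hZ
  refine ⟨∑ w ∈ T, v w * (Z * star (v w)), ?_, ?_, fun k => ?_⟩
  · linarith [norm_sub_le_norm_sub_add_norm_sub (p * Y) (∑ w ∈ T, v w * (Y * star (v w)))
      (∑ w ∈ T, v w * (Z * star (v w)))]
  · linarith [norm_sub_le_norm_sub_add_norm_sub (Y * p) (∑ w ∈ T, v w * (Y * star (v w)))
      (∑ w ∈ T, v w * (Z * star (v w)))]
  · have e : (∑ w ∈ T, v w * (Z * star (v w))) * x k * p - p * x k * ∑ w ∈ T, v w * (Z * star (v w)) =
        ∑ l ∈ T, ∑ m ∈ T, v l * (Z * (star (v l) * x k * v m) - (star (v l) * x k * v m) * Z) *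
          star (v m) := by
      rw [hp, Finset.sum_mul, Finset.sum_mul, Finset.sum_mul, Finset.sum_mul,
        ← Finset.sum_sub_distrib]
      refine Finset.sum_congr rfl fun l _ => ?_
      rw [Finset.mul_sum, Finset.mul_sum, ← Finset.sum_sub_distrib]
      refine Finset.sum_congr rfl fun m _ => ?_
      simp only [mul_sub, sub_mul, mul_assoc]
    rw [e]
    calc _ ≤ ∑ l ∈ T, ∑ m ∈ T, ‖v l‖ * (δ / M) * ‖v m‖ := by
          refine (norm_sum_le _ _).trans (Finset.sum_le_sum fun l hl => ?_)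
          refine (norm_sum_le _ _).trans (Finset.sum_le_sum fun m hm => ?_)
          refine (norm_mul_le _ _).trans ?_
          rw [norm_star]
          gcongr
          refine (norm_mul_le _ _).trans ?_
          gcongr
          exact h (k, ⟨l, hl⟩, ⟨m, hm⟩)
      _ = (∑ w ∈ T, ‖v w‖) ^ 2 * (δ / M) := by
          rw [sq, Finset.sum_mul_sum, Finset.sum_mul]
          refine Finset.sum_congr rfl fun l _ => ?_
          rw [Finset.sum_mul]
          exact Finset.sum_congr rfl fun m _ => by ring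
      _ ≤ M * (δ / M) := by gcongr; linarith
      _ = δ := by field_simp

end Crest.Agent.H9.VN
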