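import Crest.Agent.H9.FdR

/-! Row 178: assembly. -/

set_option autoImplicit false
set_option linter.unusedSectionVars false

noncomputable section
namespace Crest.Agent.H9.Fd
open Rh

variable {D : Dat}

lemma one_Fz : (1 : U) ∈ Fz 0 := (Fz_nat 0).symm ▸ one_mem_F 0

lemma single_mem {ι : Type} [DecidableEq ι] (k : ι) (r : ℤ) : Pi.single k (1 : U) ∈ (UF.free ι r).φ r := by
  intro l _
  show _ ∈ Fz (r - r)
  rw [sub_self]
  by_cases h : l = k
  · subst h; simpa using one_Fz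
  · rw [Pi.single_eq_of_ne h]; exact zero_mem _

abbrev Heq (D : Dat) (N : Type) [AddCommGroup N] [Module U N] := H D (LinearMap.id : N →ₗ[U] N)
abbrev Hone (D : Dat) (N : Type) [AddCommGroup N] [Module U N] := H D (0 : PUnit →ₗ[U] N)
abbrev Hzer (D : Dat) (N : Type) [AddCommGroup N] [Module U N] := H D (0 : N →ₗ[U] PUnit)

def HFf (D : Dat) (ι : Type) (r : ℤ) : MF (Fh D) (Heq D (ι → U)) :=
  HF D _ (UF.free ι r) (UF.free ι r) fun _ _ h => h

open Classical in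
def dbH (D : Dat) (ι : Type) [Fintype ι] (r : Fin 5) :
    DB (HFf D ι (r : ℕ)) r (Rh.mk D 1 0 0 0 0) ι where
  g k := (Pi.single k 1, 0)
  i k := { toFun := fun m => Rh.mk D (m.1 k) (m.2 k) 0 0 0
           map_add' := fun m m' => by refine Rh.ext ?_ ?_ ?_ ?_ ?_ <;> simp
           map_smul' := fun r m => by
             refine Rh.ext ?_ ?_ ?_ ?_ ?_ <;> simp [mv_zero, xs_zero] }
  g_mem k := ⟨single_mem k _, zero_mem _⟩
  i_mem k j m hm := ⟨hm.1 k trivial, hm.2 k trivial, zero_mem _, zero_mem _, zero_mem _⟩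
  sum m := by
    refine H.ext ((Prod.fst_sum).trans ?_) ((Prod.snd_sum).trans ?_)
    · funext l
      show (∑ k, m.1 k • (Pi.single k 1 : ι → U)) l = _
      simp [Finset.sum_apply, Pi.single_apply]
    · funext l
      show (∑ k, (m.2 k • (Pi.single k 1 : ι → U) + (0 : U) • (0 : ι → U))) l = _
      simp [Finset.sum_apply, Pi.single_apply]
  e_mem := ⟨one_Fz, zero_mem _, zero_mem _, zero_mem _, zero_mem _⟩
  e_g k := H.ext (by simp) (by simp)

open Classical in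
def dbG (D : Dat) (ι : Type) [Fintype ι] (r : Fin 5) :
    DB (GF D (UF.free ι (r : ℕ))) r (Rh.mk D 0 0 1 0 0) ι where
  g k := (0, Pi.single k 1, 0)
  i k := { toFun := fun m => Rh.mk D 0 0 (m.2.1 k) (fun l => m.1 l k) (fun l => m.2.2 l k)
           map_add' := fun m m' => by refine Rh.ext ?_ ?_ ?_ ?_ ?_ <;> first | rfl | simp
           map_smul' := fun r m => by
             refine Rh.ext ?_ ?_ ?_ (funext fun l => ?_) (funext fun l => ?_) <;>
               simp [mv, xs, mul_add] }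
  g_mem k := ⟨zero_mem _, single_mem k _, zero_mem _⟩
  i_mem k j m hm := ⟨zero_mem _, zero_mem _, hm.2.1 k trivial, fun l _ => hm.1 l trivial k trivial,
    fun l _ => by
      have := hm.2.2 l trivial k trivial
      rw [show ((j : ℕ) : ℤ) - (r : ℕ) + 1 = (j : ℕ) + 1 - (r : ℕ) by ring]
      exact this⟩
  sum m := by
    refine G.ext ((Prod.fst_sum).trans ?_) ((congrArg Prod.fst Prod.snd_sum).trans
      ((Prod.fst_sum).trans ?_)) ((congrArg Prod.snd Prod.snd_sum).trans ((Prod.snd_sum).trans ?_))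
    · funext l k'
      show (∑ k, (mv (D.ψ 0) 0 + xs (fun l => m.1 l k) (Pi.single k 1 : ι → U)) : Fin 2 → ι → U) l k' = _
      simp [Finset.sum_apply, Pi.single_apply, mv_zero, xs]
    · funext l
      show (∑ k, m.2.1 k • (Pi.single k 1 : ι → U)) l = _
      simp [Finset.sum_apply, Pi.single_apply]
    · funext l k'
      show (∑ k, (mv (D.ψ (m.2.1 k)) 0 + mv (D.ψ 0) (mv D.T 0) +
        xs (fun l => m.2.2 l k) (Pi.single k 1 : ι → U)) : Fin 2 → ι → U) l k' = _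
      simp [Finset.sum_apply, Pi.single_apply, mv_zero, xs]
  e_mem := ⟨zero_mem _, zero_mem _, one_Fz, zero_mem _, zero_mem _⟩
  e_g k := by refine G.ext ?_ ?_ ?_ <;> simp [mv_zero, zero_xs]

def sh4 : UF U := ⟨fun m => (Fz (m - 4)).toAddSubgroup, fun {a b _ _} hu hn => by
  rw [show a + b - 4 = a + (b - 4) by ring]; exact Fz_mul hu hn⟩

def SF (D : Dat) : MF (Fh D) (Hzer D U) := HF D _ sh4 (UF.top _) fun _ _ _ => trivial

abbrev AA (D : Dat) := ↥(WA (Fh D))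
abbrev SS (D : Dat) : ModuleCat.{0} (AA D) := ModuleCat.of _ (W (SF D))
abbrev WT (D : Dat) (M : Type) [AddCommGroup M] [Module (Rh D) M] := W (MF.top (Fh D) M)

section
variable {X Y Z : Type} [AddCommGroup X] [Module U X] [AddCommGroup Y] [Module U Y]
  [AddCommGroup Z] [Module U Z]

abbrev Hm (D : Dat) (f : X →ₗ[U] Y) : Heq D X →ₗ[Rh D] Heq D Y := Hmap _ _ f f fun _ => rfl

lemma SEx.H {f : X →ₗ[U] Y} {g : Y →ₗ[U] Z} {A : AddSubgroup X} {B : AddSubgroup Y}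
    (h : SEx f g A B) : 
    SEx (Hm D f) (Hm D g) {x | x.1 ∈ A ∧ x.2 ∈ A} {x | x.1 ∈ B ∧ x.2 ∈ B} := by
  refine ⟨fun x hx => ⟨⟨(h.1 _ hx.1).1, (h.1 _ hx.2).1⟩, H.ext (h.1 _ hx.1).2 (h.1 _ hx.2).2⟩,
    fun y hy e => ?_⟩
  obtain ⟨x1, h1, e1⟩ := h.2 _ hy.1 (congrArg Prod.fst e)
  obtain ⟨x2, h2, e2⟩ := h.2 _ hy.2 (congrArg Prod.snd e)
  exact ⟨(x1, x2), ⟨h1, h2⟩, H.ext e1 e2⟩

lemma SEx.G {f : X →ₗ[U] Y} {g : Y →ₗ[U] Z} {ν : UF X} {ν' : UF Y} {j : ℤ}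
    (h : SEx f g (ν.φ j) (ν'.φ j)) (h' : SEx f g (ν.φ (j + 1)) (ν'.φ (j + 1))) :
    SEx (Gmap (D := D) f) (Gmap g) ((GF D ν).φ j) ((GF D ν').φ j) := by
  refine ⟨fun x hx => ⟨⟨fun l _ => (h.1 _ (hx.1 l trivial)).1, (h.1 _ hx.2.1).1,
    fun l _ => (h'.1 _ (hx.2.2 l trivial)).1⟩, G.ext (funext fun l => (h.1 _ (hx.1 l trivial)).2)
    (h.1 _ hx.2.1).2 (funext fun l => (h'.1 _ (hx.2.2 l trivial)).2)⟩, fun y hy e => ?_⟩
  choose x1 h1 e1 using fun l => h.2 _ (hy.1 l trivial) (congrFun (congrArg Prod.fst e) l)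
  obtain ⟨x2, h2, e2⟩ := h.2 _ hy.2.1 (congrArg (fun z => z.2.1) e)
  choose x3 h3 e3 using fun l => h'.2 _ (hy.2.2 l trivial) (congrFun (congrArg (fun z => z.2.2) e) l)
  exact ⟨(x1, x2, x3), ⟨fun l _ => h1 l, h2, fun l _ => h3 l⟩, G.ext (funext e1) e2 (funext e3)⟩
end

lemma resH (hR : ResStmt) (hH : HomStmt) (h1 : (1 : U) ≠ 0) (L : Type) [AddCommGroup L] [Module U L]
    (hL : FD L) : PD (A := AA D) 5 (WT D (Heq D L)) ∧
      (Nontrivial L → ¬ V (SS D) 4 (WT D (Heq D L))) := by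
  obtain ⟨ι0, ι1, ι2, ι3, ι4, _, _, _, _, _, ε, d1, d2, d3, d4, hne, h⟩ := hR L hL
  have h := fun j : Fin 5 => h (j : ℕ) (by positivity)
  have s1 := fun j : Fin 5 => SEx.H (D := D) (A := C ι1 _) (B := C ι0 ((j : ℕ) - 0))
    (by rw [sub_zero]; exact (h j).2.1)
  have s2 := fun j : Fin 5 => SEx.H (D := D) (h j).2.2.1
  have s3 := fun j : Fin 5 => SEx.H (D := D) (h j).2.2.2.1
  have s4 := fun j : Fin 5 => SEx.H (D := D) (h j).2.2.2.2.1
  obtain ⟨r1, -, r3⟩ := hH.res (A := AA D)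
    (Wmap (HFf D ι0 0) (MF.top _ _) (Hm D ε) fun _ _ _ => trivial)
    (Wmap (HFf D ι1 1) (HFf D ι0 0) (Hm D d1) fun j m hm => ((s1 j).1 m hm).1)
    (Wmap (HFf D ι2 2) (HFf D ι1 1) (Hm D d2) fun j m hm => ((s2 j).1 m hm).1)
    (Wmap (HFf D ι3 3) (HFf D ι2 2) (Hm D d3) fun j m hm => ((s3 j).1 m hm).1)
    (Wmap (HFf D ι4 4) (HFf D ι3 3) (Hm D d4) fun j m hm => ((s4 j).1 m hm).1)
    (dbH D ι0 0).proj (dbH D ι1 1).proj (dbH D ι2 2).proj (dbH D ι3 3).proj (dbH D ι4 4).proj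
    (W_surj fun j m' _ => by
      obtain ⟨v1, a1, b1⟩ := (h j).1 m'.1
      obtain ⟨v2, a2, b2⟩ := (h j).1 m'.2
      rw [← sub_zero ((j : ℕ) : ℤ)] at a1 a2
      exact ⟨(v1, v2), ⟨a1, a2⟩, H.ext b1 b2⟩)
    (W_exact s1) (W_exact s2) (W_exact s3) (W_exact s4)
    (W_inj fun j m hm e => H.ext ((h j).2.2.2.2.2 _ hm.1 (congrArg Prod.fst e))
      ((h j).2.2.2.2.2 _ hm.2 (congrArg Prod.snd e))) (SS D)
  refine ⟨r1, fun hn hv => ?_⟩
  obtain ⟨k⟩ := hne hn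
  have := r3 ((dbH D ι3 3).hom_zero fun s hs => by
      have : s.1 = 0 := by
        have h2 : s.1 ∈ Fz (((3 : Fin 5) : ℕ) - 4) := hs.1
        rwa [Fz_neg (by decide), Submodule.mem_bot] at h2
      exact H.ext (by simp [this]) rfl) hv
    (Wmap (HFf D ι4 4) (SF D) (Hmap _ _ (LinearMap.proj k) 0 fun _ => rfl)
      fun j m hm => ⟨hm.1 k trivial, trivial⟩)
  have := congrArg (fun f : W (HFf D ι4 4) →ₗ[AA D] W (SF D) => ((f ((dbH D ι4 4).gen k)).1 4).1) this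
  refine h1 (Eq.trans ?_ this)
  show (1 : U) = ((Pi.single (4 : Fin 5) ((dbH D ι4 4).g k) : Fin 5 → Heq D (ι4 → U)) 4).1 k
  simp [dbH]

lemma resG (hR : ResStmt) (hH : HomStmt) (L : Type) [AddCommGroup L] [Module U L]
    (hL : FD L) : PD (A := AA D) 5 (WT D (G D L)) ∧ V (SS D) 4 (WT D (G D L)) ∧
      Module.Finite (AA D) (WT D (G D L)) := by
  obtain ⟨ι0, ι1, ι2, ι3, ι4, _, _, _, _, _, ε, d1, d2, d3, d4, hne, h⟩ := hR L hL
  have h' := fun j : Fin 5 => h ((j : ℕ) + 1) (by positivity)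
  have h := fun j : Fin 5 => h (j : ℕ) (by positivity)
  have s1 := fun j : Fin 5 => SEx.G (D := D) (ν := UF.free ι1 1) (ν' := UF.free ι0 0) (j := (j : ℕ))
    (f := d1) (g := ε) (by show SEx d1 ε (C ι1 (_ - 1)) (C ι0 (_ - 0)); rw [sub_zero]; exact (h j).2.1)
    (by show SEx d1 ε (C ι1 (_ - 1)) (C ι0 (_ - 0)); rw [sub_zero]; exact (h' j).2.1)
  have s2 := fun j : Fin 5 => SEx.G (D := D) (ν := UF.free ι2 2) (ν' := UF.free ι1 1) (j := (j : ℕ))
    (h j).2.2.1 (h' j).2.2.1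
  have s3 := fun j : Fin 5 => SEx.G (D := D) (ν := UF.free ι3 3) (ν' := UF.free ι2 2) (j := (j : ℕ))
    (h j).2.2.2.1 (h' j).2.2.2.1
  have s4 := fun j : Fin 5 => SEx.G (D := D) (ν := UF.free ι4 4) (ν' := UF.free ι3 3) (j := (j : ℕ))
    (h j).2.2.2.2.1 (h' j).2.2.2.2.1
  have hs : Function.Surjective (Wmap (GF D (UF.free ι0 0)) (MF.top _ _) (Gmap ε)
      fun _ _ _ => trivial) := W_surj fun j m' _ => by
    choose v1 a1 b1 using fun l => (h j).1 (m'.1 l)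
    obtain ⟨v2, a2, b2⟩ := (h j).1 m'.2.1
    choose v3 a3 b3 using fun l => (h' j).1 (m'.2.2 l)
    rw [← sub_zero ((j : ℕ) + 1 : ℤ)] at a3
    rw [← sub_zero ((j : ℕ) : ℤ)] at a1 a2
    exact ⟨(v1, v2, v3), ⟨fun l _ => a1 l, a2, fun l _ => a3 l⟩, G.ext (funext b1) b2 (funext b3)⟩
  obtain ⟨r1, r2, -⟩ := hH.res (A := AA D) _
    (Wmap (GF D (UF.free ι1 1)) (GF D (UF.free ι0 0)) (Gmap d1) fun j m hm => ((s1 j).1 m hm).1)
    (Wmap (GF D (UF.free ι2 2)) (GF D (UF.free ι1 1)) (Gmap d2) fun j m hm => ((s2 j).1 m hm).1)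
    (Wmap (GF D (UF.free ι3 3)) (GF D (UF.free ι2 2)) (Gmap d3) fun j m hm => ((s3 j).1 m hm).1)
    (Wmap (GF D (UF.free ι4 4)) (GF D (UF.free ι3 3)) (Gmap d4) fun j m hm => ((s4 j).1 m hm).1)
    (dbG D ι0 0).proj (dbG D ι1 1).proj (dbG D ι2 2).proj (dbG D ι3 3).proj (dbG D ι4 4).proj hs
    (W_exact s1) (W_exact s2) (W_exact s3) (W_exact s4)
    (W_inj fun j m hm e => G.ext
      (funext fun l => (h j).2.2.2.2.2 _ (hm.1 l trivial) (congrFun (congrArg Prod.fst e) l))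
      ((h j).2.2.2.2.2 _ hm.2.1 (congrArg (fun z => z.2.1) e))
      (funext fun l => (h' j).2.2.2.2.2 _ (hm.2.2 l trivial)
        (congrFun (congrArg (fun z => z.2.2) e) l))) (SS D)
  have : Module.Finite (WA (Fh D)) (W (GF D (UF.free ι0 0))) := (dbG D ι0 0).finite
  exact ⟨r1, r2 ((dbG D ι4 4).hom_zero fun s _ => H.ext (by simp) rfl),
    Module.Finite.of_surjective _ hs⟩

section
variable {X Y Z : Type} [AddCommGroup X] [Module (Rh D) X] [AddCommGroup Y] [Module (Rh D) Y]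
  [AddCommGroup Z] [Module (Rh D) Z]

abbrev Wt (f : X →ₗ[Rh D] Y) : WT D X →ₗ[AA D] WT D Y := Wmap _ _ f fun _ _ _ => trivial

lemma Wt_surj {f : X →ₗ[Rh D] Y} (h : Function.Surjective f) : Function.Surjective (Wt f) :=
  W_surj fun _ m _ => (h m).imp fun _ e => ⟨trivial, e⟩
lemma Wt_inj {f : X →ₗ[Rh D] Y} (h : ∀ x, f x = 0 → x = 0) : Function.Injective (Wt f) :=
  W_inj fun _ m _ => h m

lemma wse (hH : HomStmt) (f : X →ₗ[Rh D] Y) (g : Y →ₗ[Rh D] Z) (h1 : ∀ x, f x = 0 → x = 0)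
    (h2 : ∀ x, g (f x) = 0) (h3 : ∀ y, g y = 0 → ∃ x, f x = y) (h4 : Function.Surjective g) (n : ℕ) :
    (PD (A := AA D) n (WT D X) → PD (A := AA D) n (WT D Z) → PD (A := AA D) n (WT D Y)) ∧
    (PD (A := AA D) n (WT D X) → PD (A := AA D) (n + 1) (WT D Y) → PD (A := AA D) (n + 1) (WT D Z)) ∧
    (V (SS D) n (WT D Y) → V (SS D) (n + 1) (WT D Z) → V (SS D) n (WT D X)) :=
  hH.se (Wt f) (Wt g) (Wt_inj h1) (W_exact fun _ => ⟨fun x _ => ⟨trivial, h2 x⟩,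
    fun y _ e => (h3 y e).imp fun _ e => ⟨trivial, e⟩⟩) (Wt_surj h4) _ n
end

section
variable {N K : Type} [AddCommGroup N] [Module U N] [AddCommGroup K] [Module U K]

def toG (D : Dat) (N : Type) [AddCommGroup N] [Module U N] : H D (TN D N) →ₗ[Rh D] G D N where
  toFun m := (m.1, 0, m.2)
  map_add' m m' := G.ext rfl (add_zero _).symm rfl
  map_smul' r m := G.ext (by
      show mv (N := N) (D.ψ r.a) m.1 = mv (N := N) (D.ψ r.a) m.1 + xs r.x (0 : N)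
      rw [xs_zero, add_zero]) (smul_zero _).symm (by
      show mv (N := N) (D.ψ r.b) (mv (N := N) D.T m.1) + mv (N := N) (D.ψ r.c) m.2 =
        mv (N := N) (D.ψ r.c) m.2 + mv (N := N) (D.ψ r.b) (mv (N := N) D.T m.1) + xs r.y (0 : N)
      rw [xs_zero, add_zero, add_comm])

def ofG (D : Dat) (N : Type) [AddCommGroup N] [Module U N] : G D N →ₗ[Rh D] Hone D N where
  toFun m := (0, m.2.1)
  map_add' m m' := H.ext rfl rfl
  map_smul' r m := H.ext rfl (by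
    show r.c • m.2.1 = r.b • (0 : N) + r.c • m.2.1
    simp)

lemma ofG_surj : Function.Surjective (ofG D N) := fun m => ⟨(0, m.2, 0), H.ext rfl rfl⟩

lemma seG (hH : HomStmt) (n : ℕ) :
    (PD (A := AA D) n (WT D (H D (TN D N))) → PD (A := AA D) (n + 1) (WT D (G D N)) →
      PD (A := AA D) (n + 1) (WT D (Hone D N))) ∧
    (V (SS D) n (WT D (G D N)) → V (SS D) (n + 1) (WT D (Hone D N)) →
      V (SS D) n (WT D (H D (TN D N)))) :=
  (wse hH (toG D N) (ofG D N) (fun _ e => H.ext (congrArg Prod.fst e :) (congrArg (fun z => z.2.2) e :))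
    (fun _ => H.ext rfl rfl) (fun y e => ⟨(y.1, y.2.2), G.ext rfl (congrArg Prod.snd e).symm rfl⟩)
    ofG_surj n).2

lemma FD.range (h : FD N) (f : N →ₗ[U] K) : FD (LinearMap.range f) := by
  obtain ⟨ι, _, v, hv⟩ := h
  refine ⟨ι, inferInstance, fun k => f.rangeRestrict (v k), fun n => ?_⟩
  obtain ⟨x, rfl⟩ := f.surjective_rangeRestrict n
  obtain ⟨c, rfl⟩ := hv x
  exact ⟨c, by simp⟩

lemma step (hR : ResStmt) (hH : HomStmt) (h1 : (1 : U) ≠ 0) (hK : FD K) (hN : FD N)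
    (hT : FD (Tw D N)) (α : K →ₗ[U] Tw D N) (β : Tw D N →ₗ[U] K) (a1 : Function.Injective α)
    (a2 : Function.Exact α (TN D N)) (a3 : Function.Exact (TN D N) β) (a4 : Function.Surjective β)
    {p : ℕ} (hp : 5 ≤ p) (b1 : PD (A := AA D) (p + 1) (WT D (Hone D K)))
    (b2 : ¬ V (SS D) p (WT D (Hone D K))) :
    PD (A := AA D) (p + 2 + 1) (WT D (Hone D N)) ∧ ¬ V (SS D) (p + 2) (WT D (Hone D N)) := by
  have eK := (resH (D := D) hR hH h1 K hK).1
  have eL := (resH (D := D) hR hH h1 _ (hT.range (TN D N))).1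
  have eG := (resG (D := D) hR hH N hN).1
  have sa := wse hH (X := Hone D K) (Y := Heq D K) (Z := Hzer D K)
    (Hmap _ _ 0 LinearMap.id fun _ => rfl) (Hmap _ _ LinearMap.id 0 fun _ => rfl)
    (fun _ e => H.ext rfl (congrArg Prod.snd e :)) (fun _ => H.ext rfl rfl)
    (fun y e => ⟨(0, y.2), H.ext (congrArg Prod.fst e).symm rfl⟩) (fun m => ⟨(m.1, 0), H.ext rfl rfl⟩)
  have sb := wse hH (X := Hzer D K) (Y := H D (TN D N)) (Z := H D (LinearMap.range (TN D N)).subtype)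
    (Hmap _ _ α 0 fun m => a2.apply_apply_eq_zero m)
    (Hmap _ _ (TN D N).rangeRestrict LinearMap.id fun _ => rfl)
    (fun x e => H.ext (a1 ((congrArg Prod.fst e).trans (map_zero α).symm)) rfl)
    (fun x => H.ext (Subtype.ext (a2.apply_apply_eq_zero x.1)) rfl)
    (fun y e => by
      obtain ⟨x, hx⟩ := (a2 y.1).1 (congrArg (fun z => z.1.1) e)
      exact ⟨(x, 0), H.ext hx (congrArg Prod.snd e).symm⟩)
    (fun m => by
      obtain ⟨x, hx⟩ := (TN D N).surjective_rangeRestrict m.1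
      exact ⟨(x, m.2), H.ext hx rfl⟩)
  have sc := wse hH (X := Heq D (LinearMap.range (TN D N)))
    (Y := H D (LinearMap.range (TN D N)).subtype) (Z := Hone D K)
    (Hmap _ _ LinearMap.id (LinearMap.range (TN D N)).subtype fun _ => rfl)
    (Hmap _ _ 0 β fun m => ((a3 _).2 m.2).symm)
    (fun x e => H.ext (congrArg Prod.fst e :) (Subtype.ext (congrArg Prod.snd e :)))
    (fun x => H.ext rfl ((a3 _).2 x.2.2))
    (fun y e => ⟨(y.1, ⟨y.2, (a3 _).1 (congrArg Prod.snd e)⟩), H.ext rfl rfl⟩)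
    (fun m => by
      obtain ⟨x, hx⟩ := a4 m.2
      exact ⟨(0, x), H.ext rfl hx⟩)
  have c1 := (sa (p + 1)).2.1 b1 (hH.pdv (SS D) _ _ (by omega) eK).1
  have c2 := (sc (p + 1)).1 (hH.pdv (SS D) _ _ (by omega) eL).1 b1
  have c3 := (sb (p + 2)).1 c1 (hH.pdv (SS D) _ _ (by omega) c2).1
  refine ⟨(seG hH (p + 2)).1 c3 (hH.pdv (SS D) _ _ (by omega) eG).1, fun hv => b2 ?_⟩
  refine (sa p).2.2 (hH.pdv (SS D) _ _ hp eK).2 ((sb (p + 1)).2.2 ?_ (hH.pdv (SS D) _ _ (by omega) c2).2)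
  exact (seG hH (p + 1)).2 (hH.pdv (SS D) _ _ (by omega) eG).2 hv

end

theorem final (hR : ResStmt) (hP : RepStmt) (hH : HomStmt) :
    ∃ (A : Type) (_ : Ring A) (_ : Algebra ℂ A), FiniteDimensional ℂ A ∧
      ∀ k : ℕ, ∃ N : ModuleCat.{0} A, Module.Finite A N ∧
        ¬ CategoryTheory.HasProjectiveDimensionLT N k ∧
        ∃ n : ℕ, CategoryTheory.HasProjectiveDimensionLT N n := by
  obtain ⟨D, N, f1, f2, hn, hb, hs⟩ := hP
  have h1 : (1 : U) ≠ 0 := by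
    have := Module.nontrivial U (N 0)
    exact one_ne_zero
  have key : ∀ d, PD (A := AA D) (5 + 2 * d + 1) (WT D (Hone D (N d))) ∧
      ¬ V (SS D) (5 + 2 * d) (WT D (Hone D (N d))) := by
    intro d
    induction d with
    | zero =>
      obtain ⟨e1, e2⟩ := resH (D := D) hR hH h1 _ (f2 0)
      obtain ⟨g1, g2, -⟩ := resG (D := D) hR hH _ (f1 0)
      have eq := hH.equiv (Wt (Hmap (D := D) (TN D (N 0)) LinearMap.id (TN D (N 0)) LinearMap.id
        fun _ => rfl)) ⟨Wt_inj fun x e => H.ext (hb.1 ((congrArg Prod.fst e).trans (map_zero _).symm))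
          (congrArg Prod.snd e :), Wt_surj fun m => by
            obtain ⟨x, hx⟩ := hb.2 m.1
            exact ⟨(x, m.2), H.ext hx rfl⟩⟩ (SS D)
      refine ⟨(seG hH 5).1 ((eq 5).1.2 e1) (hH.pdv (SS D) _ _ (by omega) g1).1, fun hv =>
        e2 (show Nontrivial (Fin 2 → N 0) from inferInstance) ((eq 4).2.1 ((seG hH 4).2 g2 hv))⟩
    | succ d ih =>
      obtain ⟨α, β, a1, a2, a3, a4⟩ := hs d
      exact step hR hH h1 (f1 d) (f1 _) (f2 _) α β a1 a2 a3 a4 (p := 5 + 2 * d) (by omega) ih.1 ih.2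
  refine ⟨AA D, inferInstance, inferInstance, WA_fd _, fun k =>
    ⟨ModuleCat.of _ (WT D (Hone D (N k))), ?_, fun h => (key k).2 ?_, _, (key k).1⟩⟩
  · have := (resG (D := D) hR hH _ (f1 k)).2.2
    exact Module.Finite.of_surjective _ (Wt_surj ofG_surj)
  · exact (hH.pdv (SS D) k _ (by omega) h).2

end Crest.Agent.H9.Fd
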