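import Mathlib

/-! Row 178 (finitistic dimension): interface. -/

set_option autoImplicit false

noncomputable section
namespace Crest.Agent.H9.Fd
open CategoryTheory

/-! ### the enveloping algebra of `gl₂` : `E 0 = E₁₁, E 1 = E₁₂, E 2 = E₂₁, E 3 = E₂₂` -/

def br {R : Type} [Ring R] (e : Fin 4 → R) : Fin 4 → Fin 4 → R :=
  ![![0, e 1, -e 2, 0], ![-e 1, 0, e 0 - e 3, e 1], ![e 2, e 3 - e 0, 0, -e 2], ![0, -e 1, e 2, 0]]

inductive Rel : FreeAlgebra ℂ (Fin 4) → FreeAlgebra ℂ (Fin 4) → Prop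
  | c (i j : Fin 4) : Rel (FreeAlgebra.ι ℂ i * FreeAlgebra.ι ℂ j)
      (FreeAlgebra.ι ℂ j * FreeAlgebra.ι ℂ i + br (FreeAlgebra.ι ℂ) i j)

def U : Type := RingQuot Rel
instance : Ring U := inferInstanceAs (Ring (RingQuot Rel))
instance : Algebra ℂ U := inferInstanceAs (Algebra ℂ (RingQuot Rel))

def mkU : FreeAlgebra ℂ (Fin 4) →ₐ[ℂ] U := RingQuot.mkAlgHom ℂ Rel
def E (i : Fin 4) : U := mkU (FreeAlgebra.ι ℂ i)

lemma map_br {R R' : Type} [Ring R] [Ring R'] [Algebra ℂ R] [Algebra ℂ R'] (f : R →ₐ[ℂ] R')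
    (e : Fin 4 → R) (i j : Fin 4) : f (br e i j) = br (fun k => f (e k)) i j := by
  fin_cases i <;> fin_cases j <;> simp [br]

lemma E_comm (i j : Fin 4) : E i * E j = E j * E i + br E i j := by
  have := RingQuot.mkAlgHom_rel ℂ (Rel.c i j)
  change mkU _ = mkU _ at this
  rw [map_add, map_mul, map_mul, map_br] at this
  exact this

def liftU {R : Type} [Ring R] [Algebra ℂ R] (e : Fin 4 → R)
    (h : ∀ i j, e i * e j = e j * e i + br e i j) : U →ₐ[ℂ] R :=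
  RingQuot.liftAlgHom ℂ ⟨FreeAlgebra.lift ℂ e, by
    rintro _ _ ⟨i, j⟩
    rw [map_add, map_mul, map_mul, map_br]
    simpa using h i j⟩

@[simp] lemma liftU_E {R : Type} [Ring R] [Algebra ℂ R] (e : Fin 4 → R)
    (h : ∀ i j, e i * e j = e j * e i + br e i j) (i : Fin 4) : liftU e h (E i) = e i :=
  (RingQuot.liftAlgHom_mkAlgHom_apply ℂ _ _ _).trans (FreeAlgebra.lift_ι_apply e i)

@[elab_as_elim]
lemma U.induction {p : U → Prop} (h0 : ∀ c, p (algebraMap ℂ U c)) (h1 : ∀ i, p (E i))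
    (hm : ∀ a b, p a → p b → p (a * b)) (ha : ∀ a b, p a → p b → p (a + b)) (u : U) : p u := by
  obtain ⟨x, rfl⟩ : ∃ x, mkU x = u := RingQuot.mkAlgHom_surjective ℂ Rel u
  induction x using FreeAlgebra.induction with
  | grade0 c => rw [AlgHom.commutes]; exact h0 c
  | grade1 i => exact h1 i
  | mul a b h h' => rw [map_mul]; exact hm _ _ h h'
  | add a b h h' => rw [map_add]; exact ha _ _ h h'

/-- the standard filtration -/
def F (m : ℕ) : Submodule ℂ U := (1 ⊔ Submodule.span ℂ (Set.range E)) ^ m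
def Fz (m : ℤ) : Submodule ℂ U := if 0 ≤ m then F m.toNat else ⊥

lemma F_mul {a b : ℕ} {u v : U} (hu : u ∈ F a) (hv : v ∈ F b) : u * v ∈ F (a + b) := by
  unfold F at *; rw [pow_add]; exact Submodule.mul_mem_mul hu hv
lemma one_mem_F (m : ℕ) : (1 : U) ∈ F m := by
  induction m with
  | zero => unfold F; rw [pow_zero]; exact Submodule.one_le.1 le_rfl
  | succ m ih =>
    have := F_mul ih (show (1 : U) ∈ F 1 by
      unfold F; rw [pow_one]; exact Submodule.mem_sup_left (Submodule.one_le.1 le_rfl))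
    rwa [mul_one] at this
lemma E_mem_F (i : Fin 4) : E i ∈ F 1 := by
  unfold F; rw [pow_one]; exact Submodule.mem_sup_right (Submodule.subset_span ⟨i, rfl⟩)
lemma F_mono {a b : ℕ} (h : a ≤ b) : F a ≤ F b := fun u hu => by
  have := F_mul hu (one_mem_F (b - a))
  rwa [mul_one, Nat.add_sub_cancel' h] at this
lemma F_fg (m : ℕ) : (F m).FG :=
  Submodule.FG.pow ((Submodule.one_eq_span (R := ℂ) (A := U) ▸ Submodule.fg_span_singleton _).sup
    (Submodule.fg_span (Set.finite_range _))) m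
lemma Fz_nat (m : ℕ) : Fz m = F m := by simp [Fz]
lemma Fz_neg {m : ℤ} (h : m < 0) : Fz m = ⊥ := if_neg (by omega)
lemma Fz_fg (m : ℤ) : (Fz m).FG := by
  unfold Fz; split_ifs
  · exact F_fg _
  · exact Submodule.fg_bot
lemma Fz_mul {a b : ℤ} {u v : U} (hu : u ∈ Fz a) (hv : v ∈ Fz b) : u * v ∈ Fz (a + b) := by
  by_cases ha : a < 0
  · rw [Fz_neg ha, Submodule.mem_bot] at hu; rw [hu, zero_mul]; exact zero_mem _
  by_cases hb : b < 0
  · rw [Fz_neg hb, Submodule.mem_bot] at hv; rw [hv, mul_zero]; exact zero_mem _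
  lift a to ℕ using by omega
  lift b to ℕ using by omega
  rw [Fz_nat] at hu hv
  rw [← Nat.cast_add, Fz_nat]; exact F_mul hu hv

abbrev P := MvPolynomial (Fin 4) ℂ

/-- symbols (Poincaré–Birkhoff–Witt) -/
def SymStmt : Prop :=
  ∃ σ : ℕ → U →ₗ[ℂ] P, (∀ m u, (σ m u).IsHomogeneous m) ∧
    (∀ m (p : P), p.IsHomogeneous m → ∃ u ∈ F m, σ m u = p) ∧
    (∀ m, ∀ u ∈ F (m + 1), σ (m + 1) u = 0 ↔ u ∈ F m) ∧ (∀ u ∈ F 0, σ 0 u = 0 → u = 0) ∧
    ∀ m, ∀ u ∈ F m, ∀ v ∈ F 1, σ (m + 1) (u * v) = σ m u * σ 1 v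

/-- graded exactness at the middle of `κ' → κ → ι` (row vectors times matrices) -/
def Ex {κ' κ ι : Type} [Fintype κ'] [Fintype κ] (D' : Matrix κ' κ P) (D : Matrix κ ι P) : Prop :=
  D' * D = 0 ∧ (∀ p : κ → P, (∀ k, (p k).IsHomogeneous 0) → Matrix.vecMul p D = 0 → p = 0) ∧
    ∀ (m : ℕ) (p : κ → P), (∀ k, (p k).IsHomogeneous (m + 1)) → Matrix.vecMul p D = 0 →
      ∃ q : κ' → P, (∀ k, (q k).IsHomogeneous m) ∧ Matrix.vecMul q D' = p

/-- the Koszul complex in four variables -/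
def KosStmt : Prop :=
  ∃ (D1 : Matrix (Fin 4) (Fin 1) P) (D2 : Matrix (Fin 6) (Fin 4) P) (D3 : Matrix (Fin 4) (Fin 6) P)
    (D4 : Matrix (Fin 1) (Fin 4) P), (∀ i j, (D1 i j).IsHomogeneous 1) ∧
    (∀ i j, (D2 i j).IsHomogeneous 1) ∧ (∀ i j, (D3 i j).IsHomogeneous 1) ∧
    (∀ i j, (D4 i j).IsHomogeneous 1) ∧
    (∀ (m : ℕ) (p : Fin 1 → P), (∀ k, (p k).IsHomogeneous (m + 1)) →
      ∃ q : Fin 4 → P, (∀ k, (q k).IsHomogeneous m) ∧ Matrix.vecMul q D1 = p) ∧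
    Ex D2 D1 ∧ Ex D3 D2 ∧ Ex D4 D3 ∧ ∀ p : Fin 1 → P, Matrix.vecMul p D4 = 0 → p = 0

/-- finite dimensional `U`-modules -/
def FD (N : Type) [AddCommGroup N] [Module U N] : Prop :=
  ∃ (ι : Type) (_ : Fintype ι) (v : ι → N), ∀ n, ∃ c : ι → ℂ, n = ∑ k, algebraMap ℂ U (c k) • v k

def C (ι : Type) (m : ℤ) : AddSubgroup (ι → U) := AddSubgroup.pi Set.univ fun _ => (Fz m).toAddSubgroup

/-- `f` maps `A` onto the part of `B` killed by `g` -/
def SEx {X Y Z : Type} [Zero Z] (f : X → Y) (g : Y → Z) (A : Set X) (B : Set Y) : Prop :=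
  (∀ x ∈ A, f x ∈ B ∧ g (f x) = 0) ∧ ∀ y ∈ B, g y = 0 → ∃ x ∈ A, f x = y

/-- strict filtered free resolution of length four -/
def ResStmt : Prop :=
  ∀ (N : Type) [AddCommGroup N] [Module U N], FD N →
    ∃ (ι0 ι1 ι2 ι3 ι4 : Type) (_ : Fintype ι0) (_ : Fintype ι1) (_ : Fintype ι2) (_ : Fintype ι3)
      (_ : Fintype ι4) (ε : (ι0 → U) →ₗ[U] N) (d1 : (ι1 → U) →ₗ[U] (ι0 → U))
      (d2 : (ι2 → U) →ₗ[U] (ι1 → U)) (d3 : (ι3 → U) →ₗ[U] (ι2 → U)) (d4 : (ι4 → U) →ₗ[U] (ι3 → U)),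
      (Nontrivial N → Nonempty ι4) ∧ ∀ m : ℤ, 0 ≤ m → (∀ n, ∃ v ∈ C ι0 m, ε v = n) ∧
        SEx d1 ε (C ι1 (m - 1)) (C ι0 m) ∧ SEx d2 d1 (C ι2 (m - 2)) (C ι1 (m - 1)) ∧
        SEx d3 d2 (C ι3 (m - 3)) (C ι2 (m - 2)) ∧ SEx d4 d3 (C ι4 (m - 4)) (C ι3 (m - 3)) ∧
        ∀ v ∈ C ι4 (m - 4), d4 v = 0 → v = 0

/-! ### tensoring with the dual standard representation -/

structure Dat where
  ψ : U →ₐ[ℂ] Matrix (Fin 2) (Fin 2) U
  T : Matrix (Fin 2) (Fin 2) U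
  comm : ∀ u, T * ψ u = ψ u * T
  T_mem : ∀ i j, T i j ∈ Fz 1
  ψ_mem : ∀ m, ∀ u ∈ Fz m, ∀ i j, ψ u i j ∈ Fz m

/-- matrix acting on a column -/
def mv {N : Type} [AddCommGroup N] [Module U N] (a : Matrix (Fin 2) (Fin 2) U) (v : Fin 2 → N) :
    Fin 2 → N := fun i => ∑ j, a i j • v j

section
variable {N : Type} [AddCommGroup N] [Module U N]
lemma mv_mul (a b : Matrix (Fin 2) (Fin 2) U) (v : Fin 2 → N) : mv (a * b) v = mv a (mv b v) := by
  funext i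
  simp only [mv, Matrix.mul_apply, Finset.sum_smul, Finset.smul_sum, mul_smul]
  exact Finset.sum_comm
lemma mv_one (v : Fin 2 → N) : mv 1 v = v := by funext i; simp [mv, Matrix.one_apply]
lemma mv_add (a : Matrix (Fin 2) (Fin 2) U) (v w : Fin 2 → N) : mv a (v + w) = mv a v + mv a w := by
  funext i; simp [mv, Finset.sum_add_distrib]
lemma add_mv (a b : Matrix (Fin 2) (Fin 2) U) (v : Fin 2 → N) : mv (a + b) v = mv a v + mv b v := by
  funext i; simp [mv, add_smul, Finset.sum_add_distrib]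
lemma mv_zero (a : Matrix (Fin 2) (Fin 2) U) : mv a (0 : Fin 2 → N) = 0 := by funext i; simp [mv]
lemma zero_mv (v : Fin 2 → N) : mv 0 v = 0 := by funext i; simp [mv]
end

@[nolint unusedArguments] def Tw (_ : Dat) (N : Type) : Type := Fin 2 → N

section
variable (D : Dat) (N : Type) [AddCommGroup N] [Module U N]
instance : AddCommGroup (Tw D N) := inferInstanceAs (AddCommGroup (Fin 2 → N))
instance : Module U (Tw D N) where
  smul u v := mv (N := N) (D.ψ u) v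
  one_smul v := show mv (N := N) (D.ψ 1) v = v by rw [map_one, mv_one]
  mul_smul a b v := show mv (N := N) (D.ψ (a * b)) v = _ by rw [map_mul, mv_mul]; rfl
  smul_zero a := mv_zero (N := N) _
  smul_add a v w := mv_add (N := N) _ _ _
  add_smul a b v := show mv (N := N) (D.ψ (a + b)) v = _ by rw [map_add, add_mv]; rfl
  zero_smul v := show mv (N := N) (D.ψ 0) v = _ by rw [map_zero, zero_mv]; rfl
lemma Tw.smul_def (u : U) (v : Tw D N) : u • v = mv (N := N) (D.ψ u) v := rfl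

def TN : Tw D N →ₗ[U] Tw D N where
  toFun v := mv (N := N) D.T v
  map_add' := mv_add (N := N) _
  map_smul' u v := show mv (N := N) D.T (mv (N := N) (D.ψ u) v) = mv (N := N) (D.ψ u) (mv (N := N) D.T v) by
    rw [← mv_mul, D.comm, mv_mul]
end

def RepStmt : Prop :=
  ∃ (D : Dat) (N : ℕ → ModuleCat.{0} U), (∀ d, FD (N d)) ∧ (∀ d, FD (Tw D (N d))) ∧ Nontrivial (N 0) ∧
    Function.Bijective (TN D (N 0)) ∧
    ∀ d, ∃ (α : N d →ₗ[U] Tw D (N (d + 1))) (β : Tw D (N (d + 1)) →ₗ[U] N d), Function.Injective α ∧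
      Function.Exact α (TN D (N (d + 1))) ∧ Function.Exact (TN D (N (d + 1))) β ∧ Function.Surjective β

/-! ### homological bookkeeping -/

section
variable {A : Type} [Ring A]
def PD (n : ℕ) (M : Type) [AddCommGroup M] [Module A M] : Prop :=
  HasProjectiveDimensionLT (ModuleCat.of A M) n
def V (S : ModuleCat.{0} A) (n : ℕ) (M : Type) [AddCommGroup M] [Module A M] : Prop :=
  ∀ e : Abelian.Ext.{0} (ModuleCat.of A M) S n, e = 0
end

structure HomStmt : Prop where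
  se : ∀ {A : Type} [Ring A] {X Y Z : Type} [AddCommGroup X] [Module A X] [AddCommGroup Y] [Module A Y]
    [AddCommGroup Z] [Module A Z] (f : X →ₗ[A] Y) (g : Y →ₗ[A] Z), Function.Injective f →
    Function.Exact f g → Function.Surjective g → ∀ (S : ModuleCat.{0} A) (n : ℕ),
    (PD (A := A) n X → PD (A := A) n Z → PD (A := A) n Y) ∧
    (PD (A := A) n X → PD (A := A) (n + 1) Y → PD (A := A) (n + 1) Z) ∧
    (V S n Y → V S (n + 1) Z → V S n X)
  pdv : ∀ {A : Type} [Ring A] {X : Type} [AddCommGroup X] [Module A X] (S : ModuleCat.{0} A) (n m : ℕ),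
    n ≤ m → PD (A := A) n X → PD (A := A) m X ∧ V S m X
  equiv : ∀ {A : Type} [Ring A] {X Y : Type} [AddCommGroup X] [Module A X] [AddCommGroup Y] [Module A Y]
    (f : X →ₗ[A] Y), Function.Bijective f → ∀ (S : ModuleCat.{0} A) (n : ℕ),
    (PD (A := A) n X ↔ PD (A := A) n Y) ∧ (V S n X ↔ V S n Y)
  res : ∀ {A : Type} [Ring A] {Q0 Q1 Q2 Q3 Q4 M : Type} [AddCommGroup Q0] [Module A Q0]
    [AddCommGroup Q1] [Module A Q1] [AddCommGroup Q2] [Module A Q2] [AddCommGroup Q3] [Module A Q3]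
    [AddCommGroup Q4] [Module A Q4] [AddCommGroup M] [Module A M] (ε : Q0 →ₗ[A] M) (d1 : Q1 →ₗ[A] Q0)
    (d2 : Q2 →ₗ[A] Q1) (d3 : Q3 →ₗ[A] Q2) (d4 : Q4 →ₗ[A] Q3), Module.Projective A Q0 →
    Module.Projective A Q1 → Module.Projective A Q2 → Module.Projective A Q3 → Module.Projective A Q4 →
    Function.Surjective ε → Function.Exact d1 ε → Function.Exact d2 d1 → Function.Exact d3 d2 →
    Function.Exact d4 d3 → Function.Injective d4 → ∀ S : ModuleCat.{0} A, PD (A := A) 5 M ∧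
    ((∀ f : Q4 →ₗ[A] S, f = 0) → V S 4 M) ∧
    ((∀ f : Q3 →ₗ[A] S, f = 0) → V S 4 M → ∀ f : Q4 →ₗ[A] S, f = 0)

end Crest.Agent.H9.Fd
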