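import Crest.Agent.H9.FdW

/-! Row 178: the filtered algebra and its modules. -/

set_option autoImplicit false
set_option linter.unusedSectionVars false

noncomputable section
namespace Crest.Agent.H9.Fd

def xs {N : Type} [AddCommGroup N] [Module U N] (x : Fin 2 → U) (n : N) : Fin 2 → N := fun l => x l • n

section
variable {N : Type} [AddCommGroup N] [Module U N]
lemma mv_xs (a : Matrix (Fin 2) (Fin 2) U) (x : Fin 2 → U) (n : N) :
    mv a (xs x n) = xs (mv a x) n := by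
  funext l; simp [mv, xs, add_smul, mul_smul]
lemma xs_add (x : Fin 2 → U) (n n' : N) : xs x (n + n') = xs x n + xs x n' := by funext l; simp [xs]
lemma add_xs (x x' : Fin 2 → U) (n : N) : xs (x + x') n = xs x n + xs x' n := by
  funext l; simp [xs, add_smul]
lemma xs_smul (x : Fin 2 → U) (c : U) (n : N) : xs x (c • n) = xs (xs x c) n := by
  funext l; simp [xs, mul_smul]
lemma xs_zero (x : Fin 2 → U) : xs x (0 : N) = 0 := by funext l; simp [xs]
lemma zero_xs (n : N) : xs 0 n = 0 := by funext l; simp [xs]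
lemma xs_one (x : Fin 2 → U) : xs x (1 : U) = x := by funext l; simp [xs]
lemma mv_T (D : Dat) (u : U) (v : Fin 2 → N) : mv D.T (mv (D.ψ u) v) = mv (D.ψ u) (mv D.T v) := by
  rw [← mv_mul, D.comm, mv_mul]
end

@[nolint unusedArguments] def Rh (_ : Dat) : Type := U × U × U × (Fin 2 → U) × (Fin 2 → U)

variable {D : Dat}

instance : AddCommGroup (Rh D) :=
  inferInstanceAs (AddCommGroup (U × U × U × (Fin 2 → U) × (Fin 2 → U)))
instance : Module ℂ (Rh D) := inferInstanceAs (Module ℂ (U × U × U × (Fin 2 → U) × (Fin 2 → U)))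

namespace Rh
def a (r : Rh D) : U := r.1
def b (r : Rh D) : U := r.2.1
def c (r : Rh D) : U := r.2.2.1
def x (r : Rh D) : Fin 2 → U := r.2.2.2.1
def y (r : Rh D) : Fin 2 → U := r.2.2.2.2
def mk (D : Dat) (a b c : U) (x y : Fin 2 → U) : Rh D := (a, b, c, x, y)

@[ext] lemma ext {r s : Rh D} (h1 : r.a = s.a) (h2 : r.b = s.b) (h3 : r.c = s.c) (h4 : r.x = s.x)
    (h5 : r.y = s.y) : r = s := Prod.ext h1 (Prod.ext h2 (Prod.ext h3 (Prod.ext h4 h5)))

instance : Mul (Rh D) := ⟨fun r s => mk D (r.a * s.a) (r.b * s.a + r.c * s.b) (r.c * s.c)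
  (mv (D.ψ r.a) s.x + xs r.x s.c) (mv (D.ψ r.c) s.y + mv (D.ψ r.b) (mv D.T s.x) + xs r.y s.c)⟩
instance : One (Rh D) := ⟨mk D 1 0 1 0 0⟩

section
variable (r s : Rh D) (a' b' c' : U) (x' y' : Fin 2 → U) (t : ℂ)
@[simp] lemma mk_a : (mk D a' b' c' x' y').a = a' := rfl
@[simp] lemma mk_b : (mk D a' b' c' x' y').b = b' := rfl
@[simp] lemma mk_c : (mk D a' b' c' x' y').c = c' := rfl
@[simp] lemma mk_x : (mk D a' b' c' x' y').x = x' := rfl
@[simp] lemma mk_y : (mk D a' b' c' x' y').y = y' := rfl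
@[simp] lemma add_a : (r + s).a = r.a + s.a := rfl
@[simp] lemma add_b : (r + s).b = r.b + s.b := rfl
@[simp] lemma add_c : (r + s).c = r.c + s.c := rfl
@[simp] lemma add_x : (r + s).x = r.x + s.x := rfl
@[simp] lemma add_y : (r + s).y = r.y + s.y := rfl
@[simp] lemma zero_a : (0 : Rh D).a = 0 := rfl
@[simp] lemma zero_b : (0 : Rh D).b = 0 := rfl
@[simp] lemma zero_c : (0 : Rh D).c = 0 := rfl
@[simp] lemma zero_x : (0 : Rh D).x = 0 := rfl
@[simp] lemma zero_y : (0 : Rh D).y = 0 := rfl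
@[simp] lemma one_a : (1 : Rh D).a = 1 := rfl
@[simp] lemma one_b : (1 : Rh D).b = 0 := rfl
@[simp] lemma one_c : (1 : Rh D).c = 1 := rfl
@[simp] lemma one_x : (1 : Rh D).x = 0 := rfl
@[simp] lemma one_y : (1 : Rh D).y = 0 := rfl
@[simp] lemma smul_a : (t • r).a = t • r.a := rfl
@[simp] lemma smul_b : (t • r).b = t • r.b := rfl
@[simp] lemma smul_c : (t • r).c = t • r.c := rfl
@[simp] lemma smul_x : (t • r).x = t • r.x := rfl
@[simp] lemma smul_y : (t • r).y = t • r.y := rfl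
@[simp] lemma mul_a : (r * s).a = r.a * s.a := rfl
@[simp] lemma mul_b : (r * s).b = r.b * s.a + r.c * s.b := rfl
@[simp] lemma mul_c : (r * s).c = r.c * s.c := rfl
@[simp] lemma mul_x : (r * s).x = mv (D.ψ r.a) s.x + xs r.x s.c := rfl
@[simp] lemma mul_y : (r * s).y = mv (D.ψ r.c) s.y + mv (D.ψ r.b) (mv D.T s.x) + xs r.y s.c := rfl
end

lemma xs_mul (x : Fin 2 → U) (c c' : U) : xs x (c * c') = xs (xs x c) c' := xs_smul x c c'

instance : Ring (Rh D) :=
  { (inferInstance : AddCommGroup (Rh D)), (inferInstance : Mul (Rh D)),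
    (inferInstance : One (Rh D)) with
    left_distrib := fun r s t => by
      refine Rh.ext ?_ ?_ ?_ ?_ ?_ <;> simp only [mul_a, mul_b, mul_c, mul_x, mul_y, add_a, add_b,
        add_c, add_x, add_y, mul_add, mv_add, xs_add] <;> abel
    right_distrib := fun r s t => by
      refine Rh.ext ?_ ?_ ?_ ?_ ?_ <;> simp only [mul_a, mul_b, mul_c, mul_x, mul_y, add_a, add_b,
        add_c, add_x, add_y, add_mul, map_add, add_mv, add_xs] <;> abel
    zero_mul := fun r => by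
      refine Rh.ext ?_ ?_ ?_ ?_ ?_ <;> simp [zero_mv, zero_xs]
    mul_zero := fun r => by
      refine Rh.ext ?_ ?_ ?_ ?_ ?_ <;> simp [mv_zero, xs_zero]
    mul_assoc := fun r s t => by
      refine Rh.ext ?_ ?_ ?_ ?_ ?_ <;> simp only [mul_a, mul_b, mul_c, mul_x, mul_y, mul_add, add_mul,
        mul_assoc, map_add, map_mul, mv_mul, mv_add, add_mv, add_xs, mv_xs, xs_mul, mv_T] <;> abel
    one_mul := fun r => by
      refine Rh.ext ?_ ?_ ?_ ?_ ?_ <;> simp [zero_mv, zero_xs, mv_one]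
    mul_one := fun r => by
      refine Rh.ext ?_ ?_ ?_ ?_ ?_ <;> simp [mv_zero, xs_one] }

lemma smul_mv (t : ℂ) (a : Matrix (Fin 2) (Fin 2) U) (v : Fin 2 → U) : mv (t • a) v = t • mv a v := by
  funext l; simp [mv]
lemma mv_smul (t : ℂ) (a : Matrix (Fin 2) (Fin 2) U) (v : Fin 2 → U) : mv a (t • v) = t • mv a v := by
  funext l; simp [mv]
lemma smul_xs (t : ℂ) (x : Fin 2 → U) (c : U) : xs (t • x) c = t • xs x c := by funext l; simp [xs]
lemma xs_csmul (t : ℂ) (x : Fin 2 → U) (c : U) : xs x (t • c) = t • xs x c := by funext l; simp [xs]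

instance : Algebra ℂ (Rh D) := Algebra.ofModule
  (fun t r s => by
    refine Rh.ext ?_ ?_ ?_ ?_ ?_ <;> simp [smul_mv, smul_xs])
  (fun t r s => by
    refine Rh.ext ?_ ?_ ?_ ?_ ?_ <;> simp [mv_smul, xs_csmul])

end Rh
open Rh

/-- filtered `U`-modules -/
structure UF (N : Type) [AddCommGroup N] [Module U N] where
  φ : ℤ → AddSubgroup N
  smul : ∀ {a b : ℤ} {u : U} {n : N}, u ∈ Fz a → n ∈ φ b → u • n ∈ φ (a + b)

def UF.top (N : Type) [AddCommGroup N] [Module U N] : UF N := ⟨fun _ => ⊤, fun _ _ => trivial⟩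

def UF.free (ι : Type) (r : ℤ) : UF (ι → U) :=
  ⟨fun m => C ι (m - r), fun {a b _ _} hu hn k _ => by
    have := Fz_mul hu (hn k trivial)
    rw [show a + b - r = a + (b - r) by ring]
    exact this⟩

lemma UF.mv_mem {N : Type} [AddCommGroup N] [Module U N] (ν : UF N) {a b : ℤ}
    {m : Matrix (Fin 2) (Fin 2) U} {v : Fin 2 → N} (hm : ∀ i j, m i j ∈ Fz a) (hv : ∀ l, v l ∈ ν.φ b)
    (l : Fin 2) : mv m v l ∈ ν.φ (a + b) :=
  AddSubgroup.sum_mem _ fun j _ => ν.smul (hm l j) (hv j)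

def UF.self : UF U := ⟨fun m => (Fz m).toAddSubgroup, Fz_mul⟩

def Fh (D : Dat) : Fil (Rh D) where
  F m := (Fz m).prod ((Fz m).prod ((Fz m).prod ((Submodule.pi Set.univ fun _ => Fz m).prod
    (Submodule.pi Set.univ fun _ => Fz (m + 1)))))
  one := by
    have : (1 : U) ∈ Fz 0 := (Fz_nat 0).symm ▸ one_mem_F 0
    exact ⟨this, zero_mem _, this, zero_mem _, zero_mem _⟩
  mul := by
    rintro m n r s ⟨h1, h2, h3, h4, h5⟩ ⟨g1, g2, g3, g4, g5⟩
    refine ⟨Fz_mul h1 g1, add_mem (Fz_mul h2 g1) (Fz_mul h3 g2), Fz_mul h3 g3, fun l _ => add_mem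
      (UF.self.mv_mem (D.ψ_mem _ _ h1) (fun l => g4 l trivial) l) (Fz_mul (h4 l trivial) g3),
      fun l _ => add_mem (add_mem ?_ ?_) ?_⟩
    · rw [add_assoc]; exact UF.self.mv_mem (D.ψ_mem _ _ h3) (fun l => g5 l trivial) l
    · rw [add_assoc, add_comm n]
      exact UF.self.mv_mem (D.ψ_mem _ _ h2) (UF.self.mv_mem D.T_mem fun l => g4 l trivial) l
    · rw [add_right_comm]; exact Fz_mul (h5 l trivial) g3
  fg m := (Fz_fg m).prod ((Fz_fg m).prod ((Fz_fg m).prod ((Submodule.fg_pi fun _ => Fz_fg m).prod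
    (Submodule.fg_pi fun _ => Fz_fg _))))

/-! ### the modules `H τ` and `G N` -/

section
variable {M0 M1 N : Type} [AddCommGroup M0] [Module U M0] [AddCommGroup M1] [Module U M1]
  [AddCommGroup N] [Module U N]

@[nolint unusedArguments] def H (_ : Dat) (_ : M0 →ₗ[U] M1) : Type := M0 × M1

instance (τ : M0 →ₗ[U] M1) : AddCommGroup (H D τ) := inferInstanceAs (AddCommGroup (M0 × M1))
instance (τ : M0 →ₗ[U] M1) : SMul (Rh D) (H D τ) :=
  ⟨fun r m => (r.a • m.1, r.b • τ m.1 + r.c • m.2)⟩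
@[ext] lemma H.ext {τ : M0 →ₗ[U] M1} {m m' : H D τ} (h1 : m.1 = m'.1) (h2 : m.2 = m'.2) : m = m' :=
  Prod.ext h1 h2
@[simp] lemma H.smul_1 {τ : M0 →ₗ[U] M1} (r : Rh D) (m : H D τ) : (r • m).1 = r.a • m.1 := rfl
@[simp] lemma H.smul_2 {τ : M0 →ₗ[U] M1} (r : Rh D) (m : H D τ) :
    (r • m).2 = r.b • τ m.1 + r.c • m.2 := rfl
@[simp] lemma H.add_1 {τ : M0 →ₗ[U] M1} (m m' : H D τ) : (m + m').1 = m.1 + m'.1 := rfl
@[simp] lemma H.add_2 {τ : M0 →ₗ[U] M1} (m m' : H D τ) : (m + m').2 = m.2 + m'.2 := rfl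
@[simp] lemma H.zero_1 {τ : M0 →ₗ[U] M1} : (0 : H D τ).1 = 0 := rfl
@[simp] lemma H.zero_2 {τ : M0 →ₗ[U] M1} : (0 : H D τ).2 = 0 := rfl

instance (τ : M0 →ₗ[U] M1) : Module (Rh D) (H D τ) where
  one_smul m := H.ext (by simp) (by simp)
  mul_smul r s m := H.ext (by simp [mul_smul]) (by simp [mul_smul, add_smul, add_assoc])
  smul_zero r := H.ext (by simp) (by simp)
  smul_add r m m' := H.ext (by simp) (by simp only [H.smul_2, H.add_1, H.add_2, map_add, smul_add]; abel)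
  add_smul r s m := H.ext (by simp [add_smul])
    (by simp only [H.smul_2, H.add_2, add_b, add_c, add_smul]; abel)
  zero_smul m := H.ext (by simp) (by simp)

def Hmap {M0' M1' : Type} [AddCommGroup M0'] [Module U M0'] [AddCommGroup M1'] [Module U M1']
    (τ : M0 →ₗ[U] M1) (τ' : M0' →ₗ[U] M1') (f0 : M0 →ₗ[U] M0') (f1 : M1 →ₗ[U] M1')
    (h : ∀ m, τ' (f0 m) = f1 (τ m)) : H D τ →ₗ[Rh D] H D τ' where
  toFun m := (f0 m.1, f1 m.2)
  map_add' m m' := H.ext (map_add f0 _ _) (map_add f1 _ _)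
  map_smul' r m := H.ext (map_smul f0 _ _) (by
    show f1 (r.b • τ m.1 + r.c • m.2) = r.b • τ' (f0 m.1) + r.c • f1 m.2
    rw [h]; simp)

def HF (D : Dat) (τ : M0 →ₗ[U] M1) (ν0 : UF M0) (ν1 : UF M1) (h : ∀ j, ∀ m ∈ ν0.φ j, τ m ∈ ν1.φ j) :
    MF (Fh D) (H D τ) where
  φ j := (ν0.φ j).prod (ν1.φ j)
  smul := by
    rintro a b r m ⟨h1, h2, h3, -⟩ ⟨g1, g2⟩
    exact ⟨ν0.smul h1 g1, add_mem (ν1.smul h2 (h _ _ g1)) (ν1.smul h3 g2)⟩

@[nolint unusedArguments] def G (_ : Dat) (N : Type) : Type := (Fin 2 → N) × N × (Fin 2 → N)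

instance : AddCommGroup (G D N) := inferInstanceAs (AddCommGroup ((Fin 2 → N) × N × (Fin 2 → N)))
instance : SMul (Rh D) (G D N) :=
  ⟨fun r m => (mv (D.ψ r.a) m.1 + xs r.x m.2.1, r.c • m.2.1,
    mv (D.ψ r.c) m.2.2 + mv (D.ψ r.b) (mv D.T m.1) + xs r.y m.2.1)⟩
@[ext] lemma G.ext {m m' : G D N} (h1 : m.1 = m'.1) (h2 : m.2.1 = m'.2.1) (h3 : m.2.2 = m'.2.2) :
    m = m' := Prod.ext h1 (Prod.ext h2 h3)
@[simp] lemma G.smul_1 (r : Rh D) (m : G D N) : (r • m).1 = mv (D.ψ r.a) m.1 + xs r.x m.2.1 := rfl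
@[simp] lemma G.smul_2 (r : Rh D) (m : G D N) : (r • m).2.1 = r.c • m.2.1 := rfl
@[simp] lemma G.smul_3 (r : Rh D) (m : G D N) :
    (r • m).2.2 = mv (D.ψ r.c) m.2.2 + mv (D.ψ r.b) (mv D.T m.1) + xs r.y m.2.1 := rfl
@[simp] lemma G.add_1 (m m' : G D N) : (m + m').1 = m.1 + m'.1 := rfl
@[simp] lemma G.add_2 (m m' : G D N) : (m + m').2.1 = m.2.1 + m'.2.1 := rfl
@[simp] lemma G.add_3 (m m' : G D N) : (m + m').2.2 = m.2.2 + m'.2.2 := rfl
@[simp] lemma G.zero_1 : (0 : G D N).1 = 0 := rfl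
@[simp] lemma G.zero_2 : (0 : G D N).2.1 = 0 := rfl
@[simp] lemma G.zero_3 : (0 : G D N).2.2 = 0 := rfl

instance : Module (Rh D) (G D N) where
  one_smul m := by refine G.ext ?_ ?_ ?_ <;> simp [zero_mv, zero_xs, mv_one]
  mul_smul r s m := by
    refine G.ext ?_ ?_ ?_ <;> simp only [G.smul_1, G.smul_2, G.smul_3, mul_a, mul_b, mul_c, mul_x,
      mul_y, mul_smul, map_add, map_mul, mv_mul, mv_add, add_mv, add_xs, mv_xs, xs_smul, mv_T] <;> abel
  smul_zero r := by refine G.ext ?_ ?_ ?_ <;> simp [mv_zero, xs_zero]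
  smul_add r m m' := by
    refine G.ext ?_ ?_ ?_ <;> simp only [G.smul_1, G.smul_2, G.smul_3, G.add_1, G.add_2, G.add_3,
      mv_add, xs_add, smul_add] <;> abel
  add_smul r s m := by
    refine G.ext ?_ ?_ ?_ <;> simp only [G.smul_1, G.smul_2, G.smul_3, G.add_1, G.add_2, G.add_3,
      add_a, add_b, add_c, add_x, add_y, map_add, add_mv, add_xs, add_smul] <;> abel
  zero_smul m := by refine G.ext ?_ ?_ ?_ <;> simp [zero_mv, zero_xs]

lemma map_mv {N' : Type} [AddCommGroup N'] [Module U N'] (f : N →ₗ[U] N') (a : Matrix (Fin 2) (Fin 2) U)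
    (v : Fin 2 → N) : (fun l => f (mv a v l)) = mv a (fun l => f (v l)) := by
  funext l; simp [mv]

def Gmap {N' : Type} [AddCommGroup N'] [Module U N'] (f : N →ₗ[U] N') : G D N →ₗ[Rh D] G D N' where
  toFun m := (fun l => f (m.1 l), f m.2.1, fun l => f (m.2.2 l))
  map_add' m m' := G.ext (funext fun _ => map_add f _ _) (map_add f _ _) (funext fun _ => map_add f _ _)
  map_smul' r m := G.ext (funext fun l => by
      show f (mv (D.ψ r.a) m.1 l + r.x l • m.2.1) = mv (D.ψ r.a) (fun l => f (m.1 l)) l + r.x l • f m.2.1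
      rw [← map_mv]; simp) (map_smul f _ _) (funext fun l => by
      show f (mv (D.ψ r.c) m.2.2 l + mv (D.ψ r.b) (mv D.T m.1) l + r.y l • m.2.1) =
        mv (D.ψ r.c) (fun l => f (m.2.2 l)) l + mv (D.ψ r.b) (mv D.T fun l => f (m.1 l)) l +
          r.y l • f m.2.1
      rw [← map_mv, ← map_mv, ← map_mv]; simp)

def GF (D : Dat) (ν : UF N) : MF (Fh D) (G D N) where
  φ j := (AddSubgroup.pi Set.univ fun _ => ν.φ j).prod ((ν.φ j).prod
    (AddSubgroup.pi Set.univ fun _ => ν.φ (j + 1)))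
  smul := by
    rintro m n r s ⟨h1, h2, h3, h4, h5⟩ ⟨g4, g3, g5⟩
    refine ⟨fun l _ => add_mem (ν.mv_mem (D.ψ_mem _ _ h1) (fun l => g4 l trivial) l)
      (ν.smul (h4 l trivial) g3), ν.smul h3 g3, fun l _ =>
        (ν.φ (m + n + 1)).add_mem ((ν.φ (m + n + 1)).add_mem ?_ ?_) ?_⟩
    · rw [add_assoc]; exact ν.mv_mem (D.ψ_mem _ _ h3) (fun l => g5 l trivial) l
    · rw [add_assoc, add_comm n]
      exact ν.mv_mem (D.ψ_mem _ _ h2) (ν.mv_mem D.T_mem fun l => g4 l trivial) l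
    · rw [add_right_comm]; exact ν.smul (h5 l trivial) g3

end

end Crest.Agent.H9.Fd
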