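import Crest.Agent.H9.FdI

/-! Row 178: windows of filtered algebras and modules. -/

set_option autoImplicit false
set_option linter.unusedSectionVars false

noncomputable section
namespace Crest.Agent.H9.Fd

structure Fil (R : Type) [Ring R] [Algebra ℂ R] where
  F : ℤ → Submodule ℂ R
  one : 1 ∈ F 0
  mul : ∀ {a b : ℤ} {u v : R}, u ∈ F a → v ∈ F b → u * v ∈ F (a + b)
  fg : ∀ m, (F m).FG

variable {R : Type} [Ring R] [Algebra ℂ R]

def WA (Φ : Fil R) : Subalgebra ℂ (Matrix (Fin 5) (Fin 5) R) where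
  carrier := {a | ∀ j i : Fin 5, a j i ∈ Φ.F ((j : ℕ) - (i : ℕ))}
  mul_mem' {a b} ha hb j i := by
    rw [Matrix.mul_apply]
    refine Submodule.sum_mem _ fun k _ => ?_
    have := Φ.mul (ha j k) (hb k i)
    rwa [sub_add_sub_cancel] at this
  add_mem' ha hb j i := add_mem (ha j i) (hb j i)
  algebraMap_mem' c j i := by
    rw [Matrix.algebraMap_matrix_apply]
    split_ifs with h
    · rw [h, sub_self, Algebra.algebraMap_eq_smul_one]; exact Submodule.smul_mem _ _ Φ.one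
    · exact zero_mem _

lemma WA_fd (Φ : Fil R) : FiniteDimensional ℂ (WA Φ) := by
  have : (Submodule.pi Set.univ fun j : Fin 5 => Submodule.pi Set.univ fun i : Fin 5 =>
      Φ.F ((j : ℕ) - (i : ℕ))).FG := Submodule.fg_pi fun _ => Submodule.fg_pi fun _ => Φ.fg _
  have e : (Subalgebra.toSubmodule (WA Φ)) = (Submodule.pi Set.univ fun j : Fin 5 =>
      Submodule.pi Set.univ fun i : Fin 5 => Φ.F ((j : ℕ) - (i : ℕ))) := by
    ext a
    exact ⟨fun h j _ i _ => h j i, fun h j i => h j trivial i trivial⟩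
  exact Module.Finite.iff_fg.2 (show (Subalgebra.toSubmodule (WA Φ)).FG from e ▸ this)

structure MF (Φ : Fil R) (M : Type) [AddCommGroup M] [Module R M] where
  φ : ℤ → AddSubgroup M
  smul : ∀ {a b : ℤ} {r : R} {m : M}, r ∈ Φ.F a → m ∈ φ b → r • m ∈ φ (a + b)

variable {Φ : Fil R} {M M' M'' : Type} [AddCommGroup M] [Module R M] [AddCommGroup M'] [Module R M']
  [AddCommGroup M''] [Module R M'']

def MF.top (Φ : Fil R) (M : Type) [AddCommGroup M] [Module R M] : MF Φ M :=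
  ⟨fun _ => ⊤, fun _ _ => trivial⟩

def W (μ : MF Φ M) : Type := ↥(AddSubgroup.pi Set.univ fun j : Fin 5 => μ.φ (j : ℕ))

instance (μ : MF Φ M) : AddCommGroup (W μ) :=
  inferInstanceAs (AddCommGroup ↥(AddSubgroup.pi Set.univ fun j : Fin 5 => μ.φ (j : ℕ)))

lemma W.mem {μ : MF Φ M} (v : W μ) (j : Fin 5) : v.1 j ∈ μ.φ (j : ℕ) := v.2 j trivial
def W.mk {μ : MF Φ M} (v : Fin 5 → M) (h : ∀ j : Fin 5, v j ∈ μ.φ (j : ℕ)) : W μ := ⟨v, fun j _ => h j⟩
@[ext] lemma W.ext {μ : MF Φ M} {v w : W μ} (h : ∀ j, v.1 j = w.1 j) : v = w := Subtype.ext (funext h)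
@[simp] lemma W.add_val {μ : MF Φ M} (v w : W μ) (j : Fin 5) : (v + w).1 j = v.1 j + w.1 j := rfl
@[simp] lemma W.zero_val {μ : MF Φ M} (j : Fin 5) : (0 : W μ).1 j = 0 := rfl
lemma W.sum_val {μ : MF Φ M} {ι : Type} (s : Finset ι) (v : ι → W μ) (j : Fin 5) :
    (∑ k ∈ s, v k).1 j = ∑ k ∈ s, (v k).1 j := by
  classical
  induction s using Finset.induction_on with
  | empty => simp
  | insert a s ha ih => rw [Finset.sum_insert ha, Finset.sum_insert ha, W.add_val, ih]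

instance (μ : MF Φ M) : SMul (WA Φ) (W μ) :=
  ⟨fun a v => W.mk (fun j => ∑ i, a.1 j i • v.1 i) fun j => AddSubgroup.sum_mem _ fun i _ => by
    have := μ.smul (a.2 j i) (v.mem i)
    rwa [sub_add_cancel] at this⟩

lemma W.smul_val {μ : MF Φ M} (a : WA Φ) (v : W μ) (j : Fin 5) :
    (a • v).1 j = ∑ i, a.1 j i • v.1 i := rfl

instance (μ : MF Φ M) : Module (WA Φ) (W μ) where
  one_smul v := W.ext fun j => by simp [W.smul_val, Matrix.one_apply]
  mul_smul a b v := W.ext fun j => by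
    simp only [W.smul_val, MulMemClass.coe_mul, Matrix.mul_apply, Finset.sum_smul, Finset.smul_sum,
      mul_smul]
    exact Finset.sum_comm
  smul_zero a := W.ext fun j => by simp [W.smul_val]
  smul_add a v w := W.ext fun j => by simp [W.smul_val, Finset.sum_add_distrib]
  add_smul a b v := W.ext fun j => by simp [W.smul_val, add_smul, Finset.sum_add_distrib]
  zero_smul v := W.ext fun j => by simp [W.smul_val]

def Wmap (μ : MF Φ M) (μ' : MF Φ M') (f : M →ₗ[R] M')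
    (h : ∀ j : Fin 5, ∀ m ∈ μ.φ (j : ℕ), f m ∈ μ'.φ (j : ℕ)) : W μ →ₗ[WA Φ] W μ' where
  toFun v := W.mk (fun j => f (v.1 j)) fun j => h j _ (v.mem j)
  map_add' v w := W.ext fun j => map_add f _ _
  map_smul' a v := W.ext fun j => by
    show f (∑ i, a.1 j i • v.1 i) = ∑ i, a.1 j i • f (v.1 i)
    simp

lemma W_exact {μ : MF Φ M} {μ' : MF Φ M'} {μ'' : MF Φ M''} {f : M →ₗ[R] M'} {g : M' →ₗ[R] M''}
    {hf : ∀ j : Fin 5, ∀ m ∈ μ.φ (j : ℕ), f m ∈ μ'.φ (j : ℕ)}
    {hg : ∀ j : Fin 5, ∀ m ∈ μ'.φ (j : ℕ), g m ∈ μ''.φ (j : ℕ)}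
    (h : ∀ j : Fin 5, SEx f g (μ.φ (j : ℕ)) (μ'.φ (j : ℕ))) :
    Function.Exact (Wmap μ μ' f hf) (Wmap μ' μ'' g hg) := by
  intro v
  constructor
  · intro hv
    choose x hx hx' using fun j => (h j).2 (v.1 j) (v.mem j) (congrArg (fun w : W μ'' => w.1 j) hv)
    exact ⟨W.mk x hx, W.ext hx'⟩
  · rintro ⟨x, rfl⟩
    exact W.ext fun j => ((h j).1 _ (x.mem j)).2

lemma W_inj {μ : MF Φ M} {μ' : MF Φ M'} {f : M →ₗ[R] M'}
    {hf : ∀ j : Fin 5, ∀ m ∈ μ.φ (j : ℕ), f m ∈ μ'.φ (j : ℕ)}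
    (h : ∀ j : Fin 5, ∀ m ∈ μ.φ (j : ℕ), f m = 0 → m = 0) : Function.Injective (Wmap μ μ' f hf) :=
  (injective_iff_map_eq_zero _).2 fun v hv => W.ext fun j =>
    h j _ (v.mem j) (congrArg (fun w : W μ' => w.1 j) hv)

lemma W_surj {μ : MF Φ M} {μ' : MF Φ M'} {f : M →ₗ[R] M'}
    {hf : ∀ j : Fin 5, ∀ m ∈ μ.φ (j : ℕ), f m ∈ μ'.φ (j : ℕ)}
    (h : ∀ j : Fin 5, ∀ m' ∈ μ'.φ (j : ℕ), ∃ m ∈ μ.φ (j : ℕ), f m = m') :
    Function.Surjective (Wmap μ μ' f hf) := fun v => by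
  choose x hx hx' using fun j => h j _ (v.mem j)
  exact ⟨W.mk x hx, W.ext hx'⟩

/-- a filtered dual basis at level `r` -/
structure DB (μ : MF Φ M) (r : Fin 5) (e : R) (ι : Type) [Fintype ι] where
  g : ι → M
  i : ι → M →ₗ[R] R
  g_mem : ∀ k, g k ∈ μ.φ (r : ℕ)
  i_mem : ∀ k (j : Fin 5), ∀ m ∈ μ.φ (j : ℕ), i k m ∈ Φ.F ((j : ℕ) - (r : ℕ))
  sum : ∀ m, ∑ k, i k m • g k = m
  e_mem : e ∈ Φ.F 0
  e_g : ∀ k, e • g k = g k

variable {μ : MF Φ M} {r : Fin 5} {e : R} {ι : Type} [Fintype ι]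

def DB.gen (b : DB μ r e ι) (k : ι) : W μ := W.mk (Pi.single r (b.g k)) fun j => by
  by_cases h : j = r
  · subst h; simpa using b.g_mem k
  · rw [Pi.single_eq_of_ne h]; exact zero_mem _

def DB.co (b : DB μ r e ι) : W μ →ₗ[WA Φ] (ι → WA Φ) where
  toFun v k := ⟨Matrix.of fun j i => if i = r then b.i k (v.1 j) else 0, fun j i => by
    rw [Matrix.of_apply]
    split_ifs with h
    · rw [h]; exact b.i_mem k j _ (v.mem j)
    · exact zero_mem _⟩
  map_add' v w := by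
    funext k; refine Subtype.ext (Matrix.ext fun j i => ?_)
    show (if i = r then b.i k (v.1 j + w.1 j) else 0) =
      (if i = r then b.i k (v.1 j) else 0) + (if i = r then b.i k (w.1 j) else 0)
    split_ifs <;> simp
  map_smul' a v := by
    funext k; refine Subtype.ext (Matrix.ext fun j i => ?_)
    show (if i = r then b.i k (∑ l, a.1 j l • v.1 l) else 0) =
      ∑ l, a.1 j l * (if i = r then b.i k (v.1 l) else 0)
    split_ifs <;> simp

lemma DB.sum' (b : DB μ r e ι) (v : W μ) : ∑ k, b.co v k • b.gen k = v := by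
  refine W.ext fun j => ?_
  rw [W.sum_val]
  refine Eq.trans (Finset.sum_congr rfl fun k _ => ?_) (b.sum (v.1 j))
  show ∑ i, (if i = r then b.i k (v.1 j) else 0) • (Pi.single r (b.g k) : Fin 5 → M) i = _
  rw [Finset.sum_eq_single r] <;> simp +contextual

lemma DB.proj (b : DB μ r e ι) : Module.Projective (WA Φ) (W μ) :=
  Module.Projective.of_split b.co (Fintype.linearCombination (WA Φ) b.gen)
    (LinearMap.ext fun v => b.sum' v)

lemma DB.finite (b : DB μ r e ι) : Module.Finite (WA Φ) (W μ) :=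
  Module.Finite.of_surjective (Fintype.linearCombination (WA Φ) b.gen) fun v => ⟨b.co v, b.sum' v⟩

lemma DB.hom_zero (b : DB μ r e ι) {μ' : MF Φ M'} (h : ∀ s ∈ μ'.φ (r : ℕ), e • s = 0)
    (f : W μ →ₗ[WA Φ] W μ') : f = 0 := by
  let ee : WA Φ := ⟨Matrix.single r r e, fun j i => by
    by_cases h : r = j ∧ r = i
    · obtain ⟨rfl, rfl⟩ := h
      rw [Matrix.single_apply_same, sub_self]; exact b.e_mem
    · rw [Matrix.single_apply_of_ne _ _ _ _ _ h]; exact zero_mem _⟩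
  have h1 : ∀ {X : Type} [AddCommGroup X] [Module R X] {ν : MF Φ X} (v : W ν) (j : Fin 5),
      (ee • v).1 j = if r = j then e • v.1 r else 0 := by
    intro X _ _ ν v j
    show ∑ i, Matrix.single r r e j i • v.1 i = _
    rw [Finset.sum_eq_single r] <;> simp +contextual [Matrix.single_apply, eq_comm]
  have h2 : ∀ k, f (b.gen k) = 0 := fun k => by
    have : ee • b.gen k = b.gen k := W.ext fun j => by
      rw [h1]
      show _ = (Pi.single r (b.g k) : Fin 5 → M) j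
      split_ifs with hj
      · subst hj
        show e • (Pi.single r (b.g k) : Fin 5 → M) r = _
        simp [b.e_g]
      · rw [Pi.single_eq_of_ne (Ne.symm hj)]
    rw [← this, map_smul]
    refine W.ext fun j => ?_
    rw [h1, h _ (W.mem _ r)]; simp
  refine LinearMap.ext fun v => ?_
  rw [← b.sum' v, map_sum]
  simp [h2]

end Crest.Agent.H9.Fd
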