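import Crest.Agent.H4.GenI

/-! The first order estimate for the word map. -/

set_option autoImplicit false
set_option linter.style.haveILetI false

namespace Crest.Agent.H9.Gen

open Crest.Agent.H4.Gen Finset Complex

variable {A : Type*} [CStarAlgebra A]

/-- ordered product of conjugates -/
noncomputable def UU (V : ℕ → A) (x : A) : ℕ → A
  | 0 => 1
  | j + 1 => UU V x j * (V j * x * star (V j))

lemma cayley [Nontrivial A] (h : A) (hs : star h = h) (hn : ‖h‖ ≤ 1 / 16) : ∃ R x : A,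
    ‖R‖ ≤ 16 / 15 ∧ (∀ C : Subalgebra ℂ A, IsClosed (C : Set A) → h ∈ C → x ∈ C) ∧
      x ∈ unitary A ∧ x - 1 = (2 * I) • (h * R) ∧
      x = 1 + (2 * I) • h - (2 : ℂ) • (h * R * h) := by
  have hk : ‖I • h‖ < 1 := by rw [norm_smul, norm_I]; linarith
  set R : A := ∑' i : ℕ, (I • h) ^ i with hR
  have r1 : (1 - I • h) * R = 1 := mul_neg_geom_series _ hk
  have r2 : R * (1 - I • h) = 1 := geom_series_mul_neg _ hk
  have sk : star (1 - I • h) = 1 + I • h := by simp [hs]
  have r3 : star R * (1 + I • h) = 1 := by rw [← sk, ← star_mul, r1, star_one]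
  have r4 : (1 + I • h) * star R = 1 := by rw [← sk, ← star_mul, r2, star_one]
  have e1 : R = 1 + I • (h * R) := by
    rw [sub_mul, one_mul, smul_mul_assoc] at r1; rw [← r1]; abel
  have e2 : R = 1 + I • (R * h) := by
    rw [mul_sub, mul_one, mul_smul_comm] at r2; rw [← r2]; abel
  have cm : (1 - I • h) * (1 + I • h) = (1 + I • h) * (1 - I • h) := by
    generalize I • h = k; noncomm_ring
  have e3 : (1 + I • h) * R - 1 = (2 * I) • (h * R) := by
    rw [add_mul, one_mul, smul_mul_assoc]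
    conv_lhs => lhs; lhs; rw [e1]
    rw [two_mul, add_smul]; abel
  refine ⟨R, (1 + I • h) * R, ?_, fun C hC hh => ?_, ?_, e3, ?_⟩
  · have h1 : ‖R‖ ≤ 1 + ‖h‖ * ‖R‖ := by
      conv_lhs => rw [e1]
      refine (norm_add_le _ _).trans ?_
      rw [norm_one, norm_smul, norm_I, one_mul]
      linarith [norm_mul_le h R]
    nlinarith [norm_nonneg R]
  · have hI := C.smul_mem hh I
    refine C.mul_mem (C.add_mem C.one_mem hI) ?_
    exact hC.mem_of_tendsto (summable_geometric_of_norm_lt_one hk).hasSum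
      (Filter.Eventually.of_forall fun s => C.sum_mem fun i _ => C.pow_mem hI i)
  · have st : star ((1 + I • h) * R) = star R * (1 - I • h) := by
      rw [star_mul, ← sk, star_star]
    have u1 : star ((1 + I • h) * R) * ((1 + I • h) * R) = 1 := by
      rw [st, mul_assoc, ← mul_assoc (1 - I • h), cm, mul_assoc, r1, mul_one, r3]
    refine ⟨u1, ?_⟩
    have inv : ((1 + I • h) * R) * ((1 - I • h) * star R) = 1 := by
      rw [mul_assoc, ← mul_assoc R, r2, one_mul, r4]
    have : star ((1 + I • h) * R) = (1 - I • h) * star R := by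
      exact left_inv_eq_right_inv u1 inv
    rw [this, inv]
  · rw [← sub_add_cancel ((1 + I • h) * R) 1, e3]
    conv_lhs => rw [e2]
    rw [mul_add, mul_one, mul_smul_comm, smul_add, smul_smul, mul_assoc 2 I I, I_mul_I, mul_assoc h]
    simp only [mul_neg, mul_one, neg_smul]; abel

lemma tele (f : ℕ → ℂ) (B : ℝ) (N : ℕ) (h : ∀ j < N, ‖f (j + 1) - f j‖ ≤ B) :
    ∀ j ≤ N, ‖f j - f 0‖ ≤ j * B := by
  intro j
  induction j with
  | zero => simp
  | succ j ih =>
    intro hj
    have h1 := norm_sub_le_norm_sub_add_norm_sub (f (j + 1)) (f j) (f 0)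
    have h2 := h j hj
    have h3 := ih (by omega)
    push_cast; linarith

theorem est (T : TS A) (V : ℕ → A) (hV : ∀ i, V i ∈ unitary A) (N : ℕ) (hN : 0 < N)
    (C : ℕ → Subalgebra ℂ A) (hC : ∀ j, IsClosed (C j : Set A)) (s z : A) (L η : ℝ) (hL : 0 < L)
    (sC : ∀ j < N, s ∈ C j) (zC : ∀ j < N, z ∈ C j)
    (VC : ∀ j < N, ∀ i < N, i ≠ j → V i ∈ C j ∧ star (V i) ∈ C j)
    (VsC : ∀ j < N, star (V j) * s * V j ∈ C j)
    (orth : ∀ j < N, ∀ l < N, l ≠ j → ∀ c ∈ C j,
      T.τ (c * (V j * (star (V l) * s * V l) * star (V j))) = 0)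
    (ss : star s = s) (sL : ‖s‖ ≤ L) (zL : ‖z‖ ≤ L) (sη : T.n2 s ≤ η) (z0 : T.τ z = 0)
    (sz : T.τ (s * z) = ((η ^ 2 / 2 : ℝ) : ℂ)) :
    ∃ x ∈ unitary A, T.n2 (x - 1) ^ 2 ≤ η ^ 2 / (L ^ 2 * N) ∧
      η ^ 2 / (32 * L) ≤ ‖T.τ (UU V x N * z)‖ := by
  haveI := T.nontrivial
  have N0 : (0 : ℝ) < N := by exact_mod_cast hN
  have η0 : 0 ≤ η := (T.n2_nonneg _).trans sη
  set d : ℝ := 1 / (16 * L * N) with hd
  have d0 : 0 < d := by positivity
  have hdL : d * L * N = 1 / 16 := by rw [hd]; field_simp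
  let t : ℕ → A := fun l => star (V l) * s * V l
  set h : A := (d : ℂ) • ∑ l ∈ range N, t l with hh
  have nV : ∀ i, ‖V i‖ = 1 := fun i => T.norm_unitary (hV i)
  have nV' : ∀ i, ‖star (V i)‖ = 1 := fun i => by rw [norm_star, nV]
  have ts : ∀ l, star (t l) = t l := fun l => by simp [t, ss, mul_assoc]
  have hs : star h = h := by
    rw [hh, star_smul, star_sum]; simp [ts]
  have hn : ‖h‖ ≤ 1 / 16 := by
    rw [hh, norm_smul, norm_real, Real.norm_of_nonneg d0.le, ← hdL, mul_assoc]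
    refine mul_le_mul_of_nonneg_left ((norm_sum_le _ _).trans ?_) d0.le
    refine (sum_le_sum (g := fun _ => L) fun l _ => ?_).trans (by simp [mul_comm])
    refine (norm_mul_le _ _).trans ?_
    rw [nV, mul_one]
    refine (norm_mul_le _ _).trans ?_
    rwa [nV', one_mul]
  have h2 : T.n2 h ^ 2 ≤ d ^ 2 * N * η ^ 2 := by
    have e1 : ∀ l ∈ range N, ∀ m ∈ range N,
        T.τ (t l * t m) = if l = m then ((T.n2 s ^ 2 : ℝ) : ℂ) else 0 := by
      intro l hl m hm
      have e0 : T.τ (t l * t m) = T.τ (s * (V l * t m * star (V l))) := by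
        simp only [t]
        rw [mul_assoc, mul_assoc, T.tr]; simp only [mul_assoc]
      rw [e0]
      split_ifs with hlm
      · subst hlm
        rw [← T.τ_star_mul_self, ss]
        simp only [t, ← mul_assoc, mul_assoc _ (V l) (star (V l)), (hV l).2, mul_one]
      · exact orth l (mem_range.1 hl) m (mem_range.1 hm) (Ne.symm hlm) s (sC l (mem_range.1 hl))
    have e2 : T.τ (star h * h) = ((d ^ 2 * N * T.n2 s ^ 2 : ℝ) : ℂ) := by
      rw [hs, hh, smul_mul_smul_comm, map_smul, sum_mul_sum, map_sum]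
      simp only [map_sum]
      rw [sum_congr rfl fun l hl => by rw [sum_congr rfl (e1 l hl), sum_ite_eq, if_pos hl]]
      simp only [sum_const, card_range, nsmul_eq_mul, smul_eq_mul]
      push_cast; ring
    rw [T.n2_sq, e2, ofReal_re]
    have := pow_le_pow_left₀ (T.n2_nonneg _) sη 2
    gcongr
  obtain ⟨R, x, nR, xC, xU, x1, x2⟩ := cayley h hs hn
  have hC' : ∀ j < N, h ∈ C j := fun j hj => (C j).smul_mem ((C j).sum_mem fun l hl => by
    by_cases hlj : l = j
    · subst hlj; exact VsC l hj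
    · have := VC j hj l (mem_range.1 hl) hlj
      exact (C j).mul_mem ((C j).mul_mem this.2 (sC j hj)) this.1) _
  have UC : ∀ j < N, ∀ i ≤ j, UU V x i ∈ C j := fun j hj i => by
    induction i with
    | zero => exact fun _ => (C j).one_mem
    | succ i ih =>
      intro hi
      have := VC j hj i (by omega) (by omega)
      exact (C j).mul_mem (ih (by omega))
        ((C j).mul_mem ((C j).mul_mem this.1 (xC _ (hC j) (hC' j hj))) this.2)
  have UU1 : ∀ i, UU V x i ∈ unitary A := fun i => by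
    induction i with
    | zero => exact one_mem _
    | succ i ih => exact mul_mem ih (mul_mem (mul_mem (hV i) xU) (Unitary.star_mem (hV i)))
  have nhR : T.n2 (h * R) ≤ 16 / 15 * T.n2 h :=
    (T.n2_mul_le' _ _).trans (by nlinarith [T.n2_nonneg h])
  have step : ∀ j < N, ∀ b ∈ C j, ‖T.τ (UU V x (j + 1) * b) - T.τ (UU V x j * b) -
      2 * I * d * T.τ (UU V x j * (s * b))‖ ≤ 3 * (d ^ 2 * N * η ^ 2) * ‖b‖ := by
    intro j hj b hb
    set U := UU V x j with hU
    have a1 : T.τ (U * (V j * h * star (V j)) * b) = d * T.τ (U * (s * b)) := by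
      rw [hh, mul_smul_comm, smul_mul_assoc, mul_smul_comm, smul_mul_assoc, map_smul, smul_eq_mul,
        mul_sum, sum_mul, mul_sum, sum_mul, map_sum, sum_eq_single j]
      · simp only [t, ← mul_assoc, mul_assoc _ (V j) (star (V j)), (hV j).2, mul_one]
      · intro l hl hlj
        rw [T.tr3]
        exact orth j hj l (mem_range.1 hl) hlj _ ((C j).mul_mem hb (UC j hj j le_rfl))
      · intro hj'; exact absurd (mem_range.2 hj) hj'
    have a2 : UU V x (j + 1) * b = U * b + (2 * I) • (U * (V j * h * star (V j)) * b) -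
        (2 : ℂ) • ((U * V j * (h * R)) * (h * (star (V j) * b))) := by
      change U * (V j * x * star (V j)) * b = _
      conv_lhs => rw [x2]
      simp only [mul_add, add_mul, mul_sub, sub_mul, mul_smul_comm, smul_mul_assoc, mul_one,
        (hV j).2, mul_assoc]
    have a3 : ‖T.τ ((U * V j * (h * R)) * (h * (star (V j) * b)))‖ ≤
        (16 / 15 * T.n2 h) * (T.n2 h * ‖b‖) := by
      refine (T.cs' _ _).trans (mul_le_mul ?_ ?_ (T.n2_nonneg _) ?_)
      · rwa [T.n2_unitary_mul (mul_mem (UU1 j) (hV j))]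
      · refine (T.n2_mul_le' _ _).trans (mul_le_mul_of_nonneg_left ?_ (T.n2_nonneg _))
        refine (norm_mul_le _ _).trans ?_
        rw [nV', one_mul]
      · have := T.n2_nonneg h; positivity
    rw [a2, map_sub, map_add, map_smul, map_smul, a1, smul_eq_mul, smul_eq_mul]
    have a4 : ∀ p q r : ℂ, p + 2 * I * (d * q) - 2 * r - p - 2 * I * d * q = -(2 * r) := by
      intros; ring
    rw [a4, norm_neg, norm_mul, Complex.norm_ofNat]
    have a5 := mul_le_mul_of_nonneg_right h2 (norm_nonneg b)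
    have a6 : 0 ≤ T.n2 h ^ 2 * ‖b‖ := by positivity
    nlinarith
  have nI : ‖2 * I * (d : ℂ)‖ = 2 * d := by
    rw [norm_mul, norm_mul, norm_I, norm_real, Real.norm_of_nonneg d0.le]; simp
  have f1 := tele (fun j => T.τ (UU V x j * (s * z)))
    (2 * d * (η ^ 2 * L) + 3 * (d ^ 2 * N * η ^ 2) * L ^ 2) N (fun j hj => by
      have b1 := step j hj _ ((C j).mul_mem (sC j hj) (zC j hj))
      have b2 : ‖T.τ (UU V x j * (s * (s * z)))‖ ≤ η * (η * L) := by
        rw [← mul_assoc]
        refine (T.cs' _ _).trans (mul_le_mul ?_ ?_ (T.n2_nonneg _) η0)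
        · rwa [T.n2_unitary_mul (UU1 j)]
        · exact (T.n2_mul_le' _ _).trans (mul_le_mul sη zL (norm_nonneg _) η0)
      have b3 : ‖s * z‖ ≤ L ^ 2 :=
        (norm_mul_le _ _).trans (by rw [sq]; exact mul_le_mul sL zL (norm_nonneg _) hL.le)
      have b4 := norm_add_le (T.τ (UU V x (j + 1) * (s * z)) - T.τ (UU V x j * (s * z)) -
        2 * I * d * T.τ (UU V x j * (s * (s * z)))) (2 * I * d * T.τ (UU V x j * (s * (s * z))))
      rw [sub_add_cancel, norm_mul, nI] at b4
      have b5 := mul_le_mul_of_nonneg_left b3 (show 0 ≤ 3 * (d ^ 2 * N * η ^ 2) by positivity)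
      have b6 := mul_le_mul_of_nonneg_left b2 (show 0 ≤ 2 * d by positivity)
      nlinarith)
  have f2 : ∀ j ≤ N, ‖T.τ (UU V x j * (s * z)) - ((η ^ 2 / 2 : ℝ) : ℂ)‖ ≤ 35 / 256 * η ^ 2 := by
    intro j hj
    have b1 := f1 j hj
    simp only [UU, one_mul, sz] at b1
    refine b1.trans ((mul_le_mul_of_nonneg_right (show (j : ℝ) ≤ N by exact_mod_cast hj)
      (by positivity)).trans (le_of_eq ?_))
    have : (N : ℝ) * (2 * d * (η ^ 2 * L) + 3 * (d ^ 2 * N * η ^ 2) * L ^ 2) =
      (2 * (d * L * N) + 3 * (d * L * N) ^ 2) * η ^ 2 := by ring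
    rw [this, hdL]; ring
  have f3 := tele (fun j => T.τ (UU V x j * z) - j * (I * d * ((η ^ 2 : ℝ) : ℂ)))
    (d * η ^ 2 / 2) N (fun j hj => by
      have b1 := step j hj _ (zC j hj)
      have b2 := f2 j hj.le
      have b3 : ∀ p q r : ℂ, p - ((j + 1 : ℕ) : ℂ) * (I * d * ((η ^ 2 : ℝ) : ℂ)) -
          (q - j * (I * d * ((η ^ 2 : ℝ) : ℂ))) =
          (p - q - 2 * I * d * r) + 2 * I * d * (r - ((η ^ 2 / 2 : ℝ) : ℂ)) := by
        intros; push_cast; ring
      rw [b3 _ _ (T.τ (UU V x j * (s * z)))]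
      refine (norm_add_le _ _).trans ?_
      rw [norm_mul, nI]
      have b5 := mul_le_mul_of_nonneg_left zL (show 0 ≤ 3 * (d ^ 2 * N * η ^ 2) by positivity)
      have b6 := mul_le_mul_of_nonneg_left b2 (show 0 ≤ 2 * d by positivity)
      have b7 : 3 * (d ^ 2 * N * η ^ 2) * L = 3 / 16 * (d * η ^ 2) := by
        have : 3 * (d ^ 2 * N * η ^ 2) * L = 3 * (d * L * N) * (d * η ^ 2) := by ring
        rw [this, hdL]; ring
      have b8 : 0 ≤ d * η ^ 2 := by positivity
      nlinarith) N le_rfl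
  refine ⟨x, xU, ?_, ?_⟩
  · rw [x1, T.n2_smul, norm_mul, norm_I, Complex.norm_ofNat, mul_one, mul_pow]
    have b1 := pow_le_pow_left₀ (T.n2_nonneg _) nhR 2
    have b2 : η ^ 2 / (L ^ 2 * N) = 256 * (d ^ 2 * N * η ^ 2) := by rw [hd]; field_simp; norm_num
    have b3 : 0 ≤ d ^ 2 * N * η ^ 2 := by positivity
    rw [b2]; nlinarith
  · simp only [UU, one_mul, z0, Nat.cast_zero, zero_mul, sub_zero] at f3
    have b1 := norm_sub_norm_le ((N : ℂ) * (I * d * ((η ^ 2 : ℝ) : ℂ))) (T.τ (UU V x N * z))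
    rw [norm_sub_rev, norm_mul, norm_mul, norm_mul, norm_I, norm_real, norm_real, norm_natCast,
      Real.norm_of_nonneg d0.le, Real.norm_of_nonneg (sq_nonneg η)] at b1
    have b2 : η ^ 2 / (32 * L) = N * (d * η ^ 2 / 2) := by rw [hd]; field_simp; ring
    rw [b2]; nlinarith

end Crest.Agent.H9.Gen
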