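import Crest.Agent.H4.GenI

/-! Free families of Haar unitaries: reduced words and an orthogonality relation. -/

set_option autoImplicit false

namespace Crest.Agent.H9.Gen

open Crest.Agent.H4.Gen

variable {A : Type*} [CStarAlgebra A] {T : TS A}

lemma mul_mem_span {L E : Set A} {F : Submodule ℂ A} (g : A)
    (h : ∀ l ∈ L, ∀ w ∈ E, g * l * w ∈ F) {x w : A} (hx : x ∈ Submodule.span ℂ L)
    (hw : w ∈ Submodule.span ℂ E) : g * x * w ∈ F := by
  induction hx using Submodule.span_induction with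
  | mem l hl =>
    induction hw using Submodule.span_induction with
    | mem w hw => exact h l hl w hw
    | zero => simp
    | add a b _ _ ha hb => rw [mul_add]; exact add_mem ha hb
    | smul c a _ ha => rw [mul_smul_comm]; exact F.smul_mem c ha
  | zero => simp
  | add a b _ _ ha hb => rw [mul_add, add_mul]; exact add_mem ha hb
  | smul c a _ ha => rw [mul_smul_comm, smul_mul_assoc]; exact F.smul_mem c ha

lemma sg_cancel {a : A} (ha : a ∈ unitary A) {e e' : Bool} (h : e ≠ e') : sg a e * sg a e' = 1 := by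
  cases e <;> cases e'
  · exact absurd rfl h
  · exact ha.1
  · exact ha.2
  · exact absurd rfl h

/-- change of variable -/
lemma Fr.conj {a c c' : A} {S : Subalgebra ℂ A} (h : Fr T a S) (hc : c ∈ unitary A)
    (hc' : c' ∈ unitary A) (m1 : c ∈ S) (m2 : star c ∈ S) (m3 : c' ∈ S) (m4 : star c' ∈ S) :
    Fr T (c * a * c') S := by
  let l : Bool → A := fun e => if e then c else star c'
  let r : Bool → A := fun e => if e then c' else star c
  have lS : ∀ e, l e ∈ S := fun e => by cases e <;> simpa [l]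
  have rS : ∀ e, r e ∈ S := fun e => by cases e <;> simpa [r]
  have e1 : ∀ e, sg (c * a * c') e = l e * sg a e * r e := fun e => by
    cases e <;> simp [sg, l, r, mul_assoc]
  have e2 : ∀ e e', e ≠ e' → ∀ x, T.τ (r e * x * l e') = T.τ x := fun e e' he x => by
    cases e <;> cases e'
    · exact absurd rfl he
    · simpa [l, r] using T.τ_conj (u := star c) (by simpa using hc.2) x
    · simpa [l, r] using T.τ_conj (u := c') hc'.1 x
    · exact absurd rfl he
  have key : ∀ k e w, Adm T (c * a * c') S k e w → ∃ w', Adm T a S k e w' ∧ w = l e * w' := by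
    intro k e w hw
    induction hw with
    | single e x hx =>
      exact ⟨_, Adm.single e (r e * x) (S.mul_mem (rS e) hx), by rw [e1]; simp only [mul_assoc]⟩
    | cons k e e' x w hx hc _ ih =>
      obtain ⟨w', h1, rfl⟩ := ih
      exact ⟨_, Adm.cons k e e' (r e * x * l e') w' (S.mul_mem (S.mul_mem (rS e) hx) (lS e'))
        (fun he => by rw [e2 e e' he, hc he]) h1, by rw [e1]; simp only [mul_assoc]⟩
  intro k e w x₀ hx₀ hw
  obtain ⟨w', h1, rfl⟩ := key k e w hw
  rw [← mul_assoc]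
  exact h k e w' _ (S.mul_mem hx₀ (lS e)) h1

/-- reduced words in the first `n` members of a family -/
inductive RW (T : TS A) (V : ℕ → A) (S : Set A) (n : ℕ) : ℕ → Bool → A → Prop
  | single (i : ℕ) (e : Bool) (x : A) (hi : i < n) (hx : x ∈ S) : RW T V S n i e (sg (V i) e * x)
  | cons (i i' : ℕ) (e e' : Bool) (x w : A) (hi : i < n) (hx : x ∈ S)
      (hc : i = i' → e ≠ e' → T.τ x = 0) (hw : RW T V S n i' e' w) :
      RW T V S n i e (sg (V i) e * x * w)

/-- a free family -/
def Fam (T : TS A) (V : ℕ → A) (S : Set A) (n : ℕ) : Prop :=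
  ∀ i e w, ∀ x₀ ∈ S, RW T V S n i e w → T.τ (x₀ * w) = 0

variable {V : ℕ → A} {S : Set A} {n : ℕ}

lemma RW.lt {i : ℕ} {e : Bool} {w : A} (h : RW T V S n i e w) : i < n := by
  cases h <;> assumption

lemma RW.mem {i : ℕ} {e : Bool} {w : A} (h : RW T V S n i e w) {R : Subalgebra ℂ A}
    (h1 : S ⊆ R) (h2 : ∀ i < n, ∀ e, sg (V i) e ∈ R) : w ∈ R := by
  induction h with
  | single i e x hi hx => exact R.mul_mem (h2 i hi e) (h1 hx)
  | cons i i' e e' x w hi hx _ _ ih => exact R.mul_mem (R.mul_mem (h2 i hi e) (h1 hx)) ih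

lemma RW.append {i : ℕ} {e : Bool} {p : A} (h : RW T V S n i e p) (i₀ : ℕ) (e₀ : Bool) (x : A)
    (hi : i₀ < n) (hx : x ∈ S) (hc : i₀ = i → e₀ ≠ e → T.τ x = 0) :
    RW T V S n i₀ e₀ (sg (V i₀) e₀ * x * p) := RW.cons _ _ _ _ _ _ hi hx hc h

lemma fam_succ (hF : Fam T V S n) {R : Subalgebra ℂ A} (h1 : S ⊆ R)
    (h2 : ∀ i < n, ∀ e, sg (V i) e ∈ R) (hV : Fr T (V n) R) : Fam T V S (n + 1) := by
  have key : ∀ i e w, RW T V S (n + 1) i e w → RW T V S n i e w ∨
      (i = n ∧ ∃ k, Adm T (V n) R k e w) ∨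
      ∃ p k e' w', RW T V S n i e p ∧ Adm T (V n) R k e' w' ∧ w = p * w' := by
    intro i e w hw
    induction hw with
    | single i e x hi hx =>
      rcases Nat.lt_succ_iff_lt_or_eq.1 hi with hi | rfl
      · exact Or.inl (RW.single i e x hi hx)
      · exact Or.inr (Or.inl ⟨rfl, 1, Adm.single e x (h1 hx)⟩)
    | cons i i' e e' x w hi hx hc _ ih =>
      rcases Nat.lt_succ_iff_lt_or_eq.1 hi with hi | rfl
      · rcases ih with ih | ⟨rfl, k, ih⟩ | ⟨p, k, e'', w', ih1, ih2, rfl⟩
        · exact Or.inl (RW.cons i i' e e' x w hi hx hc ih)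
        · exact Or.inr (Or.inr ⟨_, k, e', w, RW.single i e x hi hx, ih, rfl⟩)
        · exact Or.inr (Or.inr ⟨_, k, e'', w', RW.cons i i' e e' x p hi hx hc ih1, ih2,
            by simp only [mul_assoc]⟩)
      · refine Or.inr (Or.inl ⟨rfl, ?_⟩)
        rcases ih with ih | ⟨rfl, k, ih⟩ | ⟨p, k, e'', w', ih1, ih2, rfl⟩
        · refine ⟨1, ?_⟩
          rw [mul_assoc]
          exact Adm.single e _ (R.mul_mem (h1 hx) (ih.mem h1 h2))
        · exact ⟨_, Adm.cons k e e' x w (h1 hx) (hc rfl) ih⟩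
        · refine ⟨k + 1, ?_⟩
          have := Adm.cons k e e'' (x * p) w' (R.mul_mem (h1 hx) (ih1.mem h1 h2))
            (fun _ => hF _ _ _ x hx ih1) ih2
          simpa only [mul_assoc] using this
  intro i e w x₀ hx₀ hw
  rcases key i e w hw with h | ⟨-, k, h⟩ | ⟨p, k, e', w', g1, g2, rfl⟩
  · exact hF i e w x₀ hx₀ h
  · exact hV k e w x₀ (h1 hx₀) h
  · rw [← mul_assoc]
    exact hV k e' w' _ (R.mul_mem (h1 hx₀) (g1.mem h1 h2)) g2

lemma fam_zero : Fam T V S 0 := fun _ _ _ _ _ h => absurd h.lt (Nat.not_lt_zero _)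

/-- the exponent of the `j`-th member -/
def ht (j i : ℕ) (e : Bool) : ℤ := if i = j then (if e then 1 else -1) else 0

/-- reduced words ending with a reduced word which starts with the `j`-th member -/
inductive RB (T : TS A) (V : ℕ → A) (S : Set A) (n j : ℕ) : ℤ → ℕ → Bool → A → Prop
  | base (w : A) (hw : RW T V S n j true w) : RB T V S n j 0 j true w
  | cons (h : ℤ) (i i' : ℕ) (e e' : Bool) (x w : A) (hi : i < n) (hx : x ∈ S)
      (hc : i = i' → e ≠ e' → T.τ x = 0) (hw : RB T V S n j h i' e' w) :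
      RB T V S n j (h + ht j i e) i e (sg (V i) e * x * w)

lemma RB.rw {j i : ℕ} {h : ℤ} {e : Bool} {w : A} (hw : RB T V S n j h i e w) :
    RW T V S n i e w := by
  induction hw with
  | base w hw => exact hw
  | cons h i i' e e' x w hi hx hc _ ih => exact RW.cons i i' e e' x w hi hx hc ih

/-- the span of the words of height `h` -/
noncomputable def DD (T : TS A) (V : ℕ → A) (S : Set A) (n j : ℕ) (h : ℤ) : Submodule ℂ A :=
  Submodule.span ℂ {d | ∃ x₀ ∈ S, ∃ i e w, RB T V S n j h i e w ∧ d = x₀ * w}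

/-- left stabiliser of a subspace -/
def stab (D : Submodule ℂ A) : Subalgebra ℂ A where
  carrier := {c | ∀ d ∈ D, c * d ∈ D}
  mul_mem' := fun {a b} ha hb d hd => by rw [mul_assoc]; exact ha _ (hb d hd)
  add_mem' := fun {a b} ha hb d hd => by rw [add_mul]; exact add_mem (ha d hd) (hb d hd)
  algebraMap_mem' := fun c d hd => by
    rw [Algebra.algebraMap_eq_smul_one, smul_mul_assoc, one_mul]; exact D.smul_mem c hd

lemma mul_span {E : Set A} {F : Submodule ℂ A} (g : A) (h : ∀ w ∈ E, g * w ∈ F) {w : A}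
    (hw : w ∈ Submodule.span ℂ E) : g * w ∈ F := by
  have := mul_mem_span (L := {1}) g (by simpa using h) (Submodule.subset_span rfl) hw
  rwa [mul_one] at this

section
variable {S : Subalgebra ℂ A} {j : ℕ}

lemma DD_mul_S {h : ℤ} {t : A} (ht : t ∈ S) : t ∈ stab (DD T V S n j h) := fun d hd => by
  refine mul_span t ?_ hd
  rintro _ ⟨x₀, hx₀, i, e, w, hw, rfl⟩
  exact Submodule.subset_span ⟨t * x₀, S.mul_mem ht hx₀, i, e, w, hw, (mul_assoc _ _ _).symm⟩

lemma DD_mul_V (hV : ∀ i, V i ∈ unitary A) {h : ℤ} {i : ℕ} {e : Bool} (hi : i < n)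
    (hne : ¬(i = j ∧ e = false ∧ h = 0)) {d : A} (hd : d ∈ DD T V S n j h) :
    sg (V i) e * d ∈ DD T V S n j (h + ht j i e) := by
  refine mul_span _ ?_ hd
  rintro _ ⟨x₀, hx₀, i', e', w, hw, rfl⟩
  have good : ∀ x ∈ S, (i = i' → e ≠ e' → T.τ x = 0) →
      sg (V i) e * (x * w) ∈ DD T V S n j (h + ht j i e) := fun x hx hc =>
    Submodule.subset_span ⟨1, S.one_mem, i, e, _, RB.cons h i i' e e' x w hi hx hc hw,
      by rw [one_mul, mul_assoc]⟩
  by_cases hc : i = i' ∧ e ≠ e'
  · obtain ⟨rfl, hee⟩ := hc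
    have e1 : sg (V i) e * (x₀ * w) =
        sg (V i) e * ((x₀ - T.τ x₀ • 1) * w) + T.τ x₀ • (sg (V i) e * w) := by
      simp only [sub_mul, mul_sub, smul_mul_assoc, mul_smul_comm, one_mul, sub_add_cancel]
    rw [e1]
    refine add_mem (good _ (S.sub_mem hx₀ (S.smul_mem S.one_mem _)) fun _ _ => T.τ_centre _)
      (Submodule.smul_mem _ _ ?_)
    clear good e1 hd
    cases hw with
    | base w hw => exact absurd ⟨rfl, by simpa using hee, rfl⟩ hne
    | cons h' _ i'' _ e'' x w' hi hx hc hw' =>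
      have e2 : h' + ht j i e' + ht j i e = h' := by
        unfold ht
        cases e <;> cases e' <;> simp at hee ⊢ <;> split_ifs <;> simp
      rw [e2, mul_assoc, ← mul_assoc, sg_cancel (hV i) hee, one_mul]
      exact Submodule.subset_span ⟨x, hx, i'', e'', w', hw', rfl⟩
  · exact good x₀ hx₀ fun h1 h2 => absurd ⟨h1, h2⟩ hc

/-- the algebra stabilising all heights -/
noncomputable def TT (T : TS A) (V : ℕ → A) (S : Set A) (n j : ℕ) : Subalgebra ℂ A :=
  ⨅ h, stab (DD T V S n j h)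

/-- the closed algebra stabilising height zero -/
noncomputable def CC (T : TS A) (V : ℕ → A) (S : Set A) (n j : ℕ) : Subalgebra ℂ A :=
  (stab (DD T V S n j 0)).topologicalClosure

lemma mem_TT {t : A} : t ∈ TT T V S n j ↔ ∀ h, t ∈ stab (DD T V S n j h) := Algebra.mem_iInf

lemma S_mem_TT {t : A} (ht : t ∈ S) : t ∈ TT T V S n j := mem_TT.2 fun _ => DD_mul_S ht

lemma V_mem_TT (hV : ∀ i, V i ∈ unitary A) {i : ℕ} (e : Bool) (hi : i < n) (hij : i ≠ j) :
    sg (V i) e ∈ TT T V S n j := mem_TT.2 fun h d hd => by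
  have := DD_mul_V hV (e := e) hi (fun h => hij h.1) hd
  rwa [ht, if_neg hij, add_zero] at this

lemma TT_mem_CC {t : A} (ht : t ∈ TT T V S n j) : t ∈ CC T V S n j :=
  Subalgebra.le_topologicalClosure (stab (DD T V S n j 0)) (mem_TT.1 ht 0)

lemma conj_mem_CC (hV : ∀ i, V i ∈ unitary A) (hj : j < n) {t : A} (ht' : t ∈ TT T V S n j) :
    star (V j) * t * V j ∈ CC T V S n j :=
  Subalgebra.le_topologicalClosure (stab (DD T V S n j 0)) fun d hd => by
    have h1 := DD_mul_V hV (e := true) hj (by simp) hd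
    have h2 := mem_TT.1 ht' _ _ h1
    have h3 := DD_mul_V hV (e := false) hj (by simp [ht]) h2
    simp only [ht, if_true, zero_add, Bool.false_eq_true, if_false, add_neg_cancel, sg] at h3
    simpa only [mul_assoc] using h3

lemma isClosed_CC : IsClosed (CC T V S n j : Set A) := Subalgebra.isClosed_topologicalClosure _

theorem orth (hF : Fam T V S n) {c w : A} (hc : c ∈ CC T V S n j) (hw : RW T V S n j true w) :
    T.τ (c * w) = 0 := by
  have h1 : ∀ d ∈ DD T V S n j 0, T.τ d = 0 := fun d hd => by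
    refine (Submodule.span_le (p := LinearMap.ker T.τ)).2 ?_ hd
    rintro _ ⟨x₀, hx₀, i, e, w, hw, rfl⟩
    exact hF i e w x₀ hx₀ hw.rw
  have h2 : w ∈ DD T V S n j 0 :=
    Submodule.subset_span ⟨1, S.one_mem, j, true, w, RB.base w hw, (one_mul _).symm⟩
  refine closure_minimal (s := (stab (DD T V S n j 0) : Set A)) (t := {c | T.τ (c * w) = 0})
    (fun c hc => h1 _ (hc w h2)) ?_ hc
  exact isClosed_eq (T.continuous_τ.comp (continuous_mul_const w)) continuous_const

end

end Crest.Agent.H9.Gen
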