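import Crest.Agent.H9.GenUltra
import Crest.Agent.H9.GenEst

/-! The local improvement lemma. -/

set_option autoImplicit false
set_option linter.style.haveILetI false

namespace Crest.Agent.H9.Gen

open Crest.Agent.H4.Gen Filter BoundedContinuousFunction
open scoped Topology

universe u

variable {A : Type*} [CStarAlgebra A]

/-- the word map -/
noncomputable def wf (a : ℕ → A) (t : A) : ℕ → A
  | 0 => a 0
  | k + 1 => wf a t k * t * a (k + 1)

lemma wf_poly {P : StarSubalgebra ℂ A} {a : ℕ → A} (ha : ∀ i, a i ∈ P) (k : ℕ) :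
    H4.Gen.Poly P (fun t => wf a t k) := by
  induction k with
  | zero => exact H4.Gen.Poly.const _ (ha 0)
  | succ k ih => exact Poly.mul _ _ (Poly.mul _ _ ih Poly.id) (H4.Gen.Poly.const _ (ha _))

lemma wf_unitary {a : ℕ → A} (ha : ∀ i, a i ∈ unitary A) {t : A} (ht : t ∈ unitary A) (k : ℕ) :
    wf a t k ∈ unitary A := by
  induction k with
  | zero => exact ha 0
  | succ k ih => exact mul_mem (mul_mem ih ht) (ha _)

lemma wf_mul {a : ℕ → A} (ha : ∀ i, a i ∈ unitary A) {u : A} (hu : u ∈ unitary A) (x : A) (k : ℕ) :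
    wf a (u * x) k = UU (fun k => wf a u k * u) x k * wf a u k := by
  induction k with
  | zero => simp [wf, UU]
  | succ k ih =>
    have h := (mul_mem (wf_unitary ha hu k) hu).1
    simp only [wf, UU, ih]
    rw [mul_assoc _ (_ * star _), mul_assoc _ (star _), ← mul_assoc (star _), h]
    simp only [mul_assoc, one_mul]

lemma wf_apply (a : ℕ → ℕ →ᵇ A) (t : ℕ →ᵇ A) (k m : ℕ) :
    wf a t k m = wf (fun i => a i m) (t m) k := by
  induction k with
  | zero => rfl
  | succ k ih => simp only [wf, ← ih]; rfl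

lemma unitary_iff {x : ℕ →ᵇ A} : x ∈ unitary (ℕ →ᵇ A) ↔ ∀ m, x m ∈ unitary A := by
  constructor
  · exact fun h m => ⟨congrArg (fun f : ℕ →ᵇ A => f m) h.1, congrArg (fun f : ℕ →ᵇ A => f m) h.2⟩
  · exact fun h => ⟨by ext m; exact (h m).1, by ext m; exact (h m).2⟩

lemma exists_fam (T : TS A) (Q : A → Prop)
    (hQ : ∀ X : Set A, X.Countable → ∃ a, (Q a ∧ a ∈ unitary A) ∧ Fr T a (Algebra.adjoin ℂ X))
    {X₀ : Set A} (h₀ : X₀.Countable) {u : A} (hu : u ∈ unitary A) (u1 : u ∈ X₀)
    (u2 : star u ∈ X₀) : ∃ a : ℕ → A, (∀ i, Q (a i) ∧ a i ∈ unitary A) ∧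
      ∀ n, Fam T (fun k => wf a u k * u) (Algebra.adjoin ℂ X₀) n := by
  have : ∀ X : Set A, ∃ a, X.Countable → (Q a ∧ a ∈ unitary A) ∧ Fr T a (Algebra.adjoin ℂ X) :=
    fun X => by
      by_cases h : X.Countable
      · obtain ⟨a, ha⟩ := hQ X h; exact ⟨a, fun _ => ha⟩
      · exact ⟨1, fun h' => absurd h' h⟩
  choose g hg using this
  let st : ℕ → Set A × A := fun n => Nat.rec (X₀, 1)
    (fun _ p => (p.1 ∪ {p.2 * g p.1 * u, star (p.2 * g p.1 * u)}, p.2 * g p.1 * u)) n
  have s1 : ∀ n, (st (n + 1)).2 = (st n).2 * g (st n).1 * u := fun n => rfl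
  have s2 : ∀ n, (st (n + 1)).1 = (st n).1 ∪ {(st (n + 1)).2, star (st (n + 1)).2} := fun n => rfl
  let a : ℕ → A := fun n => g (st n).1
  have cnt : ∀ n, (st n).1.Countable := fun n => by
    induction n with
    | zero => exact h₀
    | succ n ih => rw [s2]; exact ih.union (Set.toFinite _).countable
  have ha : ∀ i, Q (a i) ∧ a i ∈ unitary A := fun i => (hg _ (cnt i)).1
  have hV : ∀ n, (st (n + 1)).2 = wf a u n * u := fun n => by
    induction n with
    | zero => rw [s1]; simp [st, wf, a]
    | succ n ih => rw [s1 (n + 1), ih]; rfl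
  have sub : ∀ n, X₀ ⊆ (st n).1 := fun n => by
    induction n with
    | zero => exact le_rfl
    | succ n ih => rw [s2]; exact ih.trans Set.subset_union_left
  have mem : ∀ n, ∀ i < n, ∀ e, sg (wf a u i * u) e ∈ (st n).1 := fun n => by
    induction n with
    | zero => exact fun i hi => absurd hi (Nat.not_lt_zero _)
    | succ n ih =>
      intro i hi e
      rw [s2]
      rcases Nat.lt_succ_iff_lt_or_eq.1 hi with hi | rfl
      · exact Or.inl (ih i hi e)
      · rw [hV]; cases e <;> simp [sg]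
  have prev : ∀ n, (st n).2 ∈ unitary A ∧ (st n).2 ∈ Algebra.adjoin ℂ (st n).1 ∧
      star (st n).2 ∈ Algebra.adjoin ℂ (st n).1 := fun n => by
    cases n with
    | zero => exact ⟨one_mem _, one_mem _, by change star (1 : A) ∈ _; rw [star_one]; exact one_mem _⟩
    | succ n =>
      refine ⟨?_, Algebra.subset_adjoin ?_, Algebra.subset_adjoin ?_⟩
      · rw [hV]; exact mul_mem (wf_unitary (fun i => (ha i).2) hu n) hu
      · rw [s2]; simp
      · rw [s2]; simp
  refine ⟨a, ha, fun n => ?_⟩
  induction n with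
  | zero => exact fam_zero
  | succ n ih =>
    refine fam_succ (R := Algebra.adjoin ℂ (st n).1) ih (Algebra.adjoin_mono (sub n))
      (fun i hi e => Algebra.subset_adjoin (mem n i hi e)) ?_
    have := Fr.conj (hg _ (cnt n)).2 (prev n).1 hu (prev n).2.1 (prev n).2.2
      (Algebra.subset_adjoin (sub n u1)) (Algebra.subset_adjoin (sub n u2))
    rwa [← s1, hV] at this

lemma local_abs (T : TS A) {a : ℕ → A} (ha : ∀ i, a i ∈ unitary A) {u y : A} (hu : u ∈ unitary A)
    {S : Subalgebra ℂ A} (u1 : u ∈ S) (u2 : star u ∈ S) (y1 : y ∈ S) (y2 : star y ∈ S)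
    {L : ℝ} (hL : 0 < L) (yL : ‖y‖ ≤ L) (N : ℕ) (hN : 0 < N)
    (hF : Fam T (fun k => wf a u k * u) S (N + 1)) :
    ∃ x ∈ unitary A, T.n2 (x - 1) ^ 2 ≤ 1 / N ∧
      T.n2 y ^ 2 / (32 * L) ≤ ‖T.τ (star y * wf a (u * x) N)‖ := by
  set V : ℕ → A := fun k => wf a u k * u with hVdef
  have hV : ∀ i, V i ∈ unitary A := fun i => mul_mem (wf_unitary ha hu i) hu
  set p : A := star u * star y with hp
  have pS : p ∈ S := S.mul_mem u2 y2
  have pS' : star p ∈ S := by rw [hp, star_mul, star_star, star_star]; exact S.mul_mem y1 u1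
  set z : A := V N * p with hz
  have sz : star z = star p * star (V N) := star_mul _ _
  set s : A := (2⁻¹ : ℂ) • (z + star z) with hs
  have nz : T.n2 z = T.n2 y := by
    rw [hz, T.n2_unitary_mul (hV N), hp, T.n2_unitary_mul (Unitary.star_mem hu), T.n2_star]
  have zL : ‖z‖ ≤ L := by
    rw [hz, hp, CStarRing.norm_mem_unitary_mul _ (hV N),
      CStarRing.norm_mem_unitary_mul _ (Unitary.star_mem hu), norm_star]; exact yL
  have zT : ∀ j < N, z ∈ TT T V S (N + 1) j := fun j hj =>
    Subalgebra.mul_mem _ (V_mem_TT hV true (by omega) (by omega)) (S_mem_TT pS)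
  have zT' : ∀ j < N, star z ∈ TT T V S (N + 1) j := fun j hj => by
    rw [sz]; exact Subalgebra.mul_mem _ (S_mem_TT pS') (V_mem_TT hV false (by omega) (by omega))
  have sT : ∀ j < N, s ∈ TT T V S (N + 1) j := fun j hj =>
    Subalgebra.smul_mem _ (Subalgebra.add_mem _ (zT j hj) (zT' j hj)) _
  have one : (1 : A) ∈ S := S.one_mem
  have z0 : T.τ z = 0 := by
    have := hF N true _ 1 one (RW.single N true p (by omega) pS)
    rwa [one_mul] at this
  have z2 : T.τ (z * z) = 0 := by
    have := hF N true _ 1 one (RW.cons N N true true p _ (by omega) pS (fun _ h => absurd rfl h)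
      (RW.single N true p (by omega) pS))
    rwa [one_mul] at this
  obtain ⟨x, xU, h1, h2⟩ := est T V hV N hN (fun j => CC T V S (N + 1) j) (fun _ => isClosed_CC)
    s z L (T.n2 y) hL (fun j hj => TT_mem_CC (sT j hj)) (fun j hj => TT_mem_CC (zT j hj))
    (fun j hj i hi hij => ⟨TT_mem_CC (V_mem_TT hV true (by omega) hij),
      TT_mem_CC (V_mem_TT hV false (by omega) hij)⟩)
    (fun j hj => conj_mem_CC hV (by omega) (sT j hj))
    (fun j hj l hl hlj c hc => by
      have w0 : RW T V S (N + 1) l true (sg (V l) true * 1 * (sg (V j) false * 1)) :=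
        RW.cons _ _ _ _ _ _ (by omega) one (fun h => absurd h hlj)
          (RW.single j false 1 (by omega) one)
      have w1 := orth hF hc (RW.cons j l true false 1 _ (by omega) one (fun h => absurd h.symm hlj)
        (RW.cons l N false true 1 _ (by omega) one (fun h => absurd h (by omega))
          (RW.cons N l true true p _ (by omega) pS (fun h => absurd h (by omega)) w0)))
      have w2 := orth hF hc (RW.cons j l true false 1 _ (by omega) one (fun h => absurd h.symm hlj)
        (RW.cons l N false false (star p) _ (by omega) pS' (fun h => absurd h (by omega))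
          (RW.cons N l false true 1 _ (by omega) one (fun h => absurd h (by omega)) w0)))
      simp only [sg, mul_one, mul_assoc] at w1 w2
      simp only [hs, sz, mul_smul_comm, smul_mul_assoc, map_smul, mul_add, add_mul, map_add]
      simp only [hz, mul_assoc, w1, w2, add_zero, smul_zero])
    (by rw [hs, star_smul, star_add, star_star, add_comm]; simp)
    (by
      rw [hs, norm_smul]
      have := norm_add_le z (star z)
      rw [norm_star] at this
      simp only [norm_inv, Complex.norm_ofNat]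
      linarith)
    zL
    (by
      rw [hs, T.n2_smul]
      have := T.n2_add_le z (star z)
      rw [T.n2_star, nz] at this
      simp only [norm_inv, Complex.norm_ofNat]
      linarith)
    z0
    (by
      rw [hs, smul_mul_assoc, add_mul, map_smul, map_add, z2, T.τ_star_mul_self, nz]
      simp only [smul_eq_mul]; push_cast; ring)
  refine ⟨x, xU, h1.trans ?_, ?_⟩
  · have N0 : (0 : ℝ) < N := by exact_mod_cast hN
    have := pow_le_pow_left₀ (T.n2_nonneg _) ((T.n2_le_norm y).trans yL) 2
    rw [div_le_div_iff₀ (by positivity) N0]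
    nlinarith
  · rw [wf_mul ha hu, T.tr]
    have e : wf a u N * star y = z := by
      rw [hz, hp, hVdef]
      simp only [← mul_assoc]
      rw [mul_assoc _ u, hu.2, mul_one]
    rw [mul_assoc, e]
    exact h2

theorem localStmt : LocalStmt.{u} := by
  intro A _ T P hP u hu y L hL yL ε hε
  by_cases h0 : T.n2 y = 0
  · exact ⟨u, hu, by simpa using hε, fun v => v, Poly.id, fun v hv => hv, by simp [h0]⟩
  have η0 : 0 < T.n2 y := lt_of_le_of_ne (T.n2_nonneg _) (Ne.symm h0)
  let U : ℕ →ᵇ A := const ℕ u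
  let Y : ℕ →ᵇ A := const ℕ y
  have hU : U ∈ unitary (ℕ →ᵇ A) := unitary_iff.2 fun _ => hu
  obtain ⟨a, ha, hF⟩ := exists_fam (Tw T) (fun a => ∀ n, a n ∈ P) (fun X hX => by
      obtain ⟨a, h1, h2⟩ := exists_free T hP hX
      exact ⟨a, ⟨fun n => (h1 n).1, unitary_iff.2 fun n => (h1 n).2⟩, h2⟩)
    (X₀ := {U, star U, Y, star Y}) (Set.toFinite _).countable hU (by simp) (by simp)
  obtain ⟨N, hN⟩ := exists_nat_one_div_lt (show 0 < ε ^ 2 by positivity)
  obtain ⟨x, xU, h1, h2⟩ := local_abs (Tw T) (fun i => (ha i).2) (y := Y) hU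
    (Algebra.subset_adjoin (by simp)) (Algebra.subset_adjoin (by simp))
    (Algebra.subset_adjoin (by simp)) (Algebra.subset_adjoin (by simp)) hL
    ((norm_const_le y).trans yL) (N + 1) (by omega) (hF _)
  have nY : (Tw T).n2 Y = T.n2 y := tendsto_nhds_unique (tendsto_n2 T Y) tendsto_const_nhds
  have h3 : (Tw T).n2 (x - 1) < ε := by
    push_cast at h1
    exact lt_of_pow_lt_pow_left₀ 2 hε.le (h1.trans_lt hN)
  have h4 : T.n2 y ^ 2 / (64 * L) < ‖(Tw T).τ (star Y * wf a (U * x) (N + 1))‖ := by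
    rw [nY] at h2
    refine lt_of_lt_of_le ?_ h2
    exact div_lt_div_of_pos_left (by positivity) (by positivity) (by linarith)
  obtain ⟨m, m1, m2⟩ := (((tendsto_n2 T (x - 1)).eventually (gt_mem_nhds h3)).and
    ((tendsto_Tw T _).norm.eventually (lt_mem_nhds h4))).exists
  have xm := unitary_iff.1 xU m
  refine ⟨u * x m, mul_mem hu xm, ?_, fun t => wf (fun i => a i m) t (N + 1),
    wf_poly (fun i => (ha i).1 m) _,
    fun v hv => wf_unitary (fun i => unitary_iff.1 (ha i).2 m) hv _, ?_⟩
  · have : u * x m - u = u * (x m - 1) := by rw [mul_sub, mul_one]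
    rw [this, T.n2_unitary_mul hu]
    exact m1
  · have : (star Y * wf a (U * x) (N + 1)) m = star y * wf (fun i => a i m) (u * x m) (N + 1) := by
      rw [BoundedContinuousFunction.mul_apply, wf_apply]; rfl
    rw [this] at m2
    exact m2.le

end Crest.Agent.H9.Gen
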