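import Crest.Agent.H9.GenFree

/-! The ultrapower trace and free unitaries in the ultrapower. -/

set_option autoImplicit false
set_option linter.style.haveILetI false
set_option linter.unusedSimpArgs false

namespace Crest.Agent.H9.Gen

open Crest.Agent.H4.Gen Filter BoundedContinuousFunction
open scoped Topology ComplexConjugate

variable {A : Type*} [CStarAlgebra A] (T : TS A)

/-- the limit of the traces along the hyperfilter -/
noncomputable def tw (x : ℕ →ᵇ A) : ℂ := limUnder (hyperfilter ℕ : Filter ℕ) fun n => T.τ (x n)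

lemma tendsto_tw (x : ℕ →ᵇ A) :
    Tendsto (fun n => T.τ (x n)) (hyperfilter ℕ : Filter ℕ) (𝓝 (tw T x)) := by
  apply tendsto_nhds_limUnder
  obtain ⟨c, -, hc⟩ := (isCompact_closedBall (0 : ℂ) ‖x‖).ultrafilter_le_nhds
    ((hyperfilter ℕ).map fun n => T.τ (x n)) (by
      rw [Ultrafilter.coe_map, le_principal_iff, mem_map]
      exact Eventually.of_forall fun n => by
        simpa using (T.norm_τ_le _).trans (x.norm_coe_le_norm n))
  exact ⟨c, hc⟩

lemma tw_eq {x : ℕ →ᵇ A} {c : ℂ}
    (h : Tendsto (fun n => T.τ (x n)) (hyperfilter ℕ : Filter ℕ) (𝓝 c)) : tw T x = c :=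
  tendsto_nhds_unique (tendsto_tw T x) h

/-- the ultrapower trace -/
noncomputable def Tw : TS (ℕ →ᵇ A) where
  τ :=
    { toFun := tw T
      map_add' := fun x y => tw_eq T (by
        simpa using (tendsto_tw T x).add (tendsto_tw T y))
      map_smul' := fun c x => tw_eq T (by
        simpa using (tendsto_tw T x).const_mul c) }
  one := tw_eq T (by simp [T.one])
  star' x := tw_eq T (by
    have := (Complex.continuous_conj.tendsto _).comp (tendsto_tw T x)
    refine this.congr fun n => ?_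
    simp [T.star'])
  pos x := ge_of_tendsto' ((Complex.continuous_re.tendsto _).comp (tendsto_tw T (star x * x)))
    fun n => T.pos (x n)
  tr x y := tw_eq T ((tendsto_tw T (y * x)).congr fun n => T.tr _ _)

lemma tendsto_Tw (x : ℕ →ᵇ A) :
    Tendsto (fun n => T.τ (x n)) (hyperfilter ℕ : Filter ℕ) (𝓝 ((Tw T).τ x)) := tendsto_tw T x

lemma tendsto_n2 (x : ℕ →ᵇ A) :
    Tendsto (fun n => T.n2 (x n)) (hyperfilter ℕ : Filter ℕ) (𝓝 ((Tw T).n2 x)) := by
  have h := ((Complex.continuous_re.tendsto _).comp (tendsto_Tw T (star x * x))).sqrt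
  rw [← TS.n2_sq, Real.sqrt_sq (TS.n2_nonneg _ _)] at h
  refine h.congr fun n => ?_
  change √((T.τ (star (x n) * x n)).re) = _
  rw [← TS.n2_sq, Real.sqrt_sq (TS.n2_nonneg _ _)]

/-- the scalar part -/
noncomputable def sc : (ℕ →ᵇ A) →ₗ[ℂ] (ℕ →ᵇ A) where
  toFun x := ofNormedAddCommGroupDiscrete (fun n => T.τ (x n) • (1 : A)) ‖x‖ fun n => by
    rw [norm_smul, T.norm_unitary (one_mem _), mul_one]
    exact (T.norm_τ_le _).trans (x.norm_coe_le_norm n)
  map_add' x y := by ext n; simp [add_smul]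
  map_smul' c x := by ext n; simp [smul_smul]

lemma sc_apply (x : ℕ →ᵇ A) (n : ℕ) : sc T x n = T.τ (x n) • (1 : A) := rfl

lemma countable_closure {M : Type*} [Monoid M] {X : Set M} (hX : X.Countable) :
    (Submonoid.closure X : Set M).Countable := by
  haveI := hX.to_subtype
  refine (Set.countable_range fun l : List X => (l.map Subtype.val).prod).mono fun x hx => ?_
  obtain ⟨l, hl, rfl⟩ := Submonoid.exists_list_of_mem_closure hx
  exact ⟨l.attachWith (· ∈ X) hl, by simp⟩

theorem exists_free {P : StarSubalgebra ℂ A} (hP : Popa T P) {X : Set (ℕ →ᵇ A)}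
    (hX : X.Countable) : ∃ a : ℕ →ᵇ A, (∀ n, a n ∈ P ∧ a n ∈ unitary A) ∧
      Fr (Tw T) a (Algebra.adjoin ℂ X) := by
  obtain ⟨y, hy⟩ := (countable_closure hX).exists_eq_range ⟨1, one_mem _⟩
  let c : ℕ → ℂ := fun i => (((2 * ‖y i‖ + 1)⁻¹ : ℝ) : ℂ)
  have c0 : ∀ i, c i ≠ 0 := fun i => Complex.ofReal_ne_zero.2 (by positivity)
  have cn : ∀ i, ‖c i‖ * (2 * ‖y i‖ + 1) = 1 := fun i => by
    rw [Complex.norm_real, Real.norm_of_nonneg (by positivity), inv_mul_cancel₀ (by positivity)]
  let Xn : ℕ → Set A := fun n =>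
    (fun i => (c i • y i) n) '' Set.Iic n ∪ (fun i => (c i • (y i - sc T (y i))) n) '' Set.Iic n
  have hfin : ∀ n, (Xn n).Finite := fun n =>
    ((Set.finite_Iic n).image _).union ((Set.finite_Iic n).image _)
  have hnorm : ∀ n, ∀ x ∈ Xn n, ‖x‖ ≤ 1 := by
    rintro n _ (⟨i, -, rfl⟩ | ⟨i, -, rfl⟩)
    · have h1 := (y i).norm_coe_le_norm n
      have h2 := cn i
      simp only [coe_smul, Pi.smul_apply, norm_smul]
      nlinarith [norm_nonneg (c i), norm_nonneg (y i)]
    · have h1 := (y i).norm_coe_le_norm n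
      have h2 := cn i
      have h3 : ‖sc T (y i) n‖ ≤ ‖y i‖ := by
        rw [sc_apply, norm_smul, T.norm_unitary (one_mem _), mul_one]
        exact (T.norm_τ_le _).trans h1
      have h4 := norm_sub_le (y i n) (sc T (y i) n)
      simp only [coe_smul, Pi.smul_apply, norm_smul, coe_sub, Pi.sub_apply]
      nlinarith [norm_nonneg (c i), norm_nonneg (y i)]
  choose a aP aU ha using fun n => hP (Xn n) (hfin n) (hnorm n) n (1 / ((n : ℝ) + 1))
    (by positivity)
  let α : ℕ →ᵇ A := ofNormedAddCommGroupDiscrete a 1 fun n => (T.norm_unitary (aU n)).le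
  have hα : ∀ e n, sg α e n = sg (a n) e := fun e n => by cases e <;> rfl
  refine ⟨α, fun n => ⟨aP n, aU n⟩, ?_⟩
  let Nl : Set (ℕ →ᵇ A) := {x | Tendsto (fun n => ‖x n‖) (hyperfilter ℕ : Filter ℕ) (𝓝 0)}
  let L : Set (ℕ →ᵇ A) := {l | ∀ᶠ n in atTop, l n ∈ Xn n}
  let L0 : Set (ℕ →ᵇ A) := {l | ∀ᶠ n in atTop, l n ∈ Xn n ∧ T.τ (l n) = 0}
  let E : ℕ → Bool → Set (ℕ →ᵇ A) := fun k e => {w | ∀ᶠ n in atTop, Adm T (a n) (Xn n) k e (w n)}
  have nl1 : ∀ g x w : ℕ →ᵇ A, x ∈ Nl → g * x * w ∈ Nl := fun g x w hx => by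
    have := (hx.const_mul ‖g‖).mul_const ‖w‖
    rw [mul_zero, zero_mul] at this
    refine squeeze_zero (fun _ => norm_nonneg _) (fun n => ?_) this
    exact (norm_mul_le _ _).trans (mul_le_mul ((norm_mul_le _ _).trans
      (mul_le_mul_of_nonneg_right (g.norm_coe_le_norm n) (norm_nonneg _)))
      (w.norm_coe_le_norm n) (norm_nonneg _) (by positivity))
  have nl2 : ∀ g w : ℕ →ᵇ A, w ∈ Nl → g * w ∈ Nl := fun g w hw => by
    simpa using nl1 g w 1 hw
  have hspan : ∀ x ∈ Algebra.adjoin ℂ X, x ∈ Submodule.span ℂ (Set.range y) := fun x hx => by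
    rw [← hy, ← Algebra.adjoin_eq_span]; exact hx
  have hL : ∀ x ∈ Algebra.adjoin ℂ X, x ∈ Submodule.span ℂ L := fun x hx => by
    refine Submodule.span_le.2 ?_ (hspan x hx)
    rintro _ ⟨i, rfl⟩
    have : y i = (c i)⁻¹ • (c i • y i) := by rw [smul_smul, inv_mul_cancel₀ (c0 i), one_smul]
    rw [this]
    exact Submodule.smul_mem _ _ (Submodule.subset_span
      ((eventually_ge_atTop i).mono fun n hn => Or.inl ⟨i, hn, rfl⟩))
  have hL0 : ∀ x ∈ Algebra.adjoin ℂ X, (Tw T).τ x = 0 → x ∈ Submodule.span ℂ (L0 ∪ Nl) := by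
    intro x hx h0
    have h1 : x - sc T x ∈ Submodule.span ℂ (L0 ∪ Nl) := by
      refine (Submodule.span_le (p := (Submodule.span ℂ (L0 ∪ Nl)).comap
        (LinearMap.id - sc T))).2 ?_ (hspan x hx)
      rintro _ ⟨i, rfl⟩
      change y i - sc T (y i) ∈ Submodule.span ℂ (L0 ∪ Nl)
      have : y i - sc T (y i) = (c i)⁻¹ • (c i • (y i - sc T (y i))) := by
        rw [smul_smul, inv_mul_cancel₀ (c0 i), one_smul]
      rw [this]
      refine Submodule.smul_mem _ _ (Submodule.subset_span (Or.inl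
        ((eventually_ge_atTop i).mono fun n hn => ⟨Or.inr ⟨i, hn, rfl⟩, ?_⟩)))
      change T.τ (c i • (y i n - T.τ (y i n) • 1)) = 0
      rw [map_smul, T.τ_centre, smul_zero]
    have h2 : sc T x ∈ Nl := by
      have := (tendsto_Tw T x).norm
      rw [h0, norm_zero] at this
      refine this.congr fun n => ?_
      rw [sc_apply, norm_smul, T.norm_unitary (one_mem _), mul_one]
    have := add_mem h1 (Submodule.subset_span (Or.inr h2))
    rwa [sub_add_cancel] at this
  have key : ∀ k e w, Adm (Tw T) α (Algebra.adjoin ℂ X) k e w →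
      w ∈ Submodule.span ℂ (E k e ∪ Nl) := by
    intro k e w hw
    induction hw with
    | single e x hx =>
      refine mul_span (F := Submodule.span ℂ (E 1 e ∪ Nl)) _
        (fun l hl => Submodule.subset_span (Or.inl ?_)) (hL x hx)
      exact hl.mono fun n hn => by
        have := Adm.single (T := T) (a := a n) e _ hn
        rwa [← hα] at this
    | cons k e e' x w hx hc _ ih =>
      by_cases hee : e = e'
      · refine mul_mem_span _ (fun l hl w hw => Submodule.subset_span ?_) (hL x hx) ih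
        rcases hw with hw | hw
        · exact Or.inl ((hl.and hw).mono fun n hn => by
            have := Adm.cons k e e' _ _ hn.1 (fun h => absurd hee h) hn.2
            rwa [← hα] at this)
        · exact Or.inr (nl2 _ _ hw)
      · refine mul_mem_span _ (fun l hl w hw => Submodule.subset_span ?_) (hL0 x hx (hc hee)) ih
        rcases hl with hl | hl
        · rcases hw with hw | hw
          · exact Or.inl ((hl.and hw).mono fun n hn => by
              have := Adm.cons k e e' _ _ hn.1.1 (fun _ => hn.1.2) hn.2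
              rwa [← hα] at this)
          · exact Or.inr (nl2 _ _ hw)
        · exact Or.inr (nl1 _ _ _ hl)
  intro k e w x₀ hx₀ hw
  have := mul_mem_span (F := LinearMap.ker (Tw T).τ) 1 (fun l hl w hw => ?_) (hL x₀ hx₀)
    (key k e w hw)
  · rwa [one_mul] at this
  rw [one_mul]
  refine tw_eq T (tendsto_zero_iff_norm_tendsto_zero.2 ?_)
  rcases hw with hw | hw
  · refine Tendsto.mono_left ?_ Nat.hyperfilter_le_atTop
    refine squeeze_zero' (Eventually.of_forall fun _ => norm_nonneg _) ?_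
      tendsto_one_div_add_atTop_nhds_zero_nat
    exact (hl.and (hw.and (eventually_ge_atTop k))).mono fun n hn =>
      ha n k hn.2.2 e _ _ hn.1 hn.2.1
  · exact squeeze_zero (fun _ => norm_nonneg _) (fun n => T.norm_τ_le _) (nl2 l w hw)

end Crest.Agent.H9.Gen
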