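import Crest.Agent.H9.HcW
import Crest.Agent.H9.VNd

/-! Row 121: the invariant mean on completely bounded maps, basic operations. -/

set_option autoImplicit false
set_option linter.unusedSectionVars false

universe u

namespace Crest.Agent.H9.Hc

open scoped InnerProductSpace
open Finset Filter Topology Crest.Agent.H5.KS Crest.Agent.Lead.Hc

variable {H : Type u} [NormedAddCommGroup H] [InnerProductSpace ℂ H] [CompleteSpace H]
  {M : VonNeumannAlgebra H}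

/-- complete contractivity with a gain `p` -/
def CBp (S : Al M → Al M) (p : H → ℝ) : Prop :=
  ∀ (ι κ : Type) [Fintype ι] [Fintype κ] (Y : ι → κ → Al M),
    Contr (fun i j => (Y i j : H →L[ℂ] H)) →
    ∀ ζ : κ → H, ∑ i, ‖∑ j, (S (Y i j) : H →L[ℂ] H) (ζ j)‖ ^ 2 + ∑ j, p (ζ j) ≤ ∑ j, ‖ζ j‖ ^ 2

lemma CBp.mono {S : Al M → Al M} {p p' : H → ℝ} (h : CBp S p) (hp : ∀ ζ, p' ζ ≤ p ζ) :
    CBp S p' := fun ι κ _ _ Y hY ζ =>
  le_trans (add_le_add le_rfl (sum_le_sum fun _ _ => hp _)) (h ι κ Y hY ζ)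

lemma CBp.one {S : Al M → Al M} {p : H → ℝ} (h : CBp S p) (ζ : H) :
    ‖(S 1 : H →L[ℂ] H) ζ‖ ^ 2 + p ζ ≤ ‖ζ‖ ^ 2 := by
  simpa using h Unit Unit (fun _ _ => 1) (fun ζ => by simp) fun _ => ζ

lemma CBp.frame {S : Al M → Al M} {p : H → ℝ} (h : CBp S p) (h0 : S 0 = 0) {L : Type} [Fintype L]
    (y w : L → Al M) (hyw : ∀ a : L → H, ‖∑ l, (y l : H →L[ℂ] H) (a l)‖ ^ 2 +
      ‖∑ l, (w l : H →L[ℂ] H) (a l)‖ ^ 2 ≤ ∑ l, ‖a l‖ ^ 2)
    (hy : ∀ ζ, ∑ l, ‖star (y l : H →L[ℂ] H) ζ‖ ^ 2 ≤ ‖ζ‖ ^ 2) :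
    CBp (fun x => ∑ l, S (x * y l) * star (y l))
      (fun ζ => ∑ l, p (star (y l : H →L[ℂ] H) ζ) +
        ‖∑ l, (S (w l) : H →L[ℂ] H) (star (y l : H →L[ℂ] H) ζ)‖ ^ 2) := by
  classical
  intro ι κ _ _ Y hY ζ
  have key := h (ι ⊕ κ) (κ × L)
    (fun i q => Sum.elim (fun i => Y i q.1 * y q.2) (fun j => if q.1 = j then w q.2 else 0) i)
    (fun a => by
      simp only [Fintype.sum_sum_type, Sum.elim_inl, Sum.elim_inr, Fintype.sum_prod_type]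
      have e1 : ∀ i, ∑ j, ∑ l, ((Y i j * y l : Al M) : H →L[ℂ] H) (a (j, l))
          = ∑ j, (Y i j : H →L[ℂ] H) (∑ l, (y l : H →L[ℂ] H) (a (j, l))) := fun i =>
        sum_congr rfl fun j _ => by rw [map_sum]; rfl
      have e2 : ∀ j', ∑ j, ∑ l, ((if j = j' then w l else 0 : Al M) : H →L[ℂ] H) (a (j, l))
          = ∑ l, (w l : H →L[ℂ] H) (a (j', l)) := fun j' => by
        rw [sum_eq_single j' (fun j _ hj => by simp [hj]) (by simp)]; simp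
      simp only [e1, e2]
      refine le_trans (add_le_add (hY _) le_rfl) ?_
      rw [← sum_add_distrib]
      exact sum_le_sum fun j _ => hyw _)
    (fun q => star (y q.2 : H →L[ℂ] H) (ζ q.1))
  simp only [Fintype.sum_sum_type, Sum.elim_inl, Sum.elim_inr, Fintype.sum_prod_type] at key
  have e1 : ∀ i j, ((∑ l, S (Y i j * y l) * star (y l) : Al M) : H →L[ℂ] H) (ζ j)
      = ∑ l, (S (Y i j * y l) : H →L[ℂ] H) (star (y l : H →L[ℂ] H) (ζ j)) := fun i j => by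
    rw [AddSubmonoidClass.coe_finsetSum, _root_.sum_apply]; rfl
  have e2 : ∀ j', ∑ j, ∑ l, (S (if j = j' then w l else 0) : H →L[ℂ] H)
      (star (y l : H →L[ℂ] H) (ζ j))
      = ∑ l, (S (w l) : H →L[ℂ] H) (star (y l : H →L[ℂ] H) (ζ j')) := fun j' => by
    rw [sum_eq_single j' (fun j _ hj => by simp [hj, h0]) (by simp)]; simp
  simp only [e2] at key
  simp only [e1, sum_add_distrib]
  have h3 : ∑ j, ∑ l, ‖star (y l : H →L[ℂ] H) (ζ j)‖ ^ 2 ≤ ∑ j, ‖ζ j‖ ^ 2 :=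
    sum_le_sum fun j _ => hy _
  linarith

lemma CBp.lim {ι' : Type*} {F : Filter ι'} [F.NeBot] {S : ι' → Al M → Al M} {p : ι' → H → ℝ}
    {S' : Al M → Al M} {p' : H → ℝ} (h : ∀ a, CBp (S a) (p a))
    (hS : ∀ x, WL F (fun a => (S a x : H →L[ℂ] H)) (S' x))
    (hp : ∀ ζ, Tendsto (fun a => p a ζ) F (𝓝 (p' ζ))) : CBp S' p' := by
  intro ι κ _ _ Y hY ζ
  set W : ι → H := fun i => ∑ j, (S' (Y i j) : H →L[ℂ] H) (ζ j) with hW
  have h1 : Tendsto (fun a => ∑ i, (2 * ∑ j, (⟪W i, (S a (Y i j) : H →L[ℂ] H) (ζ j)⟫_ℂ).re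
      - ‖W i‖ ^ 2) + ∑ j, p a (ζ j)) F (𝓝 (∑ i, (2 * ∑ j,
        (⟪W i, (S' (Y i j) : H →L[ℂ] H) (ζ j)⟫_ℂ).re - ‖W i‖ ^ 2) + ∑ j, p' (ζ j))) :=
    (tendsto_finsetSum _ fun i _ => ((tendsto_finsetSum _ fun j _ =>
      (hS (Y i j)).re_inner _ _).const_mul 2).sub_const _).add
      (tendsto_finsetSum _ fun j _ => hp _)
  have h2 : ∀ i, 2 * ∑ j, (⟪W i, (S' (Y i j) : H →L[ℂ] H) (ζ j)⟫_ℂ).re - ‖W i‖ ^ 2
      = ‖W i‖ ^ 2 := fun i => by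
    rw [← Complex.re_sum, ← inner_sum]
    have : (⟪W i, W i⟫_ℂ).re = ‖W i‖ ^ 2 := inner_self_eq_norm_sq (𝕜 := ℂ) (W i)
    change 2 * (⟪W i, W i⟫_ℂ).re - _ = _
    rw [this]; ring
  simp only [h2] at h1
  refine le_of_tendsto' h1 fun a => le_trans (add_le_add (sum_le_sum fun i _ => ?_) le_rfl)
    (h a ι κ Y hY ζ)
  rw [← Complex.re_sum, ← inner_sum]
  have := norm_sub_sq (𝕜 := ℂ) (W i) (∑ j, (S a (Y i j) : H →L[ℂ] H) (ζ j))
  have h3 := sq_nonneg ‖W i - ∑ j, (S a (Y i j) : H →L[ℂ] H) (ζ j)‖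
  simp only [RCLike.re_to_complex] at this
  linarith

/-! ### the space of completely bounded maps -/

lemma CB_smul {T : Al M →L[ℂ] Al M} {c : ℝ} (h : CB M T c) (t : ℂ) :
    CB M (t • T : Al M →L[ℂ] Al M) (‖t‖ * c) := by
  intro ι κ _ _ Y hY ζ
  have e : ∀ i, ∑ j, (((t • T) (Y i j) : Al M) : H →L[ℂ] H) (ζ j)
      = t • ∑ j, (T (Y i j) : H →L[ℂ] H) (ζ j) := fun i => by
    rw [smul_sum]; rfl
  simp only [e, norm_smul, mul_pow, ← mul_sum]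
  rw [mul_assoc]
  exact mul_le_mul_of_nonneg_left (h ι κ Y hY ζ) (sq_nonneg _)

lemma CB_mono {T : Al M → Al M} {c c' : ℝ} (h : CB M T c) (hc : c ^ 2 ≤ c' ^ 2) : CB M T c' :=
  fun ι κ _ _ Y hY ζ => (h ι κ Y hY ζ).trans
    (mul_le_mul_of_nonneg_right hc (sum_nonneg fun _ _ => sq_nonneg _))

variable (M) in
/-- completely bounded maps -/
def DD : Submodule ℂ (Al M →L[ℂ] Al M) where
  carrier := {T | ∃ c, CB M T c}
  zero_mem' := ⟨0, fun ι κ _ _ Y _ ζ => by simp⟩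
  smul_mem' := fun t _ ⟨_, h⟩ => ⟨_, CB_smul h t⟩
  add_mem' := by
    rintro T T' ⟨c, h⟩ ⟨c', h'⟩
    refine ⟨√(2 * c ^ 2 + 2 * c' ^ 2), fun ι κ _ _ Y hY ζ => ?_⟩
    rw [Real.sq_sqrt (by positivity)]
    have e : ∀ i, ∑ j, (((T + T') (Y i j) : Al M) : H →L[ℂ] H) (ζ j)
        = ∑ j, (T (Y i j) : H →L[ℂ] H) (ζ j) + ∑ j, (T' (Y i j) : H →L[ℂ] H) (ζ j) := fun i => by
      rw [← sum_add_distrib]; rfl
    simp only [e]
    have h1 := h ι κ Y hY ζ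
    have h2 := h' ι κ Y hY ζ
    have h3 : ∀ a b : H, ‖a + b‖ ^ 2 ≤ 2 * ‖a‖ ^ 2 + 2 * ‖b‖ ^ 2 := fun a b => by
      nlinarith [norm_add_le a b, norm_nonneg (a + b), norm_nonneg a, norm_nonneg b,
        sq_nonneg (‖a‖ - ‖b‖)]
    refine (sum_le_sum fun i _ => h3 _ _).trans ?_
    rw [sum_add_distrib, ← mul_sum, ← mul_sum]
    linarith

lemma id_mem : ContinuousLinearMap.id ℂ (Al M) ∈ DD M :=
  ⟨1, fun ι κ _ _ Y hY ζ => by simpa using hY ζ⟩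

lemma left_mem {T : Al M →L[ℂ] Al M} (h : T ∈ DD M) (b : Al M) : (Lm b).comp T ∈ DD M := by
  obtain ⟨c, h⟩ := h
  refine ⟨‖(b : H →L[ℂ] H)‖ * c, fun ι κ _ _ Y hY ζ => ?_⟩
  have e : ∀ i, ∑ j, ((((Lm b).comp T) (Y i j) : Al M) : H →L[ℂ] H) (ζ j)
      = (b : H →L[ℂ] H) (∑ j, (T (Y i j) : H →L[ℂ] H) (ζ j)) := fun i => by
    rw [map_sum]; rfl
  simp only [e]
  rw [mul_pow, mul_assoc]
  refine le_trans (sum_le_sum fun i _ => ?_) ((le_of_eq (mul_sum _ _ _).symm).trans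
    (mul_le_mul_of_nonneg_left (h ι κ Y hY ζ) (sq_nonneg _)))
  rw [← mul_pow]
  exact pow_le_pow_left₀ (norm_nonneg _) ((b : H →L[ℂ] H).le_opNorm _) 2

lemma right_mem {T : Al M →L[ℂ] Al M} (h : T ∈ DD M) (x : Al M) : T.comp (Lm x) ∈ DD M := by
  obtain ⟨c, h⟩ := h
  set t : ℝ := ‖(x : H →L[ℂ] H)‖ + 1 with ht
  have ht0 : 0 < t := by positivity
  have h1 : T.comp (Lm (((t⁻¹ : ℝ) : ℂ) • x)) ∈ DD M := by
    refine ⟨c, fun ι κ _ _ Y hY ζ => h ι κ (fun i j => (((t⁻¹ : ℝ) : ℂ) • x) * Y i j)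
      (fun a => le_trans (sum_le_sum fun i _ => ?_) (hY a)) ζ⟩
    have e : ∑ j, (((((t⁻¹ : ℝ) : ℂ) • x) * Y i j : Al M) : H →L[ℂ] H) (a j)
        = ((t⁻¹ : ℝ) : ℂ) • (x : H →L[ℂ] H) (∑ j, (Y i j : H →L[ℂ] H) (a j)) := by
      rw [map_sum, smul_sum]; rfl
    rw [e]
    refine pow_le_pow_left₀ (norm_nonneg _) ?_ 2
    rw [norm_smul, Complex.norm_real, Real.norm_of_nonneg (inv_nonneg.2 ht0.le),
      inv_mul_le_iff₀ ht0]
    exact ((x : H →L[ℂ] H).le_opNorm _).trans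
      (mul_le_mul_of_nonneg_right (by linarith) (norm_nonneg _))
  have h2 : T.comp (Lm x) = (t : ℂ) • T.comp (Lm (((t⁻¹ : ℝ) : ℂ) • x)) := by
    ext1 z
    simp only [ContinuousLinearMap.comp_apply, ContinuousLinearMap.mul_apply', _root_.smul_apply,
      map_smul, smul_smul]
    rw [← Complex.ofReal_mul, mul_inv_cancel₀ ht0.ne']; simp
  rw [h2]
  exact (DD M).smul_mem _ h1

lemma exists_scale {T : Al M →L[ℂ] Al M} {c : ℝ} (hc : 0 < c) (h : CB M T c) :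
    CB M (((c⁻¹ : ℝ) : ℂ) • T : Al M →L[ℂ] Al M) 1 := by
  have := CB_smul h ((c⁻¹ : ℝ) : ℂ)
  rwa [Complex.norm_real, Real.norm_of_nonneg (inv_nonneg.2 hc.le), inv_mul_cancel₀ hc.ne'] at this

lemma comp_one (T : Al M →L[ℂ] Al M) : T.comp (Lm 1) = T := by ext1 z; simp

lemma comp_comp (T : Al M →L[ℂ] Al M) (x y : Al M) :
    (T.comp (Lm x)).comp (Lm y) = T.comp (Lm (x * y)) := by ext1 z; simp [mul_assoc]

/-- the algebraic requirements -/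
structure Base (Λ : (Al M →L[ℂ] Al M) →ₗ[ℂ] Al M) : Prop where
  left : ∀ T ∈ DD M, ∀ b, Λ ((Lm b).comp T) = b * Λ T
  one : Λ (ContinuousLinearMap.id ℂ _) = 1

lemma Base.lm {Λ : (Al M →L[ℂ] Al M) →ₗ[ℂ] Al M} (h : Base Λ) (b : Al M) : Λ (Lm b) = b := by
  have := h.left _ id_mem b
  rwa [ContinuousLinearMap.comp_id, h.one, mul_one] at this

/-- the maps of cb norm at most one -/
abbrev D1 (M : VonNeumannAlgebra H) := {T : Al M →L[ℂ] Al M // CB M T 1}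

/-- gain -/
def Gn (Λ : (Al M →L[ℂ] Al M) →ₗ[ℂ] Al M) (p : D1 M → H → ℝ) : Prop :=
  ∀ T : D1 M, CBp (fun x => Λ (T.1.comp (Lm x))) (p T)

lemma Gn.norm_le {Λ : (Al M →L[ℂ] Al M) →ₗ[ℂ] Al M} {p : D1 M → H → ℝ} (h : Gn Λ p)
    (h0 : ∀ T ζ, 0 ≤ p T ζ) {T : Al M →L[ℂ] Al M} {c : ℝ} (hc : 0 < c) (hT : CB M T c) :
    ‖Λ T‖ ≤ c := by
  have h1 : ∀ T' : D1 M, ‖Λ T'.1‖ ≤ 1 := fun T' =>
    ContinuousLinearMap.opNorm_le_bound (Λ T'.1 : H →L[ℂ] H) zero_le_one fun ζ => by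
      have h2 := (h T').one ζ
      have h3 := h0 T' ζ
      rw [comp_one] at h2
      rw [one_mul]
      exact (abs_le_of_sq_le_sq' (by linarith) (norm_nonneg _)).2
  have h2 : ‖Λ (((c⁻¹ : ℝ) : ℂ) • T)‖ ≤ 1 := h1 ⟨_, exists_scale hc hT⟩
  rw [map_smul, norm_smul, Complex.norm_real, Real.norm_of_nonneg (inv_nonneg.2 hc.le),
    inv_mul_le_iff₀ hc, mul_one] at h2
  exact h2

/-- the frame operation -/
noncomputable def beta {L : Type} [Fintype L] (y : L → Al M)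
    (Λ : (Al M →L[ℂ] Al M) →ₗ[ℂ] Al M) : (Al M →L[ℂ] Al M) →ₗ[ℂ] Al M where
  toFun T := ∑ l, Λ (T.comp (Lm (y l))) * star (y l)
  map_add' T T' := by
    simp only [ContinuousLinearMap.add_comp, map_add, add_mul, sum_add_distrib]
  map_smul' c T := by
    simp only [ContinuousLinearMap.smul_comp, map_smul, smul_mul_assoc, smul_sum, RingHom.id_apply]

lemma beta_apply {L : Type} [Fintype L] (y : L → Al M) (Λ : (Al M →L[ℂ] Al M) →ₗ[ℂ] Al M)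
    (T : Al M →L[ℂ] Al M) : beta y Λ T = ∑ l, Λ (T.comp (Lm (y l))) * star (y l) := rfl

lemma Base.beta {Λ : (Al M →L[ℂ] Al M) →ₗ[ℂ] Al M} (h : Base Λ) {L : Type} [Fintype L]
    {y : L → Al M} (hy : ∑ l, y l * star (y l) = 1) : Base (beta y Λ) := by
  refine ⟨fun T hT b => ?_, ?_⟩
  · simp only [beta_apply, mul_sum, ContinuousLinearMap.comp_assoc,
      h.left _ (right_mem hT _), mul_assoc]
  · simp only [beta_apply, ContinuousLinearMap.id_comp, h.lm, hy]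

lemma frame_normsq {L : Type} [Fintype L] {y : L → Al M} (hy : ∑ l, y l * star (y l) = 1) (ζ : H) :
    ∑ l, ‖star (y l : H →L[ℂ] H) ζ‖ ^ 2 = ‖ζ‖ ^ 2 := by
  rw [sum_normsq_star]
  have : ∑ l, (y l : H →L[ℂ] H) * star (y l : H →L[ℂ] H) = 1 := by
    have := congrArg Subtype.val hy
    rw [AddSubmonoidClass.coe_finsetSum] at this
    exact this
  rw [this]
  exact inner_self_eq_norm_sq (𝕜 := ℂ) ζ

lemma Gn.beta {Λ : (Al M →L[ℂ] Al M) →ₗ[ℂ] Al M} {p : D1 M → H → ℝ} (h : Gn Λ p)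
    {L : Type} [Fintype L] {y : L → Al M} (hy : ∑ l, y l * star (y l) = 1) (w : L → Al M)
    (hyw : ∀ a : L → H, ‖∑ l, (y l : H →L[ℂ] H) (a l)‖ ^ 2 +
      ‖∑ l, (w l : H →L[ℂ] H) (a l)‖ ^ 2 ≤ ∑ l, ‖a l‖ ^ 2) :
    Gn (beta y Λ) fun T ζ => ∑ l, p T (star (y l : H →L[ℂ] H) ζ) +
        ‖∑ l, (Λ (T.1.comp (Lm (w l))) : H →L[ℂ] H) (star (y l : H →L[ℂ] H) ζ)‖ ^ 2 := by
  intro T
  have := (h T).frame (by simp) y w hyw fun ζ => (frame_normsq hy ζ).le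
  simpa only [beta_apply, comp_comp] using this

lemma Gn.beta0 {Λ : (Al M →L[ℂ] Al M) →ₗ[ℂ] Al M} {p : D1 M → H → ℝ} (h : Gn Λ p)
    {L : Type} [Fintype L] {y : L → Al M} (hy : ∑ l, y l * star (y l) = 1) :
    Gn (Hc.beta y Λ) fun T ζ => ∑ l, p T (star (y l : H →L[ℂ] H) ζ) := by
  have h1 : ‖∑ l, (y l : H →L[ℂ] H) * star (y l : H →L[ℂ] H)‖ ≤ 1 := by
    have := congrArg Subtype.val hy
    rw [AddSubmonoidClass.coe_finsetSum] at this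
    refine (congrArg norm this).le.trans ?_
    exact ContinuousLinearMap.norm_id_le
  have := h.beta hy (fun _ => 0) fun a => by
    simpa using VN.row_bound univ (fun l => (y l : H →L[ℂ] H)) h1 a
  exact fun T => (this T).mono fun ζ => le_add_of_nonneg_right (sq_nonneg _)

lemma exists_lim {ι : Type*} (U : Ultrafilter ι) {Λ : ι → (Al M →L[ℂ] Al M) →ₗ[ℂ] Al M}
    {p : ι → D1 M → H → ℝ} {p' : D1 M → H → ℝ} (hb : ∀ a, Base (Λ a)) (hg : ∀ a, Gn (Λ a) (p a))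
    (h0 : ∀ a T ζ, 0 ≤ p a T ζ) (hp : ∀ T ζ, Tendsto (fun a => p a T ζ) U (𝓝 (p' T ζ))) :
    ∃ Λ', Base Λ' ∧ Gn Λ' p' := by
  have hs : ∀ T ∈ DD M, WL (U : Filter ι) (fun a => (Λ a T : H →L[ℂ] H)) (ul M U fun a => Λ a T) := by
    rintro T ⟨c, hc⟩
    exact ul_spec U (c := |c| + 1) (Eventually.of_forall fun a => (hg a).norm_le (h0 a)
      (by positivity) (CB_mono hc (by nlinarith [sq_abs c, abs_nonneg c])))
  let Λ0 : DD M →ₗ[ℂ] Al M :=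
    { toFun := fun T => ul M U fun a => Λ a T
      map_add' := fun T T' => ul_eq (by
        simp only [Submodule.coe_add, map_add]
        exact (hs _ T.2).add (hs _ T'.2))
      map_smul' := fun c T => ul_eq (by
        simp only [Submodule.coe_smul, map_smul]
        exact (hs _ T.2).smul c) }
  obtain ⟨Λ', hΛ⟩ := LinearMap.exists_extend Λ0
  have hs' : ∀ T ∈ DD M, WL (U : Filter ι) (fun a => (Λ a T : H →L[ℂ] H)) (Λ' T) := by
    intro T hT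
    have : Λ' T = Λ0 ⟨T, hT⟩ := by rw [← hΛ]; rfl
    rw [this]; exact hs T hT
  refine ⟨Λ', ⟨fun T hT b => Subtype.ext ((hs' _ (left_mem hT b)).eq ((hs' T hT).mul_left b)
    (Eventually.of_forall fun a => by rw [(hb a).left T hT]; rfl)),
    Subtype.ext ((hs' _ id_mem).eq (WL.const _)
      (Eventually.of_forall fun a => by rw [(hb a).one]))⟩, fun T => ?_⟩
  exact CBp.lim (F := U) (fun a => hg a T) (fun x => hs' _ (right_mem ⟨1, T.2⟩ x)) (hp T)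

end Crest.Agent.H9.Hc
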