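import Crest.Agent.H9.HcCA

/-! Row 121: the invariant mean on completely bounded maps. -/

set_option autoImplicit false
set_option linter.unusedSectionVars false

universe u

namespace Crest.Agent.H9.Hc

open scoped InnerProductSpace
open Finset Filter Topology Crest.Agent.H5.KS Crest.Agent.Lead.Hc

variable {H : Type u} [NormedAddCommGroup H] [InnerProductSpace ℂ H] [CompleteSpace H]
  {M : VonNeumannAlgebra H}

lemma exists_low {d : H →L[ℂ] H} (hd : d ∈ M) (h0 : d ≠ 0) : ∃ e ∈ M, IsStarProjection e ∧ e ≠ 0 ∧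
    ∃ t : ℝ, 0 < t ∧ ∀ ξ, t * ‖e ξ‖ ^ 2 ≤ ‖d (e ξ)‖ ^ 2 := by
  have hn : 0 < ‖d‖ := norm_pos_iff.2 h0
  set t : ℝ := (‖d‖ / 2) ^ 2 with ht
  have haM : star d * d - t • (1 : H →L[ℂ] H) ∈ M :=
    sub_mem (mul_mem (star_mem hd) hd) (rsmul_mem t (one_mem _))
  have hsa : IsSelfAdjoint (star d * d - t • (1 : H →L[ℂ] H)) :=
    (IsSelfAdjoint.star_mul_self d).sub ((IsSelfAdjoint.all t).smul (IsSelfAdjoint.one _))
  obtain ⟨e, pe, h1, h2, -, h4, -⟩ := exists_split _ hsa
  have key : ∀ ξ, (⟪ξ, (star d * d - t • (1 : H →L[ℂ] H)) ξ⟫_ℂ).re = ‖d ξ‖ ^ 2 - t * ‖ξ‖ ^ 2 := by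
    intro ξ
    rw [re_inner_sub, re_inner_rsmul, ← norm_sq_eq_re]
    congr 2
    exact inner_self_eq_norm_sq (𝕜 := ℂ) ξ
  refine ⟨e, mem_of_comm fun s hs => h4 s (comm_of_mem haM hs) (comm_of_mem haM (star_mem hs)), pe,
    ?_, t, by positivity, fun ξ => ?_⟩
  · rintro rfl
    rw [sub_zero, mul_one] at h2
    have : ‖d‖ ≤ ‖d‖ / 2 := ContinuousLinearMap.opNorm_le_bound _ (by positivity) fun ξ => by
      have h5 := re_inner_mono h2 ξ
      rw [key] at h5
      refine (abs_le_of_sq_le_sq' ?_ (by positivity)).2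
      rw [mul_pow]
      simpa using h5
    linarith
  · have h5 := re_inner_nonneg h1 (e ξ)
    have h6 : e (e ξ) = e ξ := by rw [← mul_apply_eq_comp, pmul pe]
    rw [mul_apply_eq_comp, h6, key] at h5
    linarith

lemma exists_cover {e : H →L[ℂ] H} (he : e ∈ M) (pe : IsStarProjection e) :
    ∃ (S : Set (H →L[ℂ] H)) (R : H →L[ℂ] H), (∀ v ∈ S, v ∈ M ∧ PI v ∧ v * e = v) ∧
      (S.Pairwise fun v v' => star v * v' = 0) ∧ Cen M R ∧ R * e = e ∧
      ∀ ξ, HasSum (fun v : S => (v.1 * star v.1) ξ) (R ξ) := by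
  obtain ⟨S, hS, hp, hmax⟩ := VN.exists_maximal_pairwise
    (fun v : H →L[ℂ] H => v ∈ M ∧ PI v ∧ v * e = v) (fun v v' => star v * v' = 0)
  have ho : ∀ i j : S, i ≠ j → (i.1 * star i.1) * (j.1 * star j.1) = 0 := fun i j hij => by
    rw [mul_assoc, ← mul_assoc (star i.1), hp i.2 j.2 fun h => hij (Subtype.ext h)]; simp
  have hst : ∀ i : S, star (i.1 * star i.1) = i.1 * star i.1 := fun i => by simp
  obtain ⟨R, hR, -, h1, h2⟩ := VN.exists_orth_sum M (fun v : S => v.1 * star v.1)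
    (fun v => mul_mem (hS _ v.2).1 (star_mem (hS _ v.2).1))
    (fun v => (hS _ v.2).2.1.ran.norm_le) (fun i j hij => by rw [hst]; exact ho i j hij)
    (fun i j hij => by rw [hst]; exact ho i j hij)
  have hsR : star R = R := by
    ext ξ
    simp only [hst] at h2
    exact (h2 ξ).unique (h1 ξ)
  have hRa : ∀ i : S, R * (i.1 * star i.1) = i.1 * star i.1 := fun i => by
    rw [VN.sum_mul_single h1 i fun j hj => ho j i hj, pmul (hS _ i.2).2.1.ran]
  have hRv : ∀ v ∈ S, R * v = v := fun v hv => by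
    have := congrArg (· * v) (hRa ⟨v, hv⟩)
    simp only [mul_assoc] at this
    rwa [(hS v hv).2.1.eq'] at this
  have pR : IsStarProjection R := mkproj (by
    have := VN.mul_sum_eq_zero h1 (T := 1 - R) fun i => by rw [sub_mul, one_mul, hRa, sub_self]
    rw [sub_mul, one_mul, sub_eq_zero] at this
    exact this.symm) hsR
  have hk : ∀ x ∈ M, (1 - R) * x * e = 0 := by
    intro x hx
    by_contra hne
    obtain ⟨t, tM, pt, t0, h3, h4⟩ := exists_PI_between he (sub_mem (one_mem _) hR) hx (pmul pe)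
      (pmul pR.one_sub) hne
    have h5 : ∀ v ∈ S, star v * t = 0 := fun v hv => by
      have : star v * R = star v := by rw [← hsR, ← star_mul, hRv v hv]
      rw [← h3, ← mul_assoc, mul_sub, mul_one, this, sub_self, zero_mul]
    have h6 := hmax t ⟨tM, pt, h4⟩ fun v hv => ⟨h5 v hv, by
      have := congrArg star (h5 v hv)
      simpa using this⟩
    apply t0
    rw [← h3, sub_mul, one_mul, hRv t h6, sub_self]
  have hk2 : ∀ x ∈ M, (1 - R) * x * R = 0 := fun x hx =>
    VN.mul_sum_eq_zero h1 fun i => by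
      have := hk (x * i.1) (mul_mem hx (hS _ i.2).1)
      rw [← mul_assoc, mul_assoc _ i.1, (hS _ i.2).2.2] at this
      rw [← mul_assoc, this, zero_mul]
  refine ⟨S, R, hS, hp, ⟨hR, pR, fun a ha =>
    (comm_of_inv pR (hk2 a ha) (hk2 _ (star_mem ha))).symm⟩, ?_, h1⟩
  have := hk 1 (one_mem _)
  rw [mul_one, sub_mul, one_mul, sub_eq_zero] at this
  exact this.symm

/-- admissible gains -/
def PP (M : VonNeumannAlgebra H) : Set (D1 M → H → ℝ) :=
  {p | (∀ T ζ, 0 ≤ p T ζ) ∧ (∀ T, ∀ (L : Type) [Fintype L] (y : L → Al M),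
    ∑ l, y l * star (y l) = 1 → ∀ ζ, p T ζ ≤ ∑ l, p T (star (y l : H →L[ℂ] H) ζ)) ∧
    ∃ Λ, Base Λ ∧ Gn Λ p}

lemma zero_mem_PP : (0 : D1 M → H → ℝ) ∈ PP M := by
  refine ⟨fun _ _ => le_rfl, fun _ _ _ _ _ _ => by simp,
    { toFun := fun T => T 1, map_add' := fun _ _ => rfl, map_smul' := fun _ _ => rfl },
    ⟨fun _ _ _ => rfl, rfl⟩, fun T ι κ _ _ Y hY ζ => ?_⟩
  simpa using T.2 ι κ Y hY ζ

lemma exists_max : ∃ p, Maximal (· ∈ PP M) p := by
  obtain ⟨p, -, hp⟩ := zorn_le_nonempty₀ (PP M) (fun c hc hch y hy => by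
    have : Nonempty c := ⟨⟨y, hy⟩⟩
    have : IsDirectedOrder c := hch.directedOn.isDirectedOrder
    let U : Ultrafilter c := Ultrafilter.of atTop
    choose Λ hb hg using fun a : c => (hc a.2).2.2
    have hex : ∀ T ζ, ∃ x : ℝ, Tendsto (fun a : c => a.1 T ζ) U (𝓝 x) := fun T ζ => by
      obtain ⟨x, -, hx⟩ := (isCompact_Icc (a := (0 : ℝ)) (b := ‖ζ‖ ^ 2)).ultrafilter_le_nhds
        (U.map fun a : c => a.1 T ζ) (by
          rw [le_principal_iff, Ultrafilter.coe_map, Filter.mem_map]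
          refine univ_mem' fun a => ⟨(hc a.2).1 T ζ, ?_⟩
          have := (hg a T).one ζ
          linarith [sq_nonneg ‖(Λ a (T.1.comp (Lm 1)) : H →L[ℂ] H) ζ‖])
      exact ⟨x, hx⟩
    choose p' hp' using hex
    refine ⟨p', ⟨fun T ζ => ge_of_tendsto' (hp' T ζ) fun a => (hc a.2).1 T ζ,
      fun T L _ y hy ζ => le_of_tendsto_of_tendsto' (hp' T ζ)
        (tendsto_finsetSum _ fun l _ => hp' T _) fun a => (hc a.2).2.1 T L y hy ζ,
      exists_lim U hb hg (fun a => (hc a.2).1) hp'⟩, fun z hz T ζ => ?_⟩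
    exact ge_of_tendsto (hp' T ζ) (Ultrafilter.of_le _ ((eventually_ge_atTop (⟨z, hz⟩ : c)).mono
      fun a ha => (show z ≤ a.1 from ha) T ζ))) 0 zero_mem_PP
  exact ⟨p, hp⟩

lemma rot_ineq (a b : H) : ‖((3 / 5 : ℝ) : ℂ) • a + ((4 / 5 : ℝ) : ℂ) • b‖ ^ 2 +
    ‖((-4 / 5 : ℝ) : ℂ) • a + ((3 / 5 : ℝ) : ℂ) • b‖ ^ 2 = ‖a‖ ^ 2 + ‖b‖ ^ 2 := by
  simp only [norm_add_sq (𝕜 := ℂ), norm_smul, Complex.norm_real, inner_smul_left, inner_smul_right,
    Complex.conj_ofReal, RCLike.re_to_complex, Complex.re_ofReal_mul, mul_pow, Real.norm_eq_abs,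
    sq_abs]
  ring

lemma improve {p : D1 M → H → ℝ} (hp : p ∈ PP M) {Λ : (Al M →L[ℂ] Al M) →ₗ[ℂ] Al M} (hb : Base Λ)
    (hg : Gn Λ p) (T0 : D1 M) {u : Al M} (h1 : u * star u = 1) (h2 : star u * u = 1)
    (hne : Λ (T0.1.comp (Lm u)) * star u - Λ T0.1 ≠ 0) : ∃ p' ∈ PP M, p ≤ p' ∧ ¬ p' ≤ p := by
  classical
  set d : Al M := Λ (T0.1.comp (Lm u)) * star u - Λ T0.1 with hd
  obtain ⟨e, eM, pe, e0, t, ht, hlow⟩ := exists_low (M := M) d.2 fun h => hne (Subtype.ext h)
  obtain ⟨S, R, hS, hSp, hR, hRe, hsum⟩ := exists_cover eM pe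
  let y : Bool → Al M := fun b => if b then ((3 / 5 : ℝ) : ℂ) • 1 else ((4 / 5 : ℝ) : ℂ) • u
  let w : Bool → Al M := fun b => if b then ((-4 / 5 : ℝ) : ℂ) • 1 else ((3 / 5 : ℝ) : ℂ) • u
  have hy : ∑ l, y l * star (y l) = 1 := by
    simp only [y, Fintype.sum_bool, if_true, Bool.false_eq_true, if_false, star_smul, smul_mul_smul_comm,
      star_one, mul_one, h1, ← add_smul, Complex.star_def, Complex.conj_ofReal, ← Complex.ofReal_mul,
      ← Complex.ofReal_add]
    norm_num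
  have hu : ∀ ξ, ‖(u : H →L[ℂ] H) ξ‖ ^ 2 = ‖ξ‖ ^ 2 := fun ξ => by
    rw [norm_sq_eq_re, show star (u : H →L[ℂ] H) * u = 1 from congrArg Subtype.val h2]
    exact inner_self_eq_norm_sq (𝕜 := ℂ) ξ
  have g1 := hg.beta hy w fun a => by
    simp only [Fintype.sum_bool]
    rw [← hu (a false)]
    exact (rot_ineq (a true) ((u : H →L[ℂ] H) (a false))).le
  have b1 := hb.beta hy
  set Λ1 := beta y Λ
  have g2 : Gn Λ1 fun T ζ => p T ζ +
      if T = T0 then (12 / 25) ^ 2 * ‖(d : H →L[ℂ] H) ζ‖ ^ 2 else 0 := fun T =>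
    (g1 T).mono fun ζ => add_le_add (hp.2.1 T Bool y hy ζ) (by
      split_ifs with hT
      · subst hT
        refine le_of_eq ?_
        have : ∑ l, (Λ (T.1.comp (Lm (w l))) : H →L[ℂ] H) (star (y l : H →L[ℂ] H) ζ)
            = ((12 / 25 : ℝ) : ℂ) • (d : H →L[ℂ] H) ζ := by
          have e1 : ∑ l, Λ (T.1.comp (Lm (w l))) * star (y l) = ((12 / 25 : ℝ) : ℂ) • d := by
            simp only [y, w, Fintype.sum_bool, if_true, Bool.false_eq_true, if_false, star_smul,
              map_smul, ContinuousLinearMap.comp_smul, smul_mul_smul_comm, star_one, mul_one,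
              comp_one, Complex.star_def, Complex.conj_ofReal, ← Complex.ofReal_mul, hd, smul_sub]
            rw [add_comm, sub_eq_add_neg, ← neg_smul, ← Complex.ofReal_neg]
            norm_num
          have e2 := congrArg (fun x : Al M => (x : H →L[ℂ] H) ζ) e1
          simp only [AddSubmonoidClass.coe_finsetSum, _root_.sum_apply] at e2
          exact e2
        rw [this, norm_smul, mul_pow, Complex.norm_real, Real.norm_eq_abs, sq_abs]
      · exact sq_nonneg _)
  set δ : ℝ := (12 / 25) ^ 2 * t with hδ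
  have hδ0 : 0 < δ := by positivity
  have hfr : ∀ s : Finset S, ∃ Λ2, Base Λ2 ∧ Gn Λ2 fun T ζ => p T ζ +
      if T = T0 then δ * ∑ v ∈ s, ‖star v.1 ζ‖ ^ 2 else 0 := by
    intro s
    let V : S → Al M := fun v => ⟨v.1, (hS _ v.2).1⟩
    set r : Al M := ∑ v ∈ s, V v * star (V v) with hr
    have hrr : r * r = r := by
      rw [hr, sum_mul_sum]
      refine sum_congr rfl fun v hv => ?_
      rw [sum_eq_single v (fun v' _ hv' => Subtype.ext ?_) (fun h => (h hv).elim)]
      · exact Subtype.ext (pmul (hS _ v.2).2.1.ran)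
      · change v.1 * star v.1 * (v'.1 * star v'.1) = 0
        rw [mul_assoc, ← mul_assoc (star v.1), hSp v.2 v'.2 fun h => hv' (Subtype.ext h).symm]
        simp
    have hrs : star r = r := by simp [hr, star_sum]
    let y2 : Option (Fin s.card) → Al M := fun o => o.elim (1 - r) fun i => V (s.equivFin.symm i)
    have hsum2 : ∀ {E : Type u} [AddCommMonoid E] (f : S → E),
        ∑ i : Fin s.card, f (s.equivFin.symm i) = ∑ v ∈ s, f v := fun f => by
      rw [Equiv.sum_comp s.equivFin.symm fun v : s => f v, sum_coe_sort]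
    have hy2 : ∑ l, y2 l * star (y2 l) = 1 := by
      simp only [y2, Fintype.sum_option, Option.elim]
      rw [hsum2 fun v => V v * star (V v), ← hr, star_sub, star_one, hrs, sub_mul, mul_sub, mul_sub,
        hrr]
      simp
    refine ⟨_, b1.beta hy2, fun T => (g2.beta0 hy2 T).mono fun ζ => ?_⟩
    beta_reduce
    rw [sum_add_distrib]
    refine add_le_add (hp.2.1 T _ y2 hy2 ζ) ?_
    split_ifs with hT
    · rw [Fintype.sum_option, ← sum_coe_sort s, ← Equiv.sum_comp s.equivFin.symm, mul_sum]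
      refine le_add_of_nonneg_of_le (by positivity) (sum_le_sum fun i _ => ?_)
      set v := (s.equivFin.symm i).1
      have h3 : e (star v.1 ζ) = star v.1 ζ := by
        rw [← mul_apply_eq_comp, ← pstar pe, ← star_mul, (hS _ v.2).2.2]
      have h4 := hlow (star v.1 ζ)
      rw [h3] at h4
      rw [hδ, mul_assoc]
      exact mul_le_mul_of_nonneg_left h4 (by positivity)
    · simp
  choose Λ2 b2 g3 using hfr
  let U : Ultrafilter (Finset S) := Ultrafilter.of atTop
  have hlim : ∀ ζ, Tendsto (fun s : Finset S => ∑ v ∈ s, ‖star v.1 ζ‖ ^ 2) U (𝓝 (‖R ζ‖ ^ 2)) := by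
    intro ζ
    simp only [sum_normsq_star]
    rw [← re_inner_proj hR.proj]
    refine (WL.re_inner (WL.of_strong fun ξ => ?_) ζ ζ).mono_left (Ultrafilter.of_le _)
    simp only [_root_.sum_apply]
    exact hsum ξ
  refine ⟨fun T ζ => p T ζ + if T = T0 then δ * ‖R ζ‖ ^ 2 else 0, ⟨fun T ζ => add_nonneg (hp.1 T ζ)
    (by split_ifs <;> positivity), fun T L _ y hy ζ => ?_,
    exists_lim U b2 g3 (fun s T ζ => add_nonneg (hp.1 T ζ) (by split_ifs <;> positivity))
      fun T ζ => ?_⟩, fun T ζ => le_add_of_nonneg_right (by split_ifs <;> positivity), fun hle => ?_⟩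
  · rw [sum_add_distrib]
    refine add_le_add (hp.2.1 T L y hy ζ) ?_
    split_ifs
    · rw [← mul_sum, ← frame_normsq hy (R ζ)]
      refine le_of_eq (congrArg _ (sum_congr rfl fun l _ => ?_))
      rw [← mul_apply_eq_comp, ← hR.comm _ (star_mem (y l).2), mul_apply_eq_comp]
    · simp
  · refine tendsto_const_nhds.add ?_
    split_ifs
    · exact (hlim ζ).const_mul δ
    · exact tendsto_const_nhds
  · apply e0
    rw [← hRe]
    ext ξ
    have := hle T0 (e ξ)
    simp only [if_true] at this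
    have h3 : ‖R (e ξ)‖ ^ 2 ≤ 0 := by nlinarith [sq_nonneg ‖R (e ξ)‖]
    have h4 : ‖R (e ξ)‖ = 0 := by nlinarith [norm_nonneg (R (e ξ))]
    exact norm_eq_zero.1 h4

theorem csStmt : CSStmt.{u} := by
  intro H _ _ _ M
  obtain ⟨p, hp⟩ := exists_max (M := M)
  obtain ⟨Λ, hb, hg⟩ := hp.1.2.2
  have hu : ∀ (T : D1 M) (u : Al M), u * star u = 1 → star u * u = 1 →
      Λ (T.1.comp (Lm u)) = Λ T.1 * u := fun T u h1 h2 => by
    by_contra hne
    obtain ⟨p', h3, h4, h5⟩ := improve hp.1 hb hg T h1 h2 fun h => hne (by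
      rw [sub_eq_zero] at h
      rw [← h, mul_assoc, h2, mul_one])
    exact h5 (hp.2 h3 h4)
  have hx : ∀ (T : D1 M) (x : Al M), Λ (T.1.comp (Lm x)) = Λ T.1 * x := fun T => by
    let W : Submodule ℂ (Al M) :=
      { carrier := {x | Λ (T.1.comp (Lm x)) = Λ T.1 * x}
        zero_mem' := by simp
        add_mem' := fun {a b} ha hb => by
          simp only [Set.mem_ofPred_eq] at *
          rw [Lm, map_add, ContinuousLinearMap.comp_add, map_add, ha, hb, mul_add]
        smul_mem' := fun c a ha => by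
          simp only [Set.mem_ofPred_eq] at *
          rw [Lm, map_smul, ContinuousLinearMap.comp_smul, map_smul, ha, mul_smul_comm] }
    have hsa : ∀ a : Al M, star a = a → a ∈ W := fun a ha => by
      set t : ℝ := ‖(a : H →L[ℂ] H)‖ + 1 with ht
      have ht0 : 0 < t := by positivity
      obtain ⟨u, uM, hu1, hu2, -⟩ := VN.exists_unitary M (a := t⁻¹ • (a : H →L[ℂ] H))
        (rsmul_mem _ a.2) ((IsSelfAdjoint.all _).smul (congrArg Subtype.val ha)) (by
          rw [norm_smul, Real.norm_of_nonneg (inv_nonneg.2 ht0.le), inv_mul_le_iff₀ ht0]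
          linarith)
      let u' : Al M := ⟨u, uM⟩
      have k1 : u' * star u' = 1 := Subtype.ext (Unitary.mul_star_self_of_mem hu1)
      have k2 : star u' * u' = 1 := Subtype.ext (Unitary.star_mul_self_of_mem hu1)
      have m1 : u' ∈ W := hu T u' k1 k2
      have m2 : star u' ∈ W := hu T (star u') (by rwa [star_star]) (by rwa [star_star])
      have : a = ((t / 2 : ℝ) : ℂ) • (u' + star u') := by
        apply Subtype.ext
        change (a : H →L[ℂ] H) = ((t / 2 : ℝ) : ℂ) • (u + star u)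
        rw [hu2, Complex.coe_smul, ← two_smul ℝ, smul_smul, smul_smul]
        have : t / 2 * 2 * t⁻¹ = 1 := by field_simp
        rw [this, one_smul]
      rw [this]
      exact W.smul_mem _ (W.add_mem m1 m2)
    intro x
    have e : x = (1 / 2 : ℂ) • (x + star x) +
        (1 / 2 * -Complex.I : ℂ) • (Complex.I • (x - star x)) := by
      rw [smul_smul, mul_assoc, neg_mul, Complex.I_mul_I, neg_neg, mul_one, ← smul_add]
      simp [← two_smul ℂ x, smul_smul]
    have : x ∈ W := by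
      rw [e]
      refine W.add_mem (W.smul_mem _ (hsa _ (by simp [add_comm])))
        (W.smul_mem _ (hsa _ ?_))
      rw [star_smul, star_sub, star_star, Complex.star_def, Complex.conj_I, neg_smul, ← smul_neg,
        neg_sub]
    exact this
  refine ⟨Λ, hb.lm, fun T c hc hT => ⟨le_of_forall_pos_le_add fun ε hε => hg.norm_le hp.1.1
    (by positivity) (CB_mono hT (by nlinarith)), hb.left T ⟨c, hT⟩, fun x => ?_⟩⟩
  have hc1 : 0 < c + 1 := by positivity
  have := hx ⟨_, exists_scale hc1 (CB_mono hT (by nlinarith))⟩ x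
  simp only [ContinuousLinearMap.smul_comp, map_smul, smul_mul_assoc] at this
  exact smul_right_injective _ (by exact_mod_cast (inv_pos.2 hc1).ne') this

end Crest.Agent.H9.Hc
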