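import Crest.Agent.Lead.HcI
import Crest.Agent.H7.KadK3

/-! Row 121: weak operator ultralimits and generalised limits. -/

set_option autoImplicit false
set_option linter.unusedSectionVars false

universe u

namespace Crest.Agent.H9.Hc

open scoped InnerProductSpace
open Finset Filter Topology Crest.Agent.H5.KS Crest.Agent.Lead.Hc

section
variable {H : Type*} [NormedAddCommGroup H] [InnerProductSpace ℂ H] [CompleteSpace H]

/-- weak operator convergence along a filter -/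
def WL {ι : Type*} (F : Filter ι) (a : ι → H →L[ℂ] H) (b : H →L[ℂ] H) : Prop :=
  ∀ ξ η : H, Tendsto (fun i => ⟪η, a i ξ⟫_ℂ) F (𝓝 ⟪η, b ξ⟫_ℂ)

namespace WL
variable {ι : Type*} {F : Filter ι} {a a' : ι → H →L[ℂ] H} {b b' : H →L[ℂ] H}

lemma const (b : H →L[ℂ] H) : WL F (fun _ => b) b := fun _ _ => tendsto_const_nhds

lemma congr' (h : WL F a b) (e : ∀ᶠ i in F, a i = a' i) : WL F a' b := fun ξ η =>
  (h ξ η).congr' (e.mono fun i hi => by rw [hi])

lemma unique [F.NeBot] (h : WL F a b) (h' : WL F a b') : b = b' := by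
  ext ξ
  exact ext_inner_left ℂ fun η => tendsto_nhds_unique (h ξ η) (h' ξ η)

lemma eq [F.NeBot] (h : WL F a b) (h' : WL F a' b') (e : ∀ᶠ i in F, a i = a' i) : b = b' :=
  (h.congr' e).unique h'

lemma add (h : WL F a b) (h' : WL F a' b') : WL F (fun i => a i + a' i) (b + b') := fun ξ η => by
  simpa only [_root_.add_apply, inner_add_right] using (h ξ η).add (h' ξ η)

lemma sub (h : WL F a b) (h' : WL F a' b') : WL F (fun i => a i - a' i) (b - b') := fun ξ η => by
  simpa only [_root_.sub_apply, inner_sub_right] using (h ξ η).sub (h' ξ η)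

lemma smul (h : WL F a b) (c : ℂ) : WL F (fun i => c • a i) (c • b) := fun ξ η => by
  simpa only [_root_.smul_apply, inner_smul_right] using (h ξ η).const_mul c

lemma mul_left (h : WL F a b) (x : H →L[ℂ] H) : WL F (fun i => x * a i) (x * b) := fun ξ η => by
  simpa only [mul_apply_eq_comp, inner_star_left] using h ξ (star x η)

lemma mul_right (h : WL F a b) (x : H →L[ℂ] H) : WL F (fun i => a i * x) (b * x) := fun ξ η =>
  h (x ξ) η

lemma star (h : WL F a b) : WL F (fun i => star (a i)) (star b) := fun ξ η => by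
  simp only [inner_star_right]
  have := (Complex.continuous_conj.tendsto _).comp (h η ξ)
  simpa only [Function.comp_def, inner_conj_symm] using this

lemma mem [F.NeBot] {M : VonNeumannAlgebra H} (h : WL F a b) (e : ∀ᶠ i in F, a i ∈ M) : b ∈ M :=
  mem_of_comm fun t ht => (h.mul_left t).eq (h.mul_right t) (e.mono fun _ hi => comm_of_mem hi ht)

lemma apply_le [F.NeBot] (h : WL F a b) {ξ : H} {c : ℝ} (e : ∀ᶠ i in F, ‖a i ξ‖ ≤ c) :
    ‖b ξ‖ ≤ c := by
  have hc : 0 ≤ c := by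
    obtain ⟨i, hi⟩ := e.exists
    exact (norm_nonneg _).trans hi
  have h1 : ‖⟪b ξ, b ξ⟫_ℂ‖ ≤ ‖b ξ‖ * c := le_of_tendsto (h ξ (b ξ)).norm (e.mono fun i hi =>
    (norm_inner_le_norm _ _).trans (mul_le_mul_of_nonneg_left hi (norm_nonneg _)))
  rw [inner_self_eq_norm_sq_to_K] at h1
  simp only [Complex.coe_algebraMap, norm_pow, Complex.norm_real, norm_norm] at h1
  rcases (norm_nonneg (b ξ)).eq_or_lt with h0 | h0
  · rw [← h0]; exact hc
  · nlinarith

lemma norm_le [F.NeBot] (h : WL F a b) {c : ℝ} (e : ∀ᶠ i in F, ‖a i‖ ≤ c) : ‖b‖ ≤ c := by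
  have hc : 0 ≤ c := by
    obtain ⟨i, hi⟩ := e.exists
    exact (norm_nonneg _).trans hi
  exact ContinuousLinearMap.opNorm_le_bound _ hc fun ξ => h.apply_le (e.mono fun i hi =>
    ((a i).le_opNorm ξ).trans (mul_le_mul_of_nonneg_right hi (norm_nonneg _)))

lemma re_inner (h : WL F a b) (ξ η : H) :
    Tendsto (fun i => (⟪η, a i ξ⟫_ℂ).re) F (𝓝 (⟪η, b ξ⟫_ℂ).re) :=
  (Complex.continuous_re.tendsto _).comp (h ξ η)

lemma sum {κ : Type*} (s : Finset κ) {a : κ → ι → H →L[ℂ] H} {b : κ → H →L[ℂ] H}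
    (h : ∀ k ∈ s, WL F (a k) (b k)) : WL F (fun i => ∑ k ∈ s, a k i) (∑ k ∈ s, b k) := fun ξ η => by
  simp only [_root_.sum_apply, inner_sum]
  exact tendsto_finsetSum _ fun k hk => h k hk ξ η

lemma of_strong (h : ∀ ξ, Tendsto (fun i => a i ξ) F (𝓝 (b ξ))) : WL F a b := fun ξ η =>
  Tendsto.inner tendsto_const_nhds (h ξ)

lemma mono {G : Filter ι} (h : WL F a b) (hG : G ≤ F) : WL G a b := fun ξ η => (h ξ η).mono_left hG
end WL
end

section
variable {H : Type u} [NormedAddCommGroup H] [InnerProductSpace ℂ H] [CompleteSpace H]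

lemma exists_WL {ι : Type*} (U : Ultrafilter ι) (a : ι → H →L[ℂ] H) {c : ℝ}
    (h : ∀ᶠ i in (U : Filter ι), ‖a i‖ ≤ c) : ∃ b, WL (U : Filter ι) a b := by
  classical
  have hc : 0 ≤ c := by
    obtain ⟨i, hi⟩ := h.exists
    exact (norm_nonneg _).trans hi
  obtain ⟨b, -, hb⟩ := H7.Kad.exists_wot_lim U (fun i => if ‖a i‖ ≤ c then a i else 0) c hc
    fun i => by split_ifs with hi; exacts [hi, by simpa using hc]
  exact ⟨b, WL.congr' (a := fun i => if ‖a i‖ ≤ c then a i else 0) hb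
    (h.mono fun i hi => if_pos hi)⟩

/-- weak operator ultralimits in a von Neumann algebra, any index type -/
theorem wlim (M : VonNeumannAlgebra H) {ι : Type*} (U : Ultrafilter ι) (a : ι → Al M) (c : ℝ)
    (h : ∀ᶠ i in (U : Filter ι), ‖a i‖ ≤ c) : ∃ b : Al M, ‖b‖ ≤ c ∧ ∀ ξ η : H,
      Tendsto (fun i => ⟪η, (a i : H →L[ℂ] H) ξ⟫_ℂ) U (𝓝 ⟪η, (b : H →L[ℂ] H) ξ⟫_ℂ) := by
  obtain ⟨b, hb⟩ := exists_WL U (fun i => (a i : H →L[ℂ] H)) (c := c) h
  exact ⟨⟨b, hb.mem (M := M) (Eventually.of_forall fun i => (a i).2)⟩, hb.norm_le h, hb⟩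

open Classical in
/-- the ultralimit as a function (junk value `0`) -/
noncomputable def ul (M : VonNeumannAlgebra H) {ι : Type*} (U : Ultrafilter ι) (a : ι → Al M) :
    Al M :=
  if h : ∃ b : Al M, WL (U : Filter ι) (fun i => (a i : H →L[ℂ] H)) b then h.choose else 0

lemma ul_spec {M : VonNeumannAlgebra H} {ι : Type*} (U : Ultrafilter ι) {a : ι → Al M} {c : ℝ}
    (h : ∀ᶠ i in (U : Filter ι), ‖a i‖ ≤ c) :
    WL (U : Filter ι) (fun i => (a i : H →L[ℂ] H)) (ul M U a) := by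
  have hex : ∃ b : Al M, WL (U : Filter ι) (fun i => (a i : H →L[ℂ] H)) b := by
    obtain ⟨b, -, hb⟩ := wlim M U a c h
    exact ⟨b, hb⟩
  rw [ul, dif_pos hex]
  exact hex.choose_spec

lemma ul_eq {M : VonNeumannAlgebra H} {ι : Type*} {U : Ultrafilter ι} {a : ι → Al M} {b : Al M}
    (h : WL (U : Filter ι) (fun i => (a i : H →L[ℂ] H)) b) : ul M U a = b := by
  have hex : ∃ b : Al M, WL (U : Filter ι) (fun i => (a i : H →L[ℂ] H)) b := ⟨b, h⟩
  rw [ul, dif_pos hex]
  exact Subtype.ext (hex.choose_spec.unique h)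
end

theorem wlimStmt : WLimStmt.{u} := fun _ _ _ _ M _ U a c h => wlim M U a c h

theorem limStmt : LimStmt.{u} := by
  intro H _ _ _ M
  have hs : ∀ v : ℕ → Al M, Bdd v → WL (hyperfilter ℕ : Filter ℕ) (fun i => (v i : H →L[ℂ] H))
      (ul M (hyperfilter ℕ) v) := fun v ⟨c, hc⟩ => ul_spec _ (Eventually.of_forall hc)
  refine ⟨ul M (hyperfilter ℕ), fun v w hv hw => ul_eq ((hs v hv).add (hs w hw)),
    fun c v hv => ul_eq ((hs v hv).smul c), fun v c hv h => ?_, fun a => ul_eq (WL.const _),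
    fun a v hv => ul_eq ((hs v hv).mul_left a), fun a v hv => ul_eq ((hs v hv).mul_right a)⟩
  exact (hs v hv).norm_le (Nat.hyperfilter_le_atTop h)

end Crest.Agent.H9.Hc
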