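import Crest.Agent.H9.P3Geo

/-! Row 40, piece P3: somewhere the adjacency graph of the colours has a cycle. -/

set_option autoImplicit false

namespace Crest.Agent.H9.P3
open MeasureTheory Metric Set Filter Topology Real
open Crest.Agent.Lead.P3 Crest.Agent.H2.Gm

/-- quantitative half adjacency -/
def Hf (C : Col) (η : ℝ) (p : ℂ) (i j : Fin 5) : Prop :=
  volume {u | u ∈ C.A i ∧ dist u p < 2 * η ∧ circ (C.A j) u < ENNReal.ofReal η} ≠ 0

/-- quantitative adjacency -/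
def Hat (C : Col) (η : ℝ) (p : ℂ) (i j : Fin 5) : Prop := i ≠ j ∧ Hf C η p i j ∧ Hf C η p j i

lemma noCyc_mono {H H' : Fin 5 → Fin 5 → Prop} (h : ∀ i j, H i j → H' i j) (h' : NoCyc H') :
    NoCyc H :=
  ⟨fun a b c n h1 h2 h3 => h'.1 a b c n (h _ _ h1) (h _ _ h2) (h _ _ h3),
   fun a b c d n h1 h2 h3 h4 => h'.2.1 a b c d n (h _ _ h1) (h _ _ h2) (h _ _ h3) (h _ _ h4),
   fun a b c d f n h1 h2 h3 h4 h5 =>
    h'.2.2 a b c d f n (h _ _ h1) (h _ _ h2) (h _ _ h3) (h _ _ h4) (h _ _ h5)⟩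

lemma exists_eta (C : Col) (h : ∀ x, NoCyc (Edge C x)) :
    ∃ η, 0 < η ∧ η ≤ 1 ∧ ∀ p : ℂ, ‖p‖ ≤ 20 → NoCyc (Hat C η p) := by
  have := (isCompact_closedBall (0 : ℂ) 20).eventually_forall_of_forall_eventually (x₀ := (0 : ℝ))
    (P := fun η p => NoCyc (Hat C η p)) fun y _ => by
      have h1 : ∀ᶠ z : ℝ × ℂ in 𝓝 (0, y), ∀ i j, Hf C z.1 z.2 i j → Half C y i j := by
        refine eventually_all.2 fun i => eventually_all.2 fun j => ?_
        by_cases hh : Half C y i j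
        · exact Eventually.of_forall fun _ _ => hh
        · unfold Half at hh
          push Not at hh
          obtain ⟨r, hr, h0⟩ := hh
          have e1 : ∀ᶠ z : ℝ × ℂ in 𝓝 (0, y), z.1 < r / 4 ∧ dist z.2 y < r / 2 :=
            Eventually.prod_nhds (p := fun a : ℝ => a < r / 4) (q := fun b => dist b y < r / 2)
              (gt_mem_nhds (by positivity)) (ball_mem_nhds y (by positivity))
          refine e1.mono fun z hz hf => (hf (measure_mono_null (fun u hu => ?_) h0)).elim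
          exact ⟨hu.1, by linarith [dist_triangle u z.2 y, hu.2.1, hz.1, hz.2],
            hu.2.2.trans_le (ENNReal.ofReal_le_ofReal (by linarith [hz.1]))⟩
      exact h1.mono fun z hz => noCyc_mono (fun i j hij => ⟨hij.1, hz _ _ hij.2.1, hz _ _ hij.2.2⟩)
        (h y)
  obtain ⟨η, h1, h2⟩ := ((this.filter_mono nhdsWithin_le_nhds).and
    (Ioc_mem_nhdsGT (zero_lt_one' ℝ))).exists
  exact ⟨η, h2.1, h2.2, fun p hp => h1 p (mem_closedBall_zero_iff.2 hp)⟩

lemma exists_del (C : Col) : ∃ δ0 > 0, ∀ i, ∀ a ∈ C.A i, ‖a‖ ≤ 6 → ∃ z δ, dist z a < 1 / 50 ∧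
    δ0 ≤ δ ∧ δ ≤ 1 / 50 ∧ volume (ball z (2 * δ) \ C.A i) ≤ ENNReal.ofReal (δ ^ 2 / 10) := by
  have : ∀ᶠ δ0 : ℝ in 𝓝 0, ∀ i, ∀ a ∈ closedBall (0 : ℂ) 6 ∩ closure (C.A i), ∃ z δ,
      dist z a < 1 / 50 ∧ δ0 ≤ δ ∧ δ ≤ 1 / 50 ∧
        volume (ball z (2 * δ) \ C.A i) ≤ ENNReal.ofReal (δ ^ 2 / 10) := by
    refine eventually_all.2 fun i => ((isCompact_closedBall (0 : ℂ) 6).inter_right
      isClosed_closure).eventually_forall_of_forall_eventually fun y hy => ?_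
    obtain ⟨z, hz, hd⟩ := Metric.mem_closure_iff.1 hy.2 (1 / 100) (by norm_num)
    obtain ⟨ρ, h1, h2⟩ := ((C.d0_compl hz (1 / 40) (by norm_num)).and
      (Ioc_mem_nhdsGT (show (0 : ℝ) < 1 / 25 by norm_num))).exists
    have e1 : ∀ᶠ q : ℝ × ℂ in 𝓝 (0, y), q.1 < ρ / 2 ∧ dist q.2 y < 1 / 100 :=
      Eventually.prod_nhds (p := fun a : ℝ => a < ρ / 2) (q := fun b => dist b y < 1 / 100)
        (gt_mem_nhds (by linarith [h2.1])) (ball_mem_nhds y (by positivity))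
    refine e1.mono fun q hq => ⟨z, ρ / 2, by
      linarith [dist_triangle_left z q.2 y, hq.2, dist_comm y q.2], hq.1.le, by linarith [h2.2], ?_⟩
    rw [show 2 * (ρ / 2) = ρ by ring, show (ρ / 2) ^ 2 / 10 = 1 / 40 * ρ ^ 2 by ring, sdiff_eq,
      inter_comm]
    exact h1
  obtain ⟨δ0, h1, h2⟩ := ((this.filter_mono nhdsWithin_le_nhds).and
    (self_mem_nhdsWithin (a := (0 : ℝ)) (s := Ioi 0))).exists
  exact ⟨δ0, h2, fun i a ha hn => h1 i a ⟨mem_closedBall_zero_iff.2 hn, subset_closure ha⟩⟩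

lemma hf_of (hB : BasicStmt) (C : Col) {η ε : ℝ} (hε : 0 < ε) (hη : ε ≤ η) {p y y' : ℂ}
    {i j : Fin 5} (hg : Good C 2 (π / 5) (η / 2) ε y) (hp : dist y p < η) (hyy : dist y y' ≤ ε)
    (hi : Lb C ε y i) (hj : Lb C ε y' j) : Hf C η p i j := by
  intro h0
  have hη0 : 0 < η := hε.trans_le hη
  have h1 := hg j (hj.trans (measure_mono (inter_subset_inter_right _ (ball_subset_ball' (by
    rw [dist_comm]; linarith)))))
  have h2 := mul_meas_ge_le_lintegral (μ := volume.restrict (ball y (2 * ε)))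
    (hB.2.2.2.1 _ (C.meas j)) (ENNReal.ofReal η)
  have h3 : volume (C.A i ∩ ball y ε) ≤ (volume.restrict (ball y (2 * ε)))
      {u | ENNReal.ofReal η ≤ circ (C.A j) u} := by
    refine le_trans (measure_mono_ae ?_) (Measure.le_restrict_apply _ _)
    filter_upwards [measure_eq_zero_iff_ae_notMem.1 h0] with u hu hu2
    refine ⟨not_lt.1 fun hlt => hu ⟨hu2.1, ?_, hlt⟩, ball_subset_ball (by linarith) hu2.2⟩
    linarith [dist_triangle u y p, mem_ball.1 hu2.2]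
  have h4 := (mul_le_mul_right (hi.trans h3) (ENNReal.ofReal η)).trans (h2.trans h1)
  rw [← ENNReal.ofReal_mul hη0.le, ENNReal.ofReal_le_ofReal_iff (by positivity)] at h4
  have h5 : 0 < η * ε ^ 2 := by positivity
  nlinarith [pi_gt_three]

lemma exists_notMem_Icc {N : Set ℝ} {a r γ : ℝ} (hN : volume N ≤ ENNReal.ofReal γ) (h0 : 0 < γ)
    (h : γ < r) : ∃ a' ∈ Icc a (a + r), a' ∉ N := by
  by_contra hc
  push Not at hc
  have := (measure_mono (show Icc a (a + r) ⊆ N from hc)).trans hN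
  rw [Real.volume_Icc, ENNReal.ofReal_le_ofReal_iff h0.le] at this
  linarith

theorem cycStmt (hB : BasicStmt) (hG : GoodStmt) (hT : TreeStmt) : CycStmt := by
  intro C
  by_contra hn
  push Not at hn
  obtain ⟨η, hη0, hη1, hN⟩ := exists_eta C hn
  obtain ⟨δ0, hδ0, hD⟩ := exists_del C
  set γ := min (η / 200) (δ0 ^ 2) with hγ
  have hγ0 : 0 < γ := by positivity
  obtain ⟨ε, ⟨g1, g2, g3⟩, hε0, hε1⟩ := ((hG C 2 (π / 5) (η / 2) γ 25 one_le_two (by positivity)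
    (by positivity) hγ0).and (Ioc_mem_nhdsGT (show 0 < min (η / 100) δ0 by positivity))).exists
  have hε2 : ε ≤ η / 100 := hε1.trans (min_le_left _ _)
  have hε3 : ε ≤ δ0 := hε1.trans (min_le_right _ _)
  have hγ1 : γ < η / 100 := (min_le_left _ _).trans_lt (by linarith)
  choose c hc using fun y => hB.2.2.2.2.2.2.2.2.1 C ε y hε0
  have hnorm : ∀ a b : ℝ, |a| ≤ 11 → |b| ≤ 11 → ‖(a + b * Complex.I : ℂ)‖ ≤ 25 := fun a b ha hb => by
    have := norm_add_le (a : ℂ) (b * Complex.I)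
    simp only [norm_mul, Complex.norm_I, mul_one, Complex.norm_real, Real.norm_eq_abs] at this
    linarith
  refine hT c {y | Good C 2 (π / 5) (η / 2) ε y} (Hat C η) ε η hε0 hε2 hη1
    (fun p i j h => ⟨h.1.symm, h.2.2, h.2.1⟩) hN
    (fun p y y' _ hy hy' h1 h2 h3 h4 => ⟨h4, hf_of hB C hε0 (by linarith) hy h1 h3 (hc y) (hc y'),
      hf_of hB C hε0 (by linarith) hy' h2 (by rwa [dist_comm]) (hc y') (hc y)⟩)
    (fun a ha => ?_) (fun b hb => ?_) fun v hv => ?_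
  · obtain ⟨a', h1, h2⟩ := exists_notMem_Icc (a := a) g2 hγ0 hγ1
    refine ⟨a', h1, fun b hb => by_contra fun h => h2 ⟨b, hnorm _ _ ?_ hb, h⟩⟩
    rw [abs_le] at *; constructor <;> linarith [h1.1, h1.2, ha.1, ha.2]
  · obtain ⟨b', h1, h2⟩ := exists_notMem_Icc (a := b) g3 hγ0 hγ1
    refine ⟨b', h1, fun a ha => by_contra fun h => h2 ⟨a, hnorm _ _ ha ?_, h⟩⟩
    rw [abs_le] at *; constructor <;> linarith [h1.1, h1.2, hb.1, hb.2]
  · obtain ⟨a, ha, hav⟩ : (C.A (c v) ∩ ball v ε).Nonempty := nonempty_of_measure_ne_zero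
      (lt_of_lt_of_le (ENNReal.ofReal_pos.2 (by positivity)) (hc v)).ne'
    have hav' : dist a v < ε := hav
    have han : ‖a‖ ≤ 6 := by
      have := norm_le_norm_add_norm_sub' a v
      rw [dist_eq_norm] at hav'
      linarith
    obtain ⟨z, δ, h1, h2, h3, h4⟩ := hD _ a ha han
    have hδ : 0 < δ := hδ0.trans_le h2
    have h5 := hB.2.2.2.2.2.2.2.2.2.2 (C.A (c v)) z δ ε (C.meas _) (C.proper _) hε0 (hε3.trans h2)
    by_contra hw
    push Not at hw
    have hsub : ball z δ ⊆ {w | w ∈ ball z δ ∧ ∃ t, ENNReal.ofReal (π / 5 * ε ^ 2) ≤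
        volume (C.A (c v) ∩ ball (w + e t) ε)} ∪
        {w : ℂ | ∃ t, ‖w + e t‖ ≤ 25 ∧ ¬ Good C 2 (π / 5) (η / 2) ε (w + e t)} := by
      intro w hw1
      have hw2 : dist w z < δ := hw1
      have hw3 : dist w v ≤ 1 / 10 := by linarith [dist_triangle4 w z a v]
      obtain ⟨t, ht⟩ := hw w hw3
      by_cases hg : Good C 2 (π / 5) (η / 2) ε (w + e t)
      · exact Or.inl ⟨hw1, t, ht hg ▸ hc (w + e t)⟩
      · refine Or.inr ⟨t, ?_, hg⟩
        have a1 := norm_add_le w (e t)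
        have a2 := norm_le_norm_add_norm_sub' w v
        rw [dist_eq_norm] at hw3
        rw [norm_e] at a1
        linarith
    have h6 := (measure_mono hsub).trans ((measure_union_le _ _).trans
      (add_le_add (h5.trans (mul_le_mul_right h4 5)) g1))
    rw [vol_ball _ hδ.le, ← ENNReal.ofReal_ofNat, ← ENNReal.ofReal_mul (by norm_num),
      ← ENNReal.ofReal_add (by positivity) hγ0.le,
      ENNReal.ofReal_le_ofReal_iff (by positivity)] at h6
    have h7 : γ ≤ δ ^ 2 := (min_le_right _ _).trans (pow_le_pow_left₀ hδ0.le h2 2)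
    nlinarith [pi_gt_three, pow_pos hδ 2]

end Crest.Agent.H9.P3
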