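import Crest.Agent.Lead.P3I

/-! Row 40, piece P3: local structure of the sum of two unit vectors. -/

set_option autoImplicit false

namespace Crest.Agent.H9.P3
open MeasureTheory Metric Set Filter Topology Real
open Crest.Agent.Lead.P3

@[simp] lemma e_re (t : ℝ) : (e t).re = cos t := Complex.exp_ofReal_mul_I_re t
@[simp] lemma e_im (t : ℝ) : (e t).im = sin t := Complex.exp_ofReal_mul_I_im t
@[simp] lemma norm_e (t : ℝ) : ‖e t‖ = 1 := Complex.norm_exp_ofReal_mul_I t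
lemma e_add (s t : ℝ) : e (s + t) = e s * e t := by
  simp only [e]; rw [← Complex.exp_add]; congr 1; push_cast; ring
@[simp] lemma e_zero : e 0 = 1 := by simp [e]
lemma e_mul (s t : ℝ) : e s * e t = e (s + t) := (e_add s t).symm
lemma e_pi : e π = -1 := by simp [e]
lemma e_add_pi (s : ℝ) : e (s + π) = -e s := by rw [e_add, e_pi]; ring
lemma e_add_two_pi (s : ℝ) : e (s + 2 * π) = e s := by
  rw [two_mul, ← add_assoc, e_add_pi, e_add_pi, neg_neg]
lemma continuous_e : Continuous e := by unfold e; fun_prop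

lemma norm_e_sub_le (s t : ℝ) : ‖e s - e t‖ ≤ |s - t| := by
  have h : e s - e t = (e (s - t) - 1) * e t := by rw [sub_mul, e_mul]; simp
  rw [h, norm_mul, norm_e, mul_one]
  have := norm_exp_I_mul_ofReal_sub_one_le (x := s - t)
  rwa [mul_comm] at this

lemma exists_near {z : ℂ} (hz : ‖z‖ = 1) (t : ℝ) : ∃ t', z = e t' ∧ |t' - t| ≤ π / 2 * ‖z - e t‖ := by
  have h1 : ‖z * e (-t)‖ = 1 := by rw [norm_mul, hz, norm_e, mul_one]
  have h0 : z * e (-t) ≠ 0 := by intro h; rw [h] at h1; simp at h1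
  refine ⟨t + (z * e (-t)).arg, ?_, ?_⟩
  · have h2 : e (z * e (-t)).arg = z * e (-t) := by
      have := Complex.norm_mul_exp_arg_mul_I (z * e (-t))
      rwa [h1, Complex.ofReal_one, one_mul] at this
    rw [e_add, h2, mul_left_comm, e_mul]; simp
  · have h2 := Complex.angle_le_mul_norm_sub h1 (y := 1) (by simp)
    rw [Complex.angle_one_right h0] at h2
    have h3 : z * e (-t) - 1 = (z - e t) * e (-t) := by rw [sub_mul, e_mul]; simp
    rw [h3, norm_mul, norm_e, mul_one] at h2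
    simpa using h2

/-- real coordinates of `Xi` -/
noncomputable def XiR (p : ℝ × ℝ) : ℝ × ℝ := (cos p.1 + cos p.2, sin p.1 + sin p.2)

/-- its derivative -/
noncomputable def XiD (p : ℝ × ℝ) : ℝ × ℝ →L[ℝ] ℝ × ℝ :=
  (Matrix.toLin (.finTwoProd ℝ) (.finTwoProd ℝ)
    !![-sin p.1, -sin p.2; cos p.1, cos p.2]).toContinuousLinearMap

lemma hasFDerivAt_XiR (p : ℝ × ℝ) : HasFDerivAt XiR (XiD p) p := by
  unfold XiD XiR
  rw [Matrix.toLin_finTwoProd_toContinuousLinearMap]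
  exact HasFDerivAt.prodMk (𝕜 := ℝ)
      (((hasDerivAt_cos p.1).comp_hasFDerivAt p hasFDerivAt_fst).add
        ((hasDerivAt_cos p.2).comp_hasFDerivAt p hasFDerivAt_snd))
      (((hasDerivAt_sin p.1).comp_hasFDerivAt p hasFDerivAt_fst).add
        ((hasDerivAt_sin p.2).comp_hasFDerivAt p hasFDerivAt_snd))

lemma det_XiD (p : ℝ × ℝ) : |(XiD p).det| = |sin (p.1 - p.2)| := by
  unfold XiD
  simp only [LinearMap.det_toContinuousLinearMap, LinearMap.det_toLin, Matrix.det_fin_two_of]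
  rw [sin_sub, ← abs_neg]
  congr 1; ring

lemma vol_Xi (T : Set (ℝ × ℝ)) : volume (Xi '' T) = volume (XiR '' T) := by
  rw [← Complex.volume_preserving_equiv_real_prod.measure_preimage_equiv (XiR '' T)]
  congr 1
  ext z
  simp only [mem_image, mem_preimage, Complex.measurableEquivRealProd_apply]
  refine exists_congr fun p => and_congr_right fun _ => ?_
  simp [Xi, XiR, Complex.ext_iff]

lemma jac_up (T : Set (ℝ × ℝ)) (hT : MeasurableSet T) : volume (Xi '' T) ≤ volume T := by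
  rw [vol_Xi]
  refine (addHaar_image_le_lintegral_abs_det_fderiv volume hT
    fun p _ => (hasFDerivAt_XiR p).hasFDerivWithinAt).trans ?_
  calc _ ≤ ∫⁻ _ in T, 1 := lintegral_mono fun p => by
          rw [det_XiD]; exact ENNReal.ofReal_le_one.2 (abs_sin_le_one _)
    _ = _ := by simp

lemma sin_near {σ s t a b : ℝ} (h : σ ≤ |sin (s - t)|) (ha : |a - s| ≤ σ / 4) (hb : |b - t| ≤ σ / 4) :
    σ / 2 ≤ |sin (a - b)| := by
  have h1 := abs_sin_sub_sin_le (s - t) (a - b)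
  have h2 := abs_sub_abs_le_abs_sub (sin (s - t)) (sin (a - b))
  have h3 : |s - t - (a - b)| ≤ σ / 2 := by
    rw [abs_le] at *; constructor <;> linarith [ha.1, ha.2, hb.1, hb.2]
  linarith

lemma inv_aux {σ s t s₁ t₁ s₂ t₂ : ℝ} (hσ : 0 < σ) (h : σ ≤ |sin (s - t)|) (h1 : |s₁ - s| ≤ σ / 4)
    (h2 : |t₁ - t| ≤ σ / 4) (h3 : |s₂ - s| ≤ σ / 4) (h4 : |t₂ - t| ≤ σ / 4) :
    |s₁ - s₂| ≤ 4 / σ * ‖e s₁ + e t₁ - (e s₂ + e t₂)‖ := by
  have hσ1 : σ ≤ 1 := h.trans (abs_sin_le_one _)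
  set m := (t₁ + t₂) / 2 with hm
  set w := e s₁ + e t₁ - (e s₂ + e t₂) with hw
  have e1 : (w * e (-m)).re = -2 * sin ((s₁ + s₂) / 2 - m) * sin ((s₁ - s₂) / 2) := by
    simp only [hw, sub_mul, add_mul, e_mul, Complex.sub_re, Complex.add_re, e_re]
    have a1 : cos (t₁ + -m) = cos (t₂ + -m) := by
      rw [← cos_neg (t₂ + -m)]; congr 1; rw [hm]; ring
    have a2 := cos_sub_cos (s₁ + -m) (s₂ + -m)
    have a3 : (s₁ + -m + (s₂ + -m)) / 2 = (s₁ + s₂) / 2 - m := by ring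
    have a4 : (s₁ + -m - (s₂ + -m)) / 2 = (s₁ - s₂) / 2 := by ring
    rw [a3, a4] at a2
    linarith
  have e2 : |(w * e (-m)).re| ≤ ‖w‖ := by
    refine (Complex.abs_re_le_norm _).trans (le_of_eq ?_)
    rw [norm_mul, norm_e, mul_one]
  have e3 : σ / 2 ≤ |sin ((s₁ + s₂) / 2 - m)| := sin_near h
    (by rw [abs_le] at *; constructor <;> linarith [h1.1, h1.2, h3.1, h3.2])
    (by rw [abs_le] at *; constructor <;> linarith [h2.1, h2.2, h4.1, h4.2])
  have e4 : 2 / π * |(s₁ - s₂) / 2| ≤ |sin ((s₁ - s₂) / 2)| := mul_abs_le_abs_sin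
    (by rw [abs_le] at *; constructor <;> linarith [h1.1, h1.2, h3.1, h3.2, pi_gt_three])
  rw [e1, abs_mul, abs_mul, abs_neg, abs_two] at e2
  have e5 : |s₁ - s₂| / 4 ≤ |sin ((s₁ - s₂) / 2)| := by
    refine le_trans ?_ e4
    rw [abs_div, abs_two]
    have : 1 / 2 ≤ 2 / π := by rw [div_le_div_iff₀ two_pos pi_pos]; linarith [pi_le_four]
    nlinarith [abs_nonneg (s₁ - s₂)]
  rw [div_mul_eq_mul_div, le_div_iff₀ hσ]
  have := mul_le_mul e3 e5 (by positivity) (abs_nonneg _)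
  nlinarith

lemma inv2 {σ s t s₁ t₁ s₂ t₂ : ℝ} (hσ : 0 < σ) (h : σ ≤ |sin (s - t)|) (h1 : |s₁ - s| ≤ σ / 4)
    (h2 : |t₁ - t| ≤ σ / 4) (h3 : |s₂ - s| ≤ σ / 4) (h4 : |t₂ - t| ≤ σ / 4) :
    |s₁ - s₂| ≤ 4 / σ * ‖e s₁ + e t₁ - (e s₂ + e t₂)‖ ∧
      |t₁ - t₂| ≤ 4 / σ * ‖e s₁ + e t₁ - (e s₂ + e t₂)‖ := by
  refine ⟨inv_aux hσ h h1 h2 h3 h4, ?_⟩
  rw [add_comm (e s₁), add_comm (e s₂)]
  exact inv_aux hσ (s := t) (t := s) (by rwa [← neg_sub, sin_neg, abs_neg]) h2 h1 h4 h3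

lemma split_ex {σ s t : ℝ} (hσ : 0 < σ) (h : σ ≤ |sin (s - t)|) {q : ℂ}
    (hq : ‖q - (e s + e t)‖ ≤ σ ^ 2 / 100) :
    ∃ s' t', q = e s' + e t' ∧ |s' - s| ≤ σ / 4 ∧ |t' - t| ≤ σ / 4 := by
  have hσ1 : σ ≤ 1 := h.trans (abs_sin_le_one _)
  set δ := q - (e s + e t) with hδ
  set ρ := σ / 8 with hρ
  let g : ℝ → ℝ := fun a => ‖q - e (s + a)‖ ^ 2 - 1
  have hg : Continuous g := by
    have := continuous_e
    fun_prop
  have key : ∀ a, |g a - 2 * sin (s - t) * sin a| ≤ 2 * a ^ 2 + 7 * ‖δ‖ := by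
    intro a
    have e1 : q - e (s + a) = (e s + e t - e (s + a)) + δ := by rw [hδ]; ring
    have e2 : ‖e s + e t - e (s + a)‖ ^ 2 - 1
        = 2 * (1 - cos a) * (1 + cos (s - t)) + 2 * sin (s - t) * sin a := by
      rw [← Complex.normSq_eq_norm_sq, Complex.normSq_apply]
      simp only [Complex.sub_re, Complex.add_re, Complex.sub_im, Complex.add_im, e_re, e_im,
        cos_add, sin_add, cos_sub, sin_sub]
      have a1 := sin_sq_add_cos_sq s
      have a2 := sin_sq_add_cos_sq t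
      have a3 := sin_sq_add_cos_sq a
      linear_combination (1 + sin a ^ 2 + cos a ^ 2 - 2 * cos a) * a1 + a2 + a3
    have e3 : ‖e s + e t - e (s + a)‖ ≤ 3 := by
      have := norm_sub_le (e s + e t) (e (s + a))
      have := norm_add_le (e s) (e t)
      simp only [norm_e] at *
      linarith
    have e4 := norm_add_sq_real (e s + e t - e (s + a)) δ
    have e5 := abs_real_inner_le_norm (e s + e t - e (s + a)) δ
    have e6 : ‖δ‖ ≤ 1 := by nlinarith
    have e7 : ‖δ‖ ^ 2 ≤ ‖δ‖ := by nlinarith [norm_nonneg δ]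
    have e8 := mul_le_mul_of_nonneg_right e3 (norm_nonneg δ)
    have b1 := one_sub_sq_div_two_le_cos (x := a)
    have b2 := cos_le_one a
    have b3 := cos_le_one (s - t)
    have b4 := neg_one_le_cos (s - t)
    have b5 : 0 ≤ (1 - cos a) * (1 + cos (s - t)) := mul_nonneg (by linarith) (by linarith)
    have b6 : (1 - cos a) * (1 + cos (s - t)) ≤ a ^ 2 := by nlinarith
    simp only [g]
    rw [e1, e4, abs_le] at *
    constructor <;> nlinarith [e5.1, e5.2, sq_nonneg ‖δ‖]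
  have hs : σ / 16 ≤ sin ρ := by
    have := mul_le_sin (x := ρ) (by positivity) (by linarith [pi_gt_three])
    have h2 : 1 / 2 ≤ 2 / π := by rw [div_le_div_iff₀ two_pos pi_pos]; linarith [pi_le_four]
    nlinarith
  have k1 := abs_le.1 (key ρ)
  have k2 := abs_le.1 (key (-ρ))
  rw [sin_neg, neg_sq] at k2
  have hb : 2 * ρ ^ 2 + 7 * ‖δ‖ ≤ σ ^ 2 / 8 := by rw [hρ]; nlinarith
  obtain ⟨a, ha, hga⟩ : ∃ a ∈ Icc (-ρ) ρ, g a = 0 := by
    rcases le_abs'.1 h with h' | h'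
    · have := mul_le_mul (show σ ≤ -sin (s - t) by linarith) hs (by positivity) (by linarith)
      exact intermediate_value_Icc' (by linarith) hg.continuousOn ⟨by nlinarith, by nlinarith⟩
    · have := mul_le_mul h' hs (by positivity) (by linarith)
      exact intermediate_value_Icc (by linarith) hg.continuousOn ⟨by nlinarith, by nlinarith⟩
  have hn : ‖q - e (s + a)‖ = 1 := by
    have : ‖q - e (s + a)‖ ^ 2 = 1 ^ 2 := by simp only [g] at hga; linarith
    exact (sq_eq_sq₀ (norm_nonneg _) zero_le_one).1 this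
  have haa : |a| ≤ ρ := abs_le.2 ha
  obtain ⟨t', h1, h2⟩ := exists_near hn t
  refine ⟨s + a, t', by rw [← h1]; ring, by rw [add_sub_cancel_left]; linarith, h2.trans ?_⟩
  have e1 : q - e (s + a) - e t = δ + (e s - e (s + a)) := by rw [hδ]; ring
  have e2 := norm_e_sub_le s (s + a)
  rw [show s - (s + a) = -a by ring, abs_neg] at e2
  have e3 := norm_add_le δ (e s - e (s + a))
  have e4 : ‖q - e (s + a) - e t‖ ≤ σ / 100 + σ / 8 := by rw [e1]; nlinarith
  have e5 : π / 2 ≤ 1.6 := by linarith [pi_lt_d2]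
  nlinarith [norm_nonneg (q - e (s + a) - e t)]

theorem geoStmt : GeoStmt := by
  refine ⟨jac_up, fun σ hσ => ⟨1 + 4 / σ, le_add_of_nonneg_right (by positivity), σ ^ 2 / 100,
    by positivity, fun s t h => ?_⟩⟩
  have hσ1 : σ ≤ 1 := h.trans (abs_sin_le_one _)
  have hr : σ ^ 2 / 100 ≤ σ / 4 := by nlinarith
  have hL : ∀ x : ℂ, 4 / σ * ‖x‖ ≤ (1 + 4 / σ) * ‖x‖ := fun x =>
    mul_le_mul_of_nonneg_right (by linarith) (norm_nonneg _)
  refine ⟨fun s₁ t₁ s₂ t₂ h1 h2 h3 h4 => ?_, fun q hq => ?_, fun T hT hsub => ?_⟩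
  · have := inv2 hσ h (h1.trans hr) (h2.trans hr) (h3.trans hr) (h4.trans hr)
    exact ⟨this.1.trans (hL _), this.2.trans (hL _)⟩
  · obtain ⟨s', t', rfl, h1, h2⟩ := split_ex hσ h hq
    have := inv2 hσ h h1 h2 (s₂ := s) (t₂ := t) (by simp; positivity) (by simp; positivity)
    exact ⟨s', t', rfl, this.1.trans (hL _), this.2.trans (hL _)⟩
  · have hb : ∀ p ∈ T, |p.1 - s| ≤ σ / 4 ∧ |p.2 - t| ≤ σ / 4 := fun p hp => by
      obtain ⟨⟨h1, h2⟩, h3, h4⟩ := hsub hp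
      exact ⟨abs_le.2 ⟨by linarith, by linarith⟩, abs_le.2 ⟨by linarith, by linarith⟩⟩
    rw [vol_Xi, ← lintegral_abs_det_fderiv_eq_addHaar_image volume hT
      (fun p _ => (hasFDerivAt_XiR p).hasFDerivWithinAt) fun p hp p' hp' hpp => ?_]
    · rw [← setLIntegral_const]
      refine setLIntegral_mono' hT fun p hp => ENNReal.ofReal_le_ofReal ?_
      rw [det_XiD]
      exact sin_near h (hb p hp).1 (hb p hp).2
    · have h0 : e p.1 + e p.2 - (e p'.1 + e p'.2) = 0 := by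
        simp only [XiR, Prod.mk.injEq] at hpp
        apply Complex.ext <;> simp [hpp.1, hpp.2]
      have := inv2 hσ h (hb p hp).1 (hb p hp).2 (hb p' hp').1 (hb p' hp').2
      rw [h0, norm_zero, mul_zero, abs_nonpos_iff, abs_nonpos_iff, sub_eq_zero, sub_eq_zero] at this
      exact Prod.ext this.1 this.2

end Crest.Agent.H9.P3
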