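import Crest.Agent.H9.P3Geo

/-! Row 40, piece P3: points whose circles avoid three colours are isolated. -/

set_option autoImplicit false

namespace Crest.Agent.H9.P3
open MeasureTheory Metric Set Filter Topology Real
open Crest.Agent.Lead.P3 Crest.Agent.H2.Gm

theorem simplexStmt (hB : BasicStmt) (hL : LabStmt) (hM : MixStmt) : SimplexStmt := by
  intro C y J hJ
  by_contra hn
  push Not at hn
  have hAv : Av C y J := fun η hη => by
    obtain ⟨y', -, h1, h2⟩ := hn (η / 2) (by positivity)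
    obtain ⟨u, h3, h4, h5⟩ := h2 (η / 2) (by positivity)
    exact ⟨u, by linarith [dist_triangle u y' y], h4,
      fun j hj => (h5 j hj).trans_le (ENNReal.ofReal_le_ofReal (by linarith))⟩
  obtain ⟨P⟩ := hL C y
  obtain ⟨p, q, -, hpq⟩ : ∃ p q, p ≠ q ∧ Jᶜ = {p, q} :=
    Finset.card_eq_two.1 (by rw [Finset.card_compl, hJ]; rfl)
  have hc : ∀ j, j ∉ J → j = p ∨ j = q := fun j hj => by
    have : j ∈ Jᶜ := Finset.mem_compl.2 hj
    rw [hpq] at this
    simpa using this
  obtain ⟨c, hc0, τ0, hτ0, H⟩ := hM (P.S p) (P.S q) (P.meas p) (P.meas q) (P.per p) (P.per q)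
    ((P.L1 J hAv).mono fun s ⟨j, hj, hs⟩ => by
      rcases hc j hj with rfl | rfl
      exacts [Or.inl hs, Or.inr hs])
    (P.L2 p) (P.L2 q)
  obtain ⟨y', hy', h1, h2⟩ := hn (min τ0 1 / 2) (by positivity)
  set ρ := dist y' y with hρ
  have hρ0 : 0 < ρ := dist_pos.2 hy'
  obtain ⟨u, h3, h4, h5⟩ := h2 (min (ρ / 2) (c * ρ / 12)) (by positivity)
  have h6 : dist u y' < ρ / 2 := h3.trans_le (min_le_left _ _)
  have h7 : ρ / 2 < ‖u - y‖ := by
    rw [← dist_eq_norm]; linarith [dist_triangle_left y' y u]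
  have h8 : ‖u - y‖ < min τ0 1 := by
    rw [← dist_eq_norm]; linarith [dist_triangle u y' y]
  obtain ⟨a, ha⟩ := H (u - y) (norm_pos_iff.1 (by linarith)) (h8.trans_le (min_le_left _ _))
  have h9 : ‖u - y‖ < 1 := h8.trans_le (min_le_right _ _)
  have key : ∀ (j : Fin 5) (θ s s' : ℝ), s ∈ P.S j → u - y + e θ = e s + e s' →
      u + e θ ∉ C.A j := fun j θ s s' hs he hA => by
    have a1 := norm_add_le (u - y) (e θ)
    have a2 := norm_sub_le (u - y + e θ) (u - y)
    rw [add_sub_cancel_left] at a2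
    rw [norm_e] at a1 a2
    rcases P.L3 j s hs _ hA (by
      rw [dist_eq_norm, show u + e θ - (y + e s) = e s' by linear_combination he, norm_e]) with h | h
    · rw [show u - y + e θ = 0 by linear_combination h, norm_zero] at a2
      linarith
    · rw [show u - y + e θ = 2 * e s by linear_combination h, norm_mul, norm_e] at a1
      norm_num at a1
      linarith
  have hsub : {θ | θ ∈ Icc a (a + 1) ∧ ∃ s ∈ P.S p, ∃ s' ∈ P.S q, u - y + e θ = e s + e s'}
      ≤ᵐ[volume] (⋃ j ∈ J, {t | t ∈ Icc a (a + 2 * π) ∧ u + e t ∈ C.A j} : Set ℝ) := by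
    filter_upwards [h4] with θ ⟨j, hj⟩ ⟨hθ, s, hs, s', hs', he⟩
    refine mem_iUnion₂.2 ⟨j, ?_, ⟨hθ.1, by linarith [hθ.2, pi_gt_three]⟩, hj⟩
    by_contra hjJ
    rcases hc j hjJ with rfl | rfl
    · exact key _ θ s s' hs he hj
    · exact key _ θ s' s hs' (by rw [he, add_comm]) hj
  have h10 := ha.trans ((measure_mono_ae hsub).trans (measure_biUnion_finset_le _ _))
  have h11 : ∑ j ∈ J, volume {t | t ∈ Icc a (a + 2 * π) ∧ u + e t ∈ C.A j}
      ≤ ∑ _j ∈ J, ENNReal.ofReal (c * ρ / 12) := Finset.sum_le_sum fun j hj => by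
    rw [hB.2.2.2.2.1 _ u a (C.meas j)]
    exact (h5 j hj).le.trans (ENNReal.ofReal_le_ofReal (min_le_right _ _))
  have h12 := h10.trans h11
  rw [Finset.sum_const, hJ, nsmul_eq_mul, ← ENNReal.ofReal_natCast,
    ← ENNReal.ofReal_mul (by positivity), ENNReal.ofReal_le_ofReal_iff (by positivity)] at h12
  push_cast at h12
  nlinarith

end Crest.Agent.H9.P3
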