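import Crest.Agent.H2.PlF
import Crest.Agent.H3.PlG

/-! Row 40, step B: pointwise lemmas and simultaneous singularity. -/

set_option autoImplicit false
set_option linter.unusedSectionVars false

namespace Crest.Agent.H9.Pl
open Crest.Agent.H2.Pl MeasureTheory ProbabilityTheory Filter Topology
open scoped ComplexConjugate

/-- colour class mass -/
noncomputable def nc {I C : Type} [Fintype I] [DecidableEq C] (lam : I → ℝ) (c : I → C) (γ : C) : ℝ :=
  ∑ i, if c i = γ then lam i else 0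

/-- normalised weights -/
noncomputable def Wc {I C : Type} [Fintype I] [DecidableEq C] (lam : I → ℝ) (c : I → C)
    (i i' : I) : ℝ := if c i' = c i then 1 / nc lam c (c i) else 0

section comb
variable {I C : Type} [Fintype I] [Fintype C] [DecidableEq C] {lam : I → ℝ} (c : I → C)

lemma nc_nonneg (h0 : ∀ i, 0 ≤ lam i) (γ : C) : 0 ≤ nc lam c γ :=
  Finset.sum_nonneg fun i _ => by split_ifs; exacts [h0 i, le_rfl]

lemma Wc_nonneg (h0 : ∀ i, 0 ≤ lam i) (i i' : I) : 0 ≤ Wc lam c i i' := by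
  unfold Wc; split_ifs
  · exact one_div_nonneg.2 (nc_nonneg c h0 _)
  · exact le_rfl

lemma sum_nc : ∑ γ, nc lam c γ = ∑ i, lam i := by
  unfold nc; rw [Finset.sum_comm]; simp

lemma sum_fun_col (f : C → ℝ) : ∑ i, lam i * f (c i) = ∑ γ, nc lam c γ * f γ := by
  unfold nc
  simp_rw [Finset.sum_mul]
  rw [Finset.sum_comm]
  refine Finset.sum_congr rfl fun i _ => ?_
  simp

lemma sum_W1 (h0 : ∀ i, 0 ≤ lam i) (h1 : ∑ i, lam i = 1) :
    ∑ i, ∑ i', lam i * lam i' * Wc lam c i i' ≤ 1 := by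
  rw [← h1]
  refine Finset.sum_le_sum fun i _ => ?_
  have : ∑ i', lam i * lam i' * Wc lam c i i' = lam i * (nc lam c (c i) / nc lam c (c i)) := by
    conv_rhs => rw [div_eq_mul_one_div, nc, Finset.sum_mul, Finset.mul_sum]
    refine Finset.sum_congr rfl fun i' _ => ?_
    unfold Wc; split_ifs <;> simp [mul_assoc, nc]
  rw [this]
  exact mul_le_of_le_one_right (h0 i) (div_self_le_one _)

lemma sum_W2 : ∑ i, ∑ i', lam i * lam i' * Wc lam c i i' ^ 2 ≤ Fintype.card C := by
  have : ∀ i, ∑ i', lam i * lam i' * Wc lam c i i' ^ 2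
      = lam i * (nc lam c (c i) * (1 / nc lam c (c i)) ^ 2) := by
    intro i
    conv_rhs => rw [nc, Finset.sum_mul, Finset.mul_sum]
    refine Finset.sum_congr rfl fun i' _ => ?_
    unfold Wc; split_ifs <;> simp [mul_assoc, nc]
  simp_rw [this]
  rw [sum_fun_col c (fun γ => nc lam c γ * (1 / nc lam c γ) ^ 2)]
  calc _ ≤ ∑ _γ : C, (1 : ℝ) := Finset.sum_le_sum fun γ _ => by
          by_cases h : nc lam c γ = 0
          · simp [h]
          · field_simp; exact le_rfl
    _ = _ := by simp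

lemma lower_comb {D : Type} (h0 : ∀ i, 0 ≤ lam i) (h1 : ∑ i, lam i = 1) (good : I → Prop)
    [DecidablePred good] (cell : I → D) {N : ℝ} (hN0 : 0 ≤ N)
    (hN : ∀ i, good i → ∃ s : Finset D, (s.card : ℝ) ≤ N ∧ ∀ i', good i' → c i' = c i → cell i' ∈ s)
    {Kk : I → I → ℝ} {b : ℝ} (hb : 0 ≤ b) (hK0 : ∀ i i', 0 ≤ Kk i i')
    (hK : ∀ i i', good i → good i' → cell i' = cell i → b ≤ Kk i i') (t : ℝ) :
    b * (2 * t * (∑ i, if good i then lam i else 0) - t ^ 2 * N)
      ≤ ∑ i, ∑ i', lam i * lam i' * (Wc lam c i i' * Kk i i') := by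
  classical
  set G := Finset.univ.filter good with hG
  set cls : I → C × D := fun i => (c i, cell i) with hcls
  set P := G.image cls with hP
  set m : C × D → ℝ := fun p => ∑ i ∈ G with cls i = p, lam i with hm
  have hm0 : ∀ p, 0 ≤ m p := fun p => Finset.sum_nonneg fun i _ => h0 i
  have hmn : ∀ p, m p ≤ nc lam c p.1 := by
    intro p
    unfold nc
    rw [← Finset.sum_filter]
    refine Finset.sum_le_sum_of_subset_of_nonneg (fun i hi => ?_) fun i _ _ => h0 i
    simp only [Finset.mem_filter, Finset.mem_univ, true_and] at hi ⊢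
    rw [← hi.2]
  have hmaps : ∀ i ∈ G, cls i ∈ P := fun i hi => Finset.mem_image_of_mem _ hi
  have e1 : (∑ i, if good i then lam i else 0) = ∑ p ∈ P, m p := by
    rw [← Finset.sum_filter, Finset.sum_fiberwise_of_maps_to hmaps]
  have e2 : ∑ p ∈ P, nc lam c p.1 ≤ N := by
    rw [← Finset.sum_fiberwise_of_maps_to (s := P) (t := Finset.univ) (g := Prod.fst)
      (fun _ _ => Finset.mem_univ _)]
    calc _ ≤ ∑ γ, N * nc lam c γ := Finset.sum_le_sum fun γ _ => ?_
      _ = N := by rw [← Finset.mul_sum, sum_nc, h1, mul_one]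
    rw [Finset.sum_congr rfl (g := fun _ => nc lam c γ)
      (fun p hp => by rw [(Finset.mem_filter.1 hp).2]), Finset.sum_const, nsmul_eq_mul]
    refine mul_le_mul_of_nonneg_right ?_ (nc_nonneg c h0 γ)
    rcases (P.filter fun p => p.1 = γ).eq_empty_or_nonempty with he | ⟨p, hp⟩
    · rw [he]; simpa using hN0
    · obtain ⟨hp1, hp2⟩ := Finset.mem_filter.1 hp
      obtain ⟨i, hi, rfl⟩ := Finset.mem_image.1 hp1
      obtain ⟨s, hs, hs'⟩ := hN i (Finset.mem_filter.1 hi).2
      refine le_trans ?_ hs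
      have : (P.filter fun p => p.1 = γ).card ≤ s.card := by
        refine Finset.card_le_card_of_injOn Prod.snd (fun q hq => ?_) fun q hq q' hq' h => ?_
        · obtain ⟨hq1, hq2⟩ := Finset.mem_filter.1 (Finset.mem_coe.1 hq)
          obtain ⟨i', hi', rfl⟩ := Finset.mem_image.1 hq1
          exact hs' i' (Finset.mem_filter.1 hi').2 (hq2.trans hp2.symm)
        · exact Prod.ext ((Finset.mem_filter.1 (Finset.mem_coe.1 hq)).2.trans
            (Finset.mem_filter.1 (Finset.mem_coe.1 hq')).2.symm) h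
      exact_mod_cast this
  have e3 : ∑ p ∈ P, m p * (m p / nc lam c p.1)
      = ∑ i ∈ G, lam i * (m (cls i) / nc lam c (c i)) := by
    rw [← Finset.sum_fiberwise_of_maps_to hmaps]
    refine Finset.sum_congr rfl fun p _ => ?_
    rw [Finset.sum_mul]
    refine Finset.sum_congr rfl fun i hi => ?_
    rw [← (Finset.mem_filter.1 hi).2]
  have e4 : ∀ p, 2 * t * m p - t ^ 2 * nc lam c p.1 ≤ m p * (m p / nc lam c p.1) := by
    intro p
    rcases (nc_nonneg c h0 p.1).eq_or_lt with h | h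
    · have : m p = 0 := le_antisymm (h ▸ hmn p) (hm0 p)
      rw [this, ← h]; simp
    · have : m p * (m p / nc lam c p.1) - (2 * t * m p - t ^ 2 * nc lam c p.1)
          = (m p - t * nc lam c p.1) ^ 2 / nc lam c p.1 := by field_simp; ring
      have h2 : 0 ≤ (m p - t * nc lam c p.1) ^ 2 / nc lam c p.1 := by positivity
      linarith
  have e5 : 2 * t * (∑ i, if good i then lam i else 0) - t ^ 2 * N
      ≤ ∑ i ∈ G, lam i * (m (cls i) / nc lam c (c i)) := by
    rw [← e3, e1]
    refine le_trans ?_ (Finset.sum_le_sum fun p _ => e4 p)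
    rw [Finset.sum_sub_distrib, ← Finset.mul_sum, ← Finset.mul_sum]
    have := mul_le_mul_of_nonneg_left e2 (sq_nonneg t)
    linarith
  refine (mul_le_mul_of_nonneg_left e5 hb).trans ?_
  have hT : ∀ i i', 0 ≤ lam i * lam i' * (Wc lam c i i' * Kk i i') := fun i i' =>
    mul_nonneg (mul_nonneg (h0 _) (h0 _)) (mul_nonneg (Wc_nonneg c h0 _ _) (hK0 _ _))
  rw [Finset.mul_sum]
  refine le_trans (Finset.sum_le_sum fun i hi => ?_)
    (Finset.sum_le_sum_of_subset_of_nonneg (Finset.subset_univ G)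
      fun i _ _ => Finset.sum_nonneg fun i' _ => hT i i')
  refine le_trans ?_ (Finset.sum_le_sum_of_subset_of_nonneg
    (Finset.subset_univ (G.filter fun i' => cls i' = cls i)) fun i' _ _ => hT i i')
  simp only [hm]
  rw [Finset.sum_div, Finset.mul_sum, Finset.mul_sum]
  refine Finset.sum_le_sum fun i' hi' => ?_
  obtain ⟨hi1, hi2⟩ := Finset.mem_filter.1 hi'
  have hc : c i' = c i := congrArg Prod.fst hi2
  have hce : cell i' = cell i := congrArg Prod.snd hi2
  have hk := hK i i' (Finset.mem_filter.1 hi).2 (Finset.mem_filter.1 hi1).2 hce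
  unfold Wc
  rw [if_pos hc]
  have hx : 0 ≤ lam i * lam i' * (1 / nc lam c (c i)) :=
    mul_nonneg (mul_nonneg (h0 _) (h0 _)) (one_div_nonneg.2 (nc_nonneg c h0 _))
  have := mul_le_mul_of_nonneg_left hk hx
  calc b * (lam i * (lam i' / nc lam c (c i))) = lam i * lam i' * (1 / nc lam c (c i)) * b := by ring
    _ ≤ _ := this
    _ = _ := by ring
end comb

lemma norm_pow_sub_one {x : ℂ} (hx : ‖x‖ = 1) (j : ℕ) : ‖x ^ j - 1‖ ≤ j * ‖x - 1‖ := by
  induction j with
  | zero => simp
  | succ j ih =>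
    have : x ^ (j + 1) - 1 = x * (x ^ j - 1) + (x - 1) := by ring
    rw [this]
    refine (norm_add_le _ _).trans ?_
    rw [norm_mul, hx]; push_cast; linarith

lemma fejer_lower {x : ℂ} (hx : ‖x‖ = 1) {J : ℕ} (h : J * ‖x - 1‖ ≤ 1 / 2) :
    (J : ℝ) ^ 2 / 4 ≤ ‖∑ j ∈ Finset.range J, x ^ j‖ ^ 2 := by
  have h1 : ‖(J : ℂ) - ∑ j ∈ Finset.range J, x ^ j‖ ≤ J / 2 := by
    have : (J : ℂ) - ∑ j ∈ Finset.range J, x ^ j = ∑ j ∈ Finset.range J, -(x ^ j - 1) := by
      simp
    rw [this]
    refine (norm_sum_le _ _).trans ?_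
    calc _ ≤ ∑ _j ∈ Finset.range J, (1 / 2 : ℝ) := Finset.sum_le_sum fun j hj => by
            rw [norm_neg]
            refine (norm_pow_sub_one hx j).trans (le_trans ?_ h)
            have : (j : ℝ) ≤ J := by exact_mod_cast (Finset.mem_range.1 hj).le
            exact mul_le_mul_of_nonneg_right this (norm_nonneg _)
      _ = _ := by simp; ring
  have h2 := norm_sub_norm_le (J : ℂ) (∑ j ∈ Finset.range J, x ^ j)
  rw [Complex.norm_natCast] at h2
  have h3 : (J : ℝ) / 2 ≤ ‖∑ j ∈ Finset.range J, x ^ j‖ := by linarith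
  have := mul_self_le_mul_self (by positivity) h3
  nlinarith

section
variable {Y : Type} [MeasurableSpace Y] {ν : Measure Y} [IsProbabilityMeasure ν]

lemma F_nat (S : Sys Y ν) (z : L) (j : ℕ) (y : Y) : S.F ((j : L) * z) y = S.F z y ^ j := by
  induction j with
  | zero => simp [S.F_zero]
  | succ j ih => rw [Nat.cast_succ, add_mul, one_mul, S.add, ih, pow_succ]

lemma fejer_expand (S : Sys Y ν) (z : L) (J : ℕ) (y : Y) :
    ‖∑ j ∈ Finset.range J, S.F z y ^ j‖ ^ 2 = ∑ j ∈ Finset.range J, ∑ j' ∈ Finset.range J,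
      (S.F (((j : L) - j') * z) y).re := by
  rw [← Complex.normSq_eq_norm_sq, ← Complex.ofReal_re (Complex.normSq _), ← Complex.mul_conj,
    map_sum, Finset.sum_mul_sum, Complex.re_sum]
  refine Finset.sum_congr rfl fun i _ => ?_
  rw [Complex.re_sum]
  refine Finset.sum_congr rfl fun j _ => ?_
  rw [sub_mul, S.F_sub, F_nat, F_nat]

lemma norm_comb_le (S : Sys Y ν) {ι : Type} [Fintype ι] {p : ι → ℝ} (h0 : ∀ i, 0 ≤ p i)
    (h1 : ∑ i, p i = 1) (w : ι → L) (y : Y) : ‖∑ i, (p i : ℂ) * S.F (w i) y‖ ≤ 1 := by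
  refine (norm_sum_le _ _).trans ?_
  rw [← h1]
  refine Finset.sum_le_sum fun i _ => ?_
  rw [norm_mul, S.norm, mul_one, Complex.norm_real, Real.norm_of_nonneg (h0 i)]

/-- simultaneous singularity of finitely many dilates -/
lemma sing_sim (S : Sys Y ν) (h : Sing (fun z => ∫ y, S.F z y ∂ν)) (s : Finset L) (hs : 0 ∉ s) :
    ∀ δ > 0, ∀ ε > 0, ∃ (ι : Type) (_ : Fintype ι) (w : ι → L) (p : ι → ℝ), Wt δ w p ∧
      ∀ m ∈ s, ∫ y, ‖∑ i, (p i : ℂ) * S.F (m * w i) y‖ ^ 2 ∂ν < ε := by
  classical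
  induction s using Finset.induction_on with
  | empty =>
    intro δ hδ ε _
    exact ⟨Unit, inferInstance, fun _ => 0, fun _ => 1,
      ⟨fun _ => zero_le_one, by simp, fun _ => by simpa using hδ⟩, by simp⟩
  | insert m s hm ih =>
    intro δ hδ ε hε
    have hm0 : m ≠ 0 := fun h0 => hs (h0 ▸ Finset.mem_insert_self _ _)
    have hmc : 0 < ‖(m : ℂ)‖ := norm_pos_iff.2 (by exact_mod_cast hm0)
    obtain ⟨ι, _, w, p, hw, hp⟩ := ih (fun h0 => hs (Finset.mem_insert_of_mem h0)) (δ / 2)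
      (by positivity) ε hε
    obtain ⟨ι', _, w', p', hw', hp'⟩ := h (δ / 2 * ‖(m : ℂ)‖) (by positivity) ε hε
    rw [← S.comb_sq] at hp'
    refine ⟨ι × ι', inferInstance, fun q => w q.1 + w' q.2 / m, fun q => p q.1 * p' q.2,
      ⟨fun q => mul_nonneg (hw.nonneg _) (hw'.nonneg _), ?_, fun q => ?_⟩, fun m' hm' => ?_⟩
    · rw [Fintype.sum_prod_type]
      simp_rw [← Finset.mul_sum, hw'.sum, mul_one, hw.sum]
    · push_cast
      refine (norm_add_le _ _).trans_lt ?_
      have h1 := hw.small q.1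
      have h2 : ‖(w' q.2 : ℂ) / m‖ < δ / 2 := by
        rw [norm_div, div_lt_iff₀ hmc]; exact hw'.small _
      linarith
    · have e : ∀ y, ∑ q : ι × ι', ((p q.1 * p' q.2 : ℝ) : ℂ) * S.F (m' * (w q.1 + w' q.2 / m)) y
          = (∑ i, (p i : ℂ) * S.F (m' * w i) y) * ∑ i, (p' i : ℂ) * S.F (m' * (w' i / m)) y := by
        intro y
        rw [Finset.sum_mul_sum, Fintype.sum_prod_type]
        refine Finset.sum_congr rfl fun i _ => Finset.sum_congr rfl fun j _ => ?_
        rw [mul_add, S.add]; push_cast; ring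
      simp_rw [e, norm_mul, mul_pow]
      rcases Finset.mem_insert.1 hm' with rfl | hm'
      · refine lt_of_le_of_lt (integral_mono (BM.integrable (by fun_prop) ν)
          (BM.integrable (by fun_prop) ν) fun y => ?_) hp'
        have e2 : ∀ i, m' * (w' i / m') = w' i := fun i => by field_simp
        simp only [e2]
        exact mul_le_of_le_one_left (sq_nonneg _)
          (pow_le_one₀ (norm_nonneg _) (norm_comb_le S hw.nonneg hw.sum _ y))
      · refine lt_of_le_of_lt (integral_mono (BM.integrable (by fun_prop) ν)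
          (BM.integrable (by fun_prop) ν) fun y => ?_) (hp m' hm')
        exact mul_le_of_le_one_right (sq_nonneg _)
          (pow_le_one₀ (norm_nonneg _) (norm_comb_le S hw'.nonneg hw'.sum _ y))
end

end Crest.Agent.H9.Pl
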