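import Crest.Agent.H9.PlSA

/-! Row 40, step B: finitely many cells measurable in the larger factor. -/

set_option autoImplicit false
set_option linter.unusedSectionVars false

namespace Crest.Agent.H9.Pl
open Crest.Agent.H2.Pl MeasureTheory ProbabilityTheory Filter Topology
open scoped ComplexConjugate

/-- grid cell -/
noncomputable def cell (d : ℝ) (z : ℂ) : ℤ × ℤ := (⌊z.re / d⌋, ⌊z.im / d⌋)

/-- neighbouring cells -/
def Nb (x x' : ℤ × ℤ) : Prop := |x.1 - x'.1| ≤ 1 ∧ |x.2 - x'.2| ≤ 1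

instance (x x' : ℤ × ℤ) : Decidable (Nb x x') := by unfold Nb; infer_instance

lemma floor_near {d a b : ℝ} (hd : 0 < d) (h : |a - b| < d) : |⌊a / d⌋ - ⌊b / d⌋| ≤ 1 := by
  have h1 : |a / d - b / d| < 1 := by
    rw [← sub_div, abs_div, abs_of_pos hd, div_lt_one hd]; exact h
  rw [abs_lt] at h1
  have a1 := Int.floor_le (a / d)
  have a2 := Int.lt_floor_add_one (a / d)
  have b1 := Int.floor_le (b / d)
  have b2 := Int.lt_floor_add_one (b / d)
  have c1 : ((⌊a / d⌋ - ⌊b / d⌋ : ℤ) : ℝ) < 2 := by push_cast; linarith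
  have c2 : (-2 : ℝ) < ((⌊a / d⌋ - ⌊b / d⌋ : ℤ) : ℝ) := by push_cast; linarith
  have c3 : ⌊a / d⌋ - ⌊b / d⌋ < 2 := by exact_mod_cast c1
  have c4 : -2 < ⌊a / d⌋ - ⌊b / d⌋ := by exact_mod_cast c2
  rw [abs_le]; omega

lemma nb_of_near {d : ℝ} (hd : 0 < d) {z z' : ℂ} (h : ‖z - z'‖ < d) : Nb (cell d z) (cell d z') :=
  ⟨floor_near hd (lt_of_le_of_lt (by simpa using Complex.abs_re_le_norm (z - z')) h),
   floor_near hd (lt_of_le_of_lt (by simpa using Complex.abs_im_le_norm (z - z')) h)⟩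

lemma near_of_floor {d a b : ℝ} (hd : 0 < d) (h : ⌊a / d⌋ = ⌊b / d⌋) : |a - b| ≤ d := by
  have h1 := Int.abs_sub_lt_one_of_floor_eq_floor h
  rw [← sub_div, abs_div, abs_of_pos hd, div_lt_one hd] at h1
  exact h1.le

lemma near_of_cell {d : ℝ} (hd : 0 < d) {z z' : ℂ} (h : cell d z = cell d z') : ‖z - z'‖ ≤ 2 * d := by
  have h1 := near_of_floor hd (congrArg Prod.fst h)
  have h2 := near_of_floor hd (congrArg Prod.snd h)
  have := Complex.norm_le_abs_re_add_abs_im (z - z')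
  simp only [Complex.sub_re, Complex.sub_im] at this
  linarith

lemma meas_cell (d : ℝ) : Measurable (cell d) := by
  unfold cell
  exact (Int.measurable_floor.comp (by fun_prop)).prodMk (Int.measurable_floor.comp (by fun_prop))

lemma cell_mem {d : ℝ} (hd : 0 < d) {z : ℂ} (hz : ‖z‖ = 1) :
    cell d z ∈ Finset.Icc ⌊-1 / d⌋ ⌊1 / d⌋ ×ˢ Finset.Icc ⌊-1 / d⌋ ⌊1 / d⌋ := by
  have h1 := abs_le.1 ((Complex.abs_re_le_norm z).trans hz.le)
  have h2 := abs_le.1 ((Complex.abs_im_le_norm z).trans hz.le)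
  simp only [cell, Finset.mem_product, Finset.mem_Icc]
  refine ⟨⟨?_, ?_⟩, ?_, ?_⟩ <;> apply Int.floor_le_floor <;>
    apply div_le_div_of_nonneg_right _ hd.le <;> linarith

lemma count_nb (G : Finset (ℤ × ℤ)) (x' : ℤ × ℤ) :
    ∑ x : G, (if Nb x x' then (1 : ℝ) else 0) ≤ 9 := by
  rw [Finset.sum_coe_sort G (fun x => if Nb x x' then (1 : ℝ) else 0), Finset.sum_boole]
  have : (G.filter fun x => Nb x x') ⊆
      Finset.Icc (x'.1 - 1) (x'.1 + 1) ×ˢ Finset.Icc (x'.2 - 1) (x'.2 + 1) := by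
    intro x hx
    obtain ⟨h1, h2⟩ := (Finset.mem_filter.1 hx).2
    rw [abs_le] at h1 h2
    simp only [Finset.mem_product, Finset.mem_Icc]
    omega
  have h2 := Finset.card_le_card this
  rw [Finset.card_product, Int.card_Icc, Int.card_Icc] at h2
  have e : ∀ a : ℤ, (a + 1 + 1 - (a - 1)).toNat = 3 := fun a => by omega
  rw [e, e] at h2
  exact_mod_cast h2

variable {Y : Type} [mY : MeasurableSpace Y] [StandardBorelSpace Y] {ν : Measure Y}
  [IsProbabilityMeasure ν]

/-- the full factor -/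
def topFac (S : Sys Y ν) : Fac S where
  B := mY
  le := le_rfl
  inv u _ hs := S.measT u hs

lemma bm_fibR {S : Sys Y ν} (Φ : Fac S) {h : Y × Y → ℝ} (hh : BM h) :
    BM fun y => ∫ y', h (y, y') ∂(Φ.κ y) :=
  ⟨(hh.1.stronglyMeasurable.integral_kernel_prod_right' (κ := Φ.κ)).measurable,
    hh.2.imp fun _ H y => by
      simpa using norm_integral_le_of_norm_le_const (μ := Φ.κ y)
        (Eventually.of_forall fun y' => H (y, y'))⟩

lemma fib_inv {S : Sys Y ν} (Φ : Fac S) {Z : Y × Y → ℝ} (hZ : BM Z) (u : U)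
    (hinv : (fun p => Z (Φ.sq.T u p)) =ᵐ[Φ.η] Z) :
    (fun y => ∫ y', Z (S.T u y, y') ∂(Φ.κ (S.T u y))) =ᵐ[ν] fun y => ∫ y', Z (y, y') ∂(Φ.κ y) := by
  have hC : BM fun p => ((Z p : ℝ) : ℂ) := by fun_prop
  have hk := Φ.bm_fib hC
  set kC : Y → ℂ := fun y => ∫ y', ((Z (y, y') : ℝ) : ℂ) ∂(Φ.κ y) with hkC
  have hkT : BM fun y => kC (S.T u y) := hk.comp (S.measT u)
  have := (topFac S).ae_eq_of_test (a := fun y => kC (S.T u y)) (b := kC) hkT.1 hkT hk.1 hk
    fun c _ hcb => by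
      rw [← S.int_T u⁻¹ (f := fun y => c y * kC (S.T u y)) (BM.meas (by fun_prop))]
      simp only [S.T_T_inv]
      rw [Φ.int_mul_fib (f := fun y => c (S.T u⁻¹ y)) (by fun_prop) hC, Φ.int_mul_fib hcb hC,
        ← Φ.sq.int_T u (f := fun q => c (S.T u⁻¹ q.1) * ((Z q : ℝ) : ℂ)) (BM.meas (by fun_prop))]
      refine integral_congr_ae ?_
      filter_upwards [hinv] with q hq
      rw [hq]
      simp only [Fac.sq, Prod.map, S.T_inv_T]
  filter_upwards [this] with y hy
  simp only [hkC, integral_complex_ofReal] at hy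
  exact_mod_cast hy

/-- Stage 1: the values of `F r` lie in boundedly many cells measurable in the factor. -/
lemma stage1 {S : Sys Y ν} (Φ : Fac S) (h : ¬ Φ.Sg) :
    ∃ A : Set Y, MeasurableSet A ∧ 0 < ν.real A ∧ (∀ u, ∀ᵐ y ∂ν, y ∈ A → S.T u y ∈ A) ∧
      ∃ n0 : ℝ, 0 < n0 ∧ ∀ d > 0, ∀ γ > 0, ∃ r : L, r ≠ 0 ∧ ∃ (G : Type) (_ : Fintype G)
        (ρ : Y → G) (Tm : G → Set Y) (N1 : Set Y), (∀ x, MeasurableSet[Φ.B] (Tm x)) ∧
        MeasurableSet N1 ∧ ν.real N1 ≤ γ ∧
        (∀ y, ∀ s : Finset G, (∀ x ∈ s, y ∈ Tm x) → (s.card : ℝ) ≤ n0) ∧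
        (∀ y ∈ A, y ∉ N1 → y ∈ Tm (ρ y)) ∧
        ∀ y y', ρ y = ρ y' → ‖S.F r y - S.F r y'‖ ≤ 2 * d := by
  classical
  obtain ⟨Z, hZm, hZ0, hZ1, hinv, hc, hcont⟩ := Φ.sq.exists_cont h
  have hZ : BM Z := BM.of_le hZm (C := 1) fun p => by rw [Real.norm_of_nonneg (hZ0 _)]; exact hZ1 _
  set kap : Y → ℝ := fun y => ∫ y', Z (y, y') ∂(Φ.κ y) with hkap
  have hk : BM kap := bm_fibR Φ hZ
  have hk1 : ∀ y, kap y ≤ 1 := fun y => by
    have := integral_mono (μ := Φ.κ y) (f := fun y' => Z (y, y')) (g := fun _ => (1 : ℝ))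
      (BM.integrable (by fun_prop) _) (integrable_const _) fun y' => hZ1 _
    simpa using this
  set c := ∫ p, Z p ∂Φ.η with hcdef
  have hkc : ∫ y, kap y ∂ν = c := (Φ.int_η hZ).symm
  set A : Set Y := {y | c / 2 ≤ kap y} with hA
  have hAm : MeasurableSet A := measurableSet_le measurable_const hk.1
  refine ⟨A, hAm, ?_, fun u => ?_, 36 / c, by positivity, fun d hd γ hγ => ?_⟩
  · have h1 : ∫ y, kap y ∂ν ≤ ∫ y, (A.indicator (fun _ => (1 : ℝ)) y + c / 2) ∂ν := by
      refine integral_mono (hk.integrable ν)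
        (((BM.const (1 : ℝ)).indicator hAm).add (BM.const _) |>.integrable ν) fun y => ?_
      by_cases hy : y ∈ A
      · simp only [Set.indicator_of_mem hy]; linarith [hk1 y]
      · simp only [Set.indicator_of_notMem hy]
        have : ¬ c / 2 ≤ kap y := hy
        linarith
    rw [integral_add (((BM.const (1 : ℝ)).indicator hAm).integrable ν) (integrable_const _),
      integral_indicator hAm] at h1
    simp at h1
    linarith
  · filter_upwards [fib_inv Φ hZ u (hinv u)] with y hy hyA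
    change c / 2 ≤ kap (S.T u y)
    simp only [hkap]
    rw [hy]; exact hyA
  · obtain ⟨δ, hδ, hsm⟩ := hcont (d ^ 2 * (c / 4) * γ) (by positivity)
    obtain ⟨q, hq0, hq1⟩ := exists_rat_btwn hδ
    have hq0' : (0 : ℚ) < q := by exact_mod_cast hq0
    have hrn : ‖(((q : ℚ) : L) : ℂ)‖ < δ := by
      have : (((q : ℚ) : L) : ℂ) = ((q : ℝ) : ℂ) := by simp
      rw [this, Complex.norm_real, Real.norm_of_nonneg hq0.le]; exact hq1
    set r : L := ((q : ℚ) : L) with hr
    have hr0 : r ≠ 0 := by rw [hr]; exact_mod_cast hq0'.ne'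
    set G := Finset.Icc ⌊-1 / d⌋ ⌊1 / d⌋ ×ˢ Finset.Icc ⌊-1 / d⌋ ⌊1 / d⌋ with hG
    set ind : ℤ × ℤ → Y → ℝ := fun x y' => if Nb x (cell d (S.F r y')) then 1 else 0 with hind
    have hib : ∀ x, BM (ind x) := fun x => by
      refine BM.of_le (C := 1) ?_ fun y => by simp only [hind]; split_ifs <;> simp
      exact (measurable_of_countable (fun x' : ℤ × ℤ => if Nb x x' then (1 : ℝ) else 0)).comp
        ((meas_cell d).comp (S.meas r))
    set P : ℤ × ℤ → Y → ℝ := fun x y => ∫ y', ind x y' ∂(Φ.κ y) with hP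
    have hPm : ∀ x, Measurable[Φ.B] (P x) := fun x =>
      ((hib x).1.stronglyMeasurable.integral_condExpKernel (μ := ν) (m := Φ.B)).measurable
    have hP0 : ∀ x y, 0 ≤ P x y := fun x y =>
      integral_nonneg fun y' => by simp only [hind]; split_ifs <;> simp
    have hPs : ∀ y, ∑ x : G, P x y ≤ 9 := fun y => by
      simp only [hP]
      rw [← integral_finsetSum _ fun x _ => (hib _).integrable _]
      have := integral_mono (μ := Φ.κ y) (f := fun y' => ∑ x : G, ind x y') (g := fun _ => (9 : ℝ))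
        ((BM.sum _ fun x _ => hib _).integrable _) (integrable_const _) fun y' => count_nb G _
      simpa using this
    have hgb : BM fun p : Y × Y => ‖Φ.sq.F r p - 1‖ ^ 2 * Z p := by
      have := Φ.sq.bmF r
      fun_prop
    set g : Y → ℝ := fun y => ∫ y', ‖Φ.sq.F r (y, y') - 1‖ ^ 2 * Z (y, y') ∂(Φ.κ y) with hg
    have hgm : BM g := bm_fibR Φ hgb
    have hg0 : ∀ y, 0 ≤ g y := fun y => integral_nonneg fun y' => mul_nonneg (sq_nonneg _) (hZ0 _)
    have hgi : ∫ y, g y ∂ν ≤ d ^ 2 * (c / 4) * γ := by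
      have := hsm r hrn
      rwa [Φ.int_η hgb] at this
    refine ⟨r, hr0, G, inferInstance, fun y => ⟨cell d (S.F r y), cell_mem hd (S.norm r y)⟩,
      fun x => {y | c / 4 ≤ P x y}, {y | d ^ 2 * (c / 4) ≤ g y},
      fun x => measurableSet_le measurable_const (hPm x), measurableSet_le measurable_const hgm.1,
      ?_, fun y s hs => ?_, fun y hy hy1 => ?_, fun y y' hyy => ?_⟩
    · have := mul_meas_ge_le_integral_of_nonneg (Eventually.of_forall hg0) (hgm.integrable ν)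
        (d ^ 2 * (c / 4))
      have h2 : d ^ 2 * (c / 4) * ν.real {y | d ^ 2 * (c / 4) ≤ g y} ≤ d ^ 2 * (c / 4) * γ :=
        this.trans hgi
      exact le_of_mul_le_mul_left h2 (by positivity)
    · have h1 : ∑ x ∈ s, c / 4 ≤ ∑ x ∈ s, P x y := Finset.sum_le_sum fun x hx => hs x hx
      have h2 : ∑ x ∈ s, P x y ≤ ∑ x : G, P x y :=
        Finset.sum_le_sum_of_subset_of_nonneg (Finset.subset_univ _) fun x _ _ => hP0 _ _
      rw [Finset.sum_const, nsmul_eq_mul] at h1
      rw [le_div_iff₀ hc]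
      linarith [hPs y]
    · change c / 4 ≤ P (cell d (S.F r y)) y
      have h1 : g y < d ^ 2 * (c / 4) := not_le.1 hy1
      have h2 : c / 2 ≤ kap y := hy
      have h3 : ∫ y', d ^ 2 * (Z (y, y') - ind (cell d (S.F r y)) y') ∂(Φ.κ y) ≤ g y := by
        have := hib (cell d (S.F r y))
        refine integral_mono (BM.integrable (by fun_prop) _)
          (BM.integrable (hgb.comp (g := fun y' => (y, y')) (by fun_prop)) _) fun y' => ?_
        have e : ‖Φ.sq.F r (y, y') - 1‖ = ‖S.F r y - S.F r y'‖ := by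
          simp only [Fac.sq]
          rw [← S.mul_conj r y', ← sub_mul, norm_mul, RCLike.norm_conj, S.norm, mul_one]
        simp only [e, hind]
        split_ifs with hn
        · have := mul_nonneg (sq_nonneg ‖S.F r y - S.F r y'‖) (hZ0 (y, y'))
          have h4 := mul_nonneg (sq_nonneg d) (sub_nonneg.2 (hZ1 (y, y')))
          linarith
        · have h4 : d ≤ ‖S.F r y - S.F r y'‖ := not_lt.1 fun hlt => hn (nb_of_near hd hlt)
          rw [sub_zero]
          exact mul_le_mul_of_nonneg_right (pow_le_pow_left₀ hd.le h4 2) (hZ0 _)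
      rw [integral_const_mul, integral_sub (BM.integrable (by fun_prop) _)
        ((hib _).integrable _)] at h3
      have h4 : d ^ 2 * (kap y - P (cell d (S.F r y)) y) < d ^ 2 * (c / 4) := h3.trans_lt h1
      have h5 := lt_of_mul_lt_mul_left h4 (sq_nonneg d)
      linarith
    · exact near_of_cell hd (congrArg Subtype.val hyy)

end Crest.Agent.H9.Pl
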