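import Crest.Agent.H9.PlSB

/-! Row 40, step B: no continuous part over `B` implies none over `K(B)`. -/

set_option autoImplicit false
set_option linter.unusedSectionVars false

namespace Crest.Agent.H9.Pl
open Crest.Agent.H2.Pl MeasureTheory ProbabilityTheory Filter Topology
open scoped ComplexConjugate

variable {Y : Type} [mY : MeasurableSpace Y] [StandardBorelSpace Y] {ν : Measure Y}
  [IsProbabilityMeasure ν]

lemma re_int_W {S : Sys Y ν} (Φ : Fac S) {W : Y → ℝ} (hW : Measurable[Φ.B] W) (hWb : BM W)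
    (z : L) {τ : ℝ} (hτ : 0 < τ) :
    ∫ y, W y * (S.F z y).re ∂ν ≤ (τ * ∫ y, W y ^ 2 ∂ν + Φ.k z / τ) / 2 := by
  have hE := Φ.E_bm (S.bmF z)
  have h1 := Φ.int_mul_E (c := fun y => ((W y : ℝ) : ℂ)) (f := S.F z)
    (Complex.measurable_ofReal.comp hW) (by fun_prop) (S.bmF z)
  have h2 : ∫ y, W y * (S.F z y).re ∂ν = ∫ y, W y * (Φ.E (S.F z) y).re ∂ν := by
    have := congrArg Complex.re h1
    rw [← int_re (by fun_prop), ← int_re (by fun_prop)] at this
    simpa only [Complex.re_ofReal_mul] using this.symm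
  rw [h2, Fac.k, ← integral_const_mul, ← integral_div,
    ← integral_add (BM.integrable (by fun_prop) _) (BM.integrable (by fun_prop) _), ← integral_div]
  refine integral_mono (BM.integrable (by fun_prop) _) (BM.integrable (by fun_prop) _) fun y => ?_
  have h3 : W y * (Φ.E (S.F z) y).re ≤ |W y| * ‖Φ.E (S.F z) y‖ := by
    refine (le_abs_self _).trans ?_
    rw [abs_mul]
    exact mul_le_mul_of_nonneg_left (Complex.abs_re_le_norm _) (abs_nonneg _)
  have h4 : (τ * W y ^ 2 + ‖Φ.E (S.F z) y‖ ^ 2 / τ) / 2 - |W y| * ‖Φ.E (S.F z) y‖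
      = (τ * |W y| - ‖Φ.E (S.F z) y‖) ^ 2 / (2 * τ) := by
    rw [← sq_abs (W y)]; field_simp; ring
  have h5 : 0 ≤ (τ * |W y| - ‖Φ.E (S.F z) y‖) ^ 2 / (2 * τ) := by positivity
  simp only; linarith

lemma bm_col {ι : Type} [Finite ι] {S : Sys Y ν} {Φ : Fac S} {c : Y → ι} (h : Φ.Col c)
    (f : ι → ℝ) : BM fun y => f (c y) := by
  obtain ⟨C, hC⟩ := (Set.finite_range fun i => ‖f i‖).bddAbove
  exact BM.of_le ((h.meas f).mono Φ.le le_rfl) (C := C) fun y => hC ⟨_, rfl⟩

/-- upper bound -/
lemma upper {S : Sys Y ν} (Φ : Fac S) {I C : Type} [Fintype I] [Fintype C] [DecidableEq C]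
    {lam : I → ℝ} (h0 : ∀ i, 0 ≤ lam i) (h1 : ∑ i, lam i = 1) (w : I → L) {c : Y → I → C}
    (hc : Φ.Col c) {J : ℕ} {τ ε : ℝ} (hτ : 0 < τ) (hε : 0 ≤ ε)
    (hk : ∀ j ∈ Finset.range J, ∀ j' ∈ Finset.range J, j ≠ j' →
      ∑ i, ∑ i', lam i * lam i' * Φ.k (((j : L) - j') * (w i - w i')) ≤ ε) :
    ∫ y, ∑ i, ∑ i', lam i * lam i' * (Wc lam (c y) i i' *
      ‖∑ j ∈ Finset.range J, S.F (w i - w i') y ^ j‖ ^ 2) ∂ν
      ≤ J + (J : ℝ) ^ 2 * ((τ * Fintype.card C + ε / τ) / 2) := by
  classical
  have hWm : ∀ i i', Measurable[Φ.B] fun y => Wc lam (c y) i i' := fun i i' =>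
    hc.meas fun b => Wc lam b i i'
  have hWb : ∀ i i', BM fun y => Wc lam (c y) i i' := fun i i' =>
    bm_col hc fun b => Wc lam b i i'
  set T : ℕ → ℕ → Y → ℝ := fun j j' y => ∑ i, ∑ i', lam i * lam i' * (Wc lam (c y) i i' *
    (S.F (((j : L) - j') * (w i - w i')) y).re) with hT
  have hTi : ∀ j j' i i', BM fun y => lam i * lam i' * (Wc lam (c y) i i' *
      (S.F (((j : L) - j') * (w i - w i')) y).re) := fun j j' i i' =>
    (BM.const _).mul ((hWb i i').mul (S.bmF _).re)
  have hTb : ∀ j j', BM (T j j') := fun j j' =>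
    BM.sum _ fun i _ => BM.sum _ fun i' _ => hTi j j' i i'
  have e : ∀ y, ∑ i, ∑ i', lam i * lam i' * (Wc lam (c y) i i' *
      ‖∑ j ∈ Finset.range J, S.F (w i - w i') y ^ j‖ ^ 2)
      = ∑ j ∈ Finset.range J, ∑ j' ∈ Finset.range J, T j j' y := by
    intro y
    simp only [fejer_expand, hT, Finset.mul_sum]
    rw [Finset.sum_congr rfl fun i _ => Finset.sum_comm, Finset.sum_comm]
    refine Finset.sum_congr rfl fun j _ => ?_
    rw [Finset.sum_congr rfl fun i _ => Finset.sum_comm, Finset.sum_comm]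
  simp_rw [e]
  rw [integral_finsetSum _ fun j _ => (BM.sum _ fun j' _ => hTb j j').integrable ν]
  set b := (τ * Fintype.card C + ε / τ) / 2 with hb
  have hb0 : 0 ≤ b := by positivity
  have hdiag : ∀ j, ∫ y, T j j y ∂ν ≤ 1 := fun j => by
    have := integral_mono (μ := ν) (g := fun _ => (1 : ℝ)) ((hTb j j).integrable ν)
      (integrable_const _) fun y => by
        simp only [hT, sub_self, zero_mul, S.F_zero, Complex.one_re, mul_one]
        exact sum_W1 (c y) h0 h1
    simpa using this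
  have hoff : ∀ j ∈ Finset.range J, ∀ j' ∈ Finset.range J, j ≠ j' → ∫ y, T j j' y ∂ν ≤ b := by
    intro j hj j' hj' hne
    simp only [hT]
    rw [integral_finsetSum _ fun i _ => (BM.sum _ fun i' _ => hTi j j' i i').integrable ν]
    simp_rw [integral_finsetSum _ fun i' _ => (hTi j j' _ i').integrable ν, integral_const_mul]
    have h2 : ∑ i, ∑ i', lam i * lam i' * ∫ y, Wc lam (c y) i i' ^ 2 ∂ν ≤ Fintype.card C := by
      have h3 : ∀ i i', BM fun y => lam i * lam i' * Wc lam (c y) i i' ^ 2 := fun i i' =>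
        (BM.const _).mul ((hWb i i').pow 2)
      simp_rw [← integral_const_mul, ← integral_finsetSum _ fun i' _ => (h3 _ i').integrable ν]
      rw [← integral_finsetSum _ fun i _ => (BM.sum _ fun i' _ => h3 i i').integrable ν]
      have := integral_mono (μ := ν) (g := fun _ => (Fintype.card C : ℝ))
        ((BM.sum Finset.univ fun i _ => BM.sum Finset.univ fun i' _ => h3 i i').integrable ν)
        (integrable_const _) fun y => sum_W2 (c y)
      simpa using this
    calc _ ≤ ∑ i, ∑ i', lam i * lam i' * ((τ * ∫ y, Wc lam (c y) i i' ^ 2 ∂ν +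
            Φ.k (((j : L) - j') * (w i - w i')) / τ) / 2) :=
          Finset.sum_le_sum fun i _ => Finset.sum_le_sum fun i' _ =>
            mul_le_mul_of_nonneg_left (re_int_W Φ (hWm i i') (hWb i i') _ hτ)
              (mul_nonneg (h0 _) (h0 _))
      _ = (τ * (∑ i, ∑ i', lam i * lam i' * ∫ y, Wc lam (c y) i i' ^ 2 ∂ν) +
            (∑ i, ∑ i', lam i * lam i' * Φ.k (((j : L) - j') * (w i - w i'))) / τ) / 2 := by
          simp only [Finset.mul_sum, Finset.sum_div, ← Finset.sum_add_distrib]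
          refine Finset.sum_congr rfl fun i _ => Finset.sum_congr rfl fun i' _ => ?_
          ring
      _ ≤ b := by
          have h4 := mul_le_mul_of_nonneg_left h2 hτ.le
          have h5 := div_le_div_of_nonneg_right (hk j hj j' hj' hne) hτ.le
          rw [hb]; linarith
  calc _ ≤ ∑ j ∈ Finset.range J, (1 + J * b) := Finset.sum_le_sum fun j hj => by
          rw [integral_finsetSum _ fun j' _ => (hTb j j').integrable ν]
          calc _ ≤ ∑ j' ∈ Finset.range J, ((if j = j' then 1 else 0) + b) :=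
                Finset.sum_le_sum fun j' hj' => by
                  split_ifs with h
                  · subst h; linarith [hdiag j]
                  · linarith [hoff j hj j' hj' h]
            _ = _ := by
                rw [Finset.sum_add_distrib, Finset.sum_ite_eq, if_pos hj]; simp
    _ = _ := by simp; ring

theorem stepB : StepBStmt := by
  classical
  intro Y _ _ ν _ S Φ hS
  by_contra hne
  obtain ⟨A, hAm, ha, hAinv, n0, hn0, H⟩ := stage1 Φ.K hne
  set a := ν.real A with hadef
  set N := n0 * n0 with hN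
  have hN0 : 0 < N := by positivity
  obtain ⟨J, hJ⟩ := exists_nat_gt (32 * N / a ^ 2)
  have hJ0 : (0 : ℝ) < J := lt_trans (by positivity) hJ
  obtain ⟨r, hr0, G, _, ρ, Tm, N1, hTm, hN1m, hN1, hcard, hin, hclose⟩ :=
    H (1 / (8 * J)) (by positivity) (a / 8) (by positivity)
  obtain ⟨ι, _, Es, Hc⟩ := Φ.exists_col hTm (ε := a / 8) (by positivity)
  choose col Nu hcol hNum hNu hEs using Hc
  set M : ℝ := ((Fintype.card (ι × ι) : ℕ) : ℝ) with hM
  have hM0 : 0 ≤ M := by positivity
  set τ : ℝ := 1 / (J * (M + 1)) with hτ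
  have hτ0 : 0 < τ := by positivity
  set s : Finset L := (((Finset.range J ×ˢ Finset.range J).filter fun q => q.1 ≠ q.2).image
    fun q : ℕ × ℕ => (q.1 : L) - q.2) with hs
  have hs0 : (0 : L) ∉ s := by
    intro h
    obtain ⟨q, hq, h0⟩ := Finset.mem_image.1 h
    exact (Finset.mem_filter.1 hq).2 (by exact_mod_cast sub_eq_zero.1 h0)
  have hrc : 0 < ‖(r : ℂ)‖ := norm_pos_iff.2 (by exact_mod_cast hr0)
  obtain ⟨I, _, w, lam, hw, hsim⟩ := sing_sim Φ.sq hS s hs0 (2 * ‖(r : ℂ)‖) (by positivity)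
    (τ / J) (by positivity)
  choose u u' huu using fun i => H3.Pl.exists_two_units (hw.small i).le
  set c : Y → I → ι × ι := fun y i => (col (u i) y, col (u' i) y) with hc
  have hcc : Φ.Col c := Fac.Col.pi fun i => (hcol (u i)).prod (hcol (u' i))
  have hup := upper Φ hw.nonneg hw.sum w hcc (J := J) hτ0 (ε := τ / J) (by positivity)
    fun j hj j' hj' hjj => by
      have := hsim _ (Finset.mem_image.2 ⟨(j, j'), Finset.mem_filter.2
        ⟨Finset.mem_product.2 ⟨hj, hj'⟩, hjj⟩, rfl⟩)
      rw [Φ.sq.comb_sq] at this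
      simp only [Φ.int_sq_F, Complex.ofReal_re, ← mul_sub] at this
      exact this.le
  set Good : I → Set Y := fun i => (S.T (u i) ⁻¹' (A \ N1) ∩ S.T (u' i) ⁻¹' (A \ N1)) \
    (Nu (u i) ∪ Nu (u' i)) with hGood
  have hGm : ∀ i, MeasurableSet (Good i) := fun i =>
    ((S.measT _ (hAm.diff hN1m)).inter (S.measT _ (hAm.diff hN1m))).diff
      ((hNum _).union (hNum _))
  have hGa : ∀ i, a / 2 ≤ ν.real (Good i) := fun i => by
    have h1 : A ≤ᵐ[ν] (Good i ∪ (S.T (u i) ⁻¹' N1 ∪ S.T (u' i) ⁻¹' N1) ∪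
        (Nu (u i) ∪ Nu (u' i)) : Set Y) := by
      filter_upwards [hAinv (u i), hAinv (u' i)] with y h1 h2 hy
      have h3 := h1 hy
      have h4 := h2 hy
      change y ∈ (_ ∪ _ : Set Y)
      simp only [hGood, Set.mem_union, Set.mem_sdiff, Set.mem_inter_iff, Set.mem_preimage]
      tauto
    have h2 : a ≤ _ := ENNReal.toReal_mono (measure_ne_top _ _) (measure_mono_ae h1)
    have h3 := measureReal_union_le (μ := ν) (Good i ∪ (S.T (u i) ⁻¹' N1 ∪ S.T (u' i) ⁻¹' N1))
      (Nu (u i) ∪ Nu (u' i))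
    have h4 := measureReal_union_le (μ := ν) (Good i) (S.T (u i) ⁻¹' N1 ∪ S.T (u' i) ⁻¹' N1)
    have h5 := measureReal_union_le (μ := ν) (S.T (u i) ⁻¹' N1) (S.T (u' i) ⁻¹' N1)
    have h6 := measureReal_union_le (μ := ν) (Nu (u i)) (Nu (u' i))
    rw [(S.mp _).measureReal_preimage hN1m.nullMeasurableSet,
      (S.mp _).measureReal_preimage hN1m.nullMeasurableSet] at h5
    have h7 := hNu (u i)
    have h8 := hNu (u' i)
    have h9 : a ≤ ν.real (Good i ∪ (S.T (u i) ⁻¹' N1 ∪ S.T (u' i) ⁻¹' N1) ∪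
        (Nu (u i) ∪ Nu (u' i))) := h2
    linarith
  set t := a / (2 * N) with ht
  have ht0 : 0 < t := by positivity
  have hpt : ∀ y, (J : ℝ) ^ 2 / 4 * (2 * t * (∑ i, if y ∈ Good i then lam i else 0) - t ^ 2 * N)
      ≤ ∑ i, ∑ i', lam i * lam i' * (Wc lam (c y) i i' *
        ‖∑ j ∈ Finset.range J, S.F (w i - w i') y ^ j‖ ^ 2) := by
    intro y
    refine lower_comb (c y) hw.nonneg hw.sum (fun i => y ∈ Good i)
      (fun i => (ρ (S.T (u i) y), ρ (S.T (u' i) y))) hN0.le (fun i hi => ?_) (by positivity)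
      (fun _ _ => sq_nonneg _) (fun i i' _ _ hcell => ?_) t
    · refine ⟨(Finset.univ.filter fun x => y ∈ Es x (col (u i) y)) ×ˢ
        (Finset.univ.filter fun x => y ∈ Es x (col (u' i) y)), ?_, fun i' hi' hcc => ?_⟩
      · rw [Finset.card_product, Nat.cast_mul, hN]
        have hn := hi.2
        rw [Set.mem_union, not_or] at hn
        refine mul_le_mul (hcard (S.T (u i) y) _ fun x hx => ?_)
          (hcard (S.T (u' i) y) _ fun x hx => ?_) (by positivity) hn0.le
        · exact (hEs _ y hn.1 x).2 (Finset.mem_filter.1 hx).2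
        · exact (hEs _ y hn.2 x).2 (Finset.mem_filter.1 hx).2
      · have hn := hi'.2
        rw [Set.mem_union, not_or] at hn
        have e1 : col (u i') y = col (u i) y := congrArg Prod.fst hcc
        have e2 : col (u' i') y = col (u' i) y := congrArg Prod.snd hcc
        simp only [Finset.mem_product, Finset.mem_filter, Finset.mem_univ, true_and]
        rw [← e1, ← e2]
        exact ⟨(hEs _ y hn.1 _).1 (hin _ hi'.1.1.1 hi'.1.1.2),
          (hEs _ y hn.2 _).1 (hin _ hi'.1.2.1 hi'.1.2.2)⟩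
    · refine fejer_lower (S.norm _ _) ?_
      have h1 := hclose _ _ (congrArg Prod.fst hcell).symm
      have h2 := hclose _ _ (congrArg Prod.snd hcell).symm
      simp only [S.F_T] at h1 h2
      have e : ‖S.F (w i - w i') y - 1‖ = ‖S.F (w i) y - S.F (w i') y‖ := by
        rw [S.F_sub, ← S.mul_conj (w i') y, ← sub_mul, norm_mul, RCLike.norm_conj, S.norm, mul_one]
      have h3 : ‖S.F (w i) y - S.F (w i') y‖ ≤ 4 * (1 / (8 * J)) := by
        rw [huu i, huu i', S.add, S.add]
        have : S.F (u i • r) y * S.F (u' i • r) y - S.F (u i' • r) y * S.F (u' i' • r) y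
            = (S.F (u i • r) y - S.F (u i' • r) y) * S.F (u' i • r) y +
              S.F (u i' • r) y * (S.F (u' i • r) y - S.F (u' i' • r) y) := by ring
        rw [this]
        refine (norm_add_le _ _).trans ?_
        rw [norm_mul, norm_mul, S.norm, S.norm]
        linarith
      rw [e]
      refine (mul_le_mul_of_nonneg_left h3 hJ0.le).trans (le_of_eq ?_)
      field_simp; norm_num
  have hgb : ∀ i, BM fun y => if y ∈ Good i then lam i else 0 := fun i => by
    have := (BM.const (lam i)).indicator (hGm i)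
    convert this using 1
    ext y; simp [Set.indicator_apply]
  have hgi : a / 2 ≤ ∫ y, ∑ i, (if y ∈ Good i then lam i else 0) ∂ν := by
    rw [integral_finsetSum _ fun i _ => (hgb i).integrable ν]
    calc a / 2 = ∑ i, lam i * (a / 2) := by rw [← Finset.sum_mul, hw.sum, one_mul]
      _ ≤ _ := Finset.sum_le_sum fun i _ => by
          have : ∫ y, (if y ∈ Good i then lam i else 0) ∂ν = ν.real (Good i) * lam i := by
            have := integral_indicator_const (μ := ν) (lam i) (hGm i)
            simpa only [Set.indicator_apply, smul_eq_mul] using this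
          rw [this, mul_comm]
          exact mul_le_mul_of_nonneg_right (hGa i) (hw.nonneg i)
  have hsb : BM fun y => ∑ i, (if y ∈ Good i then lam i else 0) := BM.sum _ fun i _ => hgb i
  have hint := integral_mono (μ := ν) (BM.integrable (by fun_prop) ν)
    (BM.integrable (BM.sum _ fun i _ => BM.sum _ fun i' _ => (BM.const _).mul
      ((bm_col hcc fun b => Wc lam b i i').mul (by fun_prop))) ν) hpt
  rw [integral_const_mul, integral_sub (BM.integrable (by fun_prop) ν) (integrable_const _),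
    integral_const_mul] at hint
  simp only [integral_const, probReal_univ, smul_eq_mul, one_mul] at hint
  have h1 : (J : ℝ) ^ 2 * ((τ * M + τ / J / τ) / 2) ≤ J := by
    have e1 : τ * M ≤ 1 / J := by
      rw [hτ, div_mul_eq_mul_div, div_le_div_iff₀ (by positivity) hJ0]; nlinarith
    have e2 : τ / J / τ = 1 / J := by field_simp
    rw [e2]
    calc _ ≤ (J : ℝ) ^ 2 * ((1 / J + 1 / J) / 2) := by gcongr
      _ = J := by field_simp; norm_num
  have h2 : a ^ 2 / (4 * N) ≤ 2 * t * ∫ y, ∑ i, (if y ∈ Good i then lam i else 0) ∂ν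
      - t ^ 2 * N := by
    have := mul_le_mul_of_nonneg_left hgi (show 0 ≤ 2 * t by positivity)
    have e : 2 * t * (a / 2) - t ^ 2 * N = a ^ 2 / (4 * N) := by rw [ht]; field_simp; ring
    linarith
  have h3 := (mul_le_mul_of_nonneg_left h2 (show 0 ≤ (J : ℝ) ^ 2 / 4 by positivity)).trans
    (hint.trans hup)
  have h4 : (J : ℝ) ^ 2 / 4 * (a ^ 2 / (4 * N)) ≤ 2 * J := by linarith
  rw [div_lt_iff₀ (by positivity)] at hJ
  have h5 : (J : ℝ) ^ 2 / 4 * (a ^ 2 / (4 * N)) = J * (J * a ^ 2 / (16 * N)) := by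
    field_simp; norm_num
  rw [h5, mul_comm 2] at h4
  have h6 := le_of_mul_le_mul_left h4 hJ0
  rw [div_le_iff₀ (by positivity)] at h6
  linarith

end Crest.Agent.H9.Pl
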