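import Mathlib

/-! Basic matrix tools for the quantum parallel repetition proofs. -/

namespace Crest.Agent.H9.QP

open Matrix
open scoped ComplexOrder Kronecker

section spec
variable {n : Type} [Fintype n] [DecidableEq n]

lemma exists_spec {A : Matrix n n ℂ} (hA : A.IsHermitian) :
    ∃ (U : Matrix n n ℂ) (d : n → ℝ), Uᴴ * U = 1 ∧ U * Uᴴ = 1 ∧
      A = U * diagonal (fun i => (d i : ℂ)) * Uᴴ ∧ (A.PosSemidef → ∀ i, 0 ≤ d i) := by
  refine ⟨hA.eigenvectorUnitary, hA.eigenvalues, ?_, ?_, ?_, ?_⟩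
  · have := (hA.eigenvectorUnitary).2.1
    simpa [star_eq_conjTranspose] using this
  · have := (hA.eigenvectorUnitary).2.2
    simpa [star_eq_conjTranspose] using this
  · have := hA.spectral_theorem
    rw [Unitary.conjStarAlgAut_apply] at this
    simpa [star_eq_conjTranspose, Function.comp_def] using this
  · intro h i
    exact h.eigenvalues_nonneg i

lemma exists_factor {M : Matrix n n ℂ} (hM : M.PosSemidef) :
    ∃ S : Matrix n n ℂ, M = Sᴴ * S := by
  obtain ⟨U, d, h1, h2, h3, h4⟩ := exists_spec hM.1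
  refine ⟨diagonal (fun i => ((Real.sqrt (d i) : ℝ) : ℂ)) * Uᴴ, ?_⟩
  rw [conjTranspose_mul, conjTranspose_conjTranspose, diagonal_conjTranspose, Matrix.mul_assoc,
    ← Matrix.mul_assoc (diagonal _), diagonal_mul_diagonal, h3, Matrix.mul_assoc]
  congr 3
  funext i
  simp only [Pi.star_apply, RCLike.star_def, Complex.conj_ofReal]
  rw [← Complex.ofReal_mul, Real.mul_self_sqrt (h4 hM i)]

end spec

section cf
variable {P Q : Type} [Fintype P] [Fintype Q]

lemma re_trace_nonneg {X : Matrix P P ℂ} (hX : X.PosSemidef) : 0 ≤ (trace X).re := by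
  have := hX.trace_nonneg
  exact (Complex.nonneg_iff.mp this).1

lemma re_trace_mul_nonneg {X Y : Matrix P P ℂ} (hX : X.PosSemidef) (hY : Y.PosSemidef) :
    0 ≤ (trace (X * Y)).re := by
  classical
  obtain ⟨S, rfl⟩ := exists_factor hY
  rw [← Matrix.mul_assoc, trace_mul_cycle]
  exact re_trace_nonneg (hX.mul_mul_conjTranspose_same S)

/-- The real part of `⟨A, (M ⊗ N) B⟩`, vectors of the tensor product written as matrices. -/
noncomputable def cf (A : Matrix P Q ℂ) (M : Matrix P P ℂ) (B : Matrix P Q ℂ)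
    (N : Matrix Q Q ℂ) : ℝ :=
  (trace (Aᴴ * M * B * Nᵀ)).re

lemma cf_nonneg (A : Matrix P Q ℂ) {M : Matrix P P ℂ} {N : Matrix Q Q ℂ} (hM : M.PosSemidef)
    (hN : N.PosSemidef) : 0 ≤ cf A M A N :=
  re_trace_mul_nonneg (hM.conjTranspose_mul_mul_same A) hN.transpose

lemma cf_symm (A B : Matrix P Q ℂ) {M : Matrix P P ℂ} {N : Matrix Q Q ℂ} (hM : M.IsHermitian)
    (hN : N.IsHermitian) : cf A M B N = cf B M A N := by
  unfold cf
  have h : trace (Bᴴ * M * A * Nᵀ) = star (trace (Aᴴ * M * B * Nᵀ)) := by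
    rw [← trace_conjTranspose]
    have hN' : (Nᵀ)ᴴ = Nᵀ := hN.transpose
    simp only [conjTranspose_mul, conjTranspose_conjTranspose, hM.eq, hN']
    rw [trace_mul_comm Nᵀ]
    simp only [Matrix.mul_assoc]
  rw [h]; simp

lemma cf_add_left (A A' : Matrix P Q ℂ) (M : Matrix P P ℂ) (B : Matrix P Q ℂ) (N : Matrix Q Q ℂ) :
    cf (A + A') M B N = cf A M B N + cf A' M B N := by
  simp [cf, conjTranspose_add, Matrix.add_mul]

lemma cf_add_right (A : Matrix P Q ℂ) (M : Matrix P P ℂ) (B B' : Matrix P Q ℂ) (N : Matrix Q Q ℂ) :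
    cf A M (B + B') N = cf A M B N + cf A M B' N := by
  simp [cf, Matrix.add_mul, Matrix.mul_add]

lemma cf_sub_left (A A' : Matrix P Q ℂ) (M : Matrix P P ℂ) (B : Matrix P Q ℂ) (N : Matrix Q Q ℂ) :
    cf (A - A') M B N = cf A M B N - cf A' M B N := by
  simp [cf, conjTranspose_sub, Matrix.sub_mul]

lemma cf_sub_right (A : Matrix P Q ℂ) (M : Matrix P P ℂ) (B B' : Matrix P Q ℂ) (N : Matrix Q Q ℂ) :
    cf A M (B - B') N = cf A M B N - cf A M B' N := by
  simp [cf, Matrix.sub_mul, Matrix.mul_sub]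

lemma cf_smul_left (c : ℝ) (A : Matrix P Q ℂ) (M : Matrix P P ℂ) (B : Matrix P Q ℂ)
    (N : Matrix Q Q ℂ) : cf ((c : ℂ) • A) M B N = c * cf A M B N := by
  simp [cf, conjTranspose_smul]

lemma cf_smul_right (c : ℝ) (A : Matrix P Q ℂ) (M : Matrix P P ℂ) (B : Matrix P Q ℂ)
    (N : Matrix Q Q ℂ) : cf A M ((c : ℂ) • B) N = c * cf A M B N := by
  simp [cf]

lemma cf_add_M (A : Matrix P Q ℂ) (M M' : Matrix P P ℂ) (B : Matrix P Q ℂ) (N : Matrix Q Q ℂ) :
    cf A (M + M') B N = cf A M B N + cf A M' B N := by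
  simp [cf, Matrix.add_mul, Matrix.mul_add]

lemma cf_add_N (A : Matrix P Q ℂ) (M : Matrix P P ℂ) (B : Matrix P Q ℂ) (N N' : Matrix Q Q ℂ) :
    cf A M B (N + N') = cf A M B N + cf A M B N' := by
  simp [cf, Matrix.mul_add]

lemma cf_sub_M (A : Matrix P Q ℂ) (M M' : Matrix P P ℂ) (B : Matrix P Q ℂ) (N : Matrix Q Q ℂ) :
    cf A (M - M') B N = cf A M B N - cf A M' B N := by
  simp [cf, Matrix.sub_mul, Matrix.mul_sub]

lemma cf_sub_N (A : Matrix P Q ℂ) (M : Matrix P P ℂ) (B : Matrix P Q ℂ) (N N' : Matrix Q Q ℂ) :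
    cf A M B (N - N') = cf A M B N - cf A M B N' := by
  simp [cf, Matrix.mul_sub]

lemma cf_smul_M (c : ℝ) (A : Matrix P Q ℂ) (M : Matrix P P ℂ) (B : Matrix P Q ℂ)
    (N : Matrix Q Q ℂ) : cf A ((c : ℂ) • M) B N = c * cf A M B N := by
  simp [cf]

lemma cf_smul_N (c : ℝ) (A : Matrix P Q ℂ) (M : Matrix P P ℂ) (B : Matrix P Q ℂ)
    (N : Matrix Q Q ℂ) : cf A M B ((c : ℂ) • N) = c * cf A M B N := by
  simp [cf]

@[simp] lemma cf_zero_M (A : Matrix P Q ℂ) (B : Matrix P Q ℂ) (N : Matrix Q Q ℂ) :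
    cf A 0 B N = 0 := by simp [cf]

@[simp] lemma cf_zero_N (A : Matrix P Q ℂ) (M : Matrix P P ℂ) (B : Matrix P Q ℂ) :
    cf A M B 0 = 0 := by simp [cf]

@[simp] lemma cf_zero_left (M : Matrix P P ℂ) (B : Matrix P Q ℂ) (N : Matrix Q Q ℂ) :
    cf 0 M B N = 0 := by simp [cf]

@[simp] lemma cf_zero_right (A : Matrix P Q ℂ) (M : Matrix P P ℂ) (N : Matrix Q Q ℂ) :
    cf A M 0 N = 0 := by simp [cf]

lemma cf_sum_M {ι : Type*} (s : Finset ι) (A : Matrix P Q ℂ) (M : ι → Matrix P P ℂ)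
    (B : Matrix P Q ℂ) (N : Matrix Q Q ℂ) :
    cf A (∑ i ∈ s, M i) B N = ∑ i ∈ s, cf A (M i) B N := by
  simp [cf, Matrix.sum_mul, Matrix.mul_sum]

lemma cf_sum_N {ι : Type*} (s : Finset ι) (A : Matrix P Q ℂ) (M : Matrix P P ℂ)
    (B : Matrix P Q ℂ) (N : ι → Matrix Q Q ℂ) :
    cf A M B (∑ i ∈ s, N i) = ∑ i ∈ s, cf A M B (N i) := by
  simp [cf, Matrix.mul_sum, Matrix.transpose_sum]

lemma cf_sum_right {ι : Type*} (s : Finset ι) (A : Matrix P Q ℂ) (M : Matrix P P ℂ)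
    (B : ι → Matrix P Q ℂ) (N : Matrix Q Q ℂ) :
    cf A M (∑ i ∈ s, B i) N = ∑ i ∈ s, cf A M (B i) N := by
  simp [cf, Matrix.sum_mul, Matrix.mul_sum]

lemma cf_mono_M (A : Matrix P Q ℂ) {M M' : Matrix P P ℂ} {N : Matrix Q Q ℂ}
    (h : (M' - M).PosSemidef) (hN : N.PosSemidef) : cf A M A N ≤ cf A M' A N := by
  have := cf_nonneg A h hN
  rw [cf_sub_M] at this; linarith

lemma cf_mono_N (A : Matrix P Q ℂ) {M : Matrix P P ℂ} {N N' : Matrix Q Q ℂ}
    (hM : M.PosSemidef) (h : (N' - N).PosSemidef) : cf A M A N ≤ cf A M A N' := by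
  have := cf_nonneg A hM h
  rw [cf_sub_N] at this; linarith

/-- local maps pull back -/
lemma cf_local {P' Q' : Type} [Fintype P'] [Fintype Q'] (S S' : Matrix P' P ℂ)
    (T T' : Matrix Q' Q ℂ) (A B : Matrix P Q ℂ) (M : Matrix P' P' ℂ) (N : Matrix Q' Q' ℂ) :
    cf (S * A * Tᵀ) M (S' * B * T'ᵀ) N = cf A (Sᴴ * M * S') B (Tᴴ * N * T') := by
  unfold cf
  congr 1
  simp only [conjTranspose_mul, transpose_mul, Matrix.mul_assoc]
  rw [trace_mul_comm]
  simp only [Matrix.mul_assoc]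
  rfl

/-- a matrix as a vector of a Euclidean space -/
noncomputable def vec (A : Matrix P Q ℂ) : EuclideanSpace ℂ (P × Q) :=
  WithLp.toLp 2 (fun p => A p.1 p.2)

/-- Frobenius norm -/
noncomputable def fn (A : Matrix P Q ℂ) : ℝ := ‖vec A‖

lemma fn_nonneg (A : Matrix P Q ℂ) : 0 ≤ fn A := norm_nonneg _

lemma fn_sq_eq_sum (A : Matrix P Q ℂ) : fn A ^ 2 = ∑ p, ∑ q, ‖A p q‖ ^ 2 := by
  unfold fn vec
  rw [EuclideanSpace.norm_sq_eq, Fintype.sum_prod_type]

lemma fn_sq_eq_trace (A : Matrix P Q ℂ) : fn A ^ 2 = (trace (Aᴴ * A)).re := by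
  rw [fn_sq_eq_sum, Finset.sum_comm]
  simp only [trace, diag, Matrix.mul_apply, conjTranspose_apply, Complex.re_sum]
  refine Finset.sum_congr rfl fun q _ => Finset.sum_congr rfl fun p _ => ?_
  rw [RCLike.star_def, Complex.conj_mul']
  norm_cast

lemma fn_sq_eq_cf [DecidableEq P] [DecidableEq Q] (A : Matrix P Q ℂ) : fn A ^ 2 = cf A 1 A 1 := by
  rw [fn_sq_eq_trace]; simp [cf]

lemma fn_add_le (A B : Matrix P Q ℂ) : fn (A + B) ≤ fn A + fn B := by
  have : vec (A + B) = vec A + vec B := by ext p; simp [vec]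
  unfold fn; rw [this]; exact norm_add_le _ _

lemma fn_sub_rev (A B : Matrix P Q ℂ) : fn (A - B) = fn (B - A) := by
  have h1 : vec (A - B) = vec A - vec B := by ext p; simp [vec]
  have h2 : vec (B - A) = vec B - vec A := by ext p; simp [vec]
  unfold fn; rw [h1, h2]; exact norm_sub_rev _ _

lemma fn_sub_le (A B C : Matrix P Q ℂ) : fn (A - C) ≤ fn (A - B) + fn (B - C) := by
  have := fn_add_le (A - B) (B - C)
  rwa [sub_add_sub_cancel] at this

lemma fn_smul (c : ℝ) (A : Matrix P Q ℂ) : fn ((c : ℂ) • A) = |c| * fn A := by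
  have : vec ((c : ℂ) • A) = (c : ℂ) • vec A := by ext p; simp [vec]
  unfold fn; rw [this, norm_smul]; simp

lemma abs_fn_sub_fn_le (A B : Matrix P Q ℂ) : |fn A - fn B| ≤ fn (A - B) := by
  have h1 : vec (A - B) = vec A - vec B := by ext p; simp [vec]
  unfold fn; rw [h1]; exact abs_norm_sub_norm_le _ _

@[simp] lemma fn_zero : fn (0 : Matrix P Q ℂ) = 0 := by
  have : vec (0 : Matrix P Q ℂ) = 0 := by ext p; simp [vec]
  unfold fn; rw [this, norm_zero]

lemma eq_zero_of_fn (A : Matrix P Q ℂ) (h : fn A = 0) : A = 0 := by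
  have : vec A = 0 := norm_eq_zero.mp h
  ext p q
  have := congrArg (fun v => v (p, q)) this
  simpa [vec] using this

/-- every matrix is a nonnegative multiple of a unit vector, if one exists -/
lemma exists_unit [Nonempty P] [Nonempty Q] (A : Matrix P Q ℂ) :
    ∃ G : Matrix P Q ℂ, fn G = 1 ∧ fn (G - A) = |fn A - 1| := by
  classical
  by_cases h : fn A = 0
  · obtain ⟨p⟩ := ‹Nonempty P›
    obtain ⟨q⟩ := ‹Nonempty Q›
    have hA := eq_zero_of_fn A h
    have h1 : fn (Matrix.single p q (1 : ℂ)) = 1 := by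
      have : fn (Matrix.single p q (1 : ℂ)) ^ 2 = 1 := by
        rw [fn_sq_eq_sum, Finset.sum_eq_single p, Finset.sum_eq_single q]
        · simp
        · intro b _ hb; simp [Matrix.single, Ne.symm hb]
        · simp
        · intro b _ hb; simp [Matrix.single, Ne.symm hb]
        · simp
      have h0 := fn_nonneg (Matrix.single p q (1 : ℂ))
      nlinarith
    refine ⟨Matrix.single p q 1, h1, ?_⟩
    rw [hA, sub_zero, h1]; simp
  · have hpos : 0 < fn A := lt_of_le_of_ne (fn_nonneg A) (Ne.symm h)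
    refine ⟨(((fn A)⁻¹ : ℝ) : ℂ) • A, ?_, ?_⟩
    · rw [fn_smul, abs_of_pos (inv_pos.mpr hpos), inv_mul_cancel₀ h]
    · have : (((fn A)⁻¹ : ℝ) : ℂ) • A - A = (((fn A)⁻¹ - 1 : ℝ) : ℂ) • A := by
        push_cast; rw [sub_smul, one_smul]
      rw [this, fn_smul, ← abs_of_pos hpos, ← abs_mul, abs_of_pos hpos, sub_mul,
        inv_mul_cancel₀ h, abs_sub_comm]
      simp

end cf

section povm
variable {P Q : Type} [Fintype P] [Fintype Q] [DecidableEq P] [DecidableEq Q]
variable {α β : Type} [Fintype α] [Fintype β]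

/-- positive operator valued measure -/
def IsPOVM (M : α → Matrix P P ℂ) : Prop := (∀ a, (M a).PosSemidef) ∧ ∑ a, M a = 1

/-- acceptance form -/
noncomputable def wf (acc : α → β → Bool) (M : α → Matrix P P ℂ) (N : β → Matrix Q Q ℂ)
    (A B : Matrix P Q ℂ) : ℝ :=
  ∑ a, ∑ b, if acc a b = true then cf A (M a) B (N b) else 0

omit [DecidableEq P] [DecidableEq Q] in
lemma wf_nonneg (acc : α → β → Bool) {M : α → Matrix P P ℂ} {N : β → Matrix Q Q ℂ}
    (hM : ∀ a, (M a).PosSemidef) (hN : ∀ b, (N b).PosSemidef) (A : Matrix P Q ℂ) :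
    0 ≤ wf acc M N A A := by
  refine Finset.sum_nonneg fun a _ => Finset.sum_nonneg fun b _ => ?_
  split_ifs
  · exact cf_nonneg A (hM a) (hN b)
  · exact le_rfl

lemma wf_le (acc : α → β → Bool) {M : α → Matrix P P ℂ} {N : β → Matrix Q Q ℂ}
    (hM : IsPOVM M) (hN : IsPOVM N) (A : Matrix P Q ℂ) : wf acc M N A A ≤ fn A ^ 2 := by
  rw [fn_sq_eq_cf, ← hM.2, cf_sum_M]
  refine Finset.sum_le_sum fun a _ => ?_
  rw [← hN.2, cf_sum_N]
  refine Finset.sum_le_sum fun b _ => ?_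
  split_ifs
  · exact le_rfl
  · exact cf_nonneg A (hM.1 a) (hN.1 b)

omit [DecidableEq P] [DecidableEq Q] in
lemma wf_symm (acc : α → β → Bool) {M : α → Matrix P P ℂ} {N : β → Matrix Q Q ℂ}
    (hM : ∀ a, (M a).PosSemidef) (hN : ∀ b, (N b).PosSemidef) (A B : Matrix P Q ℂ) :
    wf acc M N A B = wf acc M N B A := by
  refine Finset.sum_congr rfl fun a _ => Finset.sum_congr rfl fun b _ => ?_
  rw [cf_symm A B (hM a).1 (hN b).1]

omit [DecidableEq P] [DecidableEq Q] in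
lemma wf_add_left (acc : α → β → Bool) (M : α → Matrix P P ℂ) (N : β → Matrix Q Q ℂ)
    (A A' B : Matrix P Q ℂ) : wf acc M N (A + A') B = wf acc M N A B + wf acc M N A' B := by
  unfold wf
  simp only [← Finset.sum_add_distrib]
  refine Finset.sum_congr rfl fun a _ => Finset.sum_congr rfl fun b _ => ?_
  split_ifs <;> simp [cf_add_left]

omit [DecidableEq P] [DecidableEq Q] in
lemma wf_add_right (acc : α → β → Bool) (M : α → Matrix P P ℂ) (N : β → Matrix Q Q ℂ)
    (A B B' : Matrix P Q ℂ) : wf acc M N A (B + B') = wf acc M N A B + wf acc M N A B' := by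
  unfold wf
  simp only [← Finset.sum_add_distrib]
  refine Finset.sum_congr rfl fun a _ => Finset.sum_congr rfl fun b _ => ?_
  split_ifs <;> simp [cf_add_right]

omit [DecidableEq P] [DecidableEq Q] in
lemma wf_smul_left (acc : α → β → Bool) (M : α → Matrix P P ℂ) (N : β → Matrix Q Q ℂ)
    (c : ℝ) (A B : Matrix P Q ℂ) : wf acc M N ((c : ℂ) • A) B = c * wf acc M N A B := by
  unfold wf
  simp only [Finset.mul_sum]
  refine Finset.sum_congr rfl fun a _ => Finset.sum_congr rfl fun b _ => ?_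
  split_ifs
  · rw [cf_smul_left]
  · simp

omit [DecidableEq P] [DecidableEq Q] in
lemma wf_smul_right (acc : α → β → Bool) (M : α → Matrix P P ℂ) (N : β → Matrix Q Q ℂ)
    (c : ℝ) (A B : Matrix P Q ℂ) : wf acc M N A ((c : ℂ) • B) = c * wf acc M N A B := by
  unfold wf
  simp only [Finset.mul_sum]
  refine Finset.sum_congr rfl fun a _ => Finset.sum_congr rfl fun b _ => ?_
  split_ifs
  · rw [cf_smul_right]
  · simp

omit [DecidableEq P] [DecidableEq Q] in
lemma wf_sum_right {ι : Type*} (s : Finset ι) (acc : α → β → Bool) (M : α → Matrix P P ℂ)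
    (N : β → Matrix Q Q ℂ) (A : Matrix P Q ℂ) (B : ι → Matrix P Q ℂ) :
    wf acc M N A (∑ i ∈ s, B i) = ∑ i ∈ s, wf acc M N A (B i) := by
  classical
  induction s using Finset.induction_on with
  | empty => simp [wf]
  | insert i s hi ih => rw [Finset.sum_insert hi, Finset.sum_insert hi, wf_add_right, ih]

omit [DecidableEq P] [DecidableEq Q] in
lemma wf_sq_le (acc : α → β → Bool) {M : α → Matrix P P ℂ} {N : β → Matrix Q Q ℂ}
    (hM : ∀ a, (M a).PosSemidef) (hN : ∀ b, (N b).PosSemidef) (A B : Matrix P Q ℂ) :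
    wf acc M N A B ^ 2 ≤ wf acc M N A A * wf acc M N B B := by
  have h : ∀ t : ℝ, 0 ≤ wf acc M N A A * (t * t) + 2 * wf acc M N A B * t + wf acc M N B B := by
    intro t
    have := wf_nonneg acc hM hN ((t : ℂ) • A + B)
    rw [wf_add_left, wf_add_right, wf_add_right, wf_smul_left, wf_smul_left, wf_smul_right,
      wf_smul_right, wf_symm acc hM hN B A] at this
    nlinarith
  have := discrim_le_zero h
  unfold discrim at this
  nlinarith

lemma abs_wf_le (acc : α → β → Bool) {M : α → Matrix P P ℂ} {N : β → Matrix Q Q ℂ}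
    (hM : IsPOVM M) (hN : IsPOVM N) (A B : Matrix P Q ℂ) :
    |wf acc M N A B| ≤ fn A * fn B := by
  have h1 := wf_sq_le acc hM.1 hN.1 A B
  have h2 := wf_le acc hM hN A
  have h3 := wf_le acc hM hN B
  have h4 := wf_nonneg acc hM.1 hN.1 A
  have h5 := wf_nonneg acc hM.1 hN.1 B
  apply abs_le_of_sq_le_sq _ (mul_nonneg (fn_nonneg A) (fn_nonneg B))
  calc wf acc M N A B ^ 2 ≤ wf acc M N A A * wf acc M N B B := h1
    _ ≤ fn A ^ 2 * fn B ^ 2 := mul_le_mul h2 h3 h5 (sq_nonneg _)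
    _ = _ := by ring

omit [DecidableEq P] [DecidableEq Q] in
/-- convexity -/
lemma wf_tangent (acc : α → β → Bool) {M : α → Matrix P P ℂ} {N : β → Matrix Q Q ℂ}
    (hM : ∀ a, (M a).PosSemidef) (hN : ∀ b, (N b).PosSemidef) (A B : Matrix P Q ℂ) :
    2 * wf acc M N A B - wf acc M N A A ≤ wf acc M N B B := by
  have := wf_nonneg acc hM hN (((-1 : ℝ) : ℂ) • A + B)
  rw [wf_add_left, wf_add_right, wf_add_right, wf_smul_left, wf_smul_left, wf_smul_right,
    wf_smul_right, wf_symm acc hM hN B A] at this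
  linarith

lemma wf_lower (acc : α → β → Bool) {M : α → Matrix P P ℂ} {N : β → Matrix Q Q ℂ}
    (hM : IsPOVM M) (hN : IsPOVM N) (A B : Matrix P Q ℂ) :
    wf acc M N A A - fn A * fn (B - A) ≤ wf acc M N A B := by
  have h1 : wf acc M N A B = wf acc M N A A + wf acc M N A (B - A) := by
    rw [← wf_add_right]; congr 1; abel
  have h2 := abs_wf_le acc hM hN A (B - A)
  have := neg_abs_le (wf acc M N A (B - A))
  linarith

lemma wf_perturb (acc : α → β → Bool) {M : α → Matrix P P ℂ} {N : β → Matrix Q Q ℂ}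
    (hM : IsPOVM M) (hN : IsPOVM N) (A B : Matrix P Q ℂ) :
    wf acc M N A A ≤ wf acc M N B B + 2 * (fn A * fn (B - A)) := by
  have h1 := wf_tangent acc hM.1 hN.1 A B
  have h2 := wf_lower acc hM hN A B
  linarith

end povm

end Crest.Agent.H9.QP
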