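import Mathlib

/-! Shapley-type weights on splittings of a finite set. -/

namespace Crest.Agent.H9.QP

open Finset

variable {ι : Type} [DecidableEq ι]

/-- `u! (r - u)! / r!` -/
noncomputable def lvl (r u : ℕ) : ℝ := (u.factorial * (r - u).factorial : ℝ) / r.factorial

/-- Shapley weight -/
noncomputable def shap (r u : ℕ) : ℝ := (u.factorial * (r - 1 - u).factorial : ℝ) / r.factorial

lemma lvl_nonneg (r u : ℕ) : 0 ≤ lvl r u := by unfold lvl; positivity

lemma shap_nonneg (r u : ℕ) : 0 ≤ shap r u := by unfold shap; positivity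

lemma choose_mul_lvl {r u : ℕ} (h : u ≤ r) : (r.choose u : ℝ) * lvl r u = 1 := by
  unfold lvl
  have := Nat.choose_mul_factorial_mul_factorial h
  have h2 : (r.choose u : ℝ) * u.factorial * (r - u).factorial = r.factorial := by
    exact_mod_cast this
  have h3 : (r.factorial : ℝ) ≠ 0 := by positivity
  field_simp
  linarith

omit [DecidableEq ι] in
lemma sum_lvl (R : Finset ι) : ∑ U ∈ R.powerset, lvl R.card U.card = R.card + 1 := by
  rw [Finset.sum_powerset_apply_card]
  rw [Finset.sum_congr rfl (g := fun _ => (1 : ℝ))]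
  · simp
  · intro j hj
    rw [nsmul_eq_mul, choose_mul_lvl (Nat.lt_succ_iff.mp (Finset.mem_range.mp hj))]

lemma shap_succ (m u : ℕ) : shap (m + 1) u = lvl m u / (m + 1) := by
  unfold shap lvl
  rw [Nat.add_sub_cancel, Nat.factorial_succ]
  push_cast
  have h3 : (m.factorial : ℝ) ≠ 0 := by positivity
  field_simp

omit [DecidableEq ι] in
lemma sum_shap (S : Finset ι) : ∑ U ∈ S.powerset, shap (S.card + 1) U.card = 1 := by
  simp only [shap_succ]
  rw [← Finset.sum_div, sum_lvl]
  field_simp

lemma shap_down {r u : ℕ} (h : u < r) : ((r - u : ℕ) : ℝ) * shap r u = lvl r u := by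
  unfold shap lvl
  obtain ⟨m, rfl⟩ : ∃ m, r = u + m + 1 := ⟨r - u - 1, by omega⟩
  have h1 : u + m + 1 - u = m + 1 := by omega
  have h2 : u + m + 1 - 1 - u = m := by omega
  rw [h1, h2, Nat.factorial_succ m]
  push_cast; ring

lemma shap_up {r u : ℕ} (h : 0 < u) (h' : u ≤ r) : (u : ℝ) * shap r (u - 1) = lvl r u := by
  unfold shap lvl
  obtain ⟨m, rfl⟩ : ∃ m, u = m + 1 := ⟨u - 1, by omega⟩
  have h1 : r - 1 - (m + 1 - 1) = r - (m + 1) := by omega
  rw [h1, Nat.add_sub_cancel, Nat.factorial_succ m]
  push_cast; ring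

lemma shapley (R : Finset ι) (Φ : Finset ι → ℝ) :
    ∑ i ∈ R, ∑ U ∈ (R.erase i).powerset, shap R.card U.card * (Φ U - Φ (insert i U)) =
      Φ ∅ - Φ R := by
  rcases R.eq_empty_or_nonempty with rfl | hR
  · simp
  have hA : ∑ i ∈ R, ∑ U ∈ (R.erase i).powerset, shap R.card U.card * Φ U =
      ∑ U ∈ R.powerset, ((R.card - U.card : ℕ) : ℝ) * shap R.card U.card * Φ U := by
    rw [Finset.sum_comm' (t' := R.powerset) (s' := fun U => R \ U)]
    · refine Finset.sum_congr rfl fun U hU => ?_
      rw [Finset.sum_const, Finset.card_sdiff_of_subset (Finset.mem_powerset.mp hU), nsmul_eq_mul,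
        mul_assoc]
    · intro i U
      simp only [mem_powerset, mem_sdiff, subset_erase]
      tauto
  have hB : ∑ i ∈ R, ∑ U ∈ (R.erase i).powerset, shap R.card U.card * Φ (insert i U) =
      ∑ V ∈ R.powerset, (V.card : ℝ) * shap R.card (V.card - 1) * Φ V := by
    have : ∀ i ∈ R, ∑ U ∈ (R.erase i).powerset, shap R.card U.card * Φ (insert i U) =
        ∑ V ∈ R.powerset.filter (fun V => i ∈ V), shap R.card (V.card - 1) * Φ V := by
      intro i hi
      refine Finset.sum_nbij' (fun U => insert i U) (fun V => V.erase i) ?_ ?_ ?_ ?_ ?_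
      · intro U hU
        simp only [mem_powerset, subset_erase, mem_filter, mem_insert, true_or, and_true] at hU ⊢
        exact insert_subset hi hU.1
      · intro V hV
        simp only [mem_powerset, mem_filter] at hV ⊢
        exact erase_subset_erase _ hV.1
      · intro U hU
        simp only [mem_powerset, subset_erase] at hU
        exact erase_insert hU.2
      · intro V hV
        simp only [mem_powerset, mem_filter] at hV
        exact insert_erase hV.2
      · intro U hU
        simp only [mem_powerset, subset_erase] at hU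
        rw [card_insert_of_notMem hU.2, Nat.add_sub_cancel]
    rw [Finset.sum_congr rfl this, Finset.sum_comm' (t' := R.powerset) (s' := fun V => V)]
    · refine Finset.sum_congr rfl fun V _ => ?_
      rw [Finset.sum_const, nsmul_eq_mul, mul_assoc]
    · intro i V
      simp only [mem_powerset, mem_filter]
      tauto
  simp only [mul_sub, Finset.sum_sub_distrib]
  rw [hA, hB]
  have hr : 0 < R.card := hR.card_pos
  have h1 : ∑ U ∈ R.powerset, ((R.card - U.card : ℕ) : ℝ) * shap R.card U.card * Φ U =
      ∑ U ∈ R.powerset, lvl R.card U.card * Φ U - Φ R := by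
    rw [← Finset.add_sum_erase _ _ (mem_powerset_self R),
      ← Finset.add_sum_erase _ _ (mem_powerset_self R)]
    have : lvl R.card R.card = 1 := by
      have := choose_mul_lvl (le_refl R.card); simpa using this
    rw [this, Finset.sum_congr rfl (g := fun U => lvl R.card U.card * Φ U)]
    · simp
    · intro U hU
      rw [mem_erase, mem_powerset] at hU
      rw [shap_down (card_lt_card (lt_of_le_of_ne hU.2 hU.1))]
  have h2 : ∑ V ∈ R.powerset, (V.card : ℝ) * shap R.card (V.card - 1) * Φ V =
      ∑ U ∈ R.powerset, lvl R.card U.card * Φ U - Φ ∅ := by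
    rw [← Finset.add_sum_erase _ _ (empty_mem_powerset R),
      ← Finset.add_sum_erase _ _ (empty_mem_powerset R)]
    have : lvl R.card 0 = 1 := by
      have := choose_mul_lvl (Nat.zero_le R.card); simpa using this
    rw [card_empty, this, Finset.sum_congr rfl (g := fun U => lvl R.card U.card * Φ U)]
    · simp
    · intro U hU
      rw [mem_erase, mem_powerset] at hU
      rw [shap_up (card_pos.mpr (nonempty_iff_ne_empty.mpr hU.1)) (card_le_card hU.2)]
  rw [h1, h2]; ring

/-- valid splitting -/
def Valid (R : Finset ι) (i : ι) (U U' : Finset ι) : Prop :=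
  i ∈ R ∧ U ⊆ R.erase i ∧ U' ⊆ R.erase i ∧ Disjoint U U'

instance (R : Finset ι) (i : ι) (U U' : Finset ι) : Decidable (Valid R i U U') := by
  unfold Valid; infer_instance

lemma Valid.symm {R : Finset ι} {i : ι} {U U' : Finset ι} (h : Valid R i U U') :
    Valid R i U' U := ⟨h.1, h.2.2.1, h.2.1, h.2.2.2.symm⟩

/-- the weight of a splitting -/
noncomputable def wt (R : Finset ι) (i : ι) (U U' : Finset ι) : ℝ :=
  if Valid R i U U' then
    2 / (R.card * (R.card + 1)) * ((U.card.factorial * U'.card.factorial *
      (R.card - 1 - U.card - U'.card).factorial : ℝ) / R.card.factorial)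
  else 0

lemma wt_nonneg (R : Finset ι) (i : ι) (U U' : Finset ι) : 0 ≤ wt R i U U' := by
  unfold wt; split_ifs <;> positivity

lemma valid_of_wt {R : Finset ι} {i : ι} {U U' : Finset ι} (h : wt R i U U' ≠ 0) :
    Valid R i U U' := by
  by_contra h'
  exact h (if_neg h')

lemma wt_symm (R : Finset ι) (i : ι) (U U' : Finset ι) : wt R i U U' = wt R i U' U := by
  unfold wt
  by_cases h : Valid R i U U'
  · rw [if_pos h, if_pos h.symm, Nat.sub_right_comm]; ring
  · rw [if_neg h, if_neg (fun h' => h h'.symm)]

lemma wt_eq {R : Finset ι} {i : ι} {U U' : Finset ι} (h : Valid R i U U') :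
    wt R i U U' = 2 / (R.card * (R.card + 1)) * lvl R.card U'.card *
      shap (R \ U').card U.card := by
  unfold wt lvl shap
  have hU' : U' ⊆ R := h.2.2.1.trans (erase_subset _ _)
  rw [if_pos h, card_sdiff_of_subset hU']
  have : R.card - U'.card - 1 - U.card = R.card - 1 - U.card - U'.card := by omega
  rw [this]
  have h3 : ((R.card - U'.card).factorial : ℝ) ≠ 0 := by positivity
  field_simp

variable [Fintype ι]

lemma sum_wt_inner (R : Finset ι) (i : ι) (U' : Finset ι) (g : Finset ι → ℝ) :
    ∑ U, wt R i U U' * g U = if i ∈ R ∧ U' ⊆ R.erase i then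
      2 / (R.card * (R.card + 1)) * lvl R.card U'.card *
        ∑ U ∈ ((R \ U').erase i).powerset, shap (R \ U').card U.card * g U else 0 := by
  split_ifs with h
  · rw [Finset.mul_sum]
    symm
    refine Finset.sum_subset_zero_on_sdiff (subset_univ _) ?_ ?_
    · intro U hU
      simp only [mem_sdiff, mem_univ, mem_powerset, true_and] at hU
      have : ¬ Valid R i U U' := by
        intro hv
        apply hU
        intro j hj
        have h1 := hv.2.1 hj
        rw [mem_erase] at h1
        rw [mem_erase, mem_sdiff]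
        exact ⟨h1.1, h1.2, fun h2 => disjoint_left.mp hv.2.2.2 hj h2⟩
      unfold wt; rw [if_neg this, zero_mul]
    · intro U hU
      rw [mem_powerset] at hU
      have : Valid R i U U' := by
        refine ⟨h.1, hU.trans (erase_subset_erase _ sdiff_subset), h.2, ?_⟩
        rw [disjoint_left]
        intro j hj
        have := hU hj
        rw [mem_erase, mem_sdiff] at this
        exact this.2.2
      rw [wt_eq this]; ring
  · refine Finset.sum_eq_zero fun U _ => ?_
    unfold wt
    rw [if_neg (fun hv => h ⟨hv.1, hv.2.2.1⟩), zero_mul]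

lemma sum_wt (R : Finset ι) (i : ι) :
    ∑ U', ∑ U, wt R i U U' = if i ∈ R then 1 / (R.card : ℝ) else 0 := by
  have h1 := fun U' => sum_wt_inner R i U' (fun _ => 1)
  simp only [mul_one] at h1
  simp only [h1]
  split_ifs with hi
  · simp only [hi, true_and]
    have hr : 0 < R.card := card_pos.mpr ⟨i, hi⟩
    have h2 : ∀ U' : Finset ι, (if U' ⊆ R.erase i then 2 / (R.card * (R.card + 1) : ℝ) *
        lvl R.card U'.card * ∑ U ∈ ((R \ U').erase i).powerset, shap (R \ U').card U.card
        else 0) = if U' ∈ (R.erase i).powerset then 2 / (R.card * (R.card + 1) : ℝ) *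
        lvl R.card U'.card else 0 := by
      intro U'
      simp only [mem_powerset]
      split_ifs with hU
      · have hi' : i ∈ R \ U' := by
          rw [mem_sdiff]; exact ⟨hi, fun h => by simpa using hU h⟩
        have := sum_shap ((R \ U').erase i)
        rw [card_erase_add_one hi'] at this
        rw [this, mul_one]
      · rfl
    simp only [h2]
    rw [Finset.sum_ite_mem, univ_inter, ← Finset.mul_sum, Finset.sum_powerset_apply_card,
      card_erase_of_mem hi]
    obtain ⟨m, hm⟩ : ∃ m, R.card = m + 1 := ⟨R.card - 1, by omega⟩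
    rw [hm, Nat.add_sub_cancel]
    have h3 : ∀ j ∈ range (m + 1), m.choose j • lvl (m + 1) j = ((m + 1 - j : ℝ)) / (m + 1) := by
      intro j hj
      have hj' : j ≤ m := Nat.lt_succ_iff.mp (mem_range.mp hj)
      rw [← shap_down (Nat.lt_succ_of_le hj'), shap_succ, nsmul_eq_mul,
        Nat.cast_sub (by omega)]
      have := choose_mul_lvl hj'
      push_cast
      field_simp
      linear_combination (↑m + 1 - ↑j : ℝ) * this
    rw [Finset.sum_congr rfl h3, ← Finset.sum_div, Finset.sum_sub_distrib]
    have h4 : ∑ j ∈ range (m + 1), (j : ℝ) = (m + 1) * m / 2 := by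
      have := Finset.sum_range_id_mul_two (m + 1)
      have h5 : ((∑ j ∈ range (m + 1), j : ℕ) : ℝ) * 2 = (m + 1) * m := by
        exact_mod_cast this
      push_cast at h5
      linarith
    rw [h4]
    simp only [sum_const, card_range, nsmul_eq_mul]
    push_cast
    field_simp
    ring
  · simp [hi]

lemma sum_wt_tele (R : Finset ι) (Φ : Finset ι → Finset ι → ℝ)
    (En : ι → Finset ι → Finset ι → ℝ) (b : ℝ)
    (hE : ∀ i U U', Valid R i U U' → En i U U' ≤ Φ U' U - Φ U' (insert i U))
    (hb : ∀ U', U' ⊆ R → Φ U' ∅ - Φ U' (R \ U') ≤ b) (hR : R.Nonempty) :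
    ∑ i, ∑ U', ∑ U, wt R i U U' * En i U U' ≤ 2 / R.card * b := by
  have hr : (0 : ℝ) < R.card := by exact_mod_cast hR.card_pos
  calc ∑ i, ∑ U', ∑ U, wt R i U U' * En i U U'
      ≤ ∑ i, ∑ U', ∑ U, wt R i U U' * (Φ U' U - Φ U' (insert i U)) := by
        refine sum_le_sum fun i _ => sum_le_sum fun U' _ => sum_le_sum fun U _ => ?_
        by_cases h : wt R i U U' = 0
        · simp [h]
        · exact mul_le_mul_of_nonneg_left (hE _ _ _ (valid_of_wt h)) (wt_nonneg _ _ _ _)
    _ = ∑ U' ∈ R.powerset, 2 / (R.card * (R.card + 1)) * lvl R.card U'.card *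
          (Φ U' ∅ - Φ U' (R \ U')) := by
        simp only [sum_wt_inner]
        rw [Finset.sum_comm]
        symm
        refine Finset.sum_subset_zero_on_sdiff (subset_univ _) ?_ ?_
        · intro U' hU'
          simp only [mem_sdiff, mem_univ, mem_powerset, true_and] at hU'
          refine sum_eq_zero fun i _ => if_neg fun h => hU' (h.2.trans (erase_subset _ _))
        · intro U' hU'
          rw [mem_powerset] at hU'
          rw [← shapley (R \ U') (Φ U'), Finset.mul_sum, ← Finset.sum_filter]
          refine Finset.sum_congr ?_ fun _ _ => rfl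
          ext i
          simp only [mem_sdiff, mem_filter, mem_univ, true_and, subset_erase]
          tauto
    _ ≤ ∑ U' ∈ R.powerset, 2 / (R.card * (R.card + 1)) * lvl R.card U'.card * b := by
        refine sum_le_sum fun U' hU' => ?_
        exact mul_le_mul_of_nonneg_left (hb U' (mem_powerset.mp hU'))
          (mul_nonneg (by positivity) (lvl_nonneg _ _))
    _ = 2 / R.card * b := by
        rw [← Finset.sum_mul, ← Finset.mul_sum, sum_lvl]
        field_simp

end Crest.Agent.H9.QP
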