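import Crest.Agent.H9.QPEnergy

/-! Dependency breaking: one round of the repeated game as an approximate one-shot strategy. -/

namespace Crest.Agent.H9.QP

open Matrix Finset
open scoped ComplexOrder

section grp
variable {D D' κ κ' L L' : Type} [Fintype D] [Fintype D'] [Fintype κ] [Fintype κ']
  [DecidableEq L] [DecidableEq L']

/-- coarse graining of a family of operators -/
noncomputable def grp (p : κ → L) (A : κ → Matrix D D ℂ) (l : L) : Matrix D D ℂ :=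
  ∑ a, if p a = l then A a else 0

omit [Fintype D] in
lemma grp_psd (p : κ → L) {A : κ → Matrix D D ℂ} (h : ∀ a, (A a).PosSemidef) (l : L) :
    (grp p A l).PosSemidef := by
  refine posSemidef_sum _ fun a _ => ?_
  split_ifs
  · exact h a
  · exact PosSemidef.zero

omit [Fintype D] in
lemma sum_grp [Fintype L] (p : κ → L) (A : κ → Matrix D D ℂ) : ∑ l, grp p A l = ∑ a, A a := by
  unfold grp
  rw [Finset.sum_comm]
  simp

omit [Fintype D] in
lemma grp_refine {α : Type} [Fintype α] [DecidableEq α] (p : κ → L) (q : κ → α)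
    (A : κ → Matrix D D ℂ) (l : L) :
    ∑ a₀, grp (fun a => (p a, q a)) A (l, a₀) = grp p A l := by
  unfold grp
  rw [Finset.sum_comm]
  refine sum_congr rfl fun a _ => ?_
  by_cases h : p a = l
  · simp [h]
  · simp [h]

lemma regroup [Fintype L] [Fintype L'] (p : κ → L) (p' : κ' → L') (A : κ → Matrix D D ℂ)
    (B : κ' → Matrix D' D' ℂ) (Ψ : Matrix D D' ℂ) (c : L → L' → ℝ) :
    ∑ l, ∑ l', c l l' * cf Ψ (grp p A l) Ψ (grp p' B l') =
      ∑ a, ∑ b, c (p a) (p' b) * cf Ψ (A a) Ψ (B b) := by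
  have h : ∀ l l', c l l' * cf Ψ (grp p A l) Ψ (grp p' B l') =
      ∑ a, ∑ b, if p a = l then (if p' b = l' then c l l' * cf Ψ (A a) Ψ (B b) else 0) else 0 := by
    intro l l'
    unfold grp
    rw [cf_sum_M, Finset.mul_sum]
    refine sum_congr rfl fun a _ => ?_
    rw [cf_sum_N, Finset.mul_sum]
    refine sum_congr rfl fun b _ => ?_
    split_ifs <;> simp
  simp only [h]
  have h2 : ∀ l, ∑ l', ∑ a, ∑ b, (if p a = l then
      (if p' b = l' then c l l' * cf Ψ (A a) Ψ (B b) else 0) else 0) =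
      ∑ a, ∑ b, if p a = l then c l (p' b) * cf Ψ (A a) Ψ (B b) else 0 := by
    intro l
    rw [Finset.sum_comm]
    refine sum_congr rfl fun a _ => ?_
    rw [Finset.sum_comm]
    refine sum_congr rfl fun b _ => ?_
    split_ifs <;> simp
  simp only [h2]
  rw [Finset.sum_comm]
  refine sum_congr rfl fun a _ => ?_
  rw [Finset.sum_comm]
  refine sum_congr rfl fun b _ => ?_
  simp

end grp

section blk
variable {P Q P' Q' Γ : Type} [Fintype P] [Fintype Q] [Fintype P'] [Fintype Q'] [Fintype Γ]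
  [DecidableEq Γ]

/-- weighted direct sum of locally transformed states -/
noncomputable def blk (κ : Γ → ℝ) (S : Γ → Matrix P' P ℂ) (Ψ : Matrix P Q ℂ)
    (T : Γ → Matrix Q' Q ℂ) : Matrix (P' × Γ) (Q' × Γ) ℂ :=
  blockDiagonal fun γ => ((Real.sqrt (κ γ) : ℝ) : ℂ) • (S γ * Ψ * (T γ)ᵀ)

lemma cf_blk {κ : Γ → ℝ} (hκ : ∀ γ, 0 ≤ κ γ) (S : Γ → Matrix P' P ℂ) (Ψ : Matrix P Q ℂ)
    (T : Γ → Matrix Q' Q ℂ) (M : Γ → Matrix P' P' ℂ) (N : Γ → Matrix Q' Q' ℂ) :
    cf (blk κ S Ψ T) (blockDiagonal M) (blk κ S Ψ T) (blockDiagonal N) =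
      ∑ γ, κ γ * cf Ψ ((S γ)ᴴ * M γ * S γ) Ψ ((T γ)ᴴ * N γ * T γ) := by
  unfold blk
  rw [cf_blockDiagonal]
  refine sum_congr rfl fun γ _ => ?_
  rw [cf_smul_left, cf_smul_right, cf_local, ← mul_assoc, Real.mul_self_sqrt (hκ γ)]

lemma fn_sq_blk {κ : Γ → ℝ} (hκ : ∀ γ, 0 ≤ κ γ) (S : Γ → Matrix P' P ℂ) (Ψ : Matrix P Q ℂ)
    (T : Γ → Matrix Q' Q ℂ) :
    fn (blk κ S Ψ T) ^ 2 = ∑ γ, κ γ * cf Ψ ((S γ)ᴴ * S γ) Ψ ((T γ)ᴴ * T γ) := by
  classical
  rw [fn_sq_eq_cf, ← blockDiagonal_one, ← blockDiagonal_one, cf_blk hκ]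
  simp

lemma wf_blk {α β : Type} [Fintype α] [Fintype β] {κ : Γ → ℝ} (hκ : ∀ γ, 0 ≤ κ γ)
    (acc : α → β → Bool) (S : Γ → Matrix P' P ℂ) (Ψ : Matrix P Q ℂ)
    (T : Γ → Matrix Q' Q ℂ) (M : Γ → α → Matrix P' P' ℂ) (N : Γ → β → Matrix Q' Q' ℂ) :
    wf acc (fun a => blockDiagonal fun γ => M γ a) (fun b => blockDiagonal fun γ => N γ b)
      (blk κ S Ψ T) (blk κ S Ψ T) =
      ∑ γ, κ γ * wf acc (fun a => (S γ)ᴴ * M γ a * S γ) (fun b => (T γ)ᴴ * N γ b * T γ) Ψ Ψ := by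
  unfold wf
  simp only [cf_blk hκ, Finset.mul_sum]
  rw [Finset.sum_comm (s := (univ : Finset Γ))]
  refine sum_congr rfl fun a _ => ?_
  rw [Finset.sum_comm (s := (univ : Finset Γ))]
  refine sum_congr rfl fun b _ => ?_
  split_ifs <;> simp

omit [Fintype P'] [Fintype Q'] [Fintype Γ] in
lemma blk_sub_left (κ : Γ → ℝ) (S S' : Γ → Matrix P' P ℂ) (Ψ : Matrix P Q ℂ)
    (T : Γ → Matrix Q' Q ℂ) : blk κ S Ψ T - blk κ S' Ψ T = blk κ (fun γ => S γ - S' γ) Ψ T := by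
  unfold blk
  rw [← blockDiagonal_sub]
  congr 1; funext γ
  simp only [Pi.sub_apply, Matrix.sub_mul, smul_sub]

omit [Fintype P'] [Fintype Q'] [Fintype Γ] in
lemma blk_sub_right (κ : Γ → ℝ) (S : Γ → Matrix P' P ℂ) (Ψ : Matrix P Q ℂ)
    (T T' : Γ → Matrix Q' Q ℂ) : blk κ S Ψ T - blk κ S Ψ T' = blk κ S Ψ (fun γ => T γ - T' γ) := by
  unfold blk
  rw [← blockDiagonal_sub]
  congr 1; funext γ
  simp only [Pi.sub_apply, transpose_sub, Matrix.mul_sub, smul_sub]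

end blk

lemma collapse2_wf {ι Ω DA DB α β : Type} [Fintype ι] [DecidableEq ι] [Fintype Ω] [DecidableEq Ω]
    [Fintype DA] [Fintype DB] [Fintype α] [Fintype β]
    {μ : Ω → ℝ} {r r' : Ω → Ω → Prop} {K K' : Ω → Ω → ℝ}
    (hK : Ker μ r K) (hK' : Ker μ r' K') {R U U' : Finset ι} {i : ι}
    (hv : Valid R i U U') (w : Ω) (acc : α → β → Bool)
    (Ψ : Matrix DA DB ℂ) (HA : α → (ι → Ω) → Matrix DA DA ℂ) (HB : β → (ι → Ω) → Matrix DB DB ℂ)
    (c : (ι → Ω) → ℝ) (hc : ∀ j ∈ R, Inv r c j) (hc' : ∀ j ∈ R, Inv r' c j)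
    (hB : ∀ b, ∀ j ∈ R, Inv r (HB b) j) (hA : ∀ a, ∀ j ∈ R, Inv r' (HA a) j) :
    ∑ ω, pw μ ω * (c ω * wf acc (fun a => cnd K U (HA a) (Function.update ω i w))
      (fun b => cnd K' U' (HB b) (Function.update ω i w)) Ψ Ψ) =
      ∑ ω, pw μ ω * (c ω * wf acc (fun a => HA a (Function.update ω i w))
        (fun b => HB b (Function.update ω i w)) Ψ Ψ) := by
  unfold wf
  simp only [Finset.mul_sum]
  rw [Finset.sum_comm, Finset.sum_comm (s := (univ : Finset (ι → Ω)))]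
  refine sum_congr rfl fun a _ => ?_
  rw [Finset.sum_comm, Finset.sum_comm (s := (univ : Finset (ι → Ω)))]
  refine sum_congr rfl fun b _ => ?_
  split_ifs
  · exact collapse2_update hK hK' hv w Ψ _ _ c hc hc' (hB b) (hA a)
  · rfl

section dep
variable {ι X Y α β DA DB : Type} [Fintype ι] [DecidableEq ι] [Fintype X] [DecidableEq X]
  [Fintype Y] [DecidableEq Y] [Fintype α] [DecidableEq α] [Fintype β] [DecidableEq β]
  [Fintype DA] [DecidableEq DA] [Fintype DB] [DecidableEq DB]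

/-- probability of winning all rounds in `S`, given the questions -/
noncomputable def Fw (acc : X → Y → α → β → Bool) (Ψ : Matrix DA DB ℂ)
    (A : (ι → X) → (ι → α) → Matrix DA DA ℂ) (B : (ι → Y) → (ι → β) → Matrix DB DB ℂ)
    (S : Finset ι) (ω : ι → X × Y) : ℝ :=
  ∑ a, ∑ b, (if ∀ j ∈ S, acc (ω j).1 (ω j).2 (a j) (b j) = true then 1 else 0) *
    cf Ψ (A (fun j => (ω j).1) a) Ψ (B (fun j => (ω j).2) b)

/-- probability of winning all rounds in `S` -/
noncomputable def fW (μ : X × Y → ℝ) (acc : X → Y → α → β → Bool) (Ψ : Matrix DA DB ℂ)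
    (A : (ι → X) → (ι → α) → Matrix DA DA ℂ) (B : (ι → Y) → (ι → β) → Matrix DB DB ℂ)
    (S : Finset ι) : ℝ :=
  ∑ ω, pw μ ω * Fw acc Ψ A B S ω

variable {acc : X → Y → α → β → Bool} {Ψ : Matrix DA DB ℂ}
  {A : (ι → X) → (ι → α) → Matrix DA DA ℂ} {B : (ι → Y) → (ι → β) → Matrix DB DB ℂ}

omit [Fintype X] [DecidableEq X] [Fintype Y] [DecidableEq Y] [DecidableEq α] [DecidableEq β] in
lemma Fw_nonneg (hA : ∀ x, IsPOVM (A x)) (hB : ∀ y, IsPOVM (B y)) (S : Finset ι)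
    (ω : ι → X × Y) : 0 ≤ Fw acc Ψ A B S ω :=
  sum_nonneg fun a _ => sum_nonneg fun b _ => mul_nonneg (by split_ifs <;> simp)
    (cf_nonneg Ψ ((hA _).1 a) ((hB _).1 b))

omit [Fintype X] [DecidableEq X] [Fintype Y] [DecidableEq Y] [DecidableEq α] [DecidableEq β] in
lemma sum_cf_povm (hΨ : fn Ψ = 1) (hA : ∀ x, IsPOVM (A x)) (hB : ∀ y, IsPOVM (B y))
    (x : ι → X) (y : ι → Y) : ∑ a, ∑ b, cf Ψ (A x a) Ψ (B y b) = 1 := by
  simp only [← cf_sum_N, (hB y).2]
  rw [← cf_sum_M, (hA x).2, ← fn_sq_eq_cf, hΨ]; norm_num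

omit [Fintype X] [DecidableEq X] [Fintype Y] [DecidableEq Y] [DecidableEq α] [DecidableEq β] in
lemma Fw_le_one (hΨ : fn Ψ = 1) (hA : ∀ x, IsPOVM (A x)) (hB : ∀ y, IsPOVM (B y)) (S : Finset ι)
    (ω : ι → X × Y) : Fw acc Ψ A B S ω ≤ 1 := by
  rw [← sum_cf_povm hΨ hA hB (fun j => (ω j).1) (fun j => (ω j).2)]
  refine sum_le_sum fun a _ => sum_le_sum fun b _ => mul_le_of_le_one_left
    (cf_nonneg Ψ ((hA _).1 a) ((hB _).1 b)) (by split_ifs <;> simp)

theorem dep_break [Nonempty α] [Nonempty β] {μ : X × Y → ℝ} (hμ0 : ∀ w, 0 ≤ μ w)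
    (hμ1 : ∑ w, μ w = 1) (hΨ : fn Ψ = 1) (hA : ∀ x, IsPOVM (A x)) (hB : ∀ y, IsPOVM (B y))
    (C : Finset ι) (hC : Cᶜ.Nonempty) (f : ℝ) (hf : fW μ acc Ψ A B C = f) (hf0 : 0 < f) :
    ∃ (P Q : Type) (_ : Fintype P) (_ : Fintype Q) (_ : DecidableEq P) (_ : DecidableEq Q)
      (Φ : X → Y → Matrix P Q ℂ) (g : X → Matrix P Q ℂ) (h : Y → Matrix P Q ℂ)
      (M : X → α → Matrix P P ℂ) (N : Y → β → Matrix Q Q ℂ),
      (∀ x, IsPOVM (M x)) ∧ (∀ y, IsPOVM (N y)) ∧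
      ∑ w : X × Y, μ w * wf (acc w.1 w.2) (M w.1) (N w.2) (Φ w.1 w.2) (Φ w.1 w.2) =
        ∑ i ∈ Cᶜ, 1 / (Cᶜ.card : ℝ) * fW μ acc Ψ A B (insert i C) ∧
      ∑ w : X × Y, μ w * fn (Φ w.1 w.2) ^ 2 = f ∧
      ∑ w : X × Y, μ w * fn (Φ w.1 w.2 - g w.1) ^ 2 ≤
        2 / Cᶜ.card * (f * Real.log ((Fintype.card β : ℝ) ^ C.card / f)) ∧
      ∑ w : X × Y, μ w * fn (Φ w.1 w.2 - h w.2) ^ 2 ≤
        2 / Cᶜ.card * (f * Real.log ((Fintype.card α : ℝ) ^ C.card / f)) ∧
      ∑ w : X × Y, μ w * (fn (Φ w.1 w.2) - Real.sqrt f) ^ 2 ≤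
        2 / Cᶜ.card * (f * Real.log (1 / f)) := by
  set R := Cᶜ with hRdef
  obtain ⟨KA, hKA⟩ : ∃ K, Ker μ (fun a b : X × Y => a.2 = b.2) K := ⟨_, ker_proj Prod.snd hμ0⟩
  obtain ⟨KB, hKB⟩ : ∃ K, Ker μ (fun a b : X × Y => a.1 = b.1) K := ⟨_, ker_proj Prod.fst hμ0⟩
  let HA : (C → α) → (ι → X × Y) → Matrix DA DA ℂ := fun la ω =>
    grp (fun a (j : C) => a j) (A fun j => (ω j).1) la
  let HB : (C → β) → (ι → X × Y) → Matrix DB DB ℂ := fun lb ω =>
    grp (fun b (j : C) => b j) (B fun j => (ω j).2) lb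
  let HA' : ι → (C → α) × α → (ι → X × Y) → Matrix DA DA ℂ := fun i la ω =>
    grp (fun a => (fun j : C => a j, a i)) (A fun j => (ω j).1) la
  let HB' : ι → (C → β) × β → (ι → X × Y) → Matrix DB DB ℂ := fun i lb ω =>
    grp (fun b => (fun j : C => b j, b i)) (B fun j => (ω j).2) lb
  let c : (C → α) → (C → β) → (ι → X × Y) → ℝ := fun la lb ω =>
    if ∀ j : C, acc (ω j).1 (ω j).2 (la j) (lb j) = true then 1 else 0
  have hc0 : ∀ la lb ω, 0 ≤ c la lb ω := fun la lb ω => by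
    simp only [c]; split_ifs <;> simp
  have hc1 : ∀ la lb ω, c la lb ω ≤ 1 := fun la lb ω => by
    simp only [c]; split_ifs <;> simp
  have hcu : ∀ la lb, ∀ j ∈ R, ∀ ω w, c la lb (Function.update ω j w) = c la lb ω := by
    intro la lb j hj ω w
    have : ∀ j' : C, Function.update ω j w j' = ω j' := fun j' =>
      Function.update_of_ne (fun h : (j' : ι) = j => (mem_compl.mp hj) (h ▸ j'.2)) _ _
    simp only [c, this]
  have hfst : ∀ (ω : ι → X × Y) j w, (ω j).1 = w.1 →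
      (fun j' => (Function.update ω j w j').1) = fun j' => (ω j').1 := by
    intro ω j w hw
    funext j'
    by_cases h : j' = j
    · subst h; simp [hw]
    · rw [Function.update_of_ne h]
  have hsnd : ∀ (ω : ι → X × Y) j w, (ω j).2 = w.2 →
      (fun j' => (Function.update ω j w j').2) = fun j' => (ω j').2 := by
    intro ω j w hw
    funext j'
    by_cases h : j' = j
    · subst h; simp [hw]
    · rw [Function.update_of_ne h]
  have iHA : ∀ la j, Inv (fun a b : X × Y => a.1 = b.1) (HA la) j := fun la j ω w hw => by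
    simp only [HA, hfst ω j w hw]
  have iHB : ∀ lb j, Inv (fun a b : X × Y => a.2 = b.2) (HB lb) j := fun lb j ω w hw => by
    simp only [HB, hsnd ω j w hw]
  have iHA' : ∀ i la j, Inv (fun a b : X × Y => a.1 = b.1) (HA' i la) j :=
    fun i la j ω w hw => by simp only [HA', hfst ω j w hw]
  have iHB' : ∀ i lb j, Inv (fun a b : X × Y => a.2 = b.2) (HB' i lb) j :=
    fun i lb j ω w hw => by simp only [HB', hsnd ω j w hw]
  have pHA : ∀ la ω, (HA la ω).PosSemidef := fun la ω => grp_psd _ (hA _).1 _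
  have pHB : ∀ lb ω, (HB lb ω).PosSemidef := fun lb ω => grp_psd _ (hB _).1 _
  have sHA : ∀ ω, ∑ la, HA la ω = 1 := fun ω => by simp only [HA]; rw [sum_grp, (hA _).2]
  have sHB : ∀ ω, ∑ lb, HB lb ω = 1 := fun ω => by simp only [HB]; rw [sum_grp, (hB _).2]
  have hFw : ∀ ω, ∑ la, ∑ lb, c la lb ω * cf Ψ (HA la ω) Ψ (HB lb ω) = Fw acc Ψ A B C ω := by
    intro ω
    simp only [HA, HB]
    rw [regroup _ _ _ _ _ (fun la lb => c la lb ω)]
    unfold Fw
    simp only [c, Subtype.forall]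
  have hFw' : ∀ i ω, ∑ la, ∑ lb, c la lb ω * wf (acc (ω i).1 (ω i).2)
      (fun a => HA' i (la, a) ω) (fun b => HB' i (lb, b) ω) Ψ Ψ =
      Fw acc Ψ A B (insert i C) ω := by
    intro i ω
    unfold wf
    have := regroup (fun (a : ι → α) => (fun j : C => a j, a i))
      (fun (b : ι → β) => (fun j : C => b j, b i))
      (A fun j => (ω j).1) (B fun j => (ω j).2) Ψ
      (fun la lb => c la.1 lb.1 ω * if acc (ω i).1 (ω i).2 la.2 lb.2 = true then 1 else 0)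
    simp only [Fintype.sum_prod_type] at this
    unfold Fw
    refine Eq.trans ?_ (this.trans ?_)
    · refine sum_congr rfl fun la _ => ?_
      rw [Finset.sum_comm (s := (univ : Finset α))]
      refine sum_congr rfl fun lb _ => ?_
      simp only [Finset.mul_sum]
      refine sum_congr rfl fun a _ => sum_congr rfl fun b _ => ?_
      split_ifs <;> simp [HA', HB']
    · refine sum_congr rfl fun a _ => sum_congr rfl fun b _ => ?_
      congr 1
      simp only [c, Subtype.forall, forall_mem_insert]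
      by_cases h1 : acc (ω i).1 (ω i).2 (a i) (b i) = true
      · simp [h1]
      · simp [h1]
  have hf' : ∑ la, ∑ lb, ∑ ω, pw μ ω * (c la lb ω * cf Ψ (HA la ω) Ψ (HB lb ω)) = f := by
    rw [← hf]
    unfold fW
    simp only [← hFw, Finset.mul_sum]
    rw [Finset.sum_comm (s := (univ : Finset (ι → X × Y)))]
    refine sum_congr rfl fun la _ => ?_
    rw [Finset.sum_comm]
  obtain ⟨TA, iA1, iA2, RA, hRA, eA⟩ := energy hμ0 hμ1 hKA hKB R hC Ψ hΨ HA HB pHA sHA pHB sHB c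
    hc0 hc1 (fun la lb j hj ω w _ => hcu la lb j hj ω w)
    (fun la lb j hj ω w _ => hcu la lb j hj ω w) (fun lb j _ => iHB lb j)
    (fun la j _ => iHA la j) f hf' hf0
  have hΨT : fn Ψᵀ = 1 := by
    have h1 : fn Ψᵀ ^ 2 = 1 := by
      rw [fn_sq_eq_cf, cf_swap, ← fn_sq_eq_cf, hΨ]; norm_num
    have h0 := fn_nonneg Ψᵀ
    nlinarith
  obtain ⟨TB, iB1, iB2, RB, hRB, eB⟩ := energy hμ0 hμ1 hKB hKA R hC Ψᵀ hΨT HB HA pHB sHB pHA sHA
    (fun lb la => c la lb) (fun lb la => hc0 la lb) (fun lb la => hc1 la lb)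
    (fun lb la j hj ω w _ => hcu la lb j hj ω w)
    (fun lb la j hj ω w _ => hcu la lb j hj ω w) (fun la j _ => iHA la j)
    (fun lb j _ => iHB lb j) f (by simp only [cf_swap]; rw [Finset.sum_comm, hf']) hf0
  simp only [cf_swap] at eB
  let Γ := ι × Finset ι × Finset ι × (C → α) × (C → β) × (ι → X × Y)
  have iΓ : DecidableEq Γ := Classical.decEq _
  let κ : Γ → ℝ := fun γ => wt R γ.1 γ.2.2.1 γ.2.1 *
    (pw μ γ.2.2.2.2.2 * c γ.2.2.2.1 γ.2.2.2.2.1 γ.2.2.2.2.2)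
  have hκ : ∀ γ, 0 ≤ κ γ := fun γ =>
    mul_nonneg (wt_nonneg _ _ _ _) (mul_nonneg (pw_nonneg hμ0 _) (hc0 _ _ _))
  let ux : Γ → X → (ι → X × Y) := fun γ x =>
    Function.update γ.2.2.2.2.2 γ.1 (x, (γ.2.2.2.2.2 γ.1).2)
  let uy : Γ → Y → (ι → X × Y) := fun γ y =>
    Function.update γ.2.2.2.2.2 γ.1 ((γ.2.2.2.2.2 γ.1).1, y)
  let SA : X → Γ → Matrix TA DA ℂ := fun x γ => RA (cnd KA γ.2.2.1 (HA γ.2.2.2.1) (ux γ x))
  let SA' : Y → Γ → Matrix TA DA ℂ := fun y γ =>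
    RA (cnd KA (insert γ.1 γ.2.2.1) (HA γ.2.2.2.1) (uy γ y))
  let SB : Y → Γ → Matrix TB DB ℂ := fun y γ => RB (cnd KB γ.2.1 (HB γ.2.2.2.2.1) (uy γ y))
  let SB' : X → Γ → Matrix TB DB ℂ := fun x γ =>
    RB (cnd KB (insert γ.1 γ.2.1) (HB γ.2.2.2.2.1) (ux γ x))
  have hMA : ∀ x γ, ∃ M : α → Matrix TA TA ℂ, IsPOVM M ∧ ∀ a, (SA x γ)ᴴ * M a * SA x γ =
      cnd KA γ.2.2.1 (HA' γ.1 (γ.2.2.2.1, a)) (ux γ x) := by
    intro x γ
    refine exists_dilation _ _ (fun a => cnd_psd hKA _ (fun ω => grp_psd _ (hA _).1 _) _) ?_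
    rw [cnd_sum]
    simp only [SA, hRA, HA', grp_refine]
    rfl
  have hMB : ∀ y γ, ∃ N : β → Matrix TB TB ℂ, IsPOVM N ∧ ∀ b, (SB y γ)ᴴ * N b * SB y γ =
      cnd KB γ.2.1 (HB' γ.1 (γ.2.2.2.2.1, b)) (uy γ y) := by
    intro y γ
    refine exists_dilation _ _ (fun b => cnd_psd hKB _ (fun ω => grp_psd _ (hB _).1 _) _) ?_
    rw [cnd_sum]
    simp only [SB, hRB, HB', grp_refine]
    rfl
  choose MA hMA1 hMA2 using hMA
  choose MB hMB1 hMB2 using hMB
  -- transfer to the full update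
  have ex : ∀ {V : Type} (F : (ι → X × Y) → V) (γ : Γ) (w : X × Y),
      Inv (fun a b : X × Y => a.1 = b.1) F γ.1 →
      F (ux γ w.1) = F (Function.update γ.2.2.2.2.2 γ.1 w) := by
    intro V F γ w hF
    have := hF (Function.update γ.2.2.2.2.2 γ.1 w) (w.1, (γ.2.2.2.2.2 γ.1).2) (by simp)
    rw [Function.update_idem] at this
    exact this
  have ey : ∀ {V : Type} (F : (ι → X × Y) → V) (γ : Γ) (w : X × Y),
      Inv (fun a b : X × Y => a.2 = b.2) F γ.1 →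
      F (uy γ w.2) = F (Function.update γ.2.2.2.2.2 γ.1 w) := by
    intro V F γ w hF
    have := hF (Function.update γ.2.2.2.2.2 γ.1 w) ((γ.2.2.2.2.2 γ.1).1, w.2) (by simp)
    rw [Function.update_idem] at this
    exact this
  have sumΓ : ∀ (G : Γ → ℝ) (G' : ι → Finset ι → Finset ι → (C → α) → (C → β) →
      (ι → X × Y) → ℝ), (∀ γ : Γ, Valid R γ.1 γ.2.2.1 γ.2.1 →
        G γ = G' γ.1 γ.2.1 γ.2.2.1 γ.2.2.2.1 γ.2.2.2.2.1 γ.2.2.2.2.2) →
      ∑ γ, κ γ * G γ = ∑ i, ∑ U', ∑ U, wt R i U U' * ∑ la, ∑ lb, ∑ ω, pw μ ω *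
        (c la lb ω * G' i U' U la lb ω) := by
    intro G G' hG
    have : ∀ γ : Γ, κ γ * G γ = κ γ * G' γ.1 γ.2.1 γ.2.2.1 γ.2.2.2.1 γ.2.2.2.2.1 γ.2.2.2.2.2 := by
      intro γ
      by_cases h : wt R γ.1 γ.2.2.1 γ.2.1 = 0
      · simp [κ, h]
      · rw [hG γ (valid_of_wt h)]
    simp only [this]
    simp only [Γ, κ, Fintype.sum_prod_type, Finset.mul_sum, mul_assoc]
  have avg : ∀ (T : X × Y → ℝ)
      (G' : ι → Finset ι → Finset ι → (C → α) → (C → β) → (ι → X × Y) → ℝ),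
      (∀ w, T w = ∑ i, ∑ U', ∑ U, wt R i U U' * ∑ la, ∑ lb, ∑ ω, pw μ ω *
        (c la lb ω * G' i U' U la lb (Function.update ω i w))) →
      ∑ w, μ w * T w = ∑ i, ∑ U', ∑ U, wt R i U U' * ∑ la, ∑ lb, ∑ ω, pw μ ω *
        (c la lb ω * G' i U' U la lb ω) := by
    intro T G' hT
    have h0 : ∀ w, μ w * T w = ∑ i, ∑ U', ∑ U, wt R i U U' * ∑ la, ∑ lb, μ w * ∑ ω, pw μ ω *
        (c la lb ω * G' i U' U la lb (Function.update ω i w)) := by
      intro w
      rw [hT]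
      simp only [Finset.mul_sum, mul_left_comm (μ w) (wt R _ _ _)]
    simp only [h0]
    rw [Finset.sum_comm]
    refine sum_congr rfl fun i _ => ?_
    rw [Finset.sum_comm]
    refine sum_congr rfl fun U' _ => ?_
    rw [Finset.sum_comm]
    refine sum_congr rfl fun U _ => ?_
    by_cases h : wt R i U U' = 0
    · simp [h]
    have hi := (valid_of_wt h).1
    rw [← Finset.mul_sum]
    refine congrArg (HMul.hMul _) ?_
    rw [Finset.sum_comm]
    refine sum_congr rfl fun la _ => ?_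
    rw [Finset.sum_comm]
    refine sum_congr rfl fun lb _ => ?_
    rw [← resample0 hμ1 i (fun ω => c la lb ω * G' i U' U la lb ω)]
    simp only [hcu la lb i hi]
  have wsum : ∀ (G : ι → ℝ), ∑ i, ∑ U', ∑ U, wt R i U U' * G i = ∑ i ∈ R, 1 / (R.card : ℝ) * G i := by
    intro G
    simp only [← Finset.sum_mul, sum_wt, ite_mul, zero_mul]
    rw [Finset.sum_ite_mem, univ_inter]
  have vU : ∀ {i U U'}, Valid R i U U' → i ∉ U := fun hv h => by simpa using hv.2.1 h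
  have vU' : ∀ {i U U'}, Valid R i U U' → i ∉ U' := fun hv h => by simpa using hv.2.2.1 h
  have hnorm : ∀ w : X × Y, fn (blk κ (SA w.1) Ψ (SB w.2)) ^ 2 =
      ∑ i ∈ R, 1 / (R.card : ℝ) * ∑ ω, pw μ ω * Fw acc Ψ A B C (Function.update ω i w) := by
    intro w
    rw [fn_sq_blk hκ, sumΓ _ (fun i U' U la lb ω => cf Ψ (cnd KA U (HA la) (Function.update ω i w))
      Ψ (cnd KB U' (HB lb) (Function.update ω i w))), ← wsum]
    · refine sum_congr rfl fun i _ => sum_congr rfl fun U' _ => sum_congr rfl fun U _ => ?_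
      by_cases h : wt R i U U' = 0
      · simp [h]
      have hv := valid_of_wt h
      refine congrArg (HMul.hMul _) ?_
      simp only [fun la lb => collapse2_update hKA hKB hv w Ψ (HA la) (HB lb) (c la lb)
        (fun j hj ω w _ => hcu la lb j hj ω w) (fun j hj ω w _ => hcu la lb j hj ω w)
        (fun j _ => iHB lb j) (fun j _ => iHA la j)]
      simp only [← hFw, Finset.mul_sum, hcu _ _ i hv.1]
      rw [Finset.sum_comm (s := (univ : Finset (ι → X × Y)))]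
      refine sum_congr rfl fun la _ => ?_
      rw [Finset.sum_comm]
    · intro γ hv
      simp only [SA, SB, hRA, hRB]
      rw [ex _ γ w (cnd_inv_not_mem KA (vU hv) (iHA _ _)),
        ey _ γ w (cnd_inv_not_mem KB (vU' hv) (iHB _ _))]
  obtain ⟨hel1, hel2⟩ := hellinger hμ0 hμ1 R hC (Fw acc Ψ A B C) (Fw_nonneg hA hB C)
    (Fw_le_one hΨ hA hB C) f hf hf0 (fun w => fn (blk κ (SA w.1) Ψ (SB w.2)) ^ 2) hnorm
  simp only [Real.sqrt_sq (fn_nonneg _)] at hel2
  refine ⟨TA × Γ, TB × Γ, inferInstance, inferInstance, inferInstance, inferInstance,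
    fun x y => blk κ (SA x) Ψ (SB y), fun x => blk κ (SA x) Ψ (SB' x),
    fun y => blk κ (SA' y) Ψ (SB y), fun x a => blockDiagonal fun γ => MA x γ a,
    fun y b => blockDiagonal fun γ => MB y γ b, fun x => povm_blockDiagonal (hMA1 x),
    fun y => povm_blockDiagonal (hMB1 y), ?_, hel1, ?_, ?_, hel2⟩
  · rw [avg _ (fun i _ _ la lb ω => wf (acc (ω i).1 (ω i).2)
      (fun a => HA' i (la, a) ω) (fun b => HB' i (lb, b) ω) Ψ Ψ), ← wsum]
    · refine sum_congr rfl fun i _ => sum_congr rfl fun U' _ => sum_congr rfl fun U _ => ?_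
      refine congrArg (HMul.hMul _) ?_
      unfold fW
      simp only [← hFw', Finset.mul_sum]
      rw [Finset.sum_comm (s := (univ : Finset (ι → X × Y)))]
      refine sum_congr rfl fun la _ => ?_
      rw [Finset.sum_comm]
    · intro w
      rw [wf_blk hκ, sumΓ _ (fun i U' U la lb ω => wf (acc w.1 w.2)
        (fun a => cnd KA U (HA' i (la, a)) (Function.update ω i w))
        (fun b => cnd KB U' (HB' i (lb, b)) (Function.update ω i w)) Ψ Ψ)]
      · refine sum_congr rfl fun i _ => sum_congr rfl fun U' _ => sum_congr rfl fun U _ => ?_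
        by_cases h : wt R i U U' = 0
        · simp [h]
        have hv := valid_of_wt h
        simp only [Function.update_self, fun la lb => collapse2_wf hKA hKB hv w (acc w.1 w.2) Ψ
          (fun a => HA' i (la, a)) (fun b => HB' i (lb, b))
          (c la lb) (fun j hj ω w _ => hcu la lb j hj ω w) (fun j hj ω w _ => hcu la lb j hj ω w)
          (fun b j _ => iHB' i _ j) (fun a j _ => iHA' i _ j)]
      · intro γ hv
        congr 1
        · funext a
          rw [hMA2, ex _ γ w (cnd_inv_not_mem KA (vU hv) (iHA' _ _ _))]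
        · funext b
          rw [hMB2, ey _ γ w (cnd_inv_not_mem KB (vU' hv) (iHB' _ _ _))]
  · rw [avg _ (fun i U' U la lb (ω : ι → X × Y) => cf Ψ (cnd KA U (HA la) ω) Ψ
          ((RB (cnd KB U' (HB lb) ω) - RB (cnd KB (insert i U') (HB lb) ω))ᴴ *
          (RB (cnd KB U' (HB lb) ω) - RB (cnd KB (insert i U') (HB lb) ω))))]
    · refine le_trans (le_of_eq ?_) (eB.trans (le_of_eq ?_))
      · refine sum_congr rfl fun i _ => ?_
        rw [Finset.sum_comm]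
        refine sum_congr rfl fun U _ => sum_congr rfl fun U' _ => ?_
        rw [wt_symm, Finset.sum_comm]
      · simp
    · intro w
      rw [blk_sub_right, fn_sq_blk hκ]
      refine sumΓ _ _ fun γ hv => ?_
      simp only [SA, SB, SB', hRA]
      rw [ex _ γ w (cnd_inv_not_mem KA (vU hv) (iHA _ _)),
        ey _ γ w (cnd_inv_not_mem KB (vU' hv) (iHB _ _)),
        ex _ γ w (cnd_inv_mem hKB (mem_insert_self _ _) _)]
  · rw [avg _ (fun i U' U la lb (ω : ι → X × Y) => cf Ψ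
          ((RA (cnd KA U (HA la) ω) - RA (cnd KA (insert i U) (HA la) ω))ᴴ *
          (RA (cnd KA U (HA la) ω) - RA (cnd KA (insert i U) (HA la) ω))) Ψ
          (cnd KB U' (HB lb) ω))]
    · refine eA.trans (le_of_eq ?_)
      simp
    · intro w
      rw [blk_sub_left, fn_sq_blk hκ]
      refine sumΓ _ _ fun γ hv => ?_
      simp only [SA, SB, SA', hRB]
      rw [ex _ γ w (cnd_inv_not_mem KA (vU hv) (iHA _ _)),
        ey _ γ w (cnd_inv_not_mem KB (vU' hv) (iHB _ _)),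
        ey _ γ w (cnd_inv_mem hKA (mem_insert_self _ _) _)]

end dep

end Crest.Agent.H9.QP
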