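import Crest.Agent.H9.QPBasic
import Crest.Prelude.Def_NonlocalGame

/-! Correlations dominated by a finite-dimensional quantum correlation. -/

namespace Crest.Agent.H9.QP

open Matrix
open scoped ComplexOrder Kronecker

section dom
variable {X Y α β : Type} [Fintype α] [Fintype β]

/-- `p` is dominated entrywise by a finite-dimensional quantum correlation. -/
def QDom (p : X → Y → α → β → ℝ) : Prop :=
  ∃ (P Q : Type) (_ : Fintype P) (_ : Fintype Q) (_ : DecidableEq P) (_ : DecidableEq Q)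
    (Ψ : Matrix P Q ℂ) (M : X → α → Matrix P P ℂ) (N : Y → β → Matrix Q Q ℂ),
    fn Ψ = 1 ∧ (∀ x, IsPOVM (M x)) ∧ (∀ y, IsPOVM (N y)) ∧
      ∀ x y a b, p x y a b ≤ cf Ψ (M x a) Ψ (N y b)

lemma QDom.mono {p q : X → Y → α → β → ℝ} (hp : QDom p) (h : ∀ x y a b, q x y a b ≤ p x y a b) :
    QDom q := by
  obtain ⟨P, Q, i1, i2, i3, i4, Ψ, M, N, h1, h2, h3, h4⟩ := hp
  exact ⟨P, Q, i1, i2, i3, i4, Ψ, M, N, h1, h2, h3, fun x y a b => (h x y a b).trans (h4 x y a b)⟩

lemma exists_povm (P : Type) [Fintype P] [DecidableEq P] [Nonempty α] :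
    ∃ M : α → Matrix P P ℂ, IsPOVM M := by
  classical
  obtain ⟨a₀⟩ := ‹Nonempty α›
  refine ⟨fun a => if a = a₀ then 1 else 0, fun a => ?_, by simp⟩
  dsimp only
  split_ifs
  · exact PosSemidef.one
  · exact PosSemidef.zero

lemma QDom.zero [Nonempty α] [Nonempty β] : QDom (fun (_ : X) (_ : Y) (_ : α) (_ : β) => (0 : ℝ)) := by
  obtain ⟨M, hM⟩ := exists_povm (α := α) Unit
  obtain ⟨N, hN⟩ := exists_povm (α := β) Unit
  refine ⟨Unit, Unit, inferInstance, inferInstance, inferInstance, inferInstance, 1, fun _ => M,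
    fun _ => N, ?_, fun _ => hM, fun _ => hN, fun x y a b => cf_nonneg _ (hM.1 a) (hN.1 b)⟩
  have : fn (1 : Matrix Unit Unit ℂ) ^ 2 = 1 := by rw [fn_sq_eq_sum]; simp
  have h0 := fn_nonneg (1 : Matrix Unit Unit ℂ)
  nlinarith

variable {P Q P' Q' : Type} [Fintype P] [Fintype Q] [Fintype P'] [Fintype Q']

lemma trace_eq_cf (A : Matrix P Q ℂ) {M : Matrix P P ℂ} {N : Matrix Q Q ℂ} (hM : M.IsHermitian)
    (hN : N.IsHermitian) : trace (Aᴴ * M * A * Nᵀ) = (cf A M A N : ℂ) := by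
  have h : trace (Aᴴ * M * A * Nᵀ) = star (trace (Aᴴ * M * A * Nᵀ)) := by
    rw [← trace_conjTranspose]
    have hN' : (Nᵀ)ᴴ = Nᵀ := hN.transpose
    simp only [conjTranspose_mul, conjTranspose_conjTranspose, hM.eq, hN']
    rw [trace_mul_comm Nᵀ]
    simp only [Matrix.mul_assoc]
  unfold cf
  exact (Complex.conj_eq_iff_re.mp h.symm).symm

lemma cf_kron (A : Matrix P Q ℂ) (B : Matrix P' Q' ℂ) {M : Matrix P P ℂ} {N : Matrix Q Q ℂ}
    {M' : Matrix P' P' ℂ} {N' : Matrix Q' Q' ℂ} (hM : M.IsHermitian) (hN : N.IsHermitian)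
    (hM' : M'.IsHermitian) (hN' : N'.IsHermitian) :
    cf (A ⊗ₖ B) (M ⊗ₖ M') (A ⊗ₖ B) (N ⊗ₖ N') = cf A M A N * cf B M' B N' := by
  have : trace ((A ⊗ₖ B)ᴴ * (M ⊗ₖ M') * (A ⊗ₖ B) * (N ⊗ₖ N')ᵀ) =
      trace (Aᴴ * M * A * Nᵀ) * trace (Bᴴ * M' * B * N'ᵀ) := by
    rw [conjTranspose_kronecker, ← kroneckerMap_transpose, ← mul_kronecker_mul,
      ← mul_kronecker_mul, ← mul_kronecker_mul, trace_kronecker]
  unfold cf at *
  rw [this, trace_eq_cf A hM hN, trace_eq_cf B hM' hN']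
  simp [cf]

lemma kron_sum_left {ι : Type*} (s : Finset ι) (A : ι → Matrix P Q ℂ) (B : Matrix P' Q' ℂ) :
    (∑ i ∈ s, A i) ⊗ₖ B = ∑ i ∈ s, A i ⊗ₖ B := by
  classical
  induction s using Finset.induction_on with
  | empty => simp
  | insert i s hi ih => rw [Finset.sum_insert hi, Finset.sum_insert hi, add_kronecker, ih]

lemma kron_sum_right {ι : Type*} (s : Finset ι) (A : Matrix P Q ℂ) (B : ι → Matrix P' Q' ℂ) :
    A ⊗ₖ (∑ i ∈ s, B i) = ∑ i ∈ s, A ⊗ₖ B i := by
  classical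
  induction s using Finset.induction_on with
  | empty => simp
  | insert i s hi ih => rw [Finset.sum_insert hi, Finset.sum_insert hi, kronecker_add, ih]

lemma seq_povm [DecidableEq P] [DecidableEq P'] {E : α → Matrix P P ℂ} {F : Matrix P P ℂ}
    {M : α → Matrix P' P' ℂ} (hE : ∀ a, (E a).PosSemidef) (hF : F.PosSemidef)
    (hs : ∑ a, E a + F = 1) (hM : IsPOVM M) :
    IsPOVM (fun a => E a ⊗ₖ (1 : Matrix P' P' ℂ) + F ⊗ₖ M a) := by
  refine ⟨fun a => ((hE a).kronecker PosSemidef.one).add (hF.kronecker (hM.1 a)), ?_⟩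
  rw [Finset.sum_add_distrib, ← kron_sum_left, ← kron_sum_right, hM.2, ← add_kronecker, hs,
    one_kronecker_one]

lemma QDom.seq [DecidableEq P] [DecidableEq Q] {p : X → Y → α → β → ℝ} (hp : QDom p)
    (Ξ : Matrix P Q ℂ) (hΞ : fn Ξ = 1)
    (E : X → α → Matrix P P ℂ) (F : X → Matrix P P ℂ) (E' : Y → β → Matrix Q Q ℂ)
    (F' : Y → Matrix Q Q ℂ) (hE : ∀ x a, (E x a).PosSemidef) (hF : ∀ x, (F x).PosSemidef)
    (hs : ∀ x, ∑ a, E x a + F x = 1) (hE' : ∀ y b, (E' y b).PosSemidef)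
    (hF' : ∀ y, (F' y).PosSemidef) (hs' : ∀ y, ∑ b, E' y b + F' y = 1) :
    QDom (fun x y a b => cf Ξ (E x a) Ξ (E' y b) + cf Ξ (F x) Ξ (F' y) * p x y a b) := by
  obtain ⟨P₁, Q₁, i1, i2, i3, i4, Ψ, M, N, h1, h2, h3, h4⟩ := hp
  refine ⟨P × P₁, Q × Q₁, inferInstance, inferInstance, inferInstance, inferInstance, Ξ ⊗ₖ Ψ,
    fun x a => E x a ⊗ₖ (1 : Matrix P₁ P₁ ℂ) + F x ⊗ₖ M x a,
    fun y b => E' y b ⊗ₖ (1 : Matrix Q₁ Q₁ ℂ) + F' y ⊗ₖ N y b, ?_,
    fun x => seq_povm (hE x) (hF x) (hs x) (h2 x),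
    fun y => seq_povm (hE' y) (hF' y) (hs' y) (h3 y), fun x y a b => ?_⟩
  · have : fn (Ξ ⊗ₖ Ψ) ^ 2 = 1 := by
      rw [fn_sq_eq_cf, ← one_kronecker_one, ← one_kronecker_one,
        cf_kron _ _ isHermitian_one isHermitian_one isHermitian_one isHermitian_one,
        ← fn_sq_eq_cf, ← fn_sq_eq_cf, hΞ, h1]
      norm_num
    have h0 := fn_nonneg (Ξ ⊗ₖ Ψ)
    nlinarith
  · dsimp only
    rw [cf_add_M, cf_add_N, cf_add_N,
      cf_kron _ _ (hE x a).1 (hE' y b).1 isHermitian_one isHermitian_one,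
      cf_kron _ _ (hF x).1 (hF' y).1 ((h2 x).1 a).1 ((h3 y).1 b).1, ← fn_sq_eq_cf, h1]
    have e1 := cf_nonneg (Ξ ⊗ₖ Ψ) ((hE x a).kronecker (PosSemidef.one (n := P₁)))
      ((hF' y).kronecker ((h3 y).1 b))
    have e2 := cf_nonneg (Ξ ⊗ₖ Ψ) ((hF x).kronecker ((h2 x).1 a))
      ((hE' y b).kronecker (PosSemidef.one (n := Q₁)))
    have e3 := mul_le_mul_of_nonneg_left (h4 x y a b) (cf_nonneg Ξ (hF x) (hF' y))
    linarith

/-- value of a correlation -/
noncomputable def pval [Fintype X] [Fintype Y] (μ : X → Y → ℝ) (acc : X → Y → α → β → Bool)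
    (p : X → Y → α → β → ℝ) : ℝ :=
  ∑ x, ∑ y, μ x y * ∑ a, ∑ b, if acc x y a b = true then p x y a b else 0

/-- all quantum-dominated correlations have value at most `v` -/
def HV [Fintype X] [Fintype Y] (μ : X → Y → ℝ) (acc : X → Y → α → β → Bool) (v : ℝ) : Prop :=
  ∀ p : X → Y → α → β → ℝ, QDom p → pval μ acc p ≤ v

end dom

section game
open Crest.MathPhysics.NonlocalGame

lemma answer_eq_cf {m n : Type} [Fintype m] [Fintype n] (ψ : m × n → ℂ) (M : Matrix m m ℂ)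
    (N : Matrix n n ℂ) :
    (dotProduct (star ψ) ((M ⊗ₖ N).mulVec ψ)).re =
      cf (Matrix.of fun i j => ψ (i, j)) M (Matrix.of fun i j => ψ (i, j)) N := by
  unfold cf
  congr 1
  simp only [dotProduct, mulVec, trace, diag, Matrix.mul_apply, conjTranspose_apply,
    transpose_apply, of_apply, Fintype.sum_prod_type, kroneckerMap_apply, Pi.star_apply,
    Finset.sum_mul, Finset.mul_sum]
  rw [Finset.sum_comm]
  refine Finset.sum_congr rfl fun j _ => ?_
  rw [Finset.sum_comm]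
  conv_rhs => rw [Finset.sum_comm]
  refine Finset.sum_congr rfl fun i' _ => ?_
  rw [Finset.sum_comm]
  refine Finset.sum_congr rfl fun j' _ => Finset.sum_congr rfl fun i _ => ?_
  ring

lemma cf_submatrix {P Q P' Q' : Type} [Fintype P] [Fintype Q] [Fintype P'] [Fintype Q']
    (e : P' ≃ P) (f : Q' ≃ Q) (A B : Matrix P Q ℂ) (M : Matrix P P ℂ) (N : Matrix Q Q ℂ) :
    cf (A.submatrix e f) (M.submatrix e e) (B.submatrix e f) (N.submatrix f f) = cf A M B N := by
  unfold cf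
  rw [conjTranspose_submatrix, transpose_submatrix, submatrix_mul_equiv, submatrix_mul_equiv,
    submatrix_mul_equiv]
  congr 1
  simp only [trace, diag, submatrix_apply]
  exact Equiv.sum_comp f (fun i => (Aᴴ * M * B * Nᵀ) i i)

theorem hv_of_game (G : Game) (v : ℝ)
    (hv : ∀ (dA dB : ℕ) (S : Strategy G 1 dA dB), S.probWinsAtLeast 1 ≤ v) :
    HV G.prob G.accept v := by
  intro p hp
  obtain ⟨P, Q, i1, i2, i3, i4, Ψ, M, N, h1, h2, h3, h4⟩ := hp
  let e : Fin (Fintype.card P) ≃ P := (Fintype.equivFin P).symm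
  let f : Fin (Fintype.card Q) ≃ Q := (Fintype.equivFin Q).symm
  let S : Strategy G 1 (Fintype.card P) (Fintype.card Q) :=
    { ψ := fun i => Ψ (e i.1) (f i.2)
      ψ_norm := by
        have := fn_sq_eq_sum Ψ
        rw [h1] at this
        rw [Fintype.sum_prod_type]
        rw [← Equiv.sum_comp e] at this
        simp only [one_pow] at this
        rw [this]
        refine Finset.sum_congr rfl fun i _ => ?_
        rw [← Equiv.sum_comp f]
      M := fun x a => (M (x 0) (a 0)).submatrix e e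
      N := fun y b => (N (y 0) (b 0)).submatrix f f
      M_posSemidef := fun x a => ((h2 _).1 _).submatrix e
      N_posSemidef := fun y b => ((h3 _).1 _).submatrix f
      M_sum := fun x => by
        have := (h2 (x 0)).2
        rw [← (Equiv.funUnique (Fin 1) (Fin G.nA)).sum_comp] at this
        ext i j
        have h := congrFun (congrFun this (e i)) (e j)
        simp only [Matrix.sum_apply] at h ⊢
        simpa [Matrix.one_apply] using h
      N_sum := fun y => by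
        have := (h3 (y 0)).2
        rw [← (Equiv.funUnique (Fin 1) (Fin G.nB)).sum_comp] at this
        ext i j
        have h := congrFun (congrFun this (f i)) (f j)
        simp only [Matrix.sum_apply] at h ⊢
        simpa [Matrix.one_apply] using h }
  refine le_trans ?_ (hv _ _ S)
  unfold pval Strategy.probWinsAtLeast
  rw [← (Equiv.funUnique (Fin 1) (Fin G.nX)).sum_comp]
  refine Finset.sum_le_sum fun x _ => ?_
  rw [← (Equiv.funUnique (Fin 1) (Fin G.nY)).sum_comp]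
  refine Finset.sum_le_sum fun y _ => ?_
  simp only [Finset.univ_unique, Fin.default_eq_zero, Finset.prod_singleton,
    Equiv.funUnique_apply]
  refine mul_le_mul_of_nonneg_left ?_ (G.prob_nonneg _ _)
  rw [← (Equiv.funUnique (Fin 1) (Fin G.nA)).sum_comp]
  refine Finset.sum_le_sum fun a _ => ?_
  rw [← (Equiv.funUnique (Fin 1) (Fin G.nB)).sum_comp]
  refine Finset.sum_le_sum fun b _ => ?_
  simp only [Equiv.funUnique_apply, Fin.default_eq_zero]
  have hw : ((1 : ℝ) ≤ (wins G 1 x y a b : ℝ)) ↔ G.accept (x 0) (y 0) (a 0) (b 0) = true := by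
    unfold wins
    rw [Nat.one_le_cast, Finset.one_le_card, Finset.filter_nonempty_iff]
    simp
  by_cases hacc : G.accept (x 0) (y 0) (a 0) (b 0) = true
  · rw [if_pos hacc, if_pos (hw.mpr hacc)]
    unfold Strategy.answerProb
    rw [answer_eq_cf]
    have : (Matrix.of fun i j => S.ψ (i, j)) = Ψ.submatrix e f := rfl
    rw [this]
    change _ ≤ cf _ ((M (x 0) (a 0)).submatrix e e) _ ((N (y 0) (b 0)).submatrix f f)
    rw [cf_submatrix]
    exact h4 _ _ _ _
  · rw [if_neg hacc, if_neg (fun h => hacc (hw.mp h))]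

end game

end Crest.Agent.H9.QP
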