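import Mathlib

/-! Embezzling gadget and randomly shifted geometric rounding. -/

namespace Crest.Agent.H9.QP

open Finset

lemma harm_le (J K : ℕ) (hJ : 0 < J) (hK : 0 < K) :
    ∑ m ∈ range (J * K), (1 / ((m : ℝ) + 1)) ≤ ∑ m ∈ range J, (1 / ((m : ℝ) + 1)) + K := by
  have hle : J ≤ J * K := Nat.le_mul_of_pos_right J hK
  rw [← Finset.sum_range_add_sum_Ico _ hle]
  have hJ' : (0 : ℝ) < J := by exact_mod_cast hJ
  have : ∑ m ∈ Ico J (J * K), (1 / ((m : ℝ) + 1)) ≤ ∑ _m ∈ Ico J (J * K), (1 / (J : ℝ)) := by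
    refine sum_le_sum fun m hm => one_div_le_one_div_of_le hJ' ?_
    have : (J : ℝ) ≤ m := by exact_mod_cast (mem_Ico.mp hm).1
    linarith
  rw [sum_const, Nat.card_Ico, nsmul_eq_mul] at this
  have h2 : ((J * K - J : ℕ) : ℝ) * (1 / (J : ℝ)) ≤ K := by
    rw [mul_one_div, div_le_iff₀ hJ']
    have : ((J * K - J : ℕ) : ℝ) ≤ ((J * K : ℕ) : ℝ) := by exact_mod_cast Nat.sub_le _ _
    push_cast at this; linarith
  linarith

theorem exists_gadget (K : ℕ) (hK : 0 < K) (η : ℝ) (hη : 0 < η) (hη1 : η ≤ 1) :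
    ∃ (Z Z' : Type) (_ : Fintype Z) (_ : Fintype Z') (_ : DecidableEq Z) (_ : DecidableEq Z')
      (e : Z → ℝ) (e' : Z' → ℝ) (dom : ℕ → Z → Bool) (π : ℕ → Z → Z'),
      ∑ z, e z ^ 2 = 1 ∧ ∑ m, e' m ^ 2 ≤ 1 ∧ (∀ z, 0 ≤ e z) ∧ (∀ m, 0 ≤ e' m) ∧
      (∀ d ≤ K, ∀ z z', dom d z = true → dom d z' = true → π d z = π d z' → z = z') ∧
      (∀ d ≤ K, ∑ z, (if dom d z = true then e z ^ 2 else 0) = d / K) ∧
      (∀ d d', d ≤ d' → ∀ z, dom d z = true → dom d' z = true) ∧
      (∀ d ≤ K, (1 - η) * Real.sqrt (d / K) ≤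
        ∑ z, if dom d z = true then e z * e' (π d z) else 0) := by
  have hK' : (0 : ℝ) < K := by exact_mod_cast hK
  obtain ⟨J, hJ⟩ := ((Real.tendsto_sum_range_one_div_nat_succ_atTop.eventually_ge_atTop
    (K / η)).and (Filter.eventually_gt_atTop 0)).exists
  obtain ⟨hJ1, hJ0⟩ := hJ
  set H := ∑ m ∈ range J, (1 / ((m : ℝ) + 1)) with hH
  set H' := ∑ m ∈ range (J * K), (1 / ((m : ℝ) + 1)) with hH'
  have hH0 : 0 < H := lt_of_lt_of_le (by positivity) hJ1
  have hJK : 0 < J * K := Nat.mul_pos hJ0 hK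
  have hH'0 : 0 < H' := sum_pos (fun m _ => by positivity) (nonempty_range_iff.mpr hJK.ne')
  have hHH : H' ≤ H + K := harm_le J K hJ0 hK
  have hlt : ∀ d ≤ K, ∀ z : Fin K × Fin J, (z.1 : ℕ) < d → z.2 * d + z.1 < (z.2 + 1) * d ∧
      ((z.2 : ℕ) + 1) * d ≤ J * K := by
    intro d hd z hz
    refine ⟨by rw [add_mul, one_mul]; omega, Nat.mul_le_mul z.2.2 hd⟩
  have hcard : ∀ d ≤ K, ∀ c : ℝ, ∑ h : Fin K, (if (h : ℕ) < d then c else 0) = d * c := by
    intro d hd c
    rw [Fin.sum_univ_eq_sum_range (fun h => if h < d then c else 0) K, ← Finset.sum_filter]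
    have : (range K).filter (fun h => h < d) = range d := by
      ext h; simp only [mem_filter, mem_range]; omega
    rw [this, sum_const, card_range, nsmul_eq_mul]
  have hsumH : ∑ j : Fin J, (1 / ((j : ℝ) + 1)) = H :=
    Fin.sum_univ_eq_sum_range (fun j => (1 / ((j : ℝ) + 1))) J
  refine ⟨Fin K × Fin J, Fin (J * K), inferInstance, inferInstance, inferInstance, inferInstance,
    fun z => Real.sqrt (1 / ((z.2 : ℝ) + 1) / (K * H)),
    fun m => Real.sqrt (1 / ((m : ℝ) + 1) / H'), fun d z => decide ((z.1 : ℕ) < d),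
    fun d z => ⟨(z.2 * d + z.1) % (J * K), Nat.mod_lt _ hJK⟩, ?_, ?_, fun z => Real.sqrt_nonneg _,
    fun m => Real.sqrt_nonneg _, ?_, ?_, ?_, ?_⟩
  · rw [Fintype.sum_prod_type]
    simp only [fun j : Fin J => Real.sq_sqrt (show 0 ≤ 1 / ((j : ℝ) + 1) / (K * H) by positivity)]
    simp only [← Finset.sum_div, hsumH, sum_const, card_univ, Fintype.card_fin, nsmul_eq_mul]
    field_simp
  · simp only [fun m : Fin (J * K) => Real.sq_sqrt (show 0 ≤ 1 / ((m : ℝ) + 1) / H' by positivity)]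
    rw [← Finset.sum_div, Fin.sum_univ_eq_sum_range (fun j => (1 / ((j : ℝ) + 1))) (J * K), ← hH',
      div_self hH'0.ne']
  · intro d hd z z' hz hz' h
    simp only [decide_eq_true_eq] at hz hz'
    have a1 := hlt d hd z hz
    have a2 := hlt d hd z' hz'
    simp only [Fin.mk.injEq] at h
    rw [Nat.mod_eq_of_lt (by omega), Nat.mod_eq_of_lt (by omega)] at h
    have hd0 : 0 < d := by omega
    have b1 : (z.1 : ℕ) = z'.1 := by
      have := congrArg (· % d) h
      simpa [Nat.mul_add_mod_self_right, Nat.mod_eq_of_lt hz, Nat.mod_eq_of_lt hz'] using this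
    have b2 : (z.2 : ℕ) = z'.2 := by
      rw [b1] at h
      exact Nat.eq_of_mul_eq_mul_right hd0 (by omega)
    exact Prod.ext (Fin.ext b1) (Fin.ext b2)
  · intro d hd
    rw [Fintype.sum_prod_type]
    simp only [fun j : Fin J => Real.sq_sqrt (show 0 ≤ 1 / ((j : ℝ) + 1) / (K * H) by positivity),
      decide_eq_true_eq]
    simp only [sum_ite_irrel, sum_const_zero, ← Finset.sum_div, hsumH]
    rw [hcard d hd]
    field_simp
  · intro d d' hdd z hz
    simp only [decide_eq_true_eq] at hz ⊢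
    omega
  · intro d hd
    rcases Nat.eq_zero_or_pos d with rfl | hd0
    · simp
    have hd' : (0 : ℝ) < d := by exact_mod_cast hd0
    have h1 : ∑ z : Fin K × Fin J, (if (z.1 : ℕ) < d then
        1 / ((z.2 : ℝ) + 1) * Real.sqrt (1 / (K * H * d * H')) else 0) ≤
        ∑ z : Fin K × Fin J, if decide ((z.1 : ℕ) < d) = true then
          Real.sqrt (1 / ((z.2 : ℝ) + 1) / (K * H)) *
          Real.sqrt (1 / ((((z.2 * d + z.1) % (J * K) : ℕ) : ℝ) + 1) / H') else 0 := by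
      refine sum_le_sum fun z _ => ?_
      simp only [decide_eq_true_eq]
      split_ifs with hz
      · have a1 := hlt d hd z hz
        rw [Nat.mod_eq_of_lt (by omega), ← Real.sqrt_mul (by positivity)]
        refine Real.le_sqrt_of_sq_le ?_
        rw [mul_pow, Real.sq_sqrt (by positivity)]
        have a2 : (((z.2 * d + z.1 : ℕ) : ℝ) + 1) ≤ ((z.2 : ℝ) + 1) * d := by
          have : z.2 * d + z.1 + 1 ≤ (z.2 + 1) * d := a1.1
          exact_mod_cast this
        calc (1 / ((z.2 : ℝ) + 1)) ^ 2 * (1 / (K * H * d * H'))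
            = 1 / ((z.2 : ℝ) + 1) / (K * H) * (1 / (((z.2 : ℝ) + 1) * d) / H') := by field_simp
          _ ≤ _ := by gcongr
      · exact le_rfl
    refine le_trans ?_ h1
    rw [Fintype.sum_prod_type]
    simp only [sum_ite_irrel, sum_const_zero, ← Finset.sum_mul, hsumH]
    rw [hcard d hd]
    have h2 : (1 - η) ^ 2 * H' ≤ H := by
      have a1 : (K : ℝ) ≤ H * η := (div_le_iff₀ hη).mp hJ1
      have a2 : (1 - η) ^ 2 * H' ≤ (1 - η) ^ 2 * (H + H * η) :=
        mul_le_mul_of_nonneg_left (by linarith) (sq_nonneg _)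
      have a3 : (1 - η) ^ 2 * (1 + η) ≤ 1 := by nlinarith [mul_nonneg hη.le (sq_nonneg η)]
      nlinarith
    refine abs_le_of_sq_le_sq' ?_ (by positivity) |>.2
    rw [mul_pow, mul_pow, mul_pow, Real.sq_sqrt (by positivity), Real.sq_sqrt (by positivity)]
    calc (1 - η) ^ 2 * (d / K) = (1 - η) ^ 2 * H' * (d / (K * H')) := by field_simp
      _ ≤ H * (d / (K * H')) := mul_le_mul_of_nonneg_right h2 (by positivity)
      _ = _ := by field_simp

lemma count_shift (L : ℕ) (hL : 0 < L) (A B : ℤ) :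
    ((univ.filter fun θ : Fin L => (A + θ) / L ≠ (B + θ) / L).card : ℝ) ≤ |(A : ℝ) - B| := by
  wlog h : B ≤ A generalizing A B
  · have := this B A (by omega)
    rw [abs_sub_comm] at this
    simpa only [ne_comm] using this
  have hL' : (0 : ℤ) < L := by exact_mod_cast hL
  have : (univ.filter fun θ : Fin L => (A + θ) / L ≠ (B + θ) / L).card ≤ (Ioc B A).card := by
    refine Finset.card_le_card_of_injOn (fun θ => L * ((A + θ) / L) - θ) ?_ ?_
    · intro θ hθ
      simp only [coe_filter, mem_univ, true_and, Set.mem_ofPred_eq] at hθ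
      simp only [coe_Ioc, Set.mem_Ioc]
      have a1 : (B + θ) / L ≤ (A + θ) / L := Int.ediv_le_ediv hL' (by omega)
      have a2 : (B + θ) / L + 1 ≤ (A + θ) / L := by omega
      have a3 := Int.mul_ediv_self_le (x := A + θ) hL'.ne'
      have a4 := Int.lt_mul_ediv_self_add (x := B + θ) hL'
      have a5 := mul_le_mul_of_nonneg_left a2 hL'.le
      constructor <;> nlinarith
    · intro θ _ θ' _ hθ
      simp only at hθ
      have a1 : (L : ℤ) ∣ (θ : ℤ) - θ' := ⟨(A + θ) / L - (A + θ') / L, by linarith⟩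
      have a2 : |(θ : ℤ) - θ'| < L := by
        have := θ.2; have := θ'.2
        rw [abs_lt]; constructor <;> omega
      have a3 := Int.eq_zero_of_abs_lt_dvd a1 a2
      exact Fin.ext (by omega)
  rw [Int.card_Ioc] at this
  have h2 : ((A - B).toNat : ℝ) = (A : ℝ) - B := by
    have : ((A - B).toNat : ℤ) = A - B := Int.toNat_of_nonneg (by omega)
    exact_mod_cast this
  rw [abs_of_nonneg (by rw [← h2]; positivity), ← h2]
  exact_mod_cast this

theorem exists_rounding (L : ℕ) (hL : 0 < L) :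
    ∃ rd : Fin L → ℝ → ℝ, (∀ θ σ, 0 ≤ σ → 0 ≤ rd θ σ ∧ rd θ σ ≤ σ ∧ σ * (1 - 2 / L) ≤ rd θ σ) ∧
      ∀ σ τ, 0 ≤ σ → 0 ≤ τ → σ * ((univ.filter fun θ => rd θ σ ≠ rd θ τ).card / L) ≤
        2 * L * |σ - τ| + σ / L := by
  have hL' : (0 : ℝ) < L := by exact_mod_cast hL
  have hL1 : (1 : ℝ) ≤ L := by exact_mod_cast hL
  have hLz : (0 : ℤ) < L := by exact_mod_cast hL
  let A : ℝ → ℤ := fun σ => ⌊(L : ℝ) ^ 2 * Real.log σ⌋
  refine ⟨fun θ σ => if σ = 0 then 0 else
    Real.exp (((L * ((A σ + θ) / L) - θ : ℤ) : ℝ) / L ^ 2), ?_, ?_⟩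
  · intro θ σ hσ
    rcases hσ.eq_or_lt with rfl | hσ
    · simp
    simp only [hσ.ne', if_false]
    have a3 := Int.mul_ediv_self_le (x := A σ + θ) hLz.ne'
    have a4 := Int.lt_mul_ediv_self_add (x := A σ + θ) hLz
    have b1 : (((L * ((A σ + θ) / L) - θ : ℤ) : ℝ)) ≤ A σ := by
      exact_mod_cast (by linarith : (L * ((A σ + θ) / L) - θ : ℤ) ≤ A σ)
    have b2 : (A σ : ℝ) + 1 - L ≤ (((L * ((A σ + θ) / L) - θ : ℤ) : ℝ)) := by
      exact_mod_cast (by linarith : A σ + 1 - L ≤ (L * ((A σ + θ) / L) - θ : ℤ))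
    have c1 : (A σ : ℝ) ≤ L ^ 2 * Real.log σ := Int.floor_le _
    have c2 : L ^ 2 * Real.log σ < (A σ : ℝ) + 1 := Int.lt_floor_add_one _
    refine ⟨(Real.exp_pos _).le, ?_, ?_⟩
    · conv_rhs => rw [← Real.exp_log hσ]
      rw [Real.exp_le_exp, div_le_iff₀ (by positivity)]
      linarith
    · have d1 : Real.log σ + -(1 / L) ≤ (((L * ((A σ + θ) / L) - θ : ℤ) : ℝ)) / L ^ 2 := by
        rw [le_div_iff₀ (by positivity)]
        have : (Real.log σ + -(1 / L)) * L ^ 2 = L ^ 2 * Real.log σ - L := by field_simp; ring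
        linarith
      refine le_trans ?_ (Real.exp_le_exp.mpr d1)
      rw [Real.exp_add, Real.exp_log hσ]
      refine mul_le_mul_of_nonneg_left ?_ hσ.le
      have := Real.add_one_le_exp (-(1 / (L : ℝ)))
      have e1 : (2 : ℝ) / L = 2 * (1 / L) := by ring
      have e2 : (0 : ℝ) ≤ 1 / L := by positivity
      linarith
  · intro σ τ hσ hτ
    have hc1 : ((univ.filter fun θ : Fin L => (if σ = 0 then 0 else
        Real.exp (((L * ((A σ + θ) / L) - θ : ℤ) : ℝ) / L ^ 2)) ≠ (if τ = 0 then 0 else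
        Real.exp (((L * ((A τ + θ) / L) - θ : ℤ) : ℝ) / L ^ 2))).card : ℝ) / L ≤ 1 := by
      rw [div_le_one hL']
      exact_mod_cast (card_filter_le _ _).trans (by simp)
    by_cases h : 2 * τ < σ
    · have a1 : σ ≤ 2 * |σ - τ| := by rw [abs_of_nonneg (by linarith)]; linarith
      have a2 := mul_le_mul_of_nonneg_left hc1 hσ
      have a3 : 2 * |σ - τ| ≤ 2 * L * |σ - τ| := by nlinarith [abs_nonneg (σ - τ)]
      have a4 : 0 ≤ σ / L := by positivity
      linarith
    push Not at h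
    rcases hσ.eq_or_lt with rfl | hσ
    · simp only [zero_mul]; positivity
    have hτ' : 0 < τ := by linarith
    simp only [hσ.ne', hτ'.ne', if_false]
    have b1 : ((univ.filter fun θ : Fin L =>
        Real.exp (((L * ((A σ + θ) / L) - θ : ℤ) : ℝ) / L ^ 2) ≠
        Real.exp (((L * ((A τ + θ) / L) - θ : ℤ) : ℝ) / L ^ 2)).card : ℝ) ≤
        |(A σ : ℝ) - A τ| := by
      refine le_trans ?_ (count_shift L hL (A σ) (A τ))
      exact_mod_cast card_le_card (fun θ hθ => by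
        simp only [mem_filter, mem_univ, true_and] at hθ ⊢
        intro h'; exact hθ (by rw [h']))
    have b2 : |(A σ : ℝ) - A τ| ≤ L ^ 2 * |Real.log σ - Real.log τ| + 1 := by
      have c1 : (A σ : ℝ) ≤ L ^ 2 * Real.log σ := Int.floor_le _
      have c2 : L ^ 2 * Real.log σ < (A σ : ℝ) + 1 := Int.lt_floor_add_one _
      have c3 : (A τ : ℝ) ≤ L ^ 2 * Real.log τ := Int.floor_le _
      have c4 : L ^ 2 * Real.log τ < (A τ : ℝ) + 1 := Int.lt_floor_add_one _
      have c5 := mul_le_mul_of_nonneg_left (le_abs_self (Real.log σ - Real.log τ))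
        (sq_nonneg (L : ℝ))
      have c6 := mul_le_mul_of_nonneg_left (neg_abs_le (Real.log σ - Real.log τ))
        (sq_nonneg (L : ℝ))
      rw [abs_le]; constructor <;> nlinarith
    have b3 : σ * |Real.log σ - Real.log τ| ≤ 2 * |σ - τ| := by
      have c1 := Real.log_le_sub_one_of_pos (div_pos hσ hτ')
      have c2 := Real.log_le_sub_one_of_pos (div_pos hτ' hσ)
      rw [Real.log_div hσ.ne' hτ'.ne'] at c1
      rw [Real.log_div hτ'.ne' hσ.ne'] at c2
      have c3 := mul_le_mul_of_nonneg_left c1 hτ'.le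
      have c4 := mul_le_mul_of_nonneg_left c2 hσ.le
      rw [mul_sub τ (σ / τ), mul_div_cancel₀ _ hτ'.ne'] at c3
      rw [mul_sub σ (τ / σ), mul_div_cancel₀ _ hσ.ne'] at c4
      have c5 := le_abs_self (σ - τ)
      have c6 := neg_abs_le (σ - τ)
      rcases le_total 0 (Real.log σ - Real.log τ) with h0 | h0
      · rw [abs_of_nonneg h0]; nlinarith
      · rw [abs_of_nonpos h0]; nlinarith [abs_nonneg (σ - τ)]
    calc σ * (_ / L) ≤ σ * ((L ^ 2 * |Real.log σ - Real.log τ| + 1) / L) := by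
          gcongr; exact b1.trans b2
      _ = L * (σ * |Real.log σ - Real.log τ|) + σ / L := by field_simp
      _ ≤ L * (2 * |σ - τ|) + σ / L := by gcongr
      _ = _ := by ring

lemma geom_lower {y u N η : ℝ} {T : ℕ} (hN : 1 ≤ N) (hu : 1 ≤ u) (hy0 : 0 ≤ y)
    (hy : 1 - u / N ≤ y) (hT : (1 - 1 / N) ^ T ≤ η) :
    (1 - η) / u ≤ (∑ t ∈ range T, y ^ t) / N := by
  set y₀ := max 0 (1 - u / N) with hy₀
  have h0 : 0 ≤ y₀ := le_max_left _ _
  have h1 : y₀ ≤ y := max_le hy0 hy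
  have h2 : ∑ t ∈ range T, y₀ ^ t ≤ ∑ t ∈ range T, y ^ t :=
    sum_le_sum fun t _ => pow_le_pow_left₀ h0 h1 t
  have hN0 : 0 < N := by linarith
  have h3 : y₀ ≤ 1 - 1 / N := by
    refine max_le ?_ ?_
    · rw [sub_nonneg, div_le_one hN0]; exact hN
    · have : 1 / N ≤ u / N := by gcongr
      linarith
  have h4 : y₀ ^ T ≤ η := (pow_le_pow_left₀ h0 h3 T).trans hT
  have h5 := mul_neg_geom_sum y₀ T
  have h6 : 1 - y₀ ≤ u / N := by linarith [le_max_right 0 (1 - u / N)]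
  have h7 : 0 ≤ ∑ t ∈ range T, y₀ ^ t := sum_nonneg fun t _ => pow_nonneg h0 t
  have h8 := mul_le_mul_of_nonneg_right h6 h7
  rw [div_le_div_iff₀ (by linarith) hN0]
  have h9 : u / N * ∑ t ∈ range T, y₀ ^ t ≤ u / N * ∑ t ∈ range T, y ^ t :=
    mul_le_mul_of_nonneg_left h2 (by positivity)
  have h10 : 1 - η ≤ u / N * ∑ t ∈ range T, y ^ t := by linarith
  rw [div_mul_eq_mul_div, le_div_iff₀ hN0] at h10
  linarith

end Crest.Agent.H9.QP
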