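import Crest.Agent.H9.QPHell

/-! The integrated energy bound for one player. -/

namespace Crest.Agent.H9.QP

open Matrix Finset
open scoped ComplexOrder

variable {ι Ω : Type} [Fintype ι] [DecidableEq ι] [Fintype Ω] [DecidableEq Ω]
variable {DA DB : Type} [Fintype DA] [DecidableEq DA] [Fintype DB] [DecidableEq DB]
variable {μ : Ω → ℝ} {r r' : Ω → Ω → Prop} {K K' : Ω → Ω → ℝ}

omit [DecidableEq DA] [DecidableEq DB] in
lemma mul_cf_eq_tp (c : ℝ) (A : Matrix DA DB ℂ) (M : Matrix DA DA ℂ) (N : Matrix DB DB ℂ) :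
    c * cf A M A N = tp ((c : ℂ) • (A * Nᵀ * Aᴴ)) M := by
  rw [cf_eq_tp]; simp [tp]

omit [DecidableEq DA] [DecidableEq DB] in
lemma collapse2 (hK : Ker μ r K) (hK' : Ker μ r' K') {U U' : Finset ι} (hd : Disjoint U U')
    (Ψ : Matrix DA DB ℂ) (HA : (ι → Ω) → Matrix DA DA ℂ) (HB : (ι → Ω) → Matrix DB DB ℂ)
    (c : (ι → Ω) → ℝ) (hc : ∀ j ∈ U, Inv r c j) (hc' : ∀ j ∈ U', Inv r' c j)
    (hB : ∀ j ∈ U, Inv r HB j) (hA : ∀ j ∈ U', Inv r' HA j) :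
    ∑ ω, pw μ ω * (c ω * cf Ψ (cnd K U HA ω) Ψ (cnd K' U' HB ω)) =
      ∑ ω, pw μ ω * (c ω * cf Ψ (HA ω) Ψ (HB ω)) := by
  have h1 : ∑ ω, pw μ ω * (c ω * cf Ψ (cnd K U HA ω) Ψ (cnd K' U' HB ω)) =
      ∑ ω, pw μ ω * (c ω * cf Ψ (HA ω) Ψ (cnd K' U' HB ω)) := by
    simp only [mul_cf_eq_tp]
    refine collapse hK U HA fun j hj ω w hw => ?_
    rw [hc j hj ω w hw, cnd_inv_not_mem K' (disjoint_left.mp hd hj) (hB j hj) ω w hw]
  rw [h1]
  simp only [← cf_swap Ψ Ψ, mul_cf_eq_tp]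
  refine collapse hK' U' HB fun j hj ω w hw => ?_
  rw [hc' j hj ω w hw, hA j hj ω w hw]

omit [Fintype ι] [Fintype Ω] [DecidableEq Ω] in
lemma Inv.update {V : Type} {H : (ι → Ω) → V} {i j : ι} (h : Inv r H j) (hji : j ≠ i) (w : Ω) :
    Inv r (fun ω => H (Function.update ω i w)) j := by
  intro ω w' hw'
  dsimp only
  rw [Function.update_comm hji, h]
  rwa [Function.update_of_ne hji]

omit [DecidableEq DA] [DecidableEq DB] in
lemma collapse2_update (hK : Ker μ r K) (hK' : Ker μ r' K') {R U U' : Finset ι} {i : ι}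
    (hv : Valid R i U U') (w : Ω)
    (Ψ : Matrix DA DB ℂ) (HA : (ι → Ω) → Matrix DA DA ℂ) (HB : (ι → Ω) → Matrix DB DB ℂ)
    (c : (ι → Ω) → ℝ) (hc : ∀ j ∈ R, Inv r c j) (hc' : ∀ j ∈ R, Inv r' c j)
    (hB : ∀ j ∈ R, Inv r HB j) (hA : ∀ j ∈ R, Inv r' HA j) :
    ∑ ω, pw μ ω * (c ω * cf Ψ (cnd K U HA (Function.update ω i w)) Ψ
      (cnd K' U' HB (Function.update ω i w))) =
      ∑ ω, pw μ ω * (c ω * cf Ψ (HA (Function.update ω i w)) Ψ (HB (Function.update ω i w))) := by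
  have hiU : i ∉ U := fun h => by simpa using hv.2.1 h
  have hiU' : i ∉ U' := fun h => by simpa using hv.2.2.1 h
  simp only [cnd_update K hiU, cnd_update K' hiU']
  refine collapse2 hK hK' hv.2.2.2 Ψ _ _ c (fun j hj => hc j (mem_of_mem_erase (hv.2.1 hj)))
    (fun j hj => hc' j (mem_of_mem_erase (hv.2.2.1 hj))) (fun j hj => ?_) (fun j hj => ?_)
  · exact (hB j (mem_of_mem_erase (hv.2.1 hj))).update (ne_of_mem_erase (hv.2.1 hj)) w
  · exact (hA j (mem_of_mem_erase (hv.2.2.1 hj))).update (ne_of_mem_erase (hv.2.2.1 hj)) w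

omit [Fintype DA] in
lemma one_sub_psd_of_sum {Λ : Type} [Fintype Λ] {H : Λ → Matrix DA DA ℂ}
    (h0 : ∀ l, (H l).PosSemidef) (h1 : ∑ l, H l = 1) (l : Λ) : (1 - H l).PosSemidef := by
  classical
  rw [← h1, ← Finset.add_sum_erase _ _ (mem_univ l), add_sub_cancel_left]
  exact posSemidef_sum _ fun l _ => h0 l

theorem energy {ΛA ΛB : Type} [Fintype ΛA] [Fintype ΛB] (hμ0 : ∀ w, 0 ≤ μ w)
    (hμ1 : ∑ w, μ w = 1) (hK : Ker μ r K) (hK' : Ker μ r' K') (R : Finset ι) (hR : R.Nonempty)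
    (Ψ : Matrix DA DB ℂ) (hΨ : fn Ψ = 1) (HA : ΛA → (ι → Ω) → Matrix DA DA ℂ)
    (HB : ΛB → (ι → Ω) → Matrix DB DB ℂ) (hA0 : ∀ l ω, (HA l ω).PosSemidef)
    (hA1 : ∀ ω, ∑ l, HA l ω = 1) (hB0 : ∀ l ω, (HB l ω).PosSemidef)
    (hB1 : ∀ ω, ∑ l, HB l ω = 1) (c : ΛA → ΛB → (ι → Ω) → ℝ) (hc0 : ∀ la lb ω, 0 ≤ c la lb ω)
    (hc1 : ∀ la lb ω, c la lb ω ≤ 1) (hc : ∀ la lb, ∀ j ∈ R, Inv r (c la lb) j)
    (hc' : ∀ la lb, ∀ j ∈ R, Inv r' (c la lb) j) (hB : ∀ lb, ∀ j ∈ R, Inv r (HB lb) j)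
    (hA : ∀ la, ∀ j ∈ R, Inv r' (HA la) j) (f : ℝ)
    (hf : ∑ la, ∑ lb, ∑ ω, pw μ ω * (c la lb ω * cf Ψ (HA la ω) Ψ (HB lb ω)) = f) (hf0 : 0 < f) :
    ∃ (T : Type) (_ : Fintype T) (_ : DecidableEq T) (RA : Matrix DA DA ℂ → Matrix T DA ℂ),
      (∀ U la ω, (RA (cnd K U (HA la) ω))ᴴ * RA (cnd K U (HA la) ω) = cnd K U (HA la) ω) ∧
      ∑ i, ∑ U', ∑ U, wt R i U U' * ∑ la, ∑ lb, ∑ ω, pw μ ω * (c la lb ω *
        cf Ψ ((RA (cnd K U (HA la) ω) - RA (cnd K (insert i U) (HA la) ω))ᴴ *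
          (RA (cnd K U (HA la) ω) - RA (cnd K (insert i U) (HA la) ω))) Ψ
          (cnd K' U' (HB lb) ω)) ≤ 2 / R.card * (f * Real.log (Fintype.card ΛA / f)) := by
  classical
  let S : Finset (Matrix DA DA ℂ) :=
    univ.image (fun p : Finset ι × ΛA × (ι → Ω) => cnd K p.1 (HA p.2.1) p.2.2)
  have hSm : ∀ U la ω, cnd K U (HA la) ω ∈ S := fun U la ω =>
    mem_image.mpr ⟨(U, la, ω), mem_univ _, rfl⟩
  obtain ⟨T, iT, iT', RA, hR1, hR2⟩ := exists_roots S (by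
    intro E hE
    obtain ⟨p, -, rfl⟩ := mem_image.mp hE
    exact cnd_psd hK _ (hA0 _) _)
  refine ⟨T, iT, iT', RA, fun U la ω => hR1 _ (hSm U la ω), ?_⟩
  let ρ : Finset ι → ΛA × ΛB → (ι → Ω) → Matrix DA DA ℂ := fun U' l ω =>
    (c l.1 l.2 ω : ℂ) • (Ψ * (cnd K' U' (HB l.2) ω)ᵀ * Ψᴴ)
  have hρ0 : ∀ U' l ω, (ρ U' l ω).PosSemidef := fun U' l ω =>
    (((cnd_psd hK' U' (hB0 l.2) ω).transpose).mul_mul_conjTranspose_same Ψ).smul
      (by exact_mod_cast hc0 _ _ _)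
  have hρ : ∀ U' l, ∀ i ∈ R, i ∉ U' → Inv r (ρ U' l) i := by
    intro U' l i hi hiU ω w hw
    simp only [ρ]
    rw [hc _ _ i hi ω w hw, cnd_inv_not_mem K' hiU (hB _ i hi) ω w hw]
  have hfe : ∀ U', U' ⊆ R → ∑ l : ΛA × ΛB, ∑ ω, pw μ ω * tp (ρ U' l ω) (HA l.1 ω) = f := by
    intro U' hU'
    rw [← hf, Fintype.sum_prod_type]
    refine sum_congr rfl fun la _ => sum_congr rfl fun lb _ => ?_
    rw [← collapse2 hK hK' (disjoint_empty_left U') Ψ (HA la) (HB lb) (c la lb) (by simp)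
      (fun j hj => hc' _ _ j (hU' hj)) (by simp) (fun j hj => hA _ j (hU' hj))]
    simp only [ρ, ← mul_cf_eq_tp, cnd_empty]
  have hQ : ∀ U', ∑ l : ΛA × ΛB, ∑ ω, pw μ ω * tp (ρ U' l ω) 1 ≤ Fintype.card ΛA := by
    intro U'
    rw [Fintype.sum_prod_type]
    have : ∀ la, ∑ lb, ∑ ω, pw μ ω * tp (ρ U' (la, lb) ω) 1 ≤ 1 := by
      intro la
      rw [Finset.sum_comm, ← sum_pw (ι := ι) hμ1]
      refine sum_le_sum fun ω _ => ?_
      rw [← Finset.mul_sum]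
      refine mul_le_of_le_one_right (pw_nonneg hμ0 ω) ?_
      simp only [ρ, ← mul_cf_eq_tp]
      calc ∑ lb, c la lb ω * cf Ψ 1 Ψ (cnd K' U' (HB lb) ω)
          ≤ ∑ lb, cf Ψ 1 Ψ (cnd K' U' (HB lb) ω) := sum_le_sum fun lb _ =>
            mul_le_of_le_one_left (cf_nonneg Ψ PosSemidef.one (cnd_psd hK' U' (hB0 lb) ω))
              (hc1 _ _ _)
        _ = cf Ψ 1 Ψ (cnd K' U' (fun ω' => ∑ lb, HB lb ω') ω) := by
            rw [← cf_sum_N, cnd_sum]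
        _ ≤ cf Ψ 1 Ψ 1 := cf_mono_N Ψ PosSemidef.one (cnd_le_one hK' U' (fun ω' => by
            rw [hB1, sub_self]; exact PosSemidef.zero) ω)
        _ = 1 := by rw [← fn_sq_eq_cf, hΨ]; norm_num
    calc _ ≤ ∑ _la : ΛA, (1 : ℝ) := sum_le_sum fun la _ => this la
      _ = _ := by simp
  have hA1' : ∀ la ω, (1 - HA la ω).PosSemidef := fun la ω =>
    one_sub_psd_of_sum (fun l => hA0 l ω) (hA1 ω) la
  have hfQ : f ≤ Fintype.card ΛA := by
    refine le_trans ?_ (hQ ∅)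
    rw [← hfe ∅ (empty_subset _)]
    refine sum_le_sum fun l _ => sum_le_sum fun ω _ => mul_le_mul_of_nonneg_left ?_
      (pw_nonneg hμ0 ω)
    have := tp_nonneg (hρ0 ∅ l ω) (hA1' l.1 ω)
    rw [tp_sub] at this; linarith
  have key := en_integrated (Γ := ι × Finset ι × Finset ι × (ΛA × ΛB) × (ι → Ω)) RA
    (fun γ => wt R γ.1 γ.2.2.1 γ.2.1 * pw μ γ.2.2.2.2)
    (fun γ => ρ γ.2.1 γ.2.2.2.1 γ.2.2.2.2)
    (fun γ => cnd K γ.2.2.1 (HA γ.2.2.2.1.1) γ.2.2.2.2)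
    (fun γ => cnd K (insert γ.1 γ.2.2.1) (HA γ.2.2.2.1.1) γ.2.2.2.2)
    (fun γ => hR2 _ (hSm _ _ _) _ (hSm _ _ _) _) (2 / R.card * f) f (Fintype.card ΛA) hf0 hfQ
    (fun s hs => by
      have := tele_main (H := fun l : ΛA × ΛB => HA l.1) hμ0 hK R hR (fun l => hA0 l.1)
        (fun l => hA1' l.1) hρ0 hρ hf0 (hf0.trans_le hfQ) hfe (fun U' _ => hQ U') hs
      rw [mul_assoc]
      refine le_trans (le_of_eq ?_) this
      simp only [Fintype.sum_prod_type, Finset.mul_sum, mul_assoc])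
  rw [mul_assoc] at key
  refine le_trans (le_of_eq ?_) key
  simp only [Fintype.sum_prod_type, Finset.mul_sum, mul_assoc, mul_cf_eq_tp]
  rfl

omit [DecidableEq Ω] in
lemma ker_proj {Z : Type} [DecidableEq Z] (π : Ω → Z) (hμ0 : ∀ w, 0 ≤ μ w) :
    Ker μ (fun a b => π a = π b)
      (fun a b => if π a = π b then μ b / ∑ c, (if π c = π a then μ c else 0) else 0) := by
  have hs : ∀ a, 0 ≤ ∑ c, (if π c = π a then μ c else 0) := fun a =>
    sum_nonneg fun c _ => by split_ifs <;> simp [hμ0]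
  refine ⟨fun a b => ?_, fun a => ?_, fun b => ?_, fun a b h => ?_, fun a b h => ?_⟩
  · split_ifs
    · exact div_nonneg (hμ0 b) (hs a)
    · exact le_rfl
  · have : ∑ b, (if π a = π b then μ b / ∑ c, (if π c = π a then μ c else 0) else 0) =
        (∑ c, (if π c = π a then μ c else 0)) / ∑ c, (if π c = π a then μ c else 0) := by
      rw [Finset.sum_div]
      refine sum_congr rfl fun b _ => ?_
      by_cases h : π a = π b
      · rw [if_pos h, if_pos h.symm]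
      · rw [if_neg h, if_neg (Ne.symm h), zero_div]
    rw [this]; exact div_self_le_one _
  · have : ∑ a, μ a * (if π a = π b then μ b / ∑ c, (if π c = π a then μ c else 0) else 0) =
        (∑ c, (if π c = π b then μ c else 0)) * (μ b / ∑ c, (if π c = π b then μ c else 0)) := by
      rw [Finset.sum_mul]
      refine sum_congr rfl fun a _ => ?_
      by_cases h : π a = π b
      · rw [if_pos h, if_pos h, h]
      · rw [if_neg h, if_neg h]; simp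
    rw [this]
    rcases (hs b).eq_or_lt with h | h
    · have h2 : μ b ≤ ∑ c, (if π c = π b then μ c else 0) := by
        refine le_trans ?_ (single_le_sum (f := fun c => if π c = π b then μ c else 0)
          (fun c _ => by split_ifs <;> simp [hμ0]) (mem_univ b))
        simp
      have h3 : μ b = 0 := le_antisymm (h ▸ h2) (hμ0 b)
      simp [h3]
    · field_simp
  · by_contra h'
    exact h (if_neg h')
  · funext c
    simp only [h]

end Crest.Agent.H9.QP
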