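import Mathlib

/-! The outer conditioning argument for threshold parallel repetition. -/

namespace Crest.Agent.H9.QP

open Finset

variable {ι : Type} [Fintype ι] [DecidableEq ι]

/-- expectation over the set of `j` independent uniform samples -/
noncomputable def Ex : ℕ → (Finset ι → ℝ) → ℝ
  | 0, g => g ∅
  | j + 1, g => Ex j (fun C => (∑ i, g (insert i C)) / Fintype.card ι)

lemma Ex_mono (j : ℕ) (g g' : Finset ι → ℝ) (h : ∀ C, C.card ≤ j → g C ≤ g' C) :
    Ex j g ≤ Ex j g' := by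
  induction j generalizing g g' with
  | zero => exact h ∅ (by simp)
  | succ j ih =>
    refine ih _ _ fun C hC => div_le_div_of_nonneg_right (sum_le_sum fun i _ => h _ ?_)
      (Nat.cast_nonneg _)
    exact (card_insert_le _ _).trans (Nat.succ_le_succ hC)

lemma Ex_affine [Nonempty ι] (j : ℕ) (g : Finset ι → ℝ) (a b : ℝ) :
    Ex j (fun C => a * g C + b) = a * Ex j g + b := by
  induction j generalizing g with
  | zero => rfl
  | succ j ih =>
    have hk : (Fintype.card ι : ℝ) ≠ 0 := by positivity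
    simp only [Ex]
    rw [← ih]
    congr 1; funext C
    rw [sum_add_distrib, ← Finset.mul_sum]
    simp only [sum_const, card_univ, nsmul_eq_mul]
    field_simp

lemma Ex_sum {Z : Type} (s : Finset Z) (j : ℕ) (π : Z → ℝ) (g : Z → Finset ι → ℝ) :
    Ex j (fun C => ∑ z ∈ s, π z * g z C) = ∑ z ∈ s, π z * Ex j (g z) := by
  induction j generalizing g with
  | zero => rfl
  | succ j ih =>
    simp only [Ex]
    rw [← ih]
    congr 1; funext C
    rw [Finset.sum_comm, Finset.sum_div]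
    refine sum_congr rfl fun z _ => ?_
    rw [← Finset.mul_sum, mul_div_assoc]

lemma Ex_subset [Nonempty ι] (j : ℕ) (W : Finset ι) :
    Ex j (fun C => if C ⊆ W then (1 : ℝ) else 0) = ((W.card : ℝ) / Fintype.card ι) ^ j := by
  induction j with
  | zero => simp [Ex]
  | succ j ih =>
    simp only [Ex]
    have : (fun C : Finset ι => (∑ i, if insert i C ⊆ W then (1 : ℝ) else 0) / Fintype.card ι) =
        fun C => ((W.card : ℝ) / Fintype.card ι) * (if C ⊆ W then (1 : ℝ) else 0) + 0 := by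
      funext C
      by_cases h : C ⊆ W
      · simp [insert_subset_iff, h]
      · simp [insert_subset_iff, h]
    rw [this, Ex_affine, ih]; ring

lemma pt_bound {k n m j fC S A t₀ v a b L : ℝ} (hk0 : 0 < k) (hn : n = k - m) (hn2 : k / 2 ≤ n)
    (hm : 0 ≤ m) (hCj : m ≤ j) (h0 : 0 < fC) (hf1 : fC ≤ 1) (hA0 : 0 < A) (ht₀0 : 0 < t₀)
    (hv : 0 ≤ v) (ha : 0 ≤ a) (hb : 0 ≤ b) (hL : 0 ≤ L)
    (h1 : 1 / n * S ≤ fC * (v + a + b * Real.sqrt ((Real.log (1 / fC) + m * L) / n))) :
    (m * fC + S) / k ≤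
      (j / k + v + a + b * t₀ / 2 + b / (t₀ * k) * (Real.log (1 / A) - 1 + j * L)) * fC +
        b / (t₀ * k) * A := by
  have hn0 : 0 < n := by linarith
  have hj : 0 ≤ j := hm.trans hCj
  simp only [one_div] at h1
  rw [inv_mul_le_iff₀ hn0] at h1
  set y := (Real.log fC⁻¹ + m * L) / n with hy
  have hlog0 : 0 ≤ Real.log fC⁻¹ := Real.log_nonneg ((one_le_inv₀ h0).mpr hf1)
  have hy0 : 0 ≤ y := by positivity
  have hy1 : y ≤ (Real.log fC⁻¹ + j * L) * 2 / k := by
    rw [hy, div_le_div_iff₀ hn0 hk0]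
    have a1 : m * L ≤ j * L := mul_le_mul_of_nonneg_right hCj hL
    have a2 : 0 ≤ Real.log fC⁻¹ + j * L := by positivity
    have a3 := mul_le_mul_of_nonneg_left hn2 a2
    have a4 := mul_le_mul_of_nonneg_right a1 hk0.le
    linarith
  have hsq : Real.sqrt y ≤ (y / t₀ + t₀) / 2 := by
    have a1 := Real.sq_sqrt hy0
    have a2 : (y / t₀ + t₀) / 2 - Real.sqrt y = (Real.sqrt y - t₀) ^ 2 / (2 * t₀) := by
      field_simp; linarith
    have a3 : 0 ≤ (Real.sqrt y - t₀) ^ 2 / (2 * t₀) := by positivity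
    linarith
  have hent : fC * Real.log fC⁻¹ ≤ fC * Real.log (1 / A) + A - fC := by
    have a1 := Real.log_le_sub_one_of_pos (show 0 < A / fC by positivity)
    rw [Real.log_div hA0.ne' h0.ne'] at a1
    have a2 := mul_le_mul_of_nonneg_left a1 h0.le
    rw [mul_sub, mul_sub, mul_div_cancel₀ _ h0.ne'] at a2
    rw [one_div, Real.log_inv, Real.log_inv]; linarith
  have hs0 : 0 ≤ fC * (v + a + b * Real.sqrt y) := by positivity
  have h3 : n * (fC * (v + a + b * Real.sqrt y)) ≤ k * (fC * (v + a + b * Real.sqrt y)) :=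
    mul_le_mul_of_nonneg_right (by linarith) hs0
  have h4 : fC * (b * Real.sqrt y) ≤ fC * (b * t₀ / 2) +
      b / (t₀ * k) * (fC * Real.log (1 / A) + A - fC + j * L * fC) := by
    have a1 : fC * y ≤ (fC * Real.log (1 / A) + A - fC + j * L * fC) * 2 / k := by
      calc fC * y ≤ fC * ((Real.log fC⁻¹ + j * L) * 2 / k) :=
            mul_le_mul_of_nonneg_left hy1 h0.le
        _ = (fC * Real.log fC⁻¹ + j * L * fC) * 2 / k := by ring
        _ ≤ _ := by gcongr
    calc fC * (b * Real.sqrt y) ≤ fC * (b * ((y / t₀ + t₀) / 2)) := by gcongr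
      _ = fC * (b * t₀ / 2) + b / (2 * t₀) * (fC * y) := by field_simp; ring
      _ ≤ fC * (b * t₀ / 2) + b / (2 * t₀) *
          ((fC * Real.log (1 / A) + A - fC + j * L * fC) * 2 / k) := by gcongr
      _ = _ := by field_simp
  rw [div_le_iff₀ hk0]
  have h5 : m * fC ≤ j * fC := mul_le_mul_of_nonneg_right hCj h0.le
  have h6 := mul_le_mul_of_nonneg_left h4 hk0.le
  have h7 : ((j / k + v + a + b * t₀ / 2 + b / (t₀ * k) * (Real.log (1 / A) - 1 + j * L)) * fC +
      b / (t₀ * k) * A) * k = j * fC + k * (fC * (v + a)) + k * (fC * (b * t₀ / 2) +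
      b / (t₀ * k) * (fC * Real.log (1 / A) + A - fC + j * L * fC)) := by
    field_simp; ring
  rw [h7]; linarith

lemma log_bound {k u δ E L A : ℝ} {j : ℕ} (hk0 : 0 < k) (hu0 : 0 < u) (hu : u ≤ 1) (hδ : 0 < δ)
    (hδ1 : δ ≤ 1) (hE : 0 < E) (hL : 0 ≤ L) (hj : (j : ℝ) < 2 * u * E / δ)
    (hA1 : Real.exp (-E) * u ^ j ≤ A) :
    Real.log (1 / A) + j * L ≤ 6 * (1 + L) * E / (δ * k) * k / 2 := by
  have hpos : 0 < Real.exp (-E) * u ^ j := by positivity
  have hj2 : (j : ℝ) ≤ 2 * E / δ := by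
    refine hj.le.trans (div_le_div_of_nonneg_right ?_ hδ.le)
    nlinarith
  have h1 : Real.log (1 / A) ≤ E + j * Real.log (1 / u) := by
    have := Real.log_le_log hpos hA1
    rw [Real.log_mul (Real.exp_pos _).ne' (by positivity), Real.log_exp, Real.log_pow] at this
    rw [one_div, one_div, Real.log_inv, Real.log_inv]; linarith
  have h2 : Real.log (1 / u) ≤ 1 / u - 1 := Real.log_le_sub_one_of_pos (by positivity)
  have h2' : 0 ≤ 1 / u - 1 := by
    rw [sub_nonneg, le_div_iff₀ hu0]; linarith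
  have h3 : (j : ℝ) * Real.log (1 / u) ≤ 2 * E / δ := by
    calc (j : ℝ) * Real.log (1 / u) ≤ j * (1 / u - 1) :=
          mul_le_mul_of_nonneg_left h2 (Nat.cast_nonneg _)
      _ ≤ 2 * u * E / δ * (1 / u - 1) := mul_le_mul_of_nonneg_right hj.le h2'
      _ = 2 * E / δ * (1 - u) := by field_simp
      _ ≤ 2 * E / δ := mul_le_of_le_one_right (by positivity) (by linarith)
  have h4 : E ≤ E / δ := by rw [le_div_iff₀ hδ]; nlinarith
  have h5 : (j : ℝ) * L ≤ 2 * E / δ * L := mul_le_mul_of_nonneg_right hj2 hL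
  have h6 : 6 * (1 + L) * E / (δ * k) * k / 2 = 3 * (E / δ) + 3 * (E / δ * L) := by
    field_simp; ring
  have h7 : 0 ≤ E / δ * L := by positivity
  have h8 : 2 * E / δ = 2 * (E / δ) := by ring
  rw [h6]; rw [h8] at h3 h5; linarith

theorem outer [Nonempty ι] {Z : Type} [Fintype Z] (π : Z → ℝ) (hπ : ∀ z, 0 ≤ π z)
    (hπ1 : ∑ z, π z ≤ 1) (W : Z → Finset ι) (f : Finset ι → ℝ)
    (hf : ∀ C, f C = ∑ z, π z * if C ⊆ W z then 1 else 0) (v δ L E a b : ℝ) (hv : 0 ≤ v)
    (hδ : 0 < δ) (hu : v + δ ≤ 1) (hL : 0 ≤ L) (hE : 0 < E) (ha : 0 ≤ a) (hb : 0 ≤ b)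
    (hEk : E ≤ δ ^ 2 * Fintype.card ι / 16)
    (hab : a + b * Real.sqrt (6 * (1 + L) * E / (δ * Fintype.card ι)) ≤ 3 * δ / 8)
    (H : ∀ C : Finset ι, Cᶜ.Nonempty → 0 < f C →
      ∑ i ∈ Cᶜ, 1 / (Cᶜ.card : ℝ) * f (insert i C) ≤
        f C * (v + a + b * Real.sqrt ((Real.log (1 / f C) + C.card * L) / Cᶜ.card))) :
    ∑ z, π z * (if (v + δ) * Fintype.card ι ≤ ((W z).card : ℝ) then 1 else 0) ≤ Real.exp (-E) := by
  set p := ∑ z, π z * (if (v + δ) * Fintype.card ι ≤ ((W z).card : ℝ) then 1 else 0) with hp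
  set k : ℝ := (Fintype.card ι : ℝ) with hk
  have hk0 : 0 < k := by rw [hk]; positivity
  set u := v + δ with hu_def
  have hu0 : 0 < u := by positivity
  by_contra hcon
  push Not at hcon
  have hf0 : ∀ C, 0 ≤ f C := fun C => by
    rw [hf]; exact sum_nonneg fun z _ => mul_nonneg (hπ z) (by split_ifs <;> simp)
  have hf1 : ∀ C, f C ≤ 1 := fun C => by
    rw [hf]
    exact le_trans (sum_le_sum fun z _ => mul_le_of_le_one_right (hπ z) (by split_ifs <;> simp)) hπ1
  have hfm : ∀ C i, f (insert i C) ≤ f C := fun C i => by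
    rw [hf, hf]
    refine sum_le_sum fun z _ => mul_le_mul_of_nonneg_left ?_ (hπ z)
    by_cases h : insert i C ⊆ W z
    · rw [if_pos h, if_pos ((subset_insert _ _).trans h)]
    · rw [if_neg h]; split_ifs <;> simp
  have hlow : ∀ j, p * u ^ j ≤ Ex j f := by
    intro j
    have : f = fun C => ∑ z, π z * (fun z C => if C ⊆ W z then (1 : ℝ) else 0) z C := funext hf
    rw [this, Ex_sum, hp, Finset.sum_mul]
    refine sum_le_sum fun z _ => ?_
    rw [Ex_subset, mul_assoc]
    refine mul_le_mul_of_nonneg_left ?_ (hπ z)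
    split_ifs with h
    · rw [one_mul]
      exact pow_le_pow_left₀ hu0.le ((le_div_iff₀ hk0).mpr h) j
    · rw [zero_mul]; positivity
  set t₀ := Real.sqrt (6 * (1 + L) * E / (δ * k)) with ht₀
  have ht₀0 : 0 < t₀ := Real.sqrt_pos.mpr (by positivity)
  have ht₀2 : t₀ ^ 2 = 6 * (1 + L) * E / (δ * k) := Real.sq_sqrt (by positivity)
  have hstep : ∀ j : ℕ, (j : ℝ) < 2 * u * E / δ → Ex (j + 1) f ≤ (v + δ / 2) * Ex j f := by
    intro j hj
    set A := Ex j f with hA
    have hpos : 0 < Real.exp (-E) * u ^ j := by positivity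
    have hA1 : Real.exp (-E) * u ^ j ≤ A :=
      le_trans (mul_le_mul_of_nonneg_right hcon.le (by positivity)) (hlow j)
    have hA0 : 0 < A := hpos.trans_le hA1
    have hj2 : (j : ℝ) ≤ 2 * E / δ := by
      refine hj.le.trans (div_le_div_of_nonneg_right ?_ hδ.le)
      nlinarith
    have hjk : (j : ℝ) ≤ δ * k / 8 := by
      refine hj2.trans ?_
      rw [div_le_iff₀ hδ]; nlinarith
    have hδ1 : δ ≤ 1 := by linarith
    have hlogA : Real.log (1 / A) + j * L ≤ t₀ ^ 2 * k / 2 := by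
      rw [ht₀2]
      exact log_bound hk0 hu0 hu hδ hδ1 hE hL hj hA1
    have hpt : ∀ C : Finset ι, C.card ≤ j → (∑ i, f (insert i C)) / Fintype.card ι ≤
        (j / k + v + a + b * t₀ / 2 + b / (t₀ * k) * (Real.log (1 / A) - 1 + j * L)) * f C +
          b / (t₀ * k) * A := by
      intro C hC
      rcases (hf0 C).eq_or_lt with h0 | h0
      · have : ∑ i, f (insert i C) = 0 := sum_eq_zero fun i _ =>
          le_antisymm (h0 ▸ hfm C i) (hf0 _)
        rw [this, ← h0]; simp only [zero_div, mul_zero, zero_add]; positivity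
      have hCj : (C.card : ℝ) ≤ j := by exact_mod_cast hC
      have hn : (Cᶜ.card : ℝ) = k - C.card := by
        rw [card_compl, Nat.cast_sub (card_le_univ C)]
      have hn2 : k / 2 ≤ (Cᶜ.card : ℝ) := by rw [hn]; nlinarith
      have hn0 : (0 : ℝ) < Cᶜ.card := by linarith
      have hne : Cᶜ.Nonempty := card_pos.mp (by exact_mod_cast hn0)
      have h1 := H C hne h0
      rw [← Finset.mul_sum] at h1
      have h2 : ∑ i, f (insert i C) = C.card * f C + ∑ i ∈ Cᶜ, f (insert i C) := by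
        rw [← sum_add_sum_compl C, sum_congr rfl (fun i hi => by rw [insert_eq_of_mem hi])]
        simp
      rw [h2, ← hk]
      exact pt_bound hk0 hn hn2 (Nat.cast_nonneg _) hCj h0 (hf1 C) hA0 ht₀0 hv ha hb hL h1
    have h1 := Ex_mono j _ _ hpt
    rw [Ex_affine, ← hA] at h1
    refine le_trans h1 ?_
    have h2 : b / (t₀ * k) * (Real.log (1 / A) + j * L) ≤ b * t₀ / 2 := by
      calc b / (t₀ * k) * (Real.log (1 / A) + j * L) ≤ b / (t₀ * k) * (t₀ ^ 2 * k / 2) :=
            mul_le_mul_of_nonneg_left hlogA (by positivity)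
        _ = _ := by field_simp
    have h3 : (j : ℝ) / k ≤ δ / 8 := by rw [div_le_iff₀ hk0]; linarith
    have h4 : j / k + v + a + b * t₀ / 2 + b / (t₀ * k) * (Real.log (1 / A) + j * L) ≤
        v + δ / 2 := by linarith
    have h5 := mul_le_mul_of_nonneg_right h4 hA0.le
    linarith
  set t := ⌈2 * u * E / δ⌉₊ with ht
  have hind : ∀ j, j ≤ t → Ex j f ≤ (v + δ / 2) ^ j := by
    intro j hj
    induction j with
    | zero => simpa [Ex] using hf1 ∅
    | succ j ih =>
      have h1 := hstep j (Nat.lt_ceil.mp (Nat.lt_of_succ_le hj))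
      have h2 := ih (Nat.le_of_succ_le hj)
      calc Ex (j + 1) f ≤ (v + δ / 2) * Ex j f := h1
        _ ≤ (v + δ / 2) * (v + δ / 2) ^ j := mul_le_mul_of_nonneg_left h2 (by positivity)
        _ = _ := by ring
  have h1 := (hlow t).trans (hind t le_rfl)
  have h2 : v + δ / 2 ≤ u * Real.exp (-(δ / (2 * u))) := by
    have := Real.add_one_le_exp (-(δ / (2 * u)))
    calc v + δ / 2 = u * (-(δ / (2 * u)) + 1) := by rw [hu_def]; field_simp; ring
      _ ≤ _ := mul_le_mul_of_nonneg_left this hu0.le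
  have h3 : (v + δ / 2) ^ t ≤ u ^ t * Real.exp (-E) := by
    calc (v + δ / 2) ^ t ≤ (u * Real.exp (-(δ / (2 * u)))) ^ t :=
          pow_le_pow_left₀ (by positivity) h2 t
      _ = u ^ t * Real.exp (t * -(δ / (2 * u))) := by rw [mul_pow, Real.exp_nat_mul]
      _ ≤ _ := by
          refine mul_le_mul_of_nonneg_left (Real.exp_le_exp.mpr ?_) (by positivity)
          have := Nat.le_ceil (2 * u * E / δ)
          rw [← ht, div_le_iff₀ hδ] at this
          rw [mul_neg, neg_le_neg_iff, mul_div_assoc', le_div_iff₀ (by positivity)]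
          linarith
  have h4 : Real.exp (-E) * u ^ t < p * u ^ t := mul_lt_mul_of_pos_right hcon (by positivity)
  linarith

end Crest.Agent.H9.QP
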