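import Crest.Agent.H9.QPDom
import Crest.Agent.H9.QPDep
import Crest.Agent.H9.QPOuter

/-! Reduction of threshold parallel repetition to a one-shot simulation bound. -/

namespace Crest.Agent.H9.QP

open Matrix Finset
open scoped ComplexOrder
open Crest.MathPhysics.NonlocalGame

/-- one-shot simulation bound -/
def SimHyp (G : Game) (v a b : ℝ) : Prop :=
  ∀ (P Q : Type) [Fintype P] [Fintype Q] [DecidableEq P] [DecidableEq Q]
    (Φ : Fin G.nX → Fin G.nY → Matrix P Q ℂ) (g : Fin G.nX → Matrix P Q ℂ)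
    (h : Fin G.nY → Matrix P Q ℂ) (M : Fin G.nX → Fin G.nA → Matrix P P ℂ)
    (N : Fin G.nY → Fin G.nB → Matrix Q Q ℂ), (∀ x, IsPOVM (M x)) → (∀ y, IsPOVM (N y)) →
    ∀ x : ℝ, 0 ≤ x →
    ∑ w : Fin G.nX × Fin G.nY, G.prob w.1 w.2 * fn (Φ w.1 w.2) ^ 2 = 1 →
    ∑ w : Fin G.nX × Fin G.nY, G.prob w.1 w.2 * fn (Φ w.1 w.2 - g w.1) ^ 2 ≤ 2 * x →
    ∑ w : Fin G.nX × Fin G.nY, G.prob w.1 w.2 * fn (Φ w.1 w.2 - h w.2) ^ 2 ≤ 2 * x →
    ∑ w : Fin G.nX × Fin G.nY, G.prob w.1 w.2 * (fn (Φ w.1 w.2) - 1) ^ 2 ≤ 2 * x →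
    ∑ w : Fin G.nX × Fin G.nY, G.prob w.1 w.2 *
      wf (G.accept w.1 w.2) (M w.1) (N w.2) (Φ w.1 w.2) (Φ w.1 w.2) ≤ v + a + b * Real.sqrt x

lemma answers_nonempty (G : Game) {k dA dB : ℕ} (S : Strategy G k dA dB) (hk : 1 ≤ k) :
    Nonempty (Fin G.nA) ∧ Nonempty (Fin G.nB) := by
  have hd : Nonempty (Fin dA × Fin dB) := by
    by_contra h
    rw [not_nonempty_iff] at h
    have := S.ψ_norm
    simp at this
  obtain ⟨p, q⟩ := hd
  have hw : Nonempty (Fin G.nX × Fin G.nY) := by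
    by_contra h
    rw [not_nonempty_iff] at h
    have := G.prob_sum
    rw [← Fintype.sum_prod_type'] at this
    simp at this
  obtain ⟨x, y⟩ := hw
  have : Nonempty (Fin k) := ⟨⟨0, hk⟩⟩
  constructor
  · by_contra h
    rw [not_nonempty_iff] at h
    have := congrFun (congrFun (S.M_sum fun _ => x) p) p
    simp at this
  · by_contra h
    rw [not_nonempty_iff] at h
    have := congrFun (congrFun (S.N_sum fun _ => y) q) q
    simp at this

lemma main_step (G : Game) [Nonempty (Fin G.nA)] [Nonempty (Fin G.nB)] {v a b : ℝ}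
    (hsim : SimHyp G v a b) {ι DA DB : Type} [Fintype ι] [DecidableEq ι] [Fintype DA]
    [DecidableEq DA] [Fintype DB] [DecidableEq DB] {Ψ : Matrix DA DB ℂ}
    {A : (ι → Fin G.nX) → (ι → Fin G.nA) → Matrix DA DA ℂ}
    {B : (ι → Fin G.nY) → (ι → Fin G.nB) → Matrix DB DB ℂ}
    (hΨ : fn Ψ = 1) (hA : ∀ x, IsPOVM (A x)) (hB : ∀ y, IsPOVM (B y))
    (C : Finset ι) (hC : Cᶜ.Nonempty) (f : Finset ι → ℝ)
    (hf : ∀ C, fW (fun w => G.prob w.1 w.2) G.accept Ψ A B C = f C) (hf0 : 0 < f C) :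
    ∑ i ∈ Cᶜ, 1 / (Cᶜ.card : ℝ) * f (insert i C) ≤
      f C * (v + a + b * Real.sqrt ((Real.log (1 / f C) +
        C.card * Real.log ((G.nA * G.nB : ℕ) : ℝ)) / Cᶜ.card)) := by
  have hμ0 : ∀ w : Fin G.nX × Fin G.nY, 0 ≤ G.prob w.1 w.2 := fun w => G.prob_nonneg _ _
  have hμ1 : ∑ w : Fin G.nX × Fin G.nY, G.prob w.1 w.2 = 1 := by
    rw [Fintype.sum_prod_type]; exact G.prob_sum
  obtain ⟨P, Q, i1, i2, i3, i4, Φ, g, h, M, N, hM, hN, e0, e1, e2, e3, e4⟩ :=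
    dep_break (acc := G.accept) hμ0 hμ1 hΨ hA hB C hC (f C) (hf C) hf0
  simp only [hf, Fintype.card_fin] at e0 e2 e3
  have hf1 : f C ≤ 1 := by
    rw [← hf]
    unfold fW
    rw [← sum_pw (ι := ι) hμ1]
    exact sum_le_sum fun ω _ => mul_le_of_le_one_right (pw_nonneg hμ0 ω) (Fw_le_one hΨ hA hB C ω)
  have hnA : (1 : ℝ) ≤ G.nA := by
    have := Fin.pos_iff_nonempty.mpr ‹Nonempty (Fin G.nA)›
    exact_mod_cast this
  have hnB : (1 : ℝ) ≤ G.nB := by
    have := Fin.pos_iff_nonempty.mpr ‹Nonempty (Fin G.nB)›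
    exact_mod_cast this
  have hlA := Real.log_nonneg hnA
  have hlB := Real.log_nonneg hnB
  have hn0 : (0 : ℝ) < Cᶜ.card := by exact_mod_cast hC.card_pos
  have hl0 : 0 ≤ Real.log (1 / f C) := Real.log_nonneg ((one_le_div hf0).mpr hf1)
  have hL : Real.log ((G.nA * G.nB : ℕ) : ℝ) = Real.log G.nA + Real.log G.nB := by
    rw [Nat.cast_mul, Real.log_mul (by positivity) (by positivity)]
  have hm : (0 : ℝ) ≤ C.card := Nat.cast_nonneg _
  set x := (Real.log (1 / f C) + C.card * Real.log ((G.nA * G.nB : ℕ) : ℝ)) / Cᶜ.card with hx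
  have hx0 : 0 ≤ x := by rw [hx, hL]; positivity
  set c : ℝ := (Real.sqrt (f C))⁻¹ with hc
  have hc0 : 0 < c := inv_pos.mpr (Real.sqrt_pos.mpr hf0)
  have hc2 : c ^ 2 * f C = 1 := by
    rw [hc, inv_pow, Real.sq_sqrt hf0.le, inv_mul_cancel₀ hf0.ne']
  have hb : ∀ t : ℝ, t ≤ Real.log (1 / f C) + C.card * Real.log ((G.nA * G.nB : ℕ) : ℝ) →
      c ^ 2 * (2 / Cᶜ.card * (f C * t)) ≤ 2 * x := by
    intro t ht
    calc c ^ 2 * (2 / Cᶜ.card * (f C * t)) = (c ^ 2 * f C) * (2 * (t / Cᶜ.card)) := by ring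
      _ = 2 * (t / Cᶜ.card) := by rw [hc2, one_mul]
      _ ≤ 2 * x := by rw [hx]; gcongr
  have hlog : ∀ n : ℝ, 0 < n → Real.log (n ^ C.card / f C) =
      Real.log (1 / f C) + C.card * Real.log n := by
    intro n hn
    rw [Real.log_div (by positivity) hf0.ne', Real.log_pow, one_div, Real.log_inv]; ring
  have hsc : ∀ (T : Fin G.nX × Fin G.nY → Matrix P Q ℂ),
      ∑ w : Fin G.nX × Fin G.nY, G.prob w.1 w.2 * fn ((c : ℂ) • T w) ^ 2 =
        c ^ 2 * ∑ w : Fin G.nX × Fin G.nY, G.prob w.1 w.2 * fn (T w) ^ 2 := by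
    intro T
    rw [Finset.mul_sum]
    refine sum_congr rfl fun w _ => ?_
    rw [fn_smul, abs_of_pos hc0]; ring
  have key := hsim P Q (fun x y => (c : ℂ) • Φ x y) (fun x => (c : ℂ) • g x)
    (fun y => (c : ℂ) • h y) M N hM hN x hx0 (by rw [hsc (fun w => Φ w.1 w.2), e1, hc2])
    (by
      simp only [← smul_sub]
      rw [hsc (fun w => Φ w.1 w.2 - g w.1)]
      refine le_trans (mul_le_mul_of_nonneg_left e2 (sq_nonneg _)) (hb _ ?_)
      rw [hlog _ (by linarith), hL]; nlinarith)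
    (by
      simp only [← smul_sub]
      rw [hsc (fun w => Φ w.1 w.2 - h w.2)]
      refine le_trans (mul_le_mul_of_nonneg_left e3 (sq_nonneg _)) (hb _ ?_)
      rw [hlog _ (by linarith), hL]; nlinarith)
    (by
      refine le_trans (le_of_eq ?_) (le_trans (mul_le_mul_of_nonneg_left e4 (sq_nonneg c))
        (hb _ (by rw [hL]; nlinarith)))
      rw [Finset.mul_sum]
      refine sum_congr rfl fun w _ => ?_
      rw [fn_smul, abs_of_pos hc0]
      have : c * Real.sqrt (f C) = 1 := inv_mul_cancel₀ (Real.sqrt_pos.mpr hf0).ne'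
      linear_combination (G.prob w.1 w.2 * (2 * c * fn (Φ w.1 w.2) - 1 - c * Real.sqrt (f C))) * this)
  simp only [wf_smul_left, wf_smul_right] at key
  have : ∑ w : Fin G.nX × Fin G.nY, G.prob w.1 w.2 * (c * (c *
      wf (G.accept w.1 w.2) (M w.1) (N w.2) (Φ w.1 w.2) (Φ w.1 w.2))) =
      c ^ 2 * ∑ i ∈ Cᶜ, 1 / (Cᶜ.card : ℝ) * f (insert i C) := by
    rw [← e0, Finset.mul_sum]
    exact sum_congr rfl fun w _ => by ring
  rw [this] at key
  have := mul_le_mul_of_nonneg_left key hf0.le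
  rwa [← mul_assoc, mul_comm (f C), hc2, one_mul] at this

theorem reduce (G : Game) (v : ℝ)
    (hv : ∀ (dA dB : ℕ) (S : Strategy G 1 dA dB), S.probWinsAtLeast 1 ≤ v) (δ : ℝ) (hδ : 0 < δ)
    (hδv : δ < 1 - v) (k dA dB : ℕ) (S : Strategy G k dA dB) (hk : 1 ≤ k) (a b E : ℝ)
    (ha : 0 ≤ a) (hb : 0 ≤ b) (hE : 0 < E) (hEk : E ≤ δ ^ 2 * k / 16)
    (hab : a + b * Real.sqrt (6 * (1 + Real.log ((G.nA * G.nB : ℕ) : ℝ)) * E / (δ * k)) ≤
      3 * δ / 8) (hsim : SimHyp G v a b) :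
    S.probWinsAtLeast ((v + δ) * k) ≤ Real.exp (-E) := by
  obtain ⟨hA0, hB0⟩ := answers_nonempty G S hk
  have : Nonempty (Fin k) := ⟨⟨0, hk⟩⟩
  have hv0 : 0 ≤ v := by
    have := hv_of_game G v hv _ QDom.zero
    simpa [pval] using this
  have hμ0 : ∀ w : Fin G.nX × Fin G.nY, 0 ≤ G.prob w.1 w.2 := fun w => G.prob_nonneg _ _
  have hμ1 : ∑ w : Fin G.nX × Fin G.nY, G.prob w.1 w.2 = 1 := by
    rw [Fintype.sum_prod_type]; exact G.prob_sum
  let Ψ : Matrix (Fin dA) (Fin dB) ℂ := Matrix.of fun i j => S.ψ (i, j)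
  have hΨ : fn Ψ = 1 := by
    have h1 : fn Ψ ^ 2 = 1 := by
      rw [fn_sq_eq_sum, ← S.ψ_norm, Fintype.sum_prod_type]; rfl
    have h0 := fn_nonneg Ψ
    nlinarith
  have hA : ∀ x, IsPOVM (S.M x) := fun x => ⟨S.M_posSemidef x, S.M_sum x⟩
  have hB : ∀ y, IsPOVM (S.N y) := fun y => ⟨S.N_posSemidef y, S.N_sum y⟩
  let π : (Fin k → Fin G.nX × Fin G.nY) × (Fin k → Fin G.nA) × (Fin k → Fin G.nB) → ℝ := fun z =>
    pw (fun w : Fin G.nX × Fin G.nY => G.prob w.1 w.2) z.1 *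
      cf Ψ (S.M (fun j => (z.1 j).1) z.2.1) Ψ (S.N (fun j => (z.1 j).2) z.2.2)
  let W : (Fin k → Fin G.nX × Fin G.nY) × (Fin k → Fin G.nA) × (Fin k → Fin G.nB) →
      Finset (Fin k) := fun z =>
    univ.filter fun j => G.accept (z.1 j).1 (z.1 j).2 (z.2.1 j) (z.2.2 j) = true
  have hL : 0 ≤ Real.log ((G.nA * G.nB : ℕ) : ℝ) := Real.log_natCast_nonneg _
  have key := outer π (fun z => mul_nonneg (pw_nonneg hμ0 _)
      (cf_nonneg Ψ (S.M_posSemidef _ _) (S.N_posSemidef _ _)))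
    (by
      simp only [π, Fintype.sum_prod_type, ← Finset.mul_sum, sum_cf_povm hΨ hA hB, mul_one]
      exact (sum_pw hμ1).le) W
    (fW (fun w => G.prob w.1 w.2) G.accept Ψ S.M S.N)
    (by
      intro C
      unfold fW Fw
      simp only [π, W, Fintype.sum_prod_type, Finset.mul_sum]
      refine sum_congr rfl fun ω _ => sum_congr rfl fun a _ => sum_congr rfl fun b _ => ?_
      have : (C ⊆ univ.filter fun j => G.accept (ω j).1 (ω j).2 (a j) (b j) = true) ↔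
          ∀ j ∈ C, G.accept (ω j).1 (ω j).2 (a j) (b j) = true := by
        simp [subset_iff]
      simp only [this]; ring)
    v δ (Real.log ((G.nA * G.nB : ℕ) : ℝ)) E a b hv0 hδ (by linarith) hL hE ha hb
    (by simpa using hEk) (by simpa using hab)
    (fun C hC hf0 => main_step G hsim hΨ hA hB C hC _ (fun _ => rfl) hf0)
  refine le_trans (le_of_eq ?_) key
  unfold Strategy.probWinsAtLeast
  rw [← Fintype.sum_prod_type', Fintype.sum_prod_type (α₁ := Fin k → Fin G.nX × Fin G.nY),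
    ← (Equiv.arrowProdEquivProdArrow (Fin k) (fun _ => Fin G.nX) (fun _ => Fin G.nY)).sum_comp]
  refine sum_congr rfl fun ω _ => ?_
  rw [Fintype.sum_prod_type, Finset.mul_sum]
  refine sum_congr rfl fun a _ => ?_
  rw [Finset.mul_sum]
  refine sum_congr rfl fun b _ => ?_
  simp only [π, W, Strategy.answerProb, answer_eq_cf, wins, Fintype.card_fin, pw,
    Equiv.arrowProdEquivProdArrow_apply]
  split_ifs <;> simp [Ψ]

end Crest.Agent.H9.QP
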