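import Crest.Agent.H9.QPSim6
import Crest.Agent.H9.QPMain

/-! The one-shot simulation bound for arbitrary question distributions. -/

namespace Crest.Agent.H9.QP

open Matrix Finset
open scoped ComplexOrder
open Crest.MathPhysics.NonlocalGame

lemma unit_close {P Q : Type} [Fintype P] [Fintype Q] (G g Φ : Matrix P Q ℂ)
    (h : fn (G - g) = |fn g - 1|) :
    fn (G - Φ) ^ 2 ≤ 8 * fn (Φ - g) ^ 2 + 2 * (fn Φ - 1) ^ 2 := by
  have a2 := fn_sub_le G g Φ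
  rw [h, fn_sub_rev g] at a2
  have a3 := abs_fn_sub_fn_le Φ g
  have a4 : |fn g - 1| ≤ fn (Φ - g) + |fn Φ - 1| := by
    have := abs_sub_le (fn g) (fn Φ) 1
    rw [abs_sub_comm (fn g) (fn Φ)] at this
    linarith
  have a5 : fn (G - Φ) ≤ 2 * fn (Φ - g) + |fn Φ - 1| := by linarith
  have a6 := pow_le_pow_left₀ (fn_nonneg _) a5 2
  rw [← sq_abs (fn Φ - 1)]
  nlinarith [sq_nonneg (2 * fn (Φ - g) - |fn Φ - 1|)]

theorem sim6 (G : Game) [Nonempty (Fin G.nA)] [Nonempty (Fin G.nB)] (v : ℝ)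
    (hv : HV G.prob G.accept v) (L : ℕ) (hL : 0 < L) : SimHyp G v (24 / L) (297 * L) := by
  intro P Q _ _ _ _ Φ g h M N hM hN x hx h0 h1 h2 h3
  have hL1 : (1 : ℝ) ≤ L := by exact_mod_cast hL
  have hμ0 : ∀ w : Fin G.nX × Fin G.nY, 0 ≤ G.prob w.1 w.2 := fun w => G.prob_nonneg _ _
  have hμ1 : ∑ w : Fin G.nX × Fin G.nY, G.prob w.1 w.2 = 1 := by
    rw [Fintype.sum_prod_type]; exact G.prob_sum
  have hne : ∃ w : Fin G.nX × Fin G.nY, fn (Φ w.1 w.2) ≠ 0 := by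
    by_contra hc
    push Not at hc
    simp [hc] at h0
  obtain ⟨w₁, hw₁⟩ := hne
  have hP : Nonempty P := by
    by_contra hc
    rw [not_nonempty_iff] at hc
    exact hw₁ (by rw [Subsingleton.elim (Φ w₁.1 w₁.2) 0, fn_zero])
  have hQ : Nonempty Q := by
    by_contra hc
    rw [not_nonempty_iff] at hc
    exact hw₁ (by rw [Subsingleton.elim (Φ w₁.1 w₁.2) 0, fn_zero])
  choose Gx hG1 hG2 using fun x => exists_unit (g x)
  choose Hy hH1 hH2 using fun y => exists_unit (h y)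
  choose A U s u1 u2 u3 u4 u5 u6 u7 using fun x => exists_svd (Gx x)
  choose A' V t v1 v2 v3 v4 v5 v6 v7 using fun y => exists_svd (Hy y)
  simp only [hG1, one_pow] at u7
  simp only [hH1, one_pow] at v7
  choose M' hM1 hM2 using fun x => exists_pullback (A x) (u4 x) (M x) (hM x)
  choose N' hN1 hN2 using fun y => exists_pullback ((V y)ᴴ)ᵀ (by
    have : (((V y)ᴴ)ᵀ)ᴴ * ((V y)ᴴ)ᵀ = 1 := by
      have := congrArg transpose (v1 y)
      rw [transpose_mul, transpose_one] at this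
      rw [← this]
      congr 1
      ext i j; simp
    rw [this, sub_self]; exact PosSemidef.zero) (N y) (hN y)
  have s1 := sample_diag G.prob_nonneg hv U V u1 u2 v1 v2 s t u3 v3 u7 v7
    (fun x y => 2 * fn (Gx x - Hy y)) (fun x y => by have := fn_nonneg (Gx x - Hy y); positivity)
    (fun x y => by
      have := moduli_close (u1 x) (u2 x) (v1 y) (v2 y) (u3 x) (v3 y) (u4 x) (u5 x) (v4 y) (v5 y)
        (u6 x) (v6 y) (u7 x) (v7 y) (hG1 x) (hH1 y)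
      nlinarith [sq_nonneg (fn (Gx x - Hy y))]) M' N' hM1 hN1 L hL
  have s2 : ∑ w : Fin G.nX × Fin G.nY, G.prob w.1 w.2 *
      wf (G.accept w.1 w.2) (M w.1) (N w.2) (Gx w.1) (Gx w.1) ≤
      ∑ w : Fin G.nX × Fin G.nY, G.prob w.1 w.2 * wf (G.accept w.1 w.2) (M' w.1) (N' w.2)
      (diagonal (fun i => (s w.1 i : ℂ)) * ((U w.1)ᴴ * V w.2))
      (diagonal (fun i => (s w.1 i : ℂ)) * ((U w.1)ᴴ * V w.2)) := by
    refine sum_le_sum fun w _ => mul_le_mul_of_nonneg_left ?_ (hμ0 w)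
    have e : Gx w.1 = A w.1 * (diagonal (fun i => (s w.1 i : ℂ)) * ((U w.1)ᴴ * V w.2)) *
        (((V w.2)ᴴ)ᵀ)ᵀ := by
      rw [transpose_transpose]
      simp only [Matrix.mul_assoc, v2, Matrix.mul_one]
      rw [← Matrix.mul_assoc]; exact u6 w.1
    rw [e]
    unfold wf
    refine sum_le_sum fun a _ => sum_le_sum fun b _ => ?_
    split_ifs
    · rw [cf_local]
      exact (cf_mono_M _ (hM2 _ a) (((hN _).1 b).conjTranspose_mul_mul_same _)).trans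
        (cf_mono_N _ ((hM1 _).1 a) (hN2 _ b))
    · exact le_rfl
  have s3 := avg_perturb (μ := fun w => G.prob w.1 w.2) hμ0 G.accept hM hN
    (fun w => Φ w.1 w.2) (fun w => Gx w.1) h0
  have s4 : ∑ w : Fin G.nX × Fin G.nY, G.prob w.1 w.2 * fn (Gx w.1 - Φ w.1 w.2) ^ 2 ≤ 20 * x := by
    have : ∑ w : Fin G.nX × Fin G.nY, G.prob w.1 w.2 * fn (Gx w.1 - Φ w.1 w.2) ^ 2 ≤
        8 * ∑ w : Fin G.nX × Fin G.nY, G.prob w.1 w.2 * fn (Φ w.1 w.2 - g w.1) ^ 2 +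
        2 * ∑ w : Fin G.nX × Fin G.nY, G.prob w.1 w.2 * (fn (Φ w.1 w.2) - 1) ^ 2 := by
      simp only [Finset.mul_sum, ← sum_add_distrib]
      refine sum_le_sum fun w _ => ?_
      have := mul_le_mul_of_nonneg_left (unit_close _ _ (Φ w.1 w.2) (hG2 w.1)) (hμ0 w)
      linarith
    linarith
  have s5 : ∑ w : Fin G.nX × Fin G.nY, G.prob w.1 w.2 * fn (Hy w.2 - Φ w.1 w.2) ^ 2 ≤ 20 * x := by
    have : ∑ w : Fin G.nX × Fin G.nY, G.prob w.1 w.2 * fn (Hy w.2 - Φ w.1 w.2) ^ 2 ≤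
        8 * ∑ w : Fin G.nX × Fin G.nY, G.prob w.1 w.2 * fn (Φ w.1 w.2 - h w.2) ^ 2 +
        2 * ∑ w : Fin G.nX × Fin G.nY, G.prob w.1 w.2 * (fn (Φ w.1 w.2) - 1) ^ 2 := by
      simp only [Finset.mul_sum, ← sum_add_distrib]
      refine sum_le_sum fun w _ => ?_
      have := mul_le_mul_of_nonneg_left (unit_close _ _ (Φ w.1 w.2) (hH2 w.2)) (hμ0 w)
      linarith
    linarith
  have s6 : ∑ w : Fin G.nX × Fin G.nY, G.prob w.1 w.2 * fn (Gx w.1 - Hy w.2) ^ 2 ≤ 9 ^ 2 * x := by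
    have : ∑ w : Fin G.nX × Fin G.nY, G.prob w.1 w.2 * fn (Gx w.1 - Hy w.2) ^ 2 ≤
        2 * ∑ w : Fin G.nX × Fin G.nY, G.prob w.1 w.2 * fn (Gx w.1 - Φ w.1 w.2) ^ 2 +
        2 * ∑ w : Fin G.nX × Fin G.nY, G.prob w.1 w.2 * fn (Hy w.2 - Φ w.1 w.2) ^ 2 := by
      simp only [Finset.mul_sum, ← sum_add_distrib]
      refine sum_le_sum fun w _ => ?_
      have a1 := fn_sub_le (Gx w.1) (Φ w.1 w.2) (Hy w.2)
      rw [fn_sub_rev (Φ w.1 w.2)] at a1
      have a2 := pow_le_pow_left₀ (fn_nonneg _) a1 2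
      have a3 : fn (Gx w.1 - Hy w.2) ^ 2 ≤
          2 * fn (Gx w.1 - Φ w.1 w.2) ^ 2 + 2 * fn (Hy w.2 - Φ w.1 w.2) ^ 2 := by
        nlinarith [sq_nonneg (fn (Gx w.1 - Φ w.1 w.2) - fn (Hy w.2 - Φ w.1 w.2))]
      have := mul_le_mul_of_nonneg_left a3 (hμ0 w)
      linarith
    linarith
  have s7 := weighted_cs hμ0 (fun w => fn (Gx w.1 - Hy w.2)) (fun _ => 1)
  simp only [mul_one, one_pow, hμ1, Real.sqrt_one] at s7
  have s8 := Real.sqrt_le_sqrt s6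
  rw [Real.sqrt_mul (by norm_num), Real.sqrt_sq (by norm_num)] at s8
  have s9 : Real.sqrt (∑ w : Fin G.nX × Fin G.nY,
      G.prob w.1 w.2 * fn (Gx w.1 - Φ w.1 w.2) ^ 2) ≤ 9 / 2 * Real.sqrt x := by
    have := Real.sqrt_le_sqrt (s4.trans (show 20 * x ≤ (9 / 2) ^ 2 * x by linarith))
    rwa [Real.sqrt_mul (by norm_num), Real.sqrt_sq (by norm_num)] at this
  have s10 : ∑ w : Fin G.nX × Fin G.nY, G.prob w.1 w.2 *
      (24 / L + 16 * L * (2 * fn (Gx w.1 - Hy w.2))) =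
      24 / L + 32 * L * ∑ w : Fin G.nX × Fin G.nY, G.prob w.1 w.2 * fn (Gx w.1 - Hy w.2) := by
    simp only [mul_add, sum_add_distrib, ← Finset.sum_mul, hμ1, one_mul, Finset.mul_sum]
    congr 1
    exact sum_congr rfl fun w _ => by ring
  rw [s10] at s1
  have s11 := mul_le_mul_of_nonneg_left (s7.trans s8) (show (0 : ℝ) ≤ 32 * L by positivity)
  have s12 := mul_le_mul_of_nonneg_right hL1 (Real.sqrt_nonneg x)
  linarith

end Crest.Agent.H9.QP
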