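import Crest.Agent.H9.QPBasic

/-! Canonical resolvent roots of positive semidefinite matrices. -/

namespace Crest.Agent.H9.QP

open Matrix MeasureTheory Set Filter Topology
open scoped ComplexOrder

section scalar

lemma sq_int (d : ℝ) (hd : 0 ≤ d) :
    IntegrableOn (fun s : ℝ => (d / (d + s)) ^ 2) (Ioi 0) ∧
      ∫ s in Ioi (0 : ℝ), (d / (d + s)) ^ 2 = d := by
  rcases hd.eq_or_lt with rfl | hd
  · simp
  have hder : ∀ s ∈ Ici (0 : ℝ), HasDerivAt (fun s : ℝ => -(d ^ 2 * (d + s)⁻¹))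
      ((d / (d + s)) ^ 2) s := by
    intro s hs
    have h0 : d + s ≠ 0 := by have : (0 : ℝ) ≤ s := hs; positivity
    have h1 : HasDerivAt (fun s : ℝ => d + s) 1 s := (hasDerivAt_id s).const_add d
    have h2 := ((h1.inv h0).const_mul (d ^ 2)).neg
    have h3 : (d / (d + s)) ^ 2 = -(d ^ 2 * (-1 / (d + s) ^ 2)) := by
      field_simp
    rw [h3]; exact h2
  have hlim : Tendsto (fun s : ℝ => -(d ^ 2 * (d + s)⁻¹)) atTop (𝓝 0) := by
    have h1 : Tendsto (fun s : ℝ => (d + s)⁻¹) atTop (𝓝 0) :=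
      tendsto_inv_atTop_zero.comp (tendsto_atTop_add_const_left _ d tendsto_id)
    have := (h1.const_mul (d ^ 2)).neg
    simpa using this
  refine ⟨integrableOn_Ioi_deriv_of_nonneg' hder (fun s _ => sq_nonneg _) hlim, ?_⟩
  rw [integral_Ioi_of_hasDerivAt_of_nonneg' hder (fun s _ => sq_nonneg _) hlim]
  field_simp
  ring

lemma prod_int (d d' : ℝ) (hd : 0 ≤ d) (hd' : 0 ≤ d') :
    IntegrableOn (fun s : ℝ => (d / (d + s)) * (d' / (d' + s))) (Ioi 0) := by
  have h := ((sq_int d hd).1.add (sq_int d' hd').1)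
  refine Integrable.mono' h ?_ ?_
  · refine Measurable.aestronglyMeasurable ?_
    fun_prop
  · refine Eventually.of_forall fun s => ?_
    rw [Real.norm_eq_abs, abs_le]
    simp only [Pi.add_apply]
    constructor <;> nlinarith [sq_nonneg (d / (d + s) - d' / (d' + s)),
      sq_nonneg (d / (d + s) + d' / (d' + s))]

lemma log_int (c : ℝ) (hc : 0 < c) (hc1 : c ≤ 1) :
    IntegrableOn (fun s : ℝ => 1 / (s + c) - 1 / (s + 1)) (Ioi 0) ∧
      ∫ s in Ioi (0 : ℝ), (1 / (s + c) - 1 / (s + 1)) = Real.log (1 / c) := by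
  have hder : ∀ s ∈ Ici (0 : ℝ), HasDerivAt (fun s : ℝ => Real.log (1 - (1 - c) * (s + 1)⁻¹))
      (1 / (s + c) - 1 / (s + 1)) s := by
    intro s hs
    have hs0 : (0 : ℝ) ≤ s := hs
    have h0 : s + 1 ≠ 0 := by positivity
    have h0' : s + c ≠ 0 := by positivity
    have h1 : HasDerivAt (fun s : ℝ => s + 1) 1 s := (hasDerivAt_id s).add_const 1
    have h2 := (((h1.inv h0).const_mul (1 - c)).const_sub 1)
    have h3 : 1 - (1 - c) * (s + 1)⁻¹ = (s + c) / (s + 1) := by field_simp; ring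
    have h4 : 1 - (1 - c) * (s + 1)⁻¹ ≠ 0 := by rw [h3]; positivity
    have h5 := h2.log h4
    have h6 : 1 / (s + c) - 1 / (s + 1) =
        -((1 - c) * (-1 / (s + 1) ^ 2)) / (1 - (1 - c) * (s + 1)⁻¹) := by
      rw [h3]
      field_simp
      ring
    rw [h6]; exact h5
  have hlim : Tendsto (fun s : ℝ => Real.log (1 - (1 - c) * (s + 1)⁻¹)) atTop (𝓝 0) := by
    have h1 : Tendsto (fun s : ℝ => (s + 1)⁻¹) atTop (𝓝 0) :=
      tendsto_inv_atTop_zero.comp (tendsto_atTop_add_const_right _ 1 tendsto_id)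
    have h2 := (h1.const_mul (1 - c)).const_sub 1
    simp only [mul_zero, sub_zero] at h2
    have := h2.log one_ne_zero
    simpa using this
  have hpos : ∀ s ∈ Ioi (0 : ℝ), 0 ≤ 1 / (s + c) - 1 / (s + 1) := by
    intro s hs
    have hs0 : (0 : ℝ) < s := hs
    have := one_div_le_one_div_of_le (show 0 < s + c by positivity) (show s + c ≤ s + 1 by linarith)
    linarith
  refine ⟨integrableOn_Ioi_deriv_of_nonneg' hder hpos hlim, ?_⟩
  rw [integral_Ioi_of_hasDerivAt_of_nonneg' hder hpos hlim]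
  simp

end scalar

section resolvent
variable {D : Type} [Fintype D] [DecidableEq D]

/-- `s (E + s)⁻¹` -/
noncomputable def J (s : ℝ) (E : Matrix D D ℂ) : Matrix D D ℂ :=
  (s : ℂ) • (E + (s : ℂ) • (1 : Matrix D D ℂ))⁻¹

/-- conjugated diagonal matrix -/
noncomputable def cd (U : Matrix D D ℂ) (d : D → ℝ) : Matrix D D ℂ :=
  U * diagonal (fun i => (d i : ℂ)) * Uᴴ

lemma cd_mul {U : Matrix D D ℂ} (h : Uᴴ * U = 1) (d e : D → ℝ) :
    cd U d * cd U e = cd U (fun i => d i * e i) := by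
  unfold cd
  simp only [Matrix.mul_assoc]
  rw [← Matrix.mul_assoc Uᴴ, h, Matrix.one_mul, ← Matrix.mul_assoc (diagonal _),
    diagonal_mul_diagonal]
  simp

lemma cd_add (U : Matrix D D ℂ) (d e : D → ℝ) : cd U d + cd U e = cd U (fun i => d i + e i) := by
  unfold cd
  rw [← Matrix.add_mul, ← Matrix.mul_add, diagonal_add]
  simp

lemma cd_sub (U : Matrix D D ℂ) (d e : D → ℝ) : cd U d - cd U e = cd U (fun i => d i - e i) := by
  unfold cd
  rw [← Matrix.sub_mul, ← Matrix.mul_sub, diagonal_sub]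
  simp

lemma cd_smul (U : Matrix D D ℂ) (c : ℝ) (d : D → ℝ) :
    (c : ℂ) • cd U d = cd U (fun i => c * d i) := by
  unfold cd
  rw [← Matrix.smul_mul, ← Matrix.mul_smul, ← diagonal_smul]
  congr 3
  funext i; simp

lemma cd_one {U : Matrix D D ℂ} (h : U * Uᴴ = 1) : cd U (fun _ => 1) = 1 := by
  unfold cd; simp [h]

lemma cd_psd (U : Matrix D D ℂ) {d : D → ℝ} (hd : ∀ i, 0 ≤ d i) : (cd U d).PosSemidef := by
  unfold cd
  refine PosSemidef.mul_mul_conjTranspose_same (PosSemidef.diagonal ?_) U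
  intro i
  simpa using hd i

lemma cd_herm (U : Matrix D D ℂ) (d : D → ℝ) : (cd U d).IsHermitian := by
  unfold cd IsHermitian
  simp only [conjTranspose_mul, conjTranspose_conjTranspose, diagonal_conjTranspose,
    Matrix.mul_assoc]
  congr 3
  funext i; simp

lemma cd_nonneg_of_psd {U : Matrix D D ℂ} (h : Uᴴ * U = 1) {d : D → ℝ}
    (hd : (cd U d).PosSemidef) (i : D) : 0 ≤ d i := by
  have h1 := hd.conjTranspose_mul_mul_same U
  have h2 : Uᴴ * cd U d * U = diagonal (fun i => (d i : ℂ)) := by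
    unfold cd
    simp only [Matrix.mul_assoc]
    rw [h, Matrix.mul_one, ← Matrix.mul_assoc, h, Matrix.one_mul]
  rw [h2, posSemidef_diagonal_iff] at h1
  simpa using h1 i

lemma exists_cd {E : Matrix D D ℂ} (hE : E.PosSemidef) :
    ∃ (U : Matrix D D ℂ) (d : D → ℝ), Uᴴ * U = 1 ∧ U * Uᴴ = 1 ∧ (∀ i, 0 ≤ d i) ∧ E = cd U d := by
  obtain ⟨U, d, h1, h2, h3, h4⟩ := exists_spec hE.1
  exact ⟨U, d, h1, h2, h4 hE, h3⟩

lemma J_cd {U : Matrix D D ℂ} (h1 : Uᴴ * U = 1) (h2 : U * Uᴴ = 1) {d : D → ℝ}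
    (hd : ∀ i, 0 ≤ d i) {s : ℝ} (hs : 0 < s) : J s (cd U d) = cd U (fun i => s / (d i + s)) := by
  unfold J
  have h3 : cd U d + (s : ℂ) • (1 : Matrix D D ℂ) = cd U (fun i => d i + s) := by
    rw [← cd_one h2, cd_smul, cd_add]; simp
  have h4 : (cd U (fun i => d i + s))⁻¹ = cd U (fun i => (d i + s)⁻¹) := by
    apply Matrix.inv_eq_right_inv
    rw [cd_mul h1, ← cd_one h2]
    congr 1; funext i
    have := hd i
    field_simp
  rw [h3, h4, cd_smul]
  rfl

lemma J_herm {E : Matrix D D ℂ} (hE : E.PosSemidef) {s : ℝ} (hs : 0 < s) :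
    (J s E).IsHermitian := by
  obtain ⟨U, d, h1, h2, h3, rfl⟩ := exists_cd hE
  rw [J_cd h1 h2 h3 hs]; exact cd_herm _ _

lemma J_mul {E : Matrix D D ℂ} (hE : E.PosSemidef) {s : ℝ} (hs : 0 < s) :
    J s E * (1 + ((s⁻¹ : ℝ) : ℂ) • E) = 1 ∧ (1 + ((s⁻¹ : ℝ) : ℂ) • E) * J s E = 1 := by
  obtain ⟨U, d, h1, h2, h3, rfl⟩ := exists_cd hE
  rw [J_cd h1 h2 h3 hs]
  have : 1 + ((s⁻¹ : ℝ) : ℂ) • cd U d = cd U (fun i => 1 + s⁻¹ * d i) := by
    rw [cd_smul, ← cd_add, cd_one h2]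
  rw [this, cd_mul h1, cd_mul h1, ← cd_one h2]
  constructor <;> (congr 1; funext i; have := h3 i; field_simp; try ring)

lemma J_upper {E : Matrix D D ℂ} (hE : E.PosSemidef) (hE1 : (1 - E).PosSemidef) {s : ℝ}
    (hs : 0 < s) : (1 - (((1 + s)⁻¹ : ℝ) : ℂ) • E - J s E).PosSemidef := by
  obtain ⟨U, d, h1, h2, h3, rfl⟩ := exists_cd hE
  rw [J_cd h1 h2 h3 hs]
  rw [← cd_one h2, cd_sub] at hE1
  have h4 := cd_nonneg_of_psd h1 hE1
  rw [← cd_one h2, cd_smul, cd_sub, cd_sub]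
  refine cd_psd _ fun i => ?_
  have a1 := h3 i
  have a2 := h4 i
  have : 1 - (1 + s)⁻¹ * d i - s / (d i + s) = d i * (1 - d i) / ((1 + s) * (d i + s)) := by
    field_simp; ring
  rw [this]; positivity

lemma J_lower {E : Matrix D D ℂ} (hE : E.PosSemidef) {s : ℝ} (hs : 0 < s) (c : ℝ) :
    (J s E - (((2 * s * c - s ^ 2 * c ^ 2 : ℝ) : ℂ) • (1 : Matrix D D ℂ) -
      ((s * c ^ 2 : ℝ) : ℂ) • E)).PosSemidef := by
  obtain ⟨U, d, h1, h2, h3, rfl⟩ := exists_cd hE
  rw [J_cd h1 h2 h3 hs, ← cd_one h2, cd_smul, cd_smul, cd_sub, cd_sub]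
  refine cd_psd _ fun i => ?_
  have a1 := h3 i
  have : s / (d i + s) - ((2 * s * c - s ^ 2 * c ^ 2) * 1 - s * c ^ 2 * d i) =
      s * (1 - c * (d i + s)) ^ 2 / (d i + s) := by
    field_simp; ring
  rw [this]; positivity

/-- the one-step quadratic inequality -/
lemma J_step {E E' : Matrix D D ℂ} (hE : E.PosSemidef) (hE' : E'.PosSemidef) {s : ℝ}
    (hs : 0 < s) :
    (J s E - (2 : ℂ) • J s E' + J s E' * (1 + ((s⁻¹ : ℝ) : ℂ) • E) * J s E' -
      (J s E - J s E')ᴴ * (J s E - J s E')).PosSemidef := by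
  have h1 := J_mul hE hs
  have hh : (J s E - J s E')ᴴ = J s E - J s E' := ((J_herm hE hs).sub (J_herm hE' hs)).eq
  have h2 : (J s E - J s E') * (1 + ((s⁻¹ : ℝ) : ℂ) • E) * (J s E - J s E') =
      J s E - (2 : ℂ) • J s E' + J s E' * (1 + ((s⁻¹ : ℝ) : ℂ) • E) * J s E' := by
    rw [Matrix.sub_mul, Matrix.sub_mul, Matrix.mul_sub, Matrix.mul_sub, h1.1,
      Matrix.mul_assoc (J s E') _ (J s E), h1.2, two_smul]
    simp only [Matrix.one_mul, Matrix.mul_one]
    abel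
  rw [← h2]
  have h3 : (J s E - J s E') * (1 + ((s⁻¹ : ℝ) : ℂ) • E) * (J s E - J s E') -
      (J s E - J s E')ᴴ * (J s E - J s E') =
      (J s E - J s E')ᴴ * (((s⁻¹ : ℝ) : ℂ) • E) * (J s E - J s E') := by
    rw [hh, Matrix.mul_add, Matrix.add_mul, Matrix.mul_one]; abel
  rw [h3]
  refine PosSemidef.conjTranspose_mul_mul_same (hE.smul ?_) _
  simpa using hs.le

end resolvent

section mint
variable {m n : Type}

/-- entrywise integral over the positive half line -/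
noncomputable def mint (f : ℝ → Matrix m n ℂ) : Matrix m n ℂ :=
  Matrix.of fun p q => ∫ s in Ioi (0 : ℝ), f s p q

/-- entrywise integrability -/
def MI (f : ℝ → Matrix m n ℂ) : Prop := ∀ p q, IntegrableOn (fun s => f s p q) (Ioi 0)

lemma trace_mint [Fintype m] [Fintype n] (ρ : Matrix n m ℂ) {f : ℝ → Matrix m n ℂ} (hf : MI f) :
    IntegrableOn (fun s => trace (ρ * f s)) (Ioi 0) ∧
      trace (ρ * mint f) = ∫ s in Ioi (0 : ℝ), trace (ρ * f s) := by
  have h1 : ∀ q, IntegrableOn (fun s => ∑ p, ρ q p * f s p q) (Ioi 0) := fun q =>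
    integrable_finsetSum _ fun p _ => (hf p q).const_mul _
  refine ⟨?_, ?_⟩
  · simp only [trace, diag, Matrix.mul_apply]
    exact integrable_finsetSum _ fun q _ => h1 q
  · simp only [trace, diag, Matrix.mul_apply, mint, of_apply]
    rw [integral_finsetSum _ fun q _ => h1 q]
    refine Finset.sum_congr rfl fun q _ => ?_
    rw [integral_finsetSum _ fun p _ => (hf p q).const_mul _]
    refine Finset.sum_congr rfl fun p _ => ?_
    rw [integral_const_mul]

lemma re_trace_mint [Fintype m] [Fintype n] (ρ : Matrix n m ℂ) {f : ℝ → Matrix m n ℂ}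
    (hf : MI f) :
    IntegrableOn (fun s => (trace (ρ * f s)).re) (Ioi 0) ∧
      (trace (ρ * mint f)).re = ∫ s in Ioi (0 : ℝ), (trace (ρ * f s)).re := by
  obtain ⟨h1, h2⟩ := trace_mint ρ hf
  refine ⟨h1.re, ?_⟩
  rw [h2]
  exact (integral_re h1).symm

lemma mint_psd [Fintype m] {f : ℝ → Matrix m m ℂ} (hf : MI f)
    (hp : ∀ s, 0 < s → (f s).PosSemidef) : (mint f).PosSemidef := by
  have hH : (mint f).IsHermitian := by
    ext p q
    simp only [mint, conjTranspose_apply, of_apply, RCLike.star_def]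
    rw [← integral_conj]
    refine setIntegral_congr_fun measurableSet_Ioi fun s hs => ?_
    have := congrFun (congrFun (hp s hs).1 p) q
    simpa [conjTranspose_apply] using this
  refine PosSemidef.of_dotProduct_mulVec_nonneg hH fun x => ?_
  have key : ∀ A : Matrix m m ℂ, star x ⬝ᵥ A *ᵥ x = trace (vecMulVec x (star x) * A) := by
    intro A
    simp only [dotProduct, mulVec, trace, diag, Matrix.mul_apply, vecMulVec_apply,
      Finset.mul_sum]
    rw [Finset.sum_comm]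
    refine Finset.sum_congr rfl fun i _ => Finset.sum_congr rfl fun j _ => ?_
    ring
  rw [Complex.nonneg_iff]
  refine ⟨?_, ?_⟩
  · rw [key, (re_trace_mint _ hf).2]
    refine setIntegral_nonneg measurableSet_Ioi fun s hs => ?_
    exact re_trace_mul_nonneg (posSemidef_vecMulVec_self_star x) (hp s hs)
  · exact (hH.im_star_dotProduct_mulVec_self x).symm

lemma mint_four {f₁ f₂ f₃ f₄ : ℝ → Matrix m n ℂ} (h₁ : MI f₁) (h₂ : MI f₂) (h₃ : MI f₃)
    (h₄ : MI f₄) : MI (fun s => f₁ s - f₂ s - (f₃ s - f₄ s)) ∧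
      mint (fun s => f₁ s - f₂ s - (f₃ s - f₄ s)) = mint f₁ - mint f₂ - (mint f₃ - mint f₄) := by
  refine ⟨fun p q => ((h₁ p q).sub (h₂ p q)).sub ((h₃ p q).sub (h₄ p q)), ?_⟩
  ext p q
  simp only [mint, of_apply, Matrix.sub_apply]
  rw [← integral_sub (h₁ p q) (h₂ p q), ← integral_sub (h₃ p q) (h₄ p q)]
  exact integral_sub ((h₁ p q).sub (h₂ p q)) ((h₃ p q).sub (h₄ p q))

end mint

section roots
variable {D : Type} [Fintype D] [DecidableEq D]

lemma one_sub_J {U : Matrix D D ℂ} (h1 : Uᴴ * U = 1) (h2 : U * Uᴴ = 1) {d : D → ℝ}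
    (hd : ∀ i, 0 ≤ d i) {s : ℝ} (hs : 0 < s) :
    1 - J s (cd U d) = cd U (fun i => d i / (d i + s)) := by
  rw [J_cd h1 h2 hd hs, ← cd_one h2, cd_sub]
  congr 1; funext i
  have := hd i
  field_simp; ring

lemma cd_apply (U : Matrix D D ℂ) (d : D → ℝ) (p q : D) :
    cd U d p q = ∑ i, U p i * star (U q i) * (d i : ℂ) := by
  unfold cd
  rw [Matrix.mul_apply]
  refine Finset.sum_congr rfl fun i _ => ?_
  rw [mul_diagonal, conjTranspose_apply]; ring

lemma MI_prod {E E' : Matrix D D ℂ} (hE : E.PosSemidef) (hE' : E'.PosSemidef) :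
    MI (fun s => (1 - J s E)ᴴ * (1 - J s E')) := by
  obtain ⟨U, d, h1, h2, h3, rfl⟩ := exists_cd hE
  obtain ⟨U', d', h1', h2', h3', rfl⟩ := exists_cd hE'
  intro p q
  have : IntegrableOn (fun s : ℝ => ∑ r, ∑ i, ∑ l, (U p i * star (U r i) * (U' r l * star (U' q l))) *
      (((d i / (d i + s)) * (d' l / (d' l + s)) : ℝ) : ℂ)) (Ioi 0) := by
    refine integrable_finsetSum _ fun r _ => integrable_finsetSum _ fun i _ =>
      integrable_finsetSum _ fun l _ => ?_
    exact (prod_int _ _ (h3 i) (h3' l)).ofReal.const_mul _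
  refine this.congr_fun (fun s hs => ?_) measurableSet_Ioi
  dsimp only
  rw [one_sub_J h1 h2 h3 hs, one_sub_J h1' h2' h3' hs, (cd_herm _ _).eq, Matrix.mul_apply]
  refine Finset.sum_congr rfl fun r _ => ?_
  rw [cd_apply, cd_apply, Finset.sum_mul_sum]
  refine Finset.sum_congr rfl fun i _ => Finset.sum_congr rfl fun l _ => ?_
  push_cast; ring

lemma mint_self {E : Matrix D D ℂ} (hE : E.PosSemidef) :
    mint (fun s => (1 - J s E)ᴴ * (1 - J s E)) = E := by
  obtain ⟨U, d, h1, h2, h3, rfl⟩ := exists_cd hE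
  ext p q
  simp only [mint, of_apply]
  rw [cd_apply]
  have : ∀ s ∈ Ioi (0 : ℝ), ((1 - J s (cd U d))ᴴ * (1 - J s (cd U d)) : Matrix D D ℂ) p q =
      ∑ i, U p i * star (U q i) * (((d i / (d i + s)) ^ 2 : ℝ) : ℂ) := by
    intro s hs
    rw [one_sub_J h1 h2 h3 hs, (cd_herm _ _).eq, cd_mul h1, cd_apply]
    simp only [sq]
  rw [setIntegral_congr_fun measurableSet_Ioi this,
    integral_finsetSum _ fun i _ => (sq_int _ (h3 i)).1.ofReal.const_mul _]
  refine Finset.sum_congr rfl fun i _ => ?_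
  rw [integral_const_mul, integral_complex_ofReal, (sq_int _ (h3 i)).2]

/-- energy functional -/
noncomputable def en {T : Type} [Fintype T] (ρ : Matrix D D ℂ) (A B : Matrix T D ℂ) : ℝ :=
  (trace (ρ * ((A - B)ᴴ * (A - B)))).re

theorem exists_roots (S : Finset (Matrix D D ℂ)) (hS : ∀ E ∈ S, E.PosSemidef) :
    ∃ (T : Type) (_ : Fintype T) (_ : DecidableEq T) (R : Matrix D D ℂ → Matrix T D ℂ),
      (∀ E ∈ S, (R E)ᴴ * R E = E) ∧ ∀ E ∈ S, ∀ E' ∈ S, ∀ ρ : Matrix D D ℂ,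
        IntegrableOn (fun s => en ρ (J s E) (J s E')) (Ioi 0) ∧
          en ρ (R E) (R E') = ∫ s in Ioi (0 : ℝ), en ρ (J s E) (J s E') := by
  classical
  let Φ : ℝ → Matrix D (S × D) ℂ := fun s => Matrix.of fun r nq => (1 - J s nq.1.1) r nq.2
  have hΦ : ∀ s (n n' : S) p q, ((Φ s)ᴴ * Φ s) (n, p) (n', q) =
      ((1 - J s n.1)ᴴ * (1 - J s n'.1) : Matrix D D ℂ) p q := by
    intro s n n' p q
    simp only [Φ, Matrix.mul_apply, conjTranspose_apply, of_apply]
  have hMI : MI (fun s => (Φ s)ᴴ * Φ s) := by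
    rintro ⟨n, p⟩ ⟨n', q⟩
    simp only [hΦ]
    exact MI_prod (hS _ n.2) (hS _ n'.2) p q
  obtain ⟨W, hW⟩ := exists_factor (mint_psd hMI fun s _ => posSemidef_conjTranspose_mul_self _)
  let R : Matrix D D ℂ → Matrix (S × D) D ℂ := fun E =>
    if h : E ∈ S then W.submatrix id (fun q => (⟨E, h⟩, q)) else 0
  have hR : ∀ E ∈ S, ∀ E' ∈ S, (R E)ᴴ * R E' = mint (fun s => (1 - J s E)ᴴ * (1 - J s E')) := by
    intro E hE E' hE'
    ext p q
    have := congrFun (congrFun hW (⟨E, hE⟩, p)) (⟨E', hE'⟩, q)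
    simp only [mint, of_apply, hΦ] at this
    simp only [mint, of_apply, this, R, dif_pos hE, dif_pos hE']
    simp [Matrix.mul_apply]
  refine ⟨S × D, inferInstance, inferInstance, R, fun E hE => ?_, fun E hE E' hE' ρ => ?_⟩
  · rw [hR E hE E hE, mint_self (hS E hE)]
  · have h4 := mint_four (MI_prod (hS E hE) (hS E hE)) (MI_prod (hS E hE) (hS E' hE'))
      (MI_prod (hS E' hE') (hS E hE)) (MI_prod (hS E' hE') (hS E' hE'))
    have h5 := re_trace_mint ρ h4.1
    have h6 : ∀ s, en ρ (J s E) (J s E') = (trace (ρ * ((1 - J s E)ᴴ * (1 - J s E) -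
        (1 - J s E)ᴴ * (1 - J s E') - ((1 - J s E')ᴴ * (1 - J s E) -
          (1 - J s E')ᴴ * (1 - J s E'))))).re := by
      intro s
      unfold en
      congr 3
      rw [← Matrix.mul_sub, ← Matrix.mul_sub, ← Matrix.sub_mul, ← conjTranspose_sub]
      have : (1 - J s E) - (1 - J s E') = -(J s E - J s E') := by abel
      rw [this]; simp only [conjTranspose_neg, neg_mul_neg]
    simp only [h6]
    refine ⟨h5.1, ?_⟩
    rw [← h5.2, h4.2, ← hR E hE E hE, ← hR E hE E' hE', ← hR E' hE' E hE, ← hR E' hE' E' hE']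
    unfold en
    congr 3
    rw [← Matrix.mul_sub, ← Matrix.mul_sub, ← Matrix.sub_mul, ← conjTranspose_sub]

/-- integrated form of a pointwise bound -/
theorem en_integrated {T Γ : Type} [Fintype T] [Fintype Γ] (R : Matrix D D ℂ → Matrix T D ℂ)
    (c : Γ → ℝ) (ρ E E' : Γ → Matrix D D ℂ)
    (hR : ∀ γ, IntegrableOn (fun s => en (ρ γ) (J s (E γ)) (J s (E' γ))) (Ioi 0) ∧
      en (ρ γ) (R (E γ)) (R (E' γ)) = ∫ s in Ioi (0 : ℝ), en (ρ γ) (J s (E γ)) (J s (E' γ)))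
    (a f Q : ℝ) (hf : 0 < f) (hQ : f ≤ Q)
    (h : ∀ s, 0 < s → ∑ γ, c γ * en (ρ γ) (J s (E γ)) (J s (E' γ)) ≤
      a * (1 / (s + f / Q) - 1 / (s + 1))) :
    ∑ γ, c γ * en (ρ γ) (R (E γ)) (R (E' γ)) ≤ a * Real.log (Q / f) := by
  have hQ0 : 0 < Q := hf.trans_le hQ
  obtain ⟨l1, l2⟩ := log_int (f / Q) (by positivity) ((div_le_one hQ0).mpr hQ)
  rw [one_div_div] at l2
  rw [← l2, ← integral_const_mul]
  simp only [fun γ => (hR γ).2, ← integral_const_mul]
  rw [← integral_finsetSum _ fun γ _ => (hR γ).1.const_mul _]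
  exact setIntegral_mono_on (integrable_finsetSum _ fun γ _ => (hR γ).1.const_mul _)
    (l1.const_mul a) measurableSet_Ioi fun s hs => h s hs

end roots

end Crest.Agent.H9.QP
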