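import Crest.Agent.H9.QPTele

/-! A Hellinger bound for averaged marginals, dilated measurements, block sums. -/

namespace Crest.Agent.H9.QP

open Matrix Finset
open scoped ComplexOrder

section hell
variable {ι Ω : Type} [Fintype ι] [DecidableEq ι] [Fintype Ω] [DecidableEq Ω]

omit [DecidableEq Ω] in
lemma resample0 {μ : Ω → ℝ} (hμ : ∑ w, μ w = 1) (i : ι) (G : (ι → Ω) → ℝ) :
    ∑ w, μ w * ∑ ω, pw μ ω * G (Function.update ω i w) = ∑ ω, pw μ ω * G ω := by
  rw [← resample (μ := μ) (K := fun _ b => μ b) (fun b => by rw [← Finset.sum_mul, hμ, one_mul]) i G]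
  simp only [Finset.mul_sum]
  rw [Finset.sum_comm]
  refine sum_congr rfl fun ω _ => sum_congr rfl fun w _ => ?_
  ring

omit [DecidableEq Ω] in
lemma sum_pw_prod {μ : Ω → ℝ} (hμ : ∑ w, μ w = 1) (R : Finset ι) (u : Ω → ℝ) :
    ∑ ω : ι → Ω, pw μ ω * ∏ i ∈ R, u (ω i) = (∑ w, μ w * u w) ^ R.card := by
  have h1 : ∀ ω : ι → Ω, pw μ ω * ∏ i ∈ R, u (ω i) =
      ∏ j, (μ (ω j) * if j ∈ R then u (ω j) else 1) := by
    intro ω
    rw [Finset.prod_mul_distrib, Finset.prod_ite_mem, univ_inter]; rfl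
  simp only [h1]
  rw [← Fintype.piFinset_univ,
    ← Finset.prod_univ_sum (fun _ => univ) (fun j w => μ w * if j ∈ R then u w else 1)]
  rw [← Finset.prod_const, ← univ_inter R, ← Finset.prod_ite_mem, univ_inter]
  refine prod_congr rfl fun j _ => ?_
  split_ifs
  · rfl
  · simp [hμ]

theorem hellinger {μ : Ω → ℝ} (hμ0 : ∀ w, 0 ≤ μ w) (hμ : ∑ w, μ w = 1) (R : Finset ι)
    (hR : R.Nonempty) (F : (ι → Ω) → ℝ) (hF0 : ∀ ω, 0 ≤ F ω) (hF1 : ∀ ω, F ω ≤ 1) (f : ℝ)
    (hf : ∑ ω, pw μ ω * F ω = f) (hf0 : 0 < f) (n : Ω → ℝ)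
    (hn : ∀ w, n w = ∑ i ∈ R, 1 / (R.card : ℝ) * ∑ ω, pw μ ω * F (Function.update ω i w)) :
    ∑ w, μ w * n w = f ∧
      ∑ w, μ w * (Real.sqrt (n w) - Real.sqrt f) ^ 2 ≤ 2 / R.card * (f * Real.log (1 / f)) := by
  have hr : (0 : ℝ) < R.card := by exact_mod_cast hR.card_pos
  have hmarg : ∀ φ : Ω → ℝ, ∑ i ∈ R, ∑ ω, pw μ ω * (F ω * φ (ω i)) =
      R.card * ∑ w, μ w * (n w * φ w) := by
    intro φ
    simp only [hn, Finset.sum_mul, Finset.mul_sum]
    rw [Finset.sum_comm (s := univ) (t := R)]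
    refine sum_congr rfl fun i _ => ?_
    rw [← resample0 hμ i]
    simp only [Finset.mul_sum, Function.update_self]
    refine sum_congr rfl fun w _ => sum_congr rfl fun ω _ => ?_
    field_simp
  have hn0 : ∀ w, 0 ≤ n w := fun w => by
    rw [hn]
    exact sum_nonneg fun i _ => mul_nonneg (by positivity)
      (sum_nonneg fun ω _ => mul_nonneg (pw_nonneg hμ0 ω) (hF0 _))
  have h1 : ∑ w, μ w * n w = f := by
    have := hmarg (fun _ => 1)
    simp only [mul_one, hf, sum_const, nsmul_eq_mul] at this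
    exact (mul_left_cancel₀ hr.ne' this).symm
  refine ⟨h1, ?_⟩
  have hsf : 0 < Real.sqrt f := Real.sqrt_pos.mpr hf0
  set t : Ω → ℝ := fun w => Real.sqrt (n w) / Real.sqrt f with ht
  have ht0 : ∀ w, 0 ≤ t w := fun w => by positivity
  have hnt : ∀ w, n w = f * t w ^ 2 := fun w => by
    simp only [ht, div_pow, Real.sq_sqrt (hn0 w), Real.sq_sqrt hf0.le]
    field_simp
  have ht2 : ∑ w, μ w * t w ^ 2 = 1 := by
    have : f * ∑ w, μ w * t w ^ 2 = f * 1 := by
      rw [mul_one, Finset.mul_sum]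
      conv_rhs => rw [← h1]
      refine sum_congr rfl fun w _ => ?_
      rw [hnt]; ring
    exact mul_left_cancel₀ hf0.ne' this
  set Z := ∑ w, μ w * t w with hZ
  have hZ0 : 0 < Z := by
    rcases (sum_nonneg fun w _ => mul_nonneg (hμ0 w) (ht0 w) : 0 ≤ Z).eq_or_lt with h | h
    · exfalso
      have h2 := (sum_eq_zero_iff_of_nonneg fun w _ => mul_nonneg (hμ0 w) (ht0 w)).mp h.symm
      have : ∑ w, μ w * t w ^ 2 = 0 := sum_eq_zero fun w hw => by
        rw [sq, ← mul_assoc, h2 w hw, zero_mul]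
      linarith
    · exact h
  have hG : ∑ ω : ι → Ω, pw μ ω * ∏ i ∈ R, (t (ω i) / Z) = 1 := by
    rw [sum_pw_prod hμ R (fun w => t w / Z)]
    have : ∑ w, μ w * (t w / Z) = 1 := by
      simp only [← mul_div_assoc]
      rw [← Finset.sum_div, div_self hZ0.ne']
    rw [this, one_pow]
  have hpt : ∀ ω : ι → Ω, ∑ i ∈ R, pw μ ω * (F ω * Real.log (t (ω i))) +
      (Real.log f - R.card * Real.log Z) * (pw μ ω * F ω) ≤
      f * (pw μ ω * ∏ i ∈ R, (t (ω i) / Z)) - pw μ ω * F ω := by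
    intro ω
    have hP : 0 ≤ ∏ i ∈ R, (t (ω i) / Z) := prod_nonneg fun i _ => div_nonneg (ht0 _) hZ0.le
    have hpw := pw_nonneg hμ0 ω
    rcases (mul_nonneg hpw (hF0 ω)).eq_or_lt with h | h
    · simp only [← mul_assoc, ← h, zero_mul, sum_const_zero, mul_zero, add_zero, sub_zero]
      positivity
    · have htp : ∀ i ∈ R, 0 < t (ω i) := by
        intro i hi
        have h3 := hmarg (fun w => if w = ω i then 1 else 0)
        have h4 : pw μ ω * F ω ≤ ∑ i' ∈ R, ∑ ω', pw μ ω' * (F ω' * if ω' i' = ω i then 1 else 0) := by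
          have a1 : ∀ i' ω', 0 ≤ pw μ ω' * (F ω' * if ω' i' = ω i then (1 : ℝ) else 0) :=
            fun i' ω' => mul_nonneg (pw_nonneg hμ0 _) (mul_nonneg (hF0 _) (by split_ifs <;> simp))
          refine le_trans ?_ (single_le_sum (fun i' _ => sum_nonneg fun ω' _ => a1 i' ω') hi)
          refine le_trans ?_ (single_le_sum (fun ω' _ => a1 i ω') (mem_univ ω))
          simp
        rw [h3] at h4
        simp only [mul_ite, mul_one, mul_zero, sum_ite_eq', mem_univ, if_true] at h4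
        rcases (ht0 (ω i)).eq_or_lt with h5 | h5
        · rw [hnt, ← h5] at h4
          simp at h4
          linarith
        · exact h5
      have hP0 : 0 < f * ∏ i ∈ R, (t (ω i) / Z) :=
        mul_pos hf0 (prod_pos fun i hi => div_pos (htp i hi) hZ0)
      have h6 := Real.log_le_sub_one_of_pos hP0
      rw [Real.log_mul hf0.ne' (prod_pos fun i hi => div_pos (htp i hi) hZ0).ne',
        Real.log_prod (fun i hi => (div_pos (htp i hi) hZ0).ne')] at h6
      rw [sum_congr rfl fun i hi => Real.log_div (htp i hi).ne' hZ0.ne', sum_sub_distrib,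
        sum_const, nsmul_eq_mul] at h6
      have h7 := mul_le_mul_of_nonneg_left h6 h.le
      have h8 : pw μ ω * F ω * (f * ∏ i ∈ R, (t (ω i) / Z)) ≤
          pw μ ω * 1 * (f * ∏ i ∈ R, (t (ω i) / Z)) :=
        mul_le_mul_of_nonneg_right (mul_le_mul_of_nonneg_left (hF1 ω) hpw) hP0.le
      have h9 : ∑ i ∈ R, pw μ ω * (F ω * Real.log (t (ω i))) =
          pw μ ω * F ω * ∑ i ∈ R, Real.log (t (ω i)) := by
        rw [Finset.mul_sum]; exact sum_congr rfl fun i _ => by ring
      rw [h9]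
      nlinarith
  have hsum := sum_le_sum fun ω (_ : ω ∈ (univ : Finset (ι → Ω))) => hpt ω
  rw [sum_add_distrib, sum_sub_distrib, ← Finset.mul_sum, ← Finset.mul_sum, hG, hf,
    Finset.sum_comm, hmarg (fun w => Real.log (t w))] at hsum
  have hent : 0 ≤ ∑ w, μ w * (n w * Real.log (t w)) := by
    have : ∑ w, μ w * (f * ((t w ^ 2 - 1) / 2)) = 0 := by
      have : ∑ w, μ w * (f * ((t w ^ 2 - 1) / 2)) =
          f / 2 * (∑ w, μ w * t w ^ 2 - ∑ w, μ w) := by
        rw [← sum_sub_distrib, Finset.mul_sum]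
        exact sum_congr rfl fun w _ => by ring
      rw [this, ht2, hμ]; ring
    rw [← this]
    refine sum_le_sum fun w _ => mul_le_mul_of_nonneg_left ?_ (hμ0 w)
    rw [hnt, mul_assoc]
    refine mul_le_mul_of_nonneg_left ?_ hf0.le
    rcases (ht0 w).eq_or_lt with h | h
    · rw [← h]; norm_num
    · have h1 := Real.log_le_sub_one_of_pos (show 0 < (t w ^ 2)⁻¹ by positivity)
      rw [Real.log_inv, Real.log_pow] at h1
      have h2 := mul_le_mul_of_nonneg_left h1 (sq_nonneg (t w))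
      rw [mul_sub, mul_inv_cancel₀ (by positivity)] at h2
      push_cast at h2
      linarith
  have hlogZ := Real.log_le_sub_one_of_pos hZ0
  have hL : ∑ w, μ w * (Real.sqrt (n w) - Real.sqrt f) ^ 2 = f * (2 - 2 * Z) := by
    have : ∀ w, μ w * (Real.sqrt (n w) - Real.sqrt f) ^ 2 =
        f * (μ w * t w ^ 2 - 2 * (μ w * t w) + μ w) := by
      intro w
      have h1 : Real.sqrt (n w) = t w * Real.sqrt f := by simp only [ht]; field_simp
      have h2 := Real.sq_sqrt hf0.le
      rw [h1]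
      linear_combination (μ w * (t w - 1) ^ 2) * h2
    simp only [this]
    rw [← Finset.mul_sum, sum_add_distrib, sum_sub_distrib, ← Finset.mul_sum, ht2, hμ]
    ring
  rw [hL, one_div, Real.log_inv, div_mul_eq_mul_div, le_div_iff₀ hr]
  have h10 := mul_nonneg hr.le hent
  have h11 := mul_le_mul_of_nonneg_left hlogZ (mul_pos hf0 hr).le
  nlinarith

end hell

section dil
variable {D T : Type} [Fintype D] [DecidableEq D] [Fintype T] [DecidableEq T]
variable {α : Type} [Fintype α]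

theorem exists_dilation [Nonempty α] (R : Matrix T D ℂ) (E : α → Matrix D D ℂ)
    (hE : ∀ a, (E a).PosSemidef) (h : Rᴴ * R = ∑ a, E a) :
    ∃ M : α → Matrix T T ℂ, IsPOVM M ∧ ∀ a, Rᴴ * M a * R = E a := by
  classical
  obtain ⟨a₀⟩ := ‹Nonempty α›
  obtain ⟨U, d, h1, h2, h3, h4⟩ := exists_cd (posSemidef_conjTranspose_mul_self R)
  set S := Rᴴ * R with hS
  let S' := cd U (fun i => (d i)⁻¹)
  have hS'h : S'ᴴ = S' := (cd_herm _ _).eq
  have e1 : S' * S * S' = S' := by
    rw [h4, cd_mul h1, cd_mul h1]; congr 1; funext i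
    by_cases h : d i = 0
    · simp [h]
    · field_simp
  have e2 : S * S' * S = S := by
    rw [h4, cd_mul h1, cd_mul h1]; congr 1; funext i
    by_cases h : d i = 0
    · simp [h]
    · field_simp
  have hSh : Sᴴ = S := (posSemidef_conjTranspose_mul_self R).1.eq
  have e3 : ∀ a, E a * (S' * S) = E a := by
    intro a
    have z1 : ∑ a, (trace ((1 - S' * S)ᴴ * E a * (1 - S' * S))).re = 0 := by
      rw [← Complex.re_sum, ← trace_sum, ← Matrix.sum_mul, ← Matrix.mul_sum, ← h,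
        Matrix.mul_assoc, Matrix.mul_sub, ← Matrix.mul_assoc S, e2]
      simp
    have z2 := (sum_eq_zero_iff_of_nonneg fun a _ =>
      re_trace_nonneg ((hE a).conjTranspose_mul_mul_same (1 - S' * S))).mp z1 a (mem_univ a)
    obtain ⟨W, hW⟩ := exists_factor (hE a)
    have z3 : fn (W * (1 - S' * S)) ^ 2 = 0 := by
      rw [fn_sq_eq_trace, ← z2, hW, conjTranspose_mul]
      simp only [Matrix.mul_assoc]
    have z4 := eq_zero_of_fn _ (pow_eq_zero_iff (two_ne_zero) |>.mp z3)
    have z5 : E a * (1 - S' * S) = 0 := by rw [hW, Matrix.mul_assoc, z4, Matrix.mul_zero]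
    rw [Matrix.mul_sub, Matrix.mul_one, sub_eq_zero] at z5
    exact z5.symm
  have e4 : ∀ a, S * S' * E a = E a := by
    intro a
    have := congrArg conjTranspose (e3 a)
    rwa [conjTranspose_mul, conjTranspose_mul, hSh, hS'h, (hE a).1.eq] at this
  have hP : (1 - R * S' * Rᴴ).PosSemidef := by
    have : 1 - R * S' * Rᴴ = (1 - R * S' * Rᴴ)ᴴ * (1 - R * S' * Rᴴ) := by
      have q1 : (R * S' * Rᴴ) * (R * S' * Rᴴ) = R * S' * Rᴴ := by
        calc (R * S' * Rᴴ) * (R * S' * Rᴴ) = R * (S' * S * S') * Rᴴ := by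
              simp only [hS, Matrix.mul_assoc]
          _ = _ := by rw [e1]
      rw [conjTranspose_sub, conjTranspose_one, conjTranspose_mul, conjTranspose_mul, hS'h,
        conjTranspose_conjTranspose, ← Matrix.mul_assoc, Matrix.sub_mul, Matrix.mul_sub,
        Matrix.mul_sub, q1]
      simp
    rw [this]; exact posSemidef_conjTranspose_mul_self _
  refine ⟨fun a => (R * S') * E a * (R * S')ᴴ + if a = a₀ then 1 - R * S' * Rᴴ else 0,
    ⟨fun a => ?_, ?_⟩, fun a => ?_⟩
  · refine ((hE a).mul_mul_conjTranspose_same _).add ?_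
    split_ifs
    · exact hP
    · exact PosSemidef.zero
  · rw [sum_add_distrib, ← Matrix.sum_mul, ← Matrix.mul_sum, ← h]
    simp only [sum_ite_eq', mem_univ, if_true]
    have : R * S' * S * (R * S')ᴴ = R * S' * Rᴴ := by
      rw [conjTranspose_mul, hS'h]
      calc R * S' * S * (S' * Rᴴ) = R * (S' * S * S') * Rᴴ := by simp only [Matrix.mul_assoc]
        _ = _ := by rw [e1]
    rw [this]; abel
  · rw [Matrix.mul_add, Matrix.add_mul]
    have q1 : Rᴴ * ((R * S') * E a * (R * S')ᴴ) * R = E a := by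
      rw [conjTranspose_mul, hS'h]
      calc Rᴴ * (R * S' * E a * (S' * Rᴴ)) * R = (S * S' * E a) * (S' * S) := by
            simp only [hS, Matrix.mul_assoc]
        _ = _ := by rw [e4, e3]
    have q2 : Rᴴ * (1 - R * S' * Rᴴ) * R = 0 := by
      rw [Matrix.mul_sub, Matrix.sub_mul, Matrix.mul_one, ← hS]
      calc S - Rᴴ * (R * S' * Rᴴ) * R = S - S * S' * S := by simp only [hS, Matrix.mul_assoc]
        _ = 0 := by rw [e2, sub_self]
    rw [q1]
    split_ifs
    · rw [q2, add_zero]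
    · simp

end dil

section blk
variable {P Q Γ : Type} [Fintype P] [Fintype Q] [Fintype Γ] [DecidableEq Γ]

lemma cf_blockDiagonal (A B : Γ → Matrix P Q ℂ) (M : Γ → Matrix P P ℂ) (N : Γ → Matrix Q Q ℂ) :
    cf (blockDiagonal A) (blockDiagonal M) (blockDiagonal B) (blockDiagonal N) =
      ∑ γ, cf (A γ) (M γ) (B γ) (N γ) := by
  unfold cf
  rw [blockDiagonal_conjTranspose, blockDiagonal_transpose, ← blockDiagonal_mul,
    ← blockDiagonal_mul, ← blockDiagonal_mul, trace_blockDiagonal, Complex.re_sum]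

lemma fn_sq_blockDiagonal (A : Γ → Matrix P Q ℂ) :
    fn (blockDiagonal A) ^ 2 = ∑ γ, fn (A γ) ^ 2 := by
  simp only [fn_sq_eq_trace]
  rw [blockDiagonal_conjTranspose, ← blockDiagonal_mul, trace_blockDiagonal, Complex.re_sum]

lemma psd_blockDiagonal [DecidableEq P] {M : Γ → Matrix P P ℂ} (h : ∀ γ, (M γ).PosSemidef) :
    (blockDiagonal M).PosSemidef := by
  choose S hS using fun γ => exists_factor (h γ)
  have : blockDiagonal M = (blockDiagonal S)ᴴ * blockDiagonal S := by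
    rw [blockDiagonal_conjTranspose, ← blockDiagonal_mul]
    congr 1; funext γ; exact hS γ
  rw [this]; exact posSemidef_conjTranspose_mul_self _

lemma povm_blockDiagonal [DecidableEq P] {α : Type} [Fintype α] {M : Γ → α → Matrix P P ℂ}
    (h : ∀ γ, IsPOVM (M γ)) : IsPOVM (fun a => blockDiagonal (fun γ => M γ a)) := by
  refine ⟨fun a => psd_blockDiagonal fun γ => (h γ).1 a, ?_⟩
  rw [← blockDiagonal_one]
  have : (1 : Γ → Matrix P P ℂ) = ∑ a, fun γ => M γ a := by
    funext γ; rw [Finset.sum_apply, (h γ).2]; rfl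
  rw [this]
  exact (map_sum (blockDiagonalAddMonoidHom P P Γ ℂ) (fun a => fun γ => M γ a) univ).symm

lemma cf_swap (A B : Matrix P Q ℂ) (M : Matrix P P ℂ) (N : Matrix Q Q ℂ) :
    cf Aᵀ N Bᵀ M = cf A M B N := by
  unfold cf
  congr 1
  rw [← trace_transpose]
  simp only [transpose_mul, transpose_transpose]
  have : ((Aᵀ)ᴴ)ᵀ = Aᴴ := rfl
  rw [this, ← Matrix.mul_assoc, ← Matrix.mul_assoc, trace_mul_comm _ Aᴴ]
  simp only [Matrix.mul_assoc]

lemma cf_eq_tp (A : Matrix P Q ℂ) (M : Matrix P P ℂ) (N : Matrix Q Q ℂ) :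
    cf A M A N = tp (A * Nᵀ * Aᴴ) M := by
  unfold cf tp
  congr 1
  rw [Matrix.mul_assoc (Aᴴ * M), trace_mul_comm]
  simp only [Matrix.mul_assoc]

end blk

end Crest.Agent.H9.QP
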