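import Crest.Agent.H9.QPDom
import Crest.Agent.H9.QPGram

/-! Rejection sampling, singular value decomposition, and a Lipschitz bound for moduli. -/

namespace Crest.Agent.H9.QP

open Matrix Finset
open scoped ComplexOrder Kronecker

section rej
variable {X Y α β P₀ Q₀ P Q Z' : Type} [Fintype α] [Fintype β] [Fintype P₀] [Fintype Q₀]
  [Fintype P] [Fintype Q] [Fintype Z'] [DecidableEq P₀] [DecidableEq Q₀] [DecidableEq P]
  [DecidableEq Q]

omit [DecidableEq P] [DecidableEq Q] in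
lemma cf_sum_left {ι : Type*} (s : Finset ι) (A : ι → Matrix P Q ℂ) (M : Matrix P P ℂ)
    (B : Matrix P Q ℂ) (N : Matrix Q Q ℂ) :
    cf (∑ i ∈ s, A i) M B N = ∑ i ∈ s, cf (A i) M B N := by
  simp [cf, Matrix.sum_mul, conjTranspose_sum]

omit [DecidableEq P] [DecidableEq Q] in
lemma cf_contract (e : Z' → ℝ) (he : ∑ m, e m ^ 2 ≤ 1) (Γ : Z' → Matrix P Q ℂ)
    {M : Matrix P P ℂ} {N : Matrix Q Q ℂ} (hM : M.PosSemidef) (hN : N.PosSemidef) :
    cf (∑ m, (e m : ℂ) • Γ m) M (∑ m, (e m : ℂ) • Γ m) N ≤ ∑ m, cf (Γ m) M (Γ m) N := by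
  have h1 : ∀ m m', e m * (e m' * cf (Γ m) M (Γ m') N) ≤
      (e m' ^ 2 * cf (Γ m) M (Γ m) N + e m ^ 2 * cf (Γ m') M (Γ m') N) / 2 := by
    intro m m'
    have := cf_nonneg ((e m' : ℂ) • Γ m - (e m : ℂ) • Γ m') hM hN
    rw [cf_sub_left, cf_sub_right, cf_sub_right, cf_smul_left, cf_smul_left, cf_smul_left,
      cf_smul_left, cf_smul_right, cf_smul_right, cf_smul_right, cf_smul_right,
      cf_symm (Γ m') (Γ m) hM.1 hN.1] at this
    nlinarith
  rw [cf_sum_left]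
  simp only [cf_smul_left]
  simp only [cf_sum_right, cf_smul_right, Finset.mul_sum]
  have h0 : 0 ≤ ∑ m, cf (Γ m) M (Γ m) N := sum_nonneg fun m _ => cf_nonneg _ hM hN
  calc ∑ m, ∑ m', e m * (e m' * cf (Γ m) M (Γ m') N)
      ≤ ∑ m, ∑ m', (e m' ^ 2 * cf (Γ m) M (Γ m) N + e m ^ 2 * cf (Γ m') M (Γ m') N) / 2 :=
        sum_le_sum fun m _ => sum_le_sum fun m' _ => h1 m m'
    _ = (∑ m, e m ^ 2) * ∑ m, cf (Γ m) M (Γ m) N := by
        simp only [← Finset.sum_div, sum_add_distrib, ← Finset.sum_mul, ← Finset.mul_sum]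
        ring
    _ ≤ _ := mul_le_of_le_one_left h0 he

theorem QDom.reject [Nonempty α] [Nonempty β] (Ξ : Matrix P₀ Q₀ ℂ) (hΞ : fn Ξ = 1)
    (S : X → Z' → Matrix P P₀ ℂ) (T : Y → Z' → Matrix Q Q₀ ℂ)
    (hS : ∀ x, (1 - ∑ m, (S x m)ᴴ * S x m).PosSemidef)
    (hT : ∀ y, (1 - ∑ m, (T y m)ᴴ * T y m).PosSemidef)
    (M : X → α → Matrix P P ℂ) (N : Y → β → Matrix Q Q ℂ) (hM : ∀ x, IsPOVM (M x))
    (hN : ∀ y, IsPOVM (N y)) (e : Z' → ℝ) (he : ∑ m, e m ^ 2 ≤ 1) (n : ℕ) :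
    QDom (fun x y a b => (∑ t ∈ range n,
      cf Ξ (1 - ∑ m, (S x m)ᴴ * S x m) Ξ (1 - ∑ m, (T y m)ᴴ * T y m) ^ t) *
      cf (∑ m, (e m : ℂ) • (S x m * Ξ * (T y m)ᵀ)) (M x a)
        (∑ m, (e m : ℂ) • (S x m * Ξ * (T y m)ᵀ)) (N y b)) := by
  induction n with
  | zero => exact QDom.zero.mono fun x y a b => by simp
  | succ n ih =>
    have := ih.seq Ξ hΞ (fun x a => ∑ m, (S x m)ᴴ * M x a * S x m)
      (fun x => 1 - ∑ m, (S x m)ᴴ * S x m) (fun y b => ∑ m, (T y m)ᴴ * N y b * T y m)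
      (fun y => 1 - ∑ m, (T y m)ᴴ * T y m)
      (fun x a => posSemidef_sum _ fun m _ => ((hM x).1 a).conjTranspose_mul_mul_same _) hS
      (fun x => by
        rw [Finset.sum_comm]
        simp only [← Matrix.sum_mul, ← Matrix.mul_sum, (hM x).2, Matrix.mul_one]; abel)
      (fun y b => posSemidef_sum _ fun m _ => ((hN y).1 b).conjTranspose_mul_mul_same _) hT
      (fun y => by
        rw [Finset.sum_comm]
        simp only [← Matrix.sum_mul, ← Matrix.mul_sum, (hN y).2, Matrix.mul_one]; abel)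
    refine this.mono fun x y a b => ?_
    have h1 := cf_contract e he (fun m => S x m * Ξ * (T y m)ᵀ) ((hM x).1 a) ((hN y).1 b)
    have h2 : ∑ m, cf (S x m * Ξ * (T y m)ᵀ) (M x a) (S x m * Ξ * (T y m)ᵀ) (N y b) ≤
        cf Ξ (∑ m, (S x m)ᴴ * M x a * S x m) Ξ (∑ m, (T y m)ᴴ * N y b * T y m) := by
      rw [cf_sum_M]
      refine sum_le_sum fun m _ => ?_
      rw [cf_sum_N, cf_local]
      exact single_le_sum (f := fun m' => cf Ξ ((S x m)ᴴ * M x a * S x m) Ξ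
        ((T y m')ᴴ * N y b * T y m')) (fun m' _ => cf_nonneg _
          (((hM x).1 a).conjTranspose_mul_mul_same _) (((hN y).1 b).conjTranspose_mul_mul_same _))
        (mem_univ m)
    rw [geom_sum_succ, add_mul, one_mul, mul_assoc]
    linarith

lemma exists_pullback [Nonempty α] (A : Matrix P P₀ ℂ)
    (hA : (1 - Aᴴ * A).PosSemidef) (M : α → Matrix P P ℂ) (hM : IsPOVM M) :
    ∃ M' : α → Matrix P₀ P₀ ℂ, IsPOVM M' ∧ ∀ a, (M' a - Aᴴ * M a * A).PosSemidef := by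
  classical
  obtain ⟨a₀⟩ := ‹Nonempty α›
  have h0 : ∀ a, (if a = a₀ then 1 - Aᴴ * A else 0).PosSemidef := fun a => by
    split_ifs; exacts [hA, PosSemidef.zero]
  refine ⟨fun a => Aᴴ * M a * A + if a = a₀ then 1 - Aᴴ * A else 0,
    ⟨fun a => ((hM.1 a).conjTranspose_mul_mul_same A).add (h0 a), ?_⟩, fun a => ?_⟩
  · rw [sum_add_distrib, ← Matrix.sum_mul, ← Matrix.mul_sum, hM.2]
    simp
  · rw [add_sub_cancel_left]; exact h0 a

lemma cf_diag (A : Matrix P Q ℂ) (p : P → ℝ) (q : Q → ℝ) :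
    cf A (diagonal fun i => (p i : ℂ)) A (diagonal fun l => (q l : ℂ)) =
      ∑ i, ∑ l, p i * q l * ‖A i l‖ ^ 2 := by
  unfold cf
  rw [diagonal_transpose, Finset.sum_comm]
  simp only [trace, Matrix.diag, mul_diagonal, Complex.re_sum]
  refine sum_congr rfl fun l _ => ?_
  rw [Matrix.mul_apply, Finset.sum_mul, Complex.re_sum]
  refine sum_congr rfl fun i _ => ?_
  rw [mul_diagonal, conjTranspose_apply]
  have : star (A i l) * (p i : ℂ) * A i l * (q l : ℂ) = ((p i * q l * ‖A i l‖ ^ 2 : ℝ) : ℂ) := by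
    have := Complex.conj_mul' (A i l)
    push_cast
    rw [← this, RCLike.star_def]; ring
  rw [this, Complex.ofReal_re]

end rej

section svd
variable {P Q : Type} [Fintype P] [Fintype Q] [DecidableEq P] [DecidableEq Q]

theorem exists_svd (G : Matrix P Q ℂ) :
    ∃ (A : Matrix P Q ℂ) (U : Matrix Q Q ℂ) (s : Q → ℝ), Uᴴ * U = 1 ∧ U * Uᴴ = 1 ∧
      (∀ i, 0 ≤ s i) ∧ (1 - Aᴴ * A).PosSemidef ∧ (1 - A * Aᴴ).PosSemidef ∧
      G = A * diagonal (fun i => (s i : ℂ)) * Uᴴ ∧ ∑ i, s i ^ 2 = fn G ^ 2 := by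
  obtain ⟨U, d, h1, h2, h3, h4⟩ := exists_cd (posSemidef_conjTranspose_mul_self G)
  have h5 : Uᴴ * (Gᴴ * G) * U = diagonal (fun i => (d i : ℂ)) := by
    rw [h4]; unfold cd
    simp only [Matrix.mul_assoc]
    rw [h1, Matrix.mul_one, ← Matrix.mul_assoc, h1, Matrix.one_mul]
  have hq : ∀ p q : Q → ℝ, (G * U * diagonal (fun i => (p i : ℂ)))ᴴ *
      (G * U * diagonal (fun i => (q i : ℂ))) = diagonal (fun i => ((p i * d i * q i : ℝ) : ℂ)) := by
    intro p q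
    have : (G * U * diagonal (fun i => (p i : ℂ)))ᴴ * (G * U * diagonal (fun i => (q i : ℂ))) =
        (diagonal (fun i => (p i : ℂ)))ᴴ * (Uᴴ * (Gᴴ * G) * U) * diagonal (fun i => (q i : ℂ)) := by
      simp only [conjTranspose_mul, Matrix.mul_assoc]
    rw [this, h5, diagonal_conjTranspose, diagonal_mul_diagonal, diagonal_mul_diagonal]
    congr 1; funext i; simp
  let s : Q → ℝ := fun i => Real.sqrt (d i)
  have hs : ∀ i, s i * s i = d i := fun i => Real.mul_self_sqrt (h3 i)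
  let A := G * U * diagonal (fun i => (((s i)⁻¹ : ℝ) : ℂ))
  have hAA : Aᴴ * A = diagonal (fun i => (((s i)⁻¹ * d i * (s i)⁻¹ : ℝ) : ℂ)) := hq _ _
  have hind : ∀ i, (s i)⁻¹ * d i * (s i)⁻¹ = if s i = 0 then 0 else 1 := by
    intro i
    split_ifs with h
    · simp [h]
    · rw [← hs]; field_simp
  refine ⟨A, U, s, h1, h2, fun i => Real.sqrt_nonneg _, ?_, ?_, ?_, ?_⟩
  · rw [hAA, ← diagonal_one, diagonal_sub]
    refine PosSemidef.diagonal fun i => ?_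
    simp only [hind]
    split_ifs <;> simp
  · have q1 : A * (Aᴴ * A) = A := by
      rw [hAA]
      simp only [A, Matrix.mul_assoc, diagonal_mul_diagonal]
      congr 3; funext i
      rw [hind]
      split_ifs with h <;> simp [h]
    have q2 : (A * Aᴴ) * (A * Aᴴ) = A * Aᴴ := by
      rw [Matrix.mul_assoc, ← Matrix.mul_assoc Aᴴ, ← Matrix.mul_assoc, q1]
    have : 1 - A * Aᴴ = (1 - A * Aᴴ)ᴴ * (1 - A * Aᴴ) := by
      rw [conjTranspose_sub, conjTranspose_one, conjTranspose_mul A, conjTranspose_conjTranspose,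
        Matrix.sub_mul, Matrix.mul_sub, Matrix.mul_sub, q2]
      simp
    rw [this]; exact posSemidef_conjTranspose_mul_self _
  · have z1 : fn (G * U * diagonal (fun i => ((1 - (s i)⁻¹ * s i : ℝ) : ℂ))) ^ 2 = 0 := by
      rw [fn_sq_eq_trace, hq, trace_diagonal, Complex.re_sum]
      refine sum_eq_zero fun i _ => ?_
      rw [Complex.ofReal_re]
      by_cases h : s i = 0
      · rw [← hs, h]; simp
      · rw [inv_mul_cancel₀ h]; simp
    have z2 := eq_zero_of_fn _ (pow_eq_zero_iff two_ne_zero |>.mp z1)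
    have z3 : diagonal (fun i => ((1 - (s i)⁻¹ * s i : ℝ) : ℂ)) =
        1 - diagonal (fun i => (((s i)⁻¹ : ℝ) : ℂ)) * diagonal (fun i => (s i : ℂ)) := by
      rw [diagonal_mul_diagonal, ← diagonal_one, diagonal_sub]
      congr 1; funext i; simp
    rw [z3, Matrix.mul_sub, Matrix.mul_one, sub_eq_zero, ← Matrix.mul_assoc] at z2
    simp only [A]
    rw [← z2, Matrix.mul_assoc, h2, Matrix.mul_one]
  · rw [fn_sq_eq_trace, h4]
    unfold cd
    rw [trace_mul_cycle, h1, Matrix.one_mul, trace_diagonal, Complex.re_sum]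
    refine sum_congr rfl fun i _ => ?_
    rw [Complex.ofReal_re, sq, hs]

omit [DecidableEq Q] in
lemma row_norm_le (X : Matrix P Q ℂ) (h : (1 - X * Xᴴ).PosSemidef) (i : P) :
    ∑ l, ‖X i l‖ ^ 2 ≤ 1 := by
  have := (Complex.nonneg_iff.mp (h.diag_nonneg (i := i))).1
  simp only [Matrix.sub_apply, one_apply_eq, Matrix.mul_apply, conjTranspose_apply, Complex.sub_re,
    Complex.one_re, Complex.re_sum, RCLike.star_def, Complex.mul_conj'] at this
  have h2 : ∀ l, ((‖X i l‖ : ℂ) ^ 2).re = ‖X i l‖ ^ 2 := fun l => by norm_cast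
  simp only [h2] at this
  linarith

omit [DecidableEq P] in
lemma col_norm_le (X : Matrix P Q ℂ) (h : (1 - Xᴴ * X).PosSemidef) (l : Q) :
    ∑ i, ‖X i l‖ ^ 2 ≤ 1 := by
  have := row_norm_le Xᴴ (by rwa [conjTranspose_conjTranspose]) l
  simpa [conjTranspose_apply] using this

omit [DecidableEq Q] in
lemma row_norm_eq (X : Matrix P Q ℂ) (h : X * Xᴴ = 1) (i : P) : ∑ l, ‖X i l‖ ^ 2 = 1 := by
  have := congrArg Complex.re (congrFun (congrFun h i) i)
  simp only [one_apply_eq, Matrix.mul_apply, conjTranspose_apply,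
    Complex.one_re, Complex.re_sum, RCLike.star_def, Complex.mul_conj'] at this
  have h2 : ∀ l, ((‖X i l‖ : ℂ) ^ 2).re = ‖X i l‖ ^ 2 := fun l => by norm_cast
  simpa only [h2] using this

omit [DecidableEq P] in
lemma col_norm_eq (X : Matrix P Q ℂ) (h : Xᴴ * X = 1) (l : Q) : ∑ i, ‖X i l‖ ^ 2 = 1 := by
  have := row_norm_eq Xᴴ (by rwa [conjTranspose_conjTranspose]) l
  simpa [conjTranspose_apply] using this

lemma contr_mul {A A' : Matrix P Q ℂ} (h1 : (1 - Aᴴ * A).PosSemidef)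
    (h2 : (1 - A' * A'ᴴ).PosSemidef) : (1 - (Aᴴ * A') * (Aᴴ * A')ᴴ).PosSemidef := by
  have := h1.add (h2.conjTranspose_mul_mul_same A)
  convert this using 1
  simp only [conjTranspose_mul, conjTranspose_conjTranspose, Matrix.mul_sub, Matrix.sub_mul,
    Matrix.mul_one, Matrix.mul_assoc]
  abel

theorem moduli_close {A A' : Matrix P Q ℂ} {U V : Matrix Q Q ℂ} {s t : Q → ℝ}
    (hU1 : Uᴴ * U = 1) (hU2 : U * Uᴴ = 1) (hV1 : Vᴴ * V = 1) (hV2 : V * Vᴴ = 1)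
    (hs : ∀ i, 0 ≤ s i) (ht : ∀ i, 0 ≤ t i)
    (hA1 : (1 - Aᴴ * A).PosSemidef) (hA2 : (1 - A * Aᴴ).PosSemidef)
    (hA1' : (1 - A'ᴴ * A').PosSemidef) (hA2' : (1 - A' * A'ᴴ).PosSemidef)
    {G H : Matrix P Q ℂ} (hG : G = A * diagonal (fun i => (s i : ℂ)) * Uᴴ)
    (hH : H = A' * diagonal (fun i => (t i : ℂ)) * Vᴴ) (hs1 : ∑ i, s i ^ 2 = 1)
    (ht1 : ∑ i, t i ^ 2 = 1) (hG1 : fn G = 1) (hH1 : fn H = 1) :
    ∑ i, ∑ l, (s i - t l) ^ 2 * ‖(Uᴴ * V) i l‖ ^ 2 ≤ 2 * fn (G - H) ^ 2 := by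
  set O := Uᴴ * V with hO
  set X := Aᴴ * A' with hX
  have hO1 : ∀ i, ∑ l, ‖O i l‖ ^ 2 = 1 := row_norm_eq O (by
    rw [hO, conjTranspose_mul, conjTranspose_conjTranspose, Matrix.mul_assoc,
      ← Matrix.mul_assoc V, hV2, Matrix.one_mul, hU1])
  have hO2 : ∀ l, ∑ i, ‖O i l‖ ^ 2 = 1 := col_norm_eq O (by
    rw [hO, conjTranspose_mul, conjTranspose_conjTranspose, Matrix.mul_assoc,
      ← Matrix.mul_assoc U, hU2, Matrix.one_mul, hV1])
  have hX1 : ∀ i, ∑ l, ‖X i l‖ ^ 2 ≤ 1 := row_norm_le X (contr_mul hA1 hA2')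
  have hX2 : ∀ l, ∑ i, ‖X i l‖ ^ 2 ≤ 1 := col_norm_le X (by
    have := contr_mul hA1' hA2
    rwa [conjTranspose_mul, conjTranspose_conjTranspose, ← hX,
      ← conjTranspose_conjTranspose (A'ᴴ * A), conjTranspose_mul, conjTranspose_conjTranspose,
      ← hX] at this)
  have h1 : fn (G - H) ^ 2 = 2 - 2 * cf G 1 H 1 := by
    rw [fn_sq_eq_cf, cf_sub_left, cf_sub_right, cf_sub_right, ← fn_sq_eq_cf, ← fn_sq_eq_cf, hG1,
      hH1, cf_symm H G isHermitian_one isHermitian_one]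
    ring
  have h2 : cf G 1 H 1 = ∑ i, ∑ l, s i * t l * (X i l * star (O i l)).re := by
    unfold cf
    have : trace (Gᴴ * (1 : Matrix P P ℂ) * H * (1 : Matrix Q Q ℂ)ᵀ) = trace (diagonal (fun i => (s i : ℂ)) * X *
        diagonal (fun i => (t i : ℂ)) * Oᴴ) := by
      rw [hG, hH, hO, hX]
      simp only [conjTranspose_mul, conjTranspose_conjTranspose, diagonal_conjTranspose,
        transpose_one, Matrix.mul_one, Matrix.mul_assoc]
      rw [trace_mul_comm U]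
      simp only [Matrix.mul_assoc]
      congr 3
      funext i; simp
    rw [this]
    simp only [trace, Matrix.diag, Complex.re_sum]
    refine sum_congr rfl fun i _ => ?_
    rw [Matrix.mul_apply, Complex.re_sum]
    refine sum_congr rfl fun l _ => ?_
    rw [mul_diagonal, diagonal_mul, conjTranspose_apply]
    have : (s i : ℂ) * X i l * (t l : ℂ) * star (O i l) =
        ((s i * t l : ℝ) : ℂ) * (X i l * star (O i l)) := by push_cast; ring
    rw [this, Complex.re_ofReal_mul]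
  have h3 : ∀ i l, s i * t l * (X i l * star (O i l)).re ≤
      (s i ^ 2 * ‖X i l‖ ^ 2 + t l ^ 2 * ‖X i l‖ ^ 2) / 4 + s i * t l * ‖O i l‖ ^ 2 / 2 := by
    intro i l
    have a1 : (X i l * star (O i l)).re ≤ ‖X i l‖ * ‖O i l‖ := by
      refine (Complex.re_le_norm _).trans ?_
      rw [norm_mul, norm_star]
    have a2 : 0 ≤ s i * t l := mul_nonneg (hs i) (ht l)
    have a3 := mul_le_mul_of_nonneg_left a1 a2
    have a4 := mul_nonneg a2 (sq_nonneg (‖X i l‖ - ‖O i l‖))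
    have a5 := mul_nonneg (sq_nonneg (s i - t l)) (sq_nonneg ‖X i l‖)
    nlinarith
  have h4 : ∑ i, ∑ l, s i ^ 2 * ‖X i l‖ ^ 2 ≤ 1 := by
    rw [← hs1]
    refine sum_le_sum fun i _ => ?_
    rw [← Finset.mul_sum]; exact mul_le_of_le_one_right (sq_nonneg _) (hX1 i)
  have h5 : ∑ i, ∑ l, t l ^ 2 * ‖X i l‖ ^ 2 ≤ 1 := by
    rw [← ht1, Finset.sum_comm]
    refine sum_le_sum fun l _ => ?_
    rw [← Finset.mul_sum]; exact mul_le_of_le_one_right (sq_nonneg _) (hX2 l)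
  have h6 : ∑ i, ∑ l, s i ^ 2 * ‖O i l‖ ^ 2 = 1 := by
    simp only [← Finset.mul_sum, hO1, mul_one, hs1]
  have h7 : ∑ i, ∑ l, t l ^ 2 * ‖O i l‖ ^ 2 = 1 := by
    rw [Finset.sum_comm]
    simp only [← Finset.mul_sum, hO2, mul_one, ht1]
  have h8 : cf G 1 H 1 ≤ (∑ i, ∑ l, s i ^ 2 * ‖X i l‖ ^ 2 + ∑ i, ∑ l, t l ^ 2 * ‖X i l‖ ^ 2) / 4 +
      (∑ i, ∑ l, s i * t l * ‖O i l‖ ^ 2) / 2 := by
    rw [h2]
    refine le_trans (sum_le_sum fun i _ => sum_le_sum fun l _ => h3 i l) (le_of_eq ?_)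
    simp only [sum_add_distrib, ← Finset.sum_div]
  have h9 : ∑ i, ∑ l, (s i - t l) ^ 2 * ‖O i l‖ ^ 2 = ∑ i, ∑ l, s i ^ 2 * ‖O i l‖ ^ 2 +
      ∑ i, ∑ l, t l ^ 2 * ‖O i l‖ ^ 2 - 2 * ∑ i, ∑ l, s i * t l * ‖O i l‖ ^ 2 := by
    simp only [Finset.mul_sum, ← sum_add_distrib, ← sum_sub_distrib]
    refine sum_congr rfl fun i _ => sum_congr rfl fun l _ => ?_
    ring
  linarith

end svd

end Crest.Agent.H9.QP
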