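import Crest.Agent.H9.QPRej

/-! One round of quantum correlated sampling, repeated until success. -/

namespace Crest.Agent.H9.QP

open Matrix Finset
open scoped ComplexOrder Kronecker

variable {X Y α β Q Z Z' : Type} [Fintype α] [Fintype β] [Fintype Q] [Fintype Z] [Fintype Z']
  [DecidableEq Q] [DecidableEq Z] [DecidableEq Z']

/-- selection matrices -/
noncomputable def Dm (dom : ℕ → Z → Bool) (π : ℕ → Z → Z') (d : Q → ℕ) (m : Z') :
    Matrix Q (Q × Z) ℂ :=
  Matrix.of fun i p => if i = p.1 ∧ dom (d i) p.2 = true ∧ π (d i) p.2 = m then 1 else 0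

/-- overlap amplitude -/
noncomputable def kap (e : Z → ℝ) (e' : Z' → ℝ) (dom : ℕ → Z → Bool) (π : ℕ → Z → Z')
    (d d' : ℕ) : ℝ :=
  ∑ z, if dom d z = true ∧ dom d' z = true ∧ π d z = π d' z then e z * e' (π d z) else 0

omit [Fintype Z] in
lemma Dm_sum {dom : ℕ → Z → Bool} {π : ℕ → Z → Z'} {d : Q → ℕ}
    (hinj : ∀ i z z', dom (d i) z = true → dom (d i) z' = true → π (d i) z = π (d i) z' → z = z') :
    ∑ m, (Dm dom π d m)ᴴ * Dm dom π d m =
      diagonal (fun p => if dom (d p.1) p.2 = true then 1 else 0) := by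
  ext ⟨i, z⟩ ⟨i', z'⟩
  simp only [Matrix.sum_apply, Matrix.mul_apply, conjTranspose_apply, Dm, of_apply, diagonal_apply]
  rw [Finset.sum_comm, Finset.sum_eq_single i, Finset.sum_eq_single (π (d i) z)]
  · by_cases h : (i, z) = (i', z')
    · obtain ⟨rfl, rfl⟩ := Prod.mk.inj h
      by_cases h2 : dom (d i) z = true <;> simp [h2]
    · rw [if_neg h]
      by_cases h1 : i = i' ∧ dom (d i) z' = true ∧ π (d i) z' = π (d i) z
      · by_cases h2 : dom (d i) z = true
        · exact absurd (Prod.ext h1.1 (hinj i z z' h2 h1.2.1 h1.2.2.symm)) h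
        · simp [h2]
      · rw [if_neg h1, mul_zero]
  · intro m _ hm
    rw [if_neg (fun h => hm h.2.2.symm)]; simp
  · simp
  · intro j _ hj
    refine sum_eq_zero fun m _ => ?_
    rw [if_neg (fun h => hj h.1)]; simp
  · simp

lemma Dm_contract (e : Z → ℝ) (e' : Z' → ℝ) (dom : ℕ → Z → Bool) (π : ℕ → Z → Z') (d d' : Q → ℕ)
    (O : Matrix Q Q ℂ) :
    ∑ m, (e' m : ℂ) • (Dm dom π d m * (O ⊗ₖ diagonal (fun z => (e z : ℂ))) * (Dm dom π d' m)ᵀ) =
      Matrix.of fun i l => O i l * (kap e e' dom π (d i) (d' l) : ℂ) := by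
  ext i l
  have h1 : ∀ m, (Dm dom π d m * (O ⊗ₖ diagonal (fun z => (e z : ℂ))) * (Dm dom π d' m)ᵀ) i l =
      ∑ z, if dom (d i) z = true ∧ dom (d' l) z = true ∧ π (d i) z = π (d' l) z then
        (if π (d i) z = m then O i l * e z else 0) else 0 := by
    intro m
    rw [Matrix.mul_apply, Fintype.sum_prod_type, Finset.sum_eq_single l]
    · refine sum_congr rfl fun z _ => ?_
      rw [Matrix.mul_apply, Finset.sum_eq_single (i, z)]
      · simp only [Dm, of_apply, transpose_apply, kroneckerMap_apply, diagonal_apply_eq, true_and]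
        by_cases h1 : dom (d i) z = true ∧ π (d i) z = m
        · by_cases h2 : dom (d' l) z = true ∧ π (d' l) z = m
          · rw [if_pos h1, if_pos h2, if_pos ⟨h1.1, h2.1, h1.2.trans h2.2.symm⟩, if_pos h1.2]
            simp
          · rw [if_neg h2, mul_zero, if_neg (c := dom (d i) z = true ∧ dom (d' l) z = true ∧
              π (d i) z = π (d' l) z) (fun h => h2 ⟨h.2.1, h.2.2.symm.trans h1.2⟩)]
        · rw [if_neg h1, zero_mul, zero_mul]
          split_ifs with h2 h3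
          · exact absurd ⟨h2.1, h3⟩ h1
          · rfl
          · rfl
      · rintro ⟨j, z'⟩ _ hne
        by_cases hj : i = j
        · have : z' ≠ z := fun h => hne (by rw [hj, h])
          simp [kroneckerMap_apply, diagonal_apply_ne _ this]
        · simp [Dm, hj]
      · simp
    · intro j _ hj
      refine sum_eq_zero fun z _ => ?_
      simp [Dm, Ne.symm hj]
    · simp
  simp only [Matrix.sum_apply, Matrix.smul_apply, h1, of_apply, kap, smul_eq_mul, Finset.mul_sum,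
    Complex.ofReal_sum]
  rw [Finset.sum_comm]
  refine sum_congr rfl fun z _ => ?_
  split_ifs with h
  · simp only [mul_ite, mul_zero, sum_ite_eq, mem_univ, if_true]
    push_cast; ring
  · simp

theorem oneshot [Nonempty α] [Nonempty β] [Nonempty Q] (K : ℕ) (e : Z → ℝ) (e' : Z' → ℝ)
    (dom : ℕ → Z → Bool) (π : ℕ → Z → Z') (he : ∑ z, e z ^ 2 = 1) (he' : ∑ m, e' m ^ 2 ≤ 1)
    (hinj : ∀ d ≤ K, ∀ z z', dom d z = true → dom d z' = true → π d z = π d z' → z = z')
    (hmass : ∀ d ≤ K, ∑ z, (if dom d z = true then e z ^ 2 else 0) = d / K)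
    (hmono : ∀ d d', d ≤ d' → ∀ z, dom d z = true → dom d' z = true)
    (U : X → Matrix Q Q ℂ) (V : Y → Matrix Q Q ℂ) (hU : ∀ x, U x * (U x)ᴴ = 1)
    (hV : ∀ y, V y * (V y)ᴴ = 1) (dA : X → Q → ℕ) (dB : Y → Q → ℕ) (hdA : ∀ x i, dA x i ≤ K)
    (hdB : ∀ y l, dB y l ≤ K) (M : X → α → Matrix Q Q ℂ) (N : Y → β → Matrix Q Q ℂ)
    (hM : ∀ x, IsPOVM (M x)) (hN : ∀ y, IsPOVM (N y)) (n : ℕ) :
    QDom (fun x y a b => (∑ t ∈ range n, ((∑ i, ∑ l, (‖((U x)ᴴ * V y) i l‖ ^ 2 : ℝ) *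
        (1 - ((max (dA x i) (dB y l) : ℕ) : ℝ) / K)) / (Fintype.card Q : ℝ)) ^ t) /
        (Fintype.card Q : ℝ) *
      cf (Matrix.of fun i l => ((U x)ᴴ * V y) i l * (kap e e' dom π (dA x i) (dB y l) : ℂ)) (M x a)
        (Matrix.of fun i l => ((U x)ᴴ * V y) i l * (kap e e' dom π (dA x i) (dB y l) : ℂ))
        (N y b)) := by
  have hN0 : (0 : ℝ) < Fintype.card Q := by positivity
  set c : ℝ := Real.sqrt (1 / Fintype.card Q) with hc
  have hc2 : c ^ 2 = 1 / Fintype.card Q := Real.sq_sqrt (by positivity)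
  have hc0 : 0 ≤ c := Real.sqrt_nonneg _
  let Ξ : Matrix (Q × Z) (Q × Z) ℂ :=
    (c : ℂ) • ((1 : Matrix Q Q ℂ) ⊗ₖ diagonal (fun z => (e z : ℂ)))
  have hker : ∀ (O : Matrix Q Q ℂ) (p q : Q × Z → ℝ),
      ∑ a, ∑ b, p a * q b * ‖((c : ℂ) • (O ⊗ₖ diagonal (fun z => (e z : ℂ)))) a b‖ ^ 2 =
      (∑ i, ∑ l, ‖O i l‖ ^ 2 * ∑ z, p (i, z) * q (l, z) * e z ^ 2) / Fintype.card Q := by
    intro O p q
    simp only [Fintype.sum_prod_type, Finset.sum_div, Finset.mul_sum]
    refine sum_congr rfl fun i _ => ?_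
    rw [Finset.sum_comm]
    refine sum_congr rfl fun l _ => sum_congr rfl fun z _ => ?_
    rw [Finset.sum_eq_single z]
    · simp only [Matrix.smul_apply, kroneckerMap_apply, diagonal_apply_eq, smul_eq_mul, norm_mul,
        mul_pow, Complex.norm_real, Real.norm_eq_abs, sq_abs, hc2]
      ring
    · intro z' _ hz
      simp [kroneckerMap_apply, diagonal_apply_ne _ (Ne.symm hz)]
    · simp
  have hΞ : fn Ξ = 1 := by
    have h1 : fn Ξ ^ 2 = 1 := by
      have := hker 1 (fun _ => 1) (fun _ => 1)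
      simp only [one_mul, he, mul_one] at this
      rw [fn_sq_eq_sum, this, div_eq_one_iff_eq hN0.ne']
      simp only [fun i => row_norm_eq (1 : Matrix Q Q ℂ) (by simp) i]
      simp
    have h0 := fn_nonneg Ξ
    nlinarith
  let WA : X → Matrix (Q × Z) (Q × Z) ℂ := fun x => (U x)ᴴ ⊗ₖ (1 : Matrix Z Z ℂ)
  let WB : Y → Matrix (Q × Z) (Q × Z) ℂ := fun y => (V y)ᵀ ⊗ₖ (1 : Matrix Z Z ℂ)
  have hWA : ∀ x, (WA x)ᴴ * WA x = 1 := fun x => by
    simp only [WA]
    rw [conjTranspose_kronecker, ← mul_kronecker_mul, conjTranspose_conjTranspose, hU]; simp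
  have hWB : ∀ y, (WB y)ᴴ * WB y = 1 := fun y => by
    simp only [WB]
    rw [conjTranspose_kronecker, ← mul_kronecker_mul]
    have : ((V y)ᵀ)ᴴ * (V y)ᵀ = 1 := by
      have := congrArg transpose (hV y)
      rwa [transpose_mul, transpose_one] at this
    rw [this]; simp
  have hW : ∀ x y, WA x * Ξ * (WB y)ᵀ =
      (c : ℂ) • (((U x)ᴴ * V y) ⊗ₖ diagonal (fun z => (e z : ℂ))) := by
    intro x y
    simp only [WA, WB, Ξ]
    rw [← kroneckerMap_transpose, Matrix.mul_smul, Matrix.smul_mul, ← mul_kronecker_mul,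
      ← mul_kronecker_mul]
    simp
  have hF : ∀ (W : Matrix (Q × Z) (Q × Z) ℂ) (d : Q → ℕ), Wᴴ * W = 1 → (∀ i, d i ≤ K) →
      1 - ∑ m, (Dm dom π d m * W)ᴴ * (Dm dom π d m * W) =
        Wᴴ * diagonal (fun p => ((if dom (d p.1) p.2 = true then 0 else 1 : ℝ) : ℂ)) * W := by
    intro W d hW hd
    have h1 : ∑ m, (Dm dom π d m * W)ᴴ * (Dm dom π d m * W) =
        Wᴴ * (∑ m, (Dm dom π d m)ᴴ * Dm dom π d m) * W := by
      simp only [conjTranspose_mul, Matrix.mul_sum, Matrix.sum_mul, Matrix.mul_assoc]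
    rw [h1, Dm_sum (fun i => hinj _ (hd i))]
    have h2 : diagonal (fun p : Q × Z => ((if dom (d p.1) p.2 = true then 0 else 1 : ℝ) : ℂ)) =
        1 - diagonal (fun p => if dom (d p.1) p.2 = true then 1 else 0) := by
      rw [← diagonal_one, diagonal_sub]
      congr 1; funext p
      split_ifs <;> simp
    rw [h2, Matrix.mul_sub, Matrix.sub_mul, Matrix.mul_one, hW]
  have hFp : ∀ (W : Matrix (Q × Z) (Q × Z) ℂ) (d : Q → ℕ), (Wᴴ * diagonal
      (fun p : Q × Z => ((if dom (d p.1) p.2 = true then 0 else 1 : ℝ) : ℂ)) * W).PosSemidef := by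
    intro W d
    refine PosSemidef.conjTranspose_mul_mul_same (PosSemidef.diagonal fun p => ?_) W
    dsimp only
    split_ifs <;> simp
  have hfail : ∀ d ≤ K, ∀ d' ≤ K, ∑ z, (if dom d z = true then 0 else 1 : ℝ) *
      (if dom d' z = true then 0 else 1 : ℝ) * e z ^ 2 = 1 - ((max d d' : ℕ) : ℝ) / K := by
    intro d hd d' hd'
    rw [← hmass _ (max_le hd hd'), eq_sub_iff_add_eq, ← sum_add_distrib]
    refine Eq.trans ?_ he
    refine sum_congr rfl fun z _ => ?_
    rcases le_total d d' with h | h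
    · rw [max_eq_right h]
      by_cases h1 : dom d' z = true
      · simp [h1]
      · have h2 : ¬ dom d z = true := fun h2 => h1 (hmono d d' h z h2)
        simp [h1, h2]
    · rw [max_eq_left h]
      by_cases h1 : dom d z = true
      · simp [h1]
      · have h2 : ¬ dom d' z = true := fun h2 => h1 (hmono d' d h z h2)
        simp [h1, h2]
  have key := QDom.reject Ξ hΞ (fun x m => Dm dom π (dA x) m * WA x)
    (fun y m => Dm dom π (dB y) m * WB y)
    (fun x => by rw [hF _ _ (hWA x) (hdA x)]; exact hFp _ _)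
    (fun y => by rw [hF _ _ (hWB y) (hdB y)]; exact hFp _ _) M N hM hN e' he' n
  refine key.mono fun x y a b => le_of_eq ?_
  rw [hF _ _ (hWA x) (hdA x), hF _ _ (hWB y) (hdB y), ← cf_local, hW, cf_diag, hker]
  simp only [hfail _ (hdA x _) _ (hdB y _)]
  have : ∑ m, (e' m : ℂ) • (Dm dom π (dA x) m * WA x * Ξ * (Dm dom π (dB y) m * WB y)ᵀ) =
      (c : ℂ) • Matrix.of fun i l => ((U x)ᴴ * V y) i l *
        (kap e e' dom π (dA x i) (dB y l) : ℂ) := by
    rw [← Dm_contract, Finset.smul_sum]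
    refine sum_congr rfl fun m _ => ?_
    rw [transpose_mul, smul_comm]
    congr 1
    calc Dm dom π (dA x) m * WA x * Ξ * ((WB y)ᵀ * (Dm dom π (dB y) m)ᵀ)
        = Dm dom π (dA x) m * (WA x * Ξ * (WB y)ᵀ) * (Dm dom π (dB y) m)ᵀ := by
          simp only [Matrix.mul_assoc]
      _ = _ := by rw [hW, Matrix.mul_smul, Matrix.smul_mul]
  rw [this, cf_smul_left, cf_smul_right, ← mul_assoc c c, ← sq, hc2]
  ring

omit [DecidableEq Z] in
lemma kap_le {e : Z → ℝ} {e' : Z' → ℝ} {dom : ℕ → Z → Bool} {π : ℕ → Z → Z'}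
    (he0 : ∀ z, 0 ≤ e z) (he0' : ∀ m, 0 ≤ e' m) (he' : ∑ m, e' m ^ 2 ≤ 1) {d : ℕ} (d' : ℕ)
    (hinj : ∀ z z', dom d z = true → dom d z' = true → π d z = π d z' → z = z') {r : ℝ}
    (hmass : ∑ z, (if dom d z = true then e z ^ 2 else 0) = r) :
    0 ≤ kap e e' dom π d d' ∧ kap e e' dom π d d' ≤ Real.sqrt r := by
  refine ⟨sum_nonneg fun z _ => by split_ifs; exacts [mul_nonneg (he0 _) (he0' _), le_rfl], ?_⟩
  have h1 : kap e e' dom π d d' ≤ ∑ z ∈ univ.filter (fun z => dom d z = true), e z * e' (π d z) := by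
    rw [Finset.sum_filter]
    refine sum_le_sum fun z _ => ?_
    by_cases h : dom d z = true
    · rw [if_pos h]; split_ifs; exacts [le_rfl, mul_nonneg (he0 _) (he0' _)]
    · rw [if_neg h, if_neg (fun h' => h h'.1)]
  have h2 := Real.sum_mul_le_sqrt_mul_sqrt (univ.filter (fun z => dom d z = true)) e
    (fun z => e' (π d z))
  rw [Finset.sum_filter (fun z => dom d z = true) (fun z => e z ^ 2), hmass] at h2
  have h3 : ∑ z ∈ univ.filter (fun z => dom d z = true), e' (π d z) ^ 2 ≤ 1 := by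
    rw [← Finset.sum_image (f := fun m => e' m ^ 2) (fun z hz z' hz' h =>
      hinj z z' (mem_filter.mp hz).2 (mem_filter.mp hz').2 h)]
    exact le_trans (sum_le_sum_of_subset_of_nonneg (subset_univ _) fun m _ _ => sq_nonneg _) he'
  have h4 := Real.sqrt_le_one.mpr h3
  have h5 := mul_le_mul_of_nonneg_left h4 (Real.sqrt_nonneg r)
  linarith

end Crest.Agent.H9.QP
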