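import Crest.Agent.H9.QPDom

/-! Simulation by one reference state per support component. -/

namespace Crest.Agent.H9.QP

open Matrix Finset
open scoped ComplexOrder

section comp
variable {X Y α β P Q L : Type} [Fintype X] [Fintype Y] [Fintype α] [Fintype β] [Fintype P]
  [Fintype Q] [DecidableEq P] [DecidableEq Q] [DecidableEq L]

omit [Fintype X] [Fintype Y] in
lemma qdom_labels [Nonempty α] [Nonempty β] (cX : X → L) (cY : Y → L) (Ξ : L → Matrix P Q ℂ)
    (hΞ : ∀ l, fn (Ξ l) = 1) (M : X → α → Matrix P P ℂ) (N : Y → β → Matrix Q Q ℂ)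
    (hM : ∀ x, IsPOVM (M x)) (hN : ∀ y, IsPOVM (N y)) (S : Finset L) :
    QDom (fun x y a b => if cX x = cY y ∧ cX x ∈ S then
      cf (Ξ (cX x)) (M x a) (Ξ (cX x)) (N y b) else 0) := by
  induction S using Finset.induction_on with
  | empty => exact QDom.zero.mono fun x y a b => by simp
  | insert l S hl ih =>
    have := ih.seq (Ξ l) (hΞ l) (fun x a => if cX x = l then M x a else 0)
      (fun x => if cX x = l then 0 else 1) (fun y b => if cY y = l then N y b else 0)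
      (fun y => if cY y = l then 0 else 1)
      (fun x a => by split_ifs; exacts [(hM x).1 a, PosSemidef.zero])
      (fun x => by split_ifs; exacts [PosSemidef.zero, PosSemidef.one])
      (fun x => by split_ifs <;> simp [(hM x).2])
      (fun y b => by split_ifs; exacts [(hN y).1 b, PosSemidef.zero])
      (fun y => by split_ifs; exacts [PosSemidef.zero, PosSemidef.one])
      (fun y => by split_ifs <;> simp [(hN y).2])
    refine this.mono fun x y a b => ?_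
    by_cases h1 : cX x = cY y
    · by_cases h2 : cX x = l
      · have h3 : cY y = l := h1 ▸ h2
        simp [h1, h3]
      · have h3 : ¬ cY y = l := h1 ▸ h2
        simp [h1, h3, ← fn_sq_eq_cf, hΞ]
    · simp only [h1, false_and, if_false, mul_zero, add_zero]
      refine cf_nonneg _ ?_ ?_
      · split_ifs; exacts [(hM x).1 a, PosSemidef.zero]
      · split_ifs; exacts [(hN y).1 b, PosSemidef.zero]

theorem sim_labels [Nonempty α] [Nonempty β] {μ : X → Y → ℝ} {acc : X → Y → α → β → Bool} {v : ℝ}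
    (hv : HV μ acc v) (cX : X → L) (cY : Y → L) (hc : ∀ x y, μ x y ≠ 0 → cX x = cY y)
    (Ξ : L → Matrix P Q ℂ) (hΞ : ∀ l, fn (Ξ l) = 1) (M : X → α → Matrix P P ℂ)
    (N : Y → β → Matrix Q Q ℂ) (hM : ∀ x, IsPOVM (M x)) (hN : ∀ y, IsPOVM (N y)) :
    ∑ w : X × Y, μ w.1 w.2 * wf (acc w.1 w.2) (M w.1) (N w.2) (Ξ (cX w.1)) (Ξ (cX w.1)) ≤ v := by
  refine le_trans (le_of_eq ?_) (hv _ (qdom_labels cX cY Ξ hΞ M N hM hN (univ.image cX)))
  unfold pval wf
  rw [Fintype.sum_prod_type]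
  refine sum_congr rfl fun x _ => sum_congr rfl fun y _ => ?_
  by_cases h : μ x y = 0
  · simp [h]
  · simp [← hc x y h]

lemma weighted_cs {Ω : Type} [Fintype Ω] {μ : Ω → ℝ} (hμ : ∀ w, 0 ≤ μ w) (s t : Ω → ℝ) :
    ∑ w, μ w * (s w * t w) ≤ Real.sqrt (∑ w, μ w * s w ^ 2) * Real.sqrt (∑ w, μ w * t w ^ 2) := by
  have := Real.sum_mul_le_sqrt_mul_sqrt univ (fun w => Real.sqrt (μ w) * s w)
    (fun w => Real.sqrt (μ w) * t w)
  simp only [mul_pow, Real.sq_sqrt (hμ _)] at this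
  refine le_trans (le_of_eq (sum_congr rfl fun w _ => ?_)) this
  have := Real.mul_self_sqrt (hμ w)
  linear_combination (-(s w * t w)) * this

/-- perturbation of the average winning form -/
lemma avg_perturb {μ : X × Y → ℝ} (hμ : ∀ w, 0 ≤ μ w) (acc : X → Y → α → β → Bool)
    {M : X → α → Matrix P P ℂ} {N : Y → β → Matrix Q Q ℂ} (hM : ∀ x, IsPOVM (M x))
    (hN : ∀ y, IsPOVM (N y)) (Φ Ξ : X × Y → Matrix P Q ℂ)
    (hΦ : ∑ w, μ w * fn (Φ w) ^ 2 = 1) :
    ∑ w, μ w * wf (acc w.1 w.2) (M w.1) (N w.2) (Φ w) (Φ w) ≤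
      ∑ w, μ w * wf (acc w.1 w.2) (M w.1) (N w.2) (Ξ w) (Ξ w) +
        2 * Real.sqrt (∑ w, μ w * fn (Ξ w - Φ w) ^ 2) := by
  have h1 := weighted_cs hμ (fun w => fn (Φ w)) (fun w => fn (Ξ w - Φ w))
  rw [hΦ, Real.sqrt_one, one_mul] at h1
  have h2 : ∑ w, μ w * wf (acc w.1 w.2) (M w.1) (N w.2) (Φ w) (Φ w) ≤
      ∑ w, μ w * wf (acc w.1 w.2) (M w.1) (N w.2) (Ξ w) (Ξ w) +
        2 * ∑ w, μ w * (fn (Φ w) * fn (Ξ w - Φ w)) := by
    rw [Finset.mul_sum, ← sum_add_distrib]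
    refine sum_le_sum fun w _ => ?_
    have := mul_le_mul_of_nonneg_left (wf_perturb (acc w.1 w.2) (hM w.1) (hN w.2) (Φ w) (Ξ w))
      (hμ w)
    linarith
  linarith

end comp

section game
open Crest.MathPhysics.NonlocalGame
variable {P Q : Type} [Fintype P] [Fintype Q]

lemma mem_comp (G : Game) (z w : Fin G.nX × Fin G.nY) :
    w ∈ G.supportComponent z ↔ G.supportGraph.Reachable z w := by
  unfold Game.supportComponent
  simp

lemma comp_eq (G : Game) {z w : Fin G.nX × Fin G.nY} (h : w ∈ G.supportComponent z) :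
    G.supportComponent w = G.supportComponent z := by
  rw [mem_comp] at h
  ext u
  rw [mem_comp, mem_comp]
  exact ⟨fun h' => h.trans h', fun h' => h.symm.trans h'⟩

lemma walk_bound (G : Game) (Φ : Fin G.nX × Fin G.nY → Matrix P Q ℂ) (e : Fin G.nX × Fin G.nY → ℝ)
    (he0 : ∀ w, 0 ≤ e w)
    (he : ∀ z w, G.supportGraph.Adj z w → fn (Φ z - Φ w) ≤ e z + e w)
    {z w : Fin G.nX × Fin G.nY} (p : G.supportGraph.Walk z w) :
    fn (Φ z - Φ w) + e z ≤ 2 * (p.support.map e).sum := by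
  induction p with
  | nil => simp; linarith [he0 ‹_›]
  | cons h p ih =>
    rename_i a b c
    simp only [SimpleGraph.Walk.support_cons, List.map_cons, List.sum_cons]
    have h1 := fn_sub_le (Φ a) (Φ b) (Φ c)
    have h2 := he a b h
    linarith

lemma comp_bound (G : Game) (Φ : Fin G.nX × Fin G.nY → Matrix P Q ℂ) (e : Fin G.nX × Fin G.nY → ℝ)
    (he0 : ∀ w, 0 ≤ e w)
    (he : ∀ z w, G.supportGraph.Adj z w → fn (Φ z - Φ w) ≤ e z + e w)
    {z w : Fin G.nX × Fin G.nY} (h : w ∈ G.supportComponent z) :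
    fn (Φ z - Φ w) ^ 2 ≤ 8 * ((G.supportComponent z).card - 1 : ℝ) *
      ∑ u ∈ G.supportComponent z, e u ^ 2 := by
  have hz : z ∈ G.supportComponent z := (mem_comp G z z).mpr (SimpleGraph.Reachable.refl z)
  by_cases hzw : z = w
  · subst hzw
    have : (1 : ℝ) ≤ (G.supportComponent z).card := by exact_mod_cast card_pos.mpr ⟨z, hz⟩
    simp only [sub_self, fn_zero]
    have h2 : 0 ≤ ∑ u ∈ G.supportComponent z, e u ^ 2 := sum_nonneg fun u _ => sq_nonneg _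
    nlinarith
  have h2 : (2 : ℝ) ≤ (G.supportComponent z).card := by
    exact_mod_cast one_lt_card.mpr ⟨z, hz, w, h, hzw⟩
  obtain ⟨p, hp⟩ := ((mem_comp G z w).mp h).exists_isPath
  have h3 := walk_bound G Φ e he0 he p
  have h4 : (p.support.map e).sum ≤ ∑ u ∈ G.supportComponent z, e u := by
    rw [← List.sum_toFinset e hp.support_nodup]
    refine sum_le_sum_of_subset_of_nonneg (fun u hu => ?_) fun u _ _ => he0 u
    rw [List.mem_toFinset] at hu
    exact (mem_comp G z u).mpr ⟨p.takeUntil u hu⟩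
  have h5 : fn (Φ z - Φ w) ≤ 2 * ∑ u ∈ G.supportComponent z, e u := by linarith [he0 z]
  have h6 := sq_sum_le_card_mul_sum_sq (s := G.supportComponent z) (f := e)
  have h7 : 0 ≤ ∑ u ∈ G.supportComponent z, e u ^ 2 := sum_nonneg fun u _ => sq_nonneg _
  have h8 := pow_le_pow_left₀ (fn_nonneg _) h5 2
  nlinarith

lemma kappa_nonneg (G : Game) (κ : ℝ)
    (hκ : ∀ z : Fin G.nX × Fin G.nY, 0 < G.prob z.1 z.2 → ∀ w ∈ G.supportComponent z,
      8 * ((G.supportComponent z).card - 1 : ℝ) * (∑ u ∈ G.supportComponent z, G.prob u.1 u.2)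
        ≤ κ * G.prob w.1 w.2) : 0 ≤ κ := by
  have : ∃ z : Fin G.nX × Fin G.nY, 0 < G.prob z.1 z.2 := by
    by_contra h
    push Not at h
    have h1 := G.prob_sum
    have : ∑ x, ∑ y, G.prob x y ≤ 0 := sum_nonpos fun x _ => sum_nonpos fun y _ => h (x, y)
    linarith
  obtain ⟨z, hz⟩ := this
  have hz' : z ∈ G.supportComponent z := (mem_comp G z z).mpr (SimpleGraph.Reachable.refl z)
  have h1 := hκ z hz z hz'
  have h2 : (1 : ℝ) ≤ (G.supportComponent z).card := by exact_mod_cast card_pos.mpr ⟨z, hz'⟩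
  have h3 : 0 ≤ ∑ u ∈ G.supportComponent z, G.prob u.1 u.2 :=
    sum_nonneg fun u _ => G.prob_nonneg _ _
  have h4 : 0 ≤ κ * G.prob z.1 z.2 := le_trans (by have : (0 : ℝ) ≤ (G.supportComponent z).card - 1 := by linarith
                                                   positivity) h1
  exact nonneg_of_mul_nonneg_left h4 hz

lemma poincare (G : Game) (κ : ℝ)
    (hκ : ∀ z : Fin G.nX × Fin G.nY, 0 < G.prob z.1 z.2 → ∀ w ∈ G.supportComponent z,
      8 * ((G.supportComponent z).card - 1 : ℝ) * (∑ u ∈ G.supportComponent z, G.prob u.1 u.2)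
        ≤ κ * G.prob w.1 w.2) (t : Fin G.nX × Fin G.nY → ℝ) (ht : ∀ u, 0 ≤ t u) :
    ∑ w : Fin G.nX × Fin G.nY, G.prob w.1 w.2 * (8 * ((G.supportComponent w).card - 1 : ℝ) *
      ∑ u ∈ G.supportComponent w, t u) ≤ κ * ∑ u : Fin G.nX × Fin G.nY, G.prob u.1 u.2 * t u := by
  have hκ0 := kappa_nonneg G κ hκ
  simp only [Finset.mul_sum]
  rw [Finset.sum_comm' (t' := univ) (s' := fun u => G.supportComponent u)]
  · refine sum_le_sum fun u _ => ?_
    have h1 : ∑ w ∈ G.supportComponent u, G.prob w.1 w.2 *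
        (8 * ((G.supportComponent w).card - 1 : ℝ) * t u) =
        8 * ((G.supportComponent u).card - 1 : ℝ) *
          (∑ w ∈ G.supportComponent u, G.prob w.1 w.2) * t u := by
      rw [Finset.mul_sum, Finset.sum_mul]
      refine sum_congr rfl fun w hw => ?_
      rw [comp_eq G hw]; ring
    rw [h1, ← mul_assoc]
    refine mul_le_mul_of_nonneg_right ?_ (ht u)
    by_cases h : ∃ w ∈ G.supportComponent u, 0 < G.prob w.1 w.2
    · obtain ⟨w, hw, hw0⟩ := h
      have := hκ w hw0 u (by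
        rw [comp_eq G hw]; exact (mem_comp G u u).mpr (SimpleGraph.Reachable.refl u))
      rwa [comp_eq G hw] at this
    · push Not at h
      have : ∑ w ∈ G.supportComponent u, G.prob w.1 w.2 = 0 :=
        sum_eq_zero fun w hw => le_antisymm (h w hw) (G.prob_nonneg _ _)
      rw [this, mul_zero]
      exact mul_nonneg hκ0 (G.prob_nonneg _ _)
  · intro w u
    simp only [mem_univ, true_and, and_true, mem_comp]
    exact ⟨fun h => h.symm, fun h => h.symm⟩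

theorem sim7 [DecidableEq P] [DecidableEq Q] (G : Game) [Nonempty (Fin G.nA)]
    [Nonempty (Fin G.nB)] (v : ℝ) (hv : HV G.prob G.accept v) (κ : ℝ)
    (hκ : ∀ z : Fin G.nX × Fin G.nY, 0 < G.prob z.1 z.2 → ∀ w ∈ G.supportComponent z,
      8 * ((G.supportComponent z).card - 1 : ℝ) * (∑ u ∈ G.supportComponent z, G.prob u.1 u.2)
        ≤ κ * G.prob w.1 w.2)
    (Φ : Fin G.nX → Fin G.nY → Matrix P Q ℂ) (g : Fin G.nX → Matrix P Q ℂ)
    (h : Fin G.nY → Matrix P Q ℂ) (M : Fin G.nX → Fin G.nA → Matrix P P ℂ)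
    (N : Fin G.nY → Fin G.nB → Matrix Q Q ℂ) (hM : ∀ x, IsPOVM (M x)) (hN : ∀ y, IsPOVM (N y))
    (x : ℝ) (hx : 0 ≤ x)
    (h0 : ∑ w : Fin G.nX × Fin G.nY, G.prob w.1 w.2 * fn (Φ w.1 w.2) ^ 2 = 1)
    (h1 : ∑ w : Fin G.nX × Fin G.nY, G.prob w.1 w.2 * fn (Φ w.1 w.2 - g w.1) ^ 2 ≤ 2 * x)
    (h2 : ∑ w : Fin G.nX × Fin G.nY, G.prob w.1 w.2 * fn (Φ w.1 w.2 - h w.2) ^ 2 ≤ 2 * x)
    (h3 : ∑ w : Fin G.nX × Fin G.nY, G.prob w.1 w.2 * (fn (Φ w.1 w.2) - 1) ^ 2 ≤ 2 * x) :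
    ∑ w : Fin G.nX × Fin G.nY, G.prob w.1 w.2 *
      wf (G.accept w.1 w.2) (M w.1) (N w.2) (Φ w.1 w.2) (Φ w.1 w.2) ≤
      v + 16 * Real.sqrt (1 + κ) * Real.sqrt x := by
  classical
  have hκ0 := kappa_nonneg G κ hκ
  have hne : ∃ w : Fin G.nX × Fin G.nY, fn (Φ w.1 w.2) ≠ 0 := by
    by_contra hc
    push Not at hc
    simp [hc] at h0
  obtain ⟨w₁, hw₁⟩ := hne
  have hP : Nonempty P := by
    by_contra hc
    rw [not_nonempty_iff] at hc
    exact hw₁ (by rw [Subsingleton.elim (Φ w₁.1 w₁.2) 0, fn_zero])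
  have hQ : Nonempty Q := by
    by_contra hc
    rw [not_nonempty_iff] at hc
    exact hw₁ (by rw [Subsingleton.elim (Φ w₁.1 w₁.2) 0, fn_zero])
  let cX : Fin G.nX → Finset (Fin G.nX × Fin G.nY) := fun x =>
    if hx : ∃ y, 0 < G.prob x y then G.supportComponent (x, hx.choose) else ∅
  let cY : Fin G.nY → Finset (Fin G.nX × Fin G.nY) := fun y =>
    if hy : ∃ x, 0 < G.prob x y then G.supportComponent (hy.choose, y) else ∅
  have hcX : ∀ x y, G.prob x y ≠ 0 → cX x = G.supportComponent (x, y) := by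
    intro x y hxy
    have hp : 0 < G.prob x y := lt_of_le_of_ne (G.prob_nonneg _ _) (Ne.symm hxy)
    have hx : ∃ y, 0 < G.prob x y := ⟨y, hp⟩
    simp only [cX, dif_pos hx]
    refine comp_eq G ((mem_comp G _ _).mpr ?_)
    by_cases he : (x, y) = (x, hx.choose)
    · rw [← he]
    · exact SimpleGraph.Adj.reachable ⟨he, hp, hx.choose_spec, Or.inl rfl⟩
  have hcY : ∀ x y, G.prob x y ≠ 0 → cY y = G.supportComponent (x, y) := by
    intro x y hxy
    have hp : 0 < G.prob x y := lt_of_le_of_ne (G.prob_nonneg _ _) (Ne.symm hxy)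
    have hy : ∃ x, 0 < G.prob x y := ⟨x, hp⟩
    simp only [cY, dif_pos hy]
    refine comp_eq G ((mem_comp G _ _).mpr ?_)
    by_cases he : (x, y) = (hy.choose, y)
    · rw [← he]
    · exact SimpleGraph.Adj.reachable ⟨he, hp, hy.choose_spec, Or.inr rfl⟩
  let ref : Finset (Fin G.nX × Fin G.nY) → Fin G.nX × Fin G.nY := fun C =>
    if hC : C.Nonempty then hC.choose else w₁
  have href : ∀ w, ref (G.supportComponent w) ∈ G.supportComponent w := by
    intro w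
    have hC : (G.supportComponent w).Nonempty :=
      ⟨w, (mem_comp G w w).mpr (SimpleGraph.Reachable.refl w)⟩
    simp only [ref, dif_pos hC]
    exact hC.choose_spec
  choose Ξ hΞ1 hΞ2 using fun C => exists_unit (Φ (ref C).1 (ref C).2)
  have s1 := sim_labels hv cX cY (fun x y hxy => by rw [hcX x y hxy, hcY x y hxy]) Ξ hΞ1 M N hM hN
  have s2 := avg_perturb (μ := fun w => G.prob w.1 w.2) (fun w => G.prob_nonneg _ _) G.accept hM hN
    (fun w => Φ w.1 w.2) (fun w => Ξ (cX w.1)) h0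
  let e : Fin G.nX × Fin G.nY → ℝ := fun w => fn (Φ w.1 w.2 - g w.1) + fn (Φ w.1 w.2 - h w.2)
  have he0 : ∀ w, 0 ≤ e w := fun w => add_nonneg (fn_nonneg _) (fn_nonneg _)
  have he : ∀ z w, G.supportGraph.Adj z w → fn (Φ z.1 z.2 - Φ w.1 w.2) ≤ e z + e w := by
    intro z w hzw
    simp only [e]
    rcases hzw.2.2.2 with h' | h'
    · have := fn_sub_le (Φ z.1 z.2) (g z.1) (Φ w.1 w.2)
      rw [fn_sub_rev (g z.1)] at this
      rw [← h'] at *
      linarith [fn_nonneg (Φ z.1 z.2 - h z.2), fn_nonneg (Φ z.1 w.2 - h w.2)]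
    · have := fn_sub_le (Φ z.1 z.2) (h z.2) (Φ w.1 w.2)
      rw [fn_sub_rev (h z.2)] at this
      rw [← h'] at *
      linarith [fn_nonneg (Φ z.1 z.2 - g z.1), fn_nonneg (Φ w.1 z.2 - g w.1)]
  have s3 := poincare G κ hκ (fun u => e u ^ 2) (fun u => sq_nonneg _)
  have s4 : ∑ u : Fin G.nX × Fin G.nY, G.prob u.1 u.2 * e u ^ 2 ≤ 8 * x := by
    have : ∑ u : Fin G.nX × Fin G.nY, G.prob u.1 u.2 * e u ^ 2 ≤
        2 * ∑ w : Fin G.nX × Fin G.nY, G.prob w.1 w.2 * fn (Φ w.1 w.2 - g w.1) ^ 2 +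
        2 * ∑ w : Fin G.nX × Fin G.nY, G.prob w.1 w.2 * fn (Φ w.1 w.2 - h w.2) ^ 2 := by
      rw [Finset.mul_sum, Finset.mul_sum, ← sum_add_distrib]
      refine sum_le_sum fun w _ => ?_
      have := mul_nonneg (G.prob_nonneg w.1 w.2)
        (sq_nonneg (fn (Φ w.1 w.2 - g w.1) - fn (Φ w.1 w.2 - h w.2)))
      simp only [e]; nlinarith
    linarith
  have s5 : ∑ w : Fin G.nX × Fin G.nY, G.prob w.1 w.2 * fn (Ξ (cX w.1) - Φ w.1 w.2) ^ 2 ≤
      8 * ∑ w : Fin G.nX × Fin G.nY, G.prob w.1 w.2 * (8 * ((G.supportComponent w).card - 1 : ℝ) *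
        ∑ u ∈ G.supportComponent w, e u ^ 2) +
      2 * ∑ w : Fin G.nX × Fin G.nY, G.prob w.1 w.2 * (fn (Φ w.1 w.2) - 1) ^ 2 := by
    rw [Finset.mul_sum, Finset.mul_sum, ← sum_add_distrib]
    refine sum_le_sum fun w _ => ?_
    by_cases hw : G.prob w.1 w.2 = 0
    · simp [hw]
    rw [hcX w.1 w.2 hw]
    have a1 := comp_bound G (fun w => Φ w.1 w.2) e he0 he (href w)
    set w₀ := ref (G.supportComponent w)
    have a2 := fn_sub_le (Ξ (G.supportComponent w)) (Φ w₀.1 w₀.2) (Φ w.1 w.2)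
    rw [hΞ2, fn_sub_rev (Φ w₀.1 w₀.2)] at a2
    have a3 := abs_fn_sub_fn_le (Φ w.1 w.2) (Φ w₀.1 w₀.2)
    have a4 : |fn (Φ w₀.1 w₀.2) - 1| ≤ fn (Φ w.1 w.2 - Φ w₀.1 w₀.2) + |fn (Φ w.1 w.2) - 1| := by
      have := abs_sub_le (fn (Φ w₀.1 w₀.2)) (fn (Φ w.1 w.2)) 1
      rw [abs_sub_comm (fn (Φ w₀.1 w₀.2)) (fn (Φ w.1 w.2))] at this
      linarith
    have a5 : fn (Ξ (G.supportComponent w) - Φ w.1 w.2) ≤
        2 * fn (Φ w.1 w.2 - Φ w₀.1 w₀.2) + |fn (Φ w.1 w.2) - 1| := by linarith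
    have a6 := pow_le_pow_left₀ (fn_nonneg _) a5 2
    have a7 : fn (Ξ (G.supportComponent w) - Φ w.1 w.2) ^ 2 ≤
        8 * fn (Φ w.1 w.2 - Φ w₀.1 w₀.2) ^ 2 + 2 * (fn (Φ w.1 w.2) - 1) ^ 2 := by
      rw [← sq_abs (fn (Φ w.1 w.2) - 1)]
      nlinarith [sq_nonneg (2 * fn (Φ w.1 w.2 - Φ w₀.1 w₀.2) - |fn (Φ w.1 w.2) - 1|)]
    have a8 := mul_le_mul_of_nonneg_left a7 (G.prob_nonneg w.1 w.2)
    have a9 := mul_le_mul_of_nonneg_left a1 (G.prob_nonneg w.1 w.2)
    simp only [Prod.mk.eta]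
    linarith
  have s6 : ∑ w : Fin G.nX × Fin G.nY, G.prob w.1 w.2 * fn (Ξ (cX w.1) - Φ w.1 w.2) ^ 2 ≤
      8 ^ 2 * ((1 + κ) * x) := by
    have := mul_le_mul_of_nonneg_left s4 hκ0
    nlinarith
  have s7 := Real.sqrt_le_sqrt s6
  rw [Real.sqrt_mul (by norm_num), Real.sqrt_sq (by norm_num), Real.sqrt_mul (by linarith)] at s7
  linarith

end game

end Crest.Agent.H9.QP
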