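import Crest.Agent.H9.QPShot
import Crest.Agent.H9.QPEmb
import Crest.Agent.H9.QPSim7

/-! Quantum correlated sampling with square-root error. -/

namespace Crest.Agent.H9.QP

open Matrix Finset
open scoped ComplexOrder

lemma floor_facts {K : ℕ} (hK : 0 < K) {ρ s : ℝ} (h0 : 0 ≤ ρ) (h1 : ρ ≤ s) (hs : s ≤ 1) :
    ⌊(K : ℝ) * ρ ^ 2⌋₊ ≤ K ∧ (⌊(K : ℝ) * ρ ^ 2⌋₊ : ℝ) / K ≤ s ^ 2 ∧
      ρ - Real.sqrt (1 / K) ≤ Real.sqrt ((⌊(K : ℝ) * ρ ^ 2⌋₊ : ℝ) / K) := by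
  have hK' : (0 : ℝ) < K := by exact_mod_cast hK
  have a1 : (⌊(K : ℝ) * ρ ^ 2⌋₊ : ℝ) ≤ K * ρ ^ 2 := Nat.floor_le (by positivity)
  have a2 : (K : ℝ) * ρ ^ 2 < ⌊(K : ℝ) * ρ ^ 2⌋₊ + 1 := Nat.lt_floor_add_one _
  have a3 : ρ ^ 2 ≤ s ^ 2 := pow_le_pow_left₀ h0 h1 2
  have a4 : s ^ 2 ≤ 1 := pow_le_one₀ (h0.trans h1) hs
  refine ⟨?_, ?_, ?_⟩
  · have : (⌊(K : ℝ) * ρ ^ 2⌋₊ : ℝ) ≤ K := by nlinarith
    exact_mod_cast this
  · rw [div_le_iff₀ hK']; nlinarith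
  · rw [sub_le_iff_le_add]
    refine abs_le_of_sq_le_sq' ?_ (by positivity) |>.2
    rw [add_sq, Real.sq_sqrt (by positivity), Real.sq_sqrt (by positivity)]
    have b1 : ρ ^ 2 ≤ (⌊(K : ℝ) * ρ ^ 2⌋₊ : ℝ) / K + 1 / K := by
      rw [← add_div, le_div_iff₀ hK']; linarith
    have b2 : 0 ≤ 2 * Real.sqrt ((⌊(K : ℝ) * ρ ^ 2⌋₊ : ℝ) / K) * Real.sqrt (1 / K) := by
      positivity
    linarith

lemma entry_bound {L : ℕ} (hL : 0 < L) {s t c k₀ : ℝ} (hs : 0 ≤ s) (hc0 : 0 ≤ c) (hc1 : c ≤ 1)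
    (hk₀ : 0 ≤ k₀) (κ : Fin L → ℝ) (bad : Fin L → Prop) [DecidablePred bad]
    (h0 : ∀ θ, 0 ≤ κ θ) (h1 : ∀ θ, κ θ ≤ s)
    (h2 : ∀ θ, ¬ bad θ → s * (1 - 3 / L) - k₀ ≤ κ θ)
    (h3 : s * ((univ.filter bad).card / L) ≤ 2 * L * |s - t| + s / L) :
    (∑ θ, 1 / (L : ℝ) * (c * κ θ) - s) ^ 2 ≤
      3 * ((1 - c + 4 / L) ^ 2 * s ^ 2 + 4 * L ^ 2 * (s - t) ^ 2 + k₀ ^ 2) := by
  have hL' : (0 : ℝ) < L := by exact_mod_cast hL
  set kb := ∑ θ, 1 / (L : ℝ) * κ θ with hkb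
  have e1 : ∑ θ, 1 / (L : ℝ) * (c * κ θ) = c * kb := by
    rw [hkb, Finset.mul_sum]; exact sum_congr rfl fun θ _ => by ring
  have e2 : kb ≤ s := by
    calc kb ≤ ∑ _θ : Fin L, 1 / (L : ℝ) * s := sum_le_sum fun θ _ => by gcongr; exact h1 θ
      _ = s := by simp; field_simp
  have e0 : 0 ≤ kb := sum_nonneg fun θ _ => mul_nonneg (by positivity) (h0 θ)
  have e3 : s * (1 - 3 / L) - k₀ - s * ((univ.filter bad).card / L) ≤ kb := by
    have : ∀ θ, 1 / (L : ℝ) * (s * (1 - 3 / L) - k₀ - if bad θ then s else 0) ≤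
        1 / (L : ℝ) * κ θ := by
      intro θ
      refine mul_le_mul_of_nonneg_left ?_ (by positivity)
      split_ifs with h
      · have : 0 ≤ s * (3 / L) := by positivity
        linarith [h0 θ]
      · linarith [h2 θ h]
    refine le_trans (le_of_eq ?_) (sum_le_sum fun θ _ => this θ)
    rw [← Finset.mul_sum, sum_sub_distrib, ← Finset.sum_filter]
    simp only [sum_const, card_univ, Fintype.card_fin, nsmul_eq_mul]
    field_simp
  have e4 : 0 ≤ s - c * kb := by nlinarith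
  have e5 : s - c * kb ≤ (1 - c + 4 / L) * s + 2 * L * |s - t| + k₀ := by
    have a1 : c * (s - kb) ≤ s - kb := mul_le_of_le_one_left (by linarith) hc1
    have a2 : s * (3 / L) + s / L = 4 / L * s := by ring
    nlinarith
  have e6 := pow_le_pow_left₀ e4 e5 2
  rw [e1, ← neg_sub, neg_sq, ← sq_abs (s - t)]
  nlinarith [sq_nonneg ((1 - c + 4 / L) * s - 2 * L * |s - t|), sq_nonneg ((1 - c + 4 / L) * s - k₀),
    sq_nonneg (2 * L * |s - t| - k₀)]

lemma ubar_facts {Q : Type} [Fintype Q] (o : Q → Q → ℝ) (s t : Q → ℝ) (ho : ∀ i l, 0 ≤ o i l)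
    (hs : ∀ i, 0 ≤ s i) (ht : ∀ i, 0 ≤ t i) (h1 : ∑ i, ∑ l, o i l * s i ^ 2 = 1)
    (h2 : ∑ i, ∑ l, o i l * t l ^ 2 = 1) {ε : ℝ} (hε : 0 ≤ ε)
    (h3 : ∑ i, ∑ l, (s i - t l) ^ 2 * o i l ≤ ε ^ 2) :
    1 ≤ ∑ i, ∑ l, o i l * max (s i ^ 2) (t l ^ 2) ∧
      ∑ i, ∑ l, o i l * max (s i ^ 2) (t l ^ 2) ≤ 1 + 2 * ε := by
  constructor
  · rw [← h1]
    exact sum_le_sum fun i _ => sum_le_sum fun l _ =>
      mul_le_mul_of_nonneg_left (le_max_left _ _) (ho i l)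
  · have a1 := weighted_cs (μ := fun p : Q × Q => o p.1 p.2) (fun p => ho _ _)
      (fun p => |s p.1 - t p.2|) (fun p => s p.1 + t p.2)
    simp only [Fintype.sum_prod_type, sq_abs] at a1
    have a2 : Real.sqrt (∑ i, ∑ l, o i l * (s i - t l) ^ 2) ≤ ε := by
      rw [Real.sqrt_le_left hε]
      simpa only [mul_comm] using h3
    have a3 : Real.sqrt (∑ i, ∑ l, o i l * (s i + t l) ^ 2) ≤ 2 := by
      rw [Real.sqrt_le_left (by norm_num)]
      have : ∑ i, ∑ l, o i l * (s i + t l) ^ 2 ≤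
          2 * ∑ i, ∑ l, o i l * s i ^ 2 + 2 * ∑ i, ∑ l, o i l * t l ^ 2 := by
        simp only [Finset.mul_sum, ← sum_add_distrib]
        refine sum_le_sum fun i _ => sum_le_sum fun l _ => ?_
        nlinarith [mul_nonneg (ho i l) (sq_nonneg (s i - t l))]
      linarith
    have a4 := mul_le_mul a2 a3 (Real.sqrt_nonneg _) hε
    have a5 : ∑ i, ∑ l, o i l * max (s i ^ 2) (t l ^ 2) ≤
        ∑ i, ∑ l, o i l * s i ^ 2 + ∑ i, ∑ l, o i l * (|s i - t l| * (s i + t l)) := by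
      simp only [← sum_add_distrib, ← mul_add]
      refine sum_le_sum fun i _ => sum_le_sum fun l _ => mul_le_mul_of_nonneg_left ?_ (ho i l)
      have b1 := mul_nonneg (abs_nonneg (s i - t l)) (add_nonneg (hs i) (ht l))
      have b2 := mul_le_mul_of_nonneg_right (neg_abs_le (s i - t l)) (add_nonneg (hs i) (ht l))
      refine max_le (by linarith) (by nlinarith)
    linarith

variable {X Y α β P Q : Type} [Fintype X] [Fintype Y] [Fintype α] [Fintype β] [Fintype P]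
  [Fintype Q] [DecidableEq P] [DecidableEq Q]

/-- sampling in the eigenbases -/
theorem sample_diag [Nonempty α] [Nonempty β] [Nonempty Q] {μ : X → Y → ℝ}
    (hμ0 : ∀ x y, 0 ≤ μ x y) {acc : X → Y → α → β → Bool} {v : ℝ} (hv : HV μ acc v)
    (U : X → Matrix Q Q ℂ) (V : Y → Matrix Q Q ℂ) (hU1 : ∀ x, (U x)ᴴ * U x = 1)
    (hU2 : ∀ x, U x * (U x)ᴴ = 1) (hV1 : ∀ y, (V y)ᴴ * V y = 1) (hV2 : ∀ y, V y * (V y)ᴴ = 1)
    (s : X → Q → ℝ) (t : Y → Q → ℝ) (hs0 : ∀ x i, 0 ≤ s x i) (ht0 : ∀ y l, 0 ≤ t y l)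
    (hs1 : ∀ x, ∑ i, s x i ^ 2 = 1) (ht1 : ∀ y, ∑ l, t y l ^ 2 = 1) (ε : X → Y → ℝ)
    (hε0 : ∀ x y, 0 ≤ ε x y)
    (hε : ∀ x y, ∑ i, ∑ l, (s x i - t y l) ^ 2 * ‖((U x)ᴴ * V y) i l‖ ^ 2 ≤ ε x y ^ 2)
    (M : X → α → Matrix Q Q ℂ) (N : Y → β → Matrix Q Q ℂ) (hM : ∀ x, IsPOVM (M x))
    (hN : ∀ y, IsPOVM (N y)) (L : ℕ) (hL : 0 < L) :
    ∑ w : X × Y, μ w.1 w.2 * wf (acc w.1 w.2) (M w.1) (N w.2)
      (diagonal (fun i => (s w.1 i : ℂ)) * ((U w.1)ᴴ * V w.2))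
      (diagonal (fun i => (s w.1 i : ℂ)) * ((U w.1)ᴴ * V w.2)) ≤
      v + ∑ w : X × Y, μ w.1 w.2 * (24 / L + 16 * L * ε w.1 w.2) := by
  have hL' : (0 : ℝ) < L := by exact_mod_cast hL
  have hL1 : (1 : ℝ) ≤ L := by exact_mod_cast hL
  have hN0 : 0 < Fintype.card Q := Fintype.card_pos
  have hN1 : (1 : ℝ) ≤ Fintype.card Q := by exact_mod_cast hN0
  set K := Fintype.card Q * L ^ 2 with hK
  have hK0 : 0 < K := by positivity
  have hη0 : (0 : ℝ) < 1 / L := by positivity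
  have hη1 : (1 : ℝ) / L ≤ 1 := by rw [div_le_one hL']; exact hL1
  obtain ⟨Z, Z', i1, i2, i3, i4, e, e', dom, π, g1, g2, g3, g4, g5, g6, g7, g8⟩ :=
    exists_gadget K hK0 (1 / L) hη0 hη1
  obtain ⟨rd, r1, r2⟩ := exists_rounding L hL
  obtain ⟨n, hn⟩ := exists_pow_lt_of_lt_one hη0
    (show 1 - 1 / (Fintype.card Q : ℝ) < 1 by have : (0 : ℝ) < 1 / Fintype.card Q := by positivity
                                              linarith)
  have hle1 : ∀ (s : Q → ℝ), (∀ i, 0 ≤ s i) → ∑ i, s i ^ 2 = 1 → ∀ i, s i ≤ 1 := by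
    intro s h0 h1 i
    have := single_le_sum (f := fun i => s i ^ 2) (fun i _ => sq_nonneg _) (mem_univ i)
    rw [h1] at this
    exact (pow_le_one_iff_of_nonneg (h0 i) two_ne_zero).mp this
  let dd : Fin L → ℝ → ℕ := fun θ σ => ⌊(K : ℝ) * rd θ σ ^ 2⌋₊
  have hdd : ∀ θ σ, 0 ≤ σ → σ ≤ 1 → dd θ σ ≤ K ∧ (dd θ σ : ℝ) / K ≤ σ ^ 2 ∧
      rd θ σ - Real.sqrt (1 / K) ≤ Real.sqrt ((dd θ σ : ℝ) / K) := fun θ σ h0 h1 =>
    floor_facts hK0 (r1 θ σ h0).1 (r1 θ σ h0).2.1 h1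
  have hsA := fun θ x i => hdd θ (s x i) (hs0 x i) (hle1 _ (hs0 x) (hs1 x) i)
  have hsB := fun θ y l => hdd θ (t y l) (ht0 y l) (hle1 _ (ht0 y) (ht1 y) l)
  let O : X → Y → Matrix Q Q ℂ := fun x y => (U x)ᴴ * V y
  have hO1 : ∀ x y i, ∑ l, ‖O x y i l‖ ^ 2 = 1 := fun x y => row_norm_eq _ (by
    simp only [O]
    rw [conjTranspose_mul, conjTranspose_conjTranspose, Matrix.mul_assoc,
      ← Matrix.mul_assoc (V y), hV2, Matrix.one_mul, hU1])
  have hO2 : ∀ x y l, ∑ i, ‖O x y i l‖ ^ 2 = 1 := fun x y => col_norm_eq _ (by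
    simp only [O]
    rw [conjTranspose_mul, conjTranspose_conjTranspose, Matrix.mul_assoc,
      ← Matrix.mul_assoc (U x), hU2, Matrix.one_mul, hV1])
  have hOs : ∀ x y, ∑ i, ∑ l, ‖O x y i l‖ ^ 2 * s x i ^ 2 = 1 := fun x y => by
    simp only [← Finset.sum_mul, hO1, one_mul, hs1]
  have hOt : ∀ x y, ∑ i, ∑ l, ‖O x y i l‖ ^ 2 * t y l ^ 2 = 1 := fun x y => by
    rw [Finset.sum_comm]
    simp only [← Finset.sum_mul, hO2, one_mul, ht1]
  have hON : ∀ x y, ∑ i, ∑ l, ‖O x y i l‖ ^ 2 = Fintype.card Q := fun x y => by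
    simp [hO1]
  let ub : X → Y → ℝ := fun x y => ∑ i, ∑ l, ‖O x y i l‖ ^ 2 * max (s x i ^ 2) (t y l ^ 2)
  have hub := fun x y => ubar_facts (fun i l => ‖O x y i l‖ ^ 2) (s x) (t y)
    (fun i l => sq_nonneg _) (hs0 x) (ht0 y) (hOs x y) (hOt x y) (hε0 x y) (hε x y)
  let c : X → Y → ℝ := fun x y => Real.sqrt ((1 - 1 / L) / ub x y)
  have hc2 : ∀ x y, c x y ^ 2 = (1 - 1 / L) / ub x y := fun x y =>
    Real.sq_sqrt (div_nonneg (by linarith) (by linarith [(hub x y).1]))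
  have hc0 : ∀ x y, 0 ≤ c x y := fun x y => Real.sqrt_nonneg _
  have hc1 : ∀ x y, c x y ≤ 1 := fun x y => Real.sqrt_le_one.mpr (by
    rw [div_le_one (by linarith [(hub x y).1])]; linarith [(hub x y).1])
  have hc3 : ∀ x y, 1 - c x y ≤ 2 * ε x y + 1 / L := fun x y => by
    have a1 := hc2 x y
    have a2 := (hub x y).1
    have a3 := (hub x y).2
    rw [eq_div_iff (by linarith)] at a1
    have a4 : c x y ^ 2 ≤ c x y := by nlinarith [hc0 x y, hc1 x y]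
    have a5 : c x y ^ 2 * (ub x y - 1) ≤ 1 * (ub x y - 1) :=
      mul_le_mul_of_nonneg_right (a4.trans (hc1 x y)) (by linarith)
    linarith
  let Γ : Fin L → X → Y → Matrix Q Q ℂ := fun θ x y => (c x y : ℂ) • Matrix.of fun i l =>
    O x y i l * (kap e e' dom π (dd θ (s x i)) (dd θ (t y l)) : ℂ)
  have hval : ∀ θ, ∑ w : X × Y, μ w.1 w.2 * wf (acc w.1 w.2) (M w.1) (N w.2)
      (Γ θ w.1 w.2) (Γ θ w.1 w.2) ≤ v := by
    intro θ
    have q := oneshot K e e' dom π g1 g2 g5 g6 g7 U V hU2 hV2 (fun x i => dd θ (s x i))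
      (fun y l => dd θ (t y l)) (fun x i => (hsA θ x i).1) (fun y l => (hsB θ y l).1) M N hM hN n
    have q2 : QDom (fun x y a b => cf (Γ θ x y) (M x a) (Γ θ x y) (N y b)) := by
      refine q.mono fun x y a b => ?_
      simp only [Γ]
      rw [cf_smul_left, cf_smul_right, ← mul_assoc, ← sq, hc2]
      refine mul_le_mul_of_nonneg_right ?_ (cf_nonneg _ ((hM x).1 a) ((hN y).1 b))
      have hK' : (0 : ℝ) < K := by exact_mod_cast hK0
      refine geom_lower hN1 (hub x y).1 ?_ ?_ hn.le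
      · refine div_nonneg (sum_nonneg fun i _ => sum_nonneg fun l _ =>
          mul_nonneg (sq_nonneg _) ?_) (by positivity)
        rw [sub_nonneg, div_le_one hK']
        exact_mod_cast max_le (hsA θ x i).1 (hsB θ y l).1
      · rw [le_div_iff₀ (by positivity), sub_mul, one_mul, div_mul_cancel₀ _ (by positivity),
          ← hON x y]
        simp only [ub, ← sum_sub_distrib]
        refine sum_le_sum fun i _ => sum_le_sum fun l _ => ?_
        rw [← mul_one_sub]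
        refine mul_le_mul_of_nonneg_left (sub_le_sub_left ?_ 1) (sq_nonneg _)
        rw [Nat.cast_max, ← max_div_div_right hK'.le]
        exact max_le_max (hsA θ x i).2.1 (hsB θ y l).2.1
    have := hv _ q2
    unfold pval at this
    rw [Fintype.sum_prod_type]
    exact this
  have herr : ∀ x y, fn (∑ θ, ((1 / L : ℝ) : ℂ) • Γ θ x y -
      diagonal (fun i => (s x i : ℂ)) * O x y) ≤ 12 / L + 8 * L * ε x y := by
    intro x y
    have hε' := hε0 x y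
    refine abs_le_of_sq_le_sq' ?_ (by positivity) |>.2
    rw [fn_sq_eq_sum]
    have a1 : ∀ i l, ‖(∑ θ, ((1 / L : ℝ) : ℂ) • Γ θ x y -
        diagonal (fun i => (s x i : ℂ)) * O x y) i l‖ ^ 2 ≤ ‖O x y i l‖ ^ 2 *
        (3 * ((1 - c x y + 4 / L) ^ 2 * s x i ^ 2 + 4 * L ^ 2 * (s x i - t y l) ^ 2 +
          Real.sqrt (1 / K) ^ 2)) := by
      intro i l
      have b1 : (∑ θ, ((1 / L : ℝ) : ℂ) • Γ θ x y -
          diagonal (fun i => (s x i : ℂ)) * O x y) i l = O x y i l *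
          ((∑ θ, 1 / (L : ℝ) * (c x y * kap e e' dom π (dd θ (s x i)) (dd θ (t y l))) - s x i : ℝ) :
            ℂ) := by
        simp only [Matrix.sub_apply, Matrix.sum_apply, Matrix.smul_apply, Γ, of_apply,
          diagonal_mul, smul_eq_mul]
        push_cast
        rw [mul_sub, Finset.mul_sum]
        congr 1
        · exact sum_congr rfl fun θ _ => by ring
        · ring
      rw [b1, norm_mul, mul_pow, Complex.norm_real, Real.norm_eq_abs, sq_abs]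
      refine mul_le_mul_of_nonneg_left ?_ (sq_nonneg _)
      have kl := fun θ => kap_le (π := π) g3 g4 g2 (dd θ (t y l)) (g5 _ (hsA θ x i).1)
        (g6 _ (hsA θ x i).1)
      refine entry_bound hL (hs0 x i) (hc0 x y) (hc1 x y) (Real.sqrt_nonneg _) _
        (fun θ => rd θ (s x i) ≠ rd θ (t y l)) (fun θ => (kl θ).1) (fun θ => (kl θ).2.trans ?_)
        (fun θ hθ => ?_) (r2 _ _ (hs0 x i) (ht0 y l))
      · rw [Real.sqrt_le_left (hs0 x i)]; exact (hsA θ x i).2.1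
      · push Not at hθ
        have c1 : dd θ (t y l) = dd θ (s x i) := by simp only [dd, hθ]
        have c2 := g8 _ (hsA θ x i).1
        have c3 : kap e e' dom π (dd θ (s x i)) (dd θ (s x i)) =
            ∑ z, if dom (dd θ (s x i)) z = true then e z * e' (π (dd θ (s x i)) z) else 0 := by
          simp [kap]
        rw [c1, c3]
        refine le_trans ?_ c2
        have c4 := (hsA θ x i).2.2
        have c5 := (r1 θ (s x i) (hs0 x i)).2.2
        have c6 : Real.sqrt ((dd θ (s x i) : ℝ) / K) ≤ s x i := by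
          rw [Real.sqrt_le_left (hs0 x i)]; exact (hsA θ x i).2.1
        have c7 := mul_le_mul_of_nonneg_left c6 hη0.le
        have c8 : s x i * (1 - 3 / L) = s x i * (1 - 2 / L) - 1 / L * s x i := by ring
        nlinarith
    refine le_trans (sum_le_sum fun i _ => sum_le_sum fun l _ => a1 i l) ?_
    have a2 : ∑ i, ∑ l, ‖O x y i l‖ ^ 2 *
        (3 * ((1 - c x y + 4 / L) ^ 2 * s x i ^ 2 + 4 * L ^ 2 * (s x i - t y l) ^ 2 +
          Real.sqrt (1 / K) ^ 2)) = 3 * ((1 - c x y + 4 / L) ^ 2 *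
          ∑ i, ∑ l, ‖O x y i l‖ ^ 2 * s x i ^ 2 + 4 * L ^ 2 *
          ∑ i, ∑ l, (s x i - t y l) ^ 2 * ‖O x y i l‖ ^ 2 +
          Real.sqrt (1 / K) ^ 2 * ∑ i, ∑ l, ‖O x y i l‖ ^ 2) := by
      simp only [Finset.mul_sum, ← sum_add_distrib]
      exact sum_congr rfl fun i _ => sum_congr rfl fun l _ => by ring
    rw [a2, hOs, hON, Real.sq_sqrt (by positivity)]
    have a3 : (1 : ℝ) / K * Fintype.card Q = (1 / L) ^ 2 := by
      rw [hK]; push_cast; field_simp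
    have a4 : (1 - c x y + 4 / L) ^ 2 ≤ (2 * ε x y + 5 * (1 / L)) ^ 2 := by
      refine pow_le_pow_left₀ (by have := hc1 x y; positivity) ?_ 2
      have := hc3 x y
      have e : (4 : ℝ) / L = 4 * (1 / L) := by ring
      linarith
    have a5 := mul_le_mul_of_nonneg_left (hε x y) (show (0 : ℝ) ≤ 4 * L ^ 2 by positivity)
    have a6 : ε x y ≤ L * ε x y := le_mul_of_one_le_left hε' hL1
    have a7 : (12 : ℝ) / L + 8 * L * ε x y = 12 * (1 / L) + 8 * (L * ε x y) := by ring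
    rw [a3, a7]
    have a8 : (2 * ε x y + 5 * (1 / L)) ^ 2 ≤ (2 * (L * ε x y) + 5 * (1 / L)) ^ 2 :=
      pow_le_pow_left₀ (by positivity) (by linarith) 2
    have a9 : 0 ≤ L * ε x y := by positivity
    have a10 : 4 * (L : ℝ) ^ 2 * ε x y ^ 2 = 4 * (L * ε x y) ^ 2 := by ring
    simp only [O] at *
    nlinarith [mul_nonneg a9 hη0.le]
  have hT1 : ∀ x y, fn (diagonal (fun i => (s x i : ℂ)) * O x y) = 1 := by
    intro x y
    have h1 : fn (diagonal (fun i => (s x i : ℂ)) * O x y) ^ 2 = 1 := by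
      rw [fn_sq_eq_sum, ← hOs x y]
      refine sum_congr rfl fun i _ => sum_congr rfl fun l _ => ?_
      rw [diagonal_mul, norm_mul, mul_pow, Complex.norm_real, Real.norm_eq_abs, sq_abs, mul_comm]
    have h0 := fn_nonneg (diagonal (fun i => (s x i : ℂ)) * O x y)
    nlinarith
  have hpt : ∀ x y, wf (acc x y) (M x) (N y) (diagonal (fun i => (s x i : ℂ)) * O x y)
      (diagonal (fun i => (s x i : ℂ)) * O x y) ≤
      ∑ θ, 1 / (L : ℝ) * wf (acc x y) (M x) (N y) (Γ θ x y) (Γ θ x y) +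
        (24 / L + 16 * L * ε x y) := by
    intro x y
    set T := diagonal (fun i => (s x i : ℂ)) * O x y with hT
    have b1 := wf_lower (acc x y) (hM x) (hN y) T (∑ θ, ((1 / L : ℝ) : ℂ) • Γ θ x y)
    rw [wf_sum_right, hT1, one_mul] at b1
    simp only [wf_smul_right] at b1
    have b2 : ∑ θ : Fin L, 1 / (L : ℝ) * (2 * wf (acc x y) (M x) (N y) T (Γ θ x y) -
        wf (acc x y) (M x) (N y) T T) ≤
        ∑ θ, 1 / (L : ℝ) * wf (acc x y) (M x) (N y) (Γ θ x y) (Γ θ x y) :=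
      sum_le_sum fun θ _ => mul_le_mul_of_nonneg_left
        (wf_tangent (acc x y) (hM x).1 (hN y).1 T (Γ θ x y)) hη0.le
    have b3 : ∑ θ : Fin L, 1 / (L : ℝ) * (2 * wf (acc x y) (M x) (N y) T (Γ θ x y) -
        wf (acc x y) (M x) (N y) T T) =
        2 * ∑ θ : Fin L, 1 / (L : ℝ) * wf (acc x y) (M x) (N y) T (Γ θ x y) -
          wf (acc x y) (M x) (N y) T T := by
      simp only [mul_sub, sum_sub_distrib, Finset.mul_sum, sum_const, card_univ, Fintype.card_fin,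
        nsmul_eq_mul]
      congr 1
      · exact sum_congr rfl fun θ _ => by ring
      · field_simp
    have b4 := herr x y
    have b5 : (24 : ℝ) / L = 2 * (12 / L) := by ring
    linarith
  calc _ ≤ ∑ w : X × Y, μ w.1 w.2 * (∑ θ, 1 / (L : ℝ) * wf (acc w.1 w.2) (M w.1) (N w.2)
        (Γ θ w.1 w.2) (Γ θ w.1 w.2) + (24 / L + 16 * L * ε w.1 w.2)) :=
        sum_le_sum fun w _ => mul_le_mul_of_nonneg_left (hpt w.1 w.2) (hμ0 _ _)
    _ = ∑ θ : Fin L, 1 / (L : ℝ) * ∑ w : X × Y, μ w.1 w.2 * wf (acc w.1 w.2) (M w.1) (N w.2)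
        (Γ θ w.1 w.2) (Γ θ w.1 w.2) +
        ∑ w : X × Y, μ w.1 w.2 * (24 / L + 16 * L * ε w.1 w.2) := by
        simp only [mul_add (μ _ _) (∑ _θ : Fin L, _), sum_add_distrib, Finset.mul_sum]
        rw [Finset.sum_comm]
        congr 1
        exact sum_congr rfl fun θ _ => sum_congr rfl fun w _ => by ring
    _ ≤ ∑ _θ : Fin L, 1 / (L : ℝ) * v +
        ∑ w : X × Y, μ w.1 w.2 * (24 / L + 16 * L * ε w.1 w.2) := by
        gcongr with θ
        exact hval θ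
    _ = _ := by
        simp only [sum_const, card_univ, Fintype.card_fin, nsmul_eq_mul]
        field_simp

end Crest.Agent.H9.QP
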