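import Crest.Agent.H9.QPGram
import Crest.Agent.H9.QPComb

/-! Conditional averages over product distributions and the telescoping energy bound. -/

namespace Crest.Agent.H9.QP

open Matrix Finset
open scoped ComplexOrder

variable {ι Ω : Type} [Fintype ι] [DecidableEq ι] [Fintype Ω] [DecidableEq Ω]
variable {D : Type} [Fintype D] [DecidableEq D]

/-- product weight -/
noncomputable def pw (μ : Ω → ℝ) (ω : ι → Ω) : ℝ := ∏ j, μ (ω j)

/-- a stationary resampling kernel -/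
structure Ker (μ : Ω → ℝ) (r : Ω → Ω → Prop) (K : Ω → Ω → ℝ) : Prop where
  nonneg : ∀ a b, 0 ≤ K a b
  row : ∀ a, ∑ b, K a b ≤ 1
  stat : ∀ b, ∑ a, μ a * K a b = μ b
  supp : ∀ a b, K a b ≠ 0 → r a b
  idem : ∀ a b, r a b → K b = K a

/-- invariance under moves at one coordinate -/
def Inv {V : Type} (r : Ω → Ω → Prop) (F : (ι → Ω) → V) (i : ι) : Prop :=
  ∀ ω w, r (ω i) w → F (Function.update ω i w) = F ω

/-- resample the coordinates in `U` -/
noncomputable def cnd (K : Ω → Ω → ℝ) (U : Finset ι) (H : (ι → Ω) → Matrix D D ℂ) (ω : ι → Ω) :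
    Matrix D D ℂ :=
  ∑ ω' : ι → Ω, ((∏ j, if j ∈ U then K (ω j) (ω' j) else if ω j = ω' j then 1 else 0 : ℝ) : ℂ) •
    H ω'

omit [Fintype Ω] [DecidableEq Ω] [DecidableEq ι] in
lemma pw_nonneg {μ : Ω → ℝ} (hμ : ∀ w, 0 ≤ μ w) (ω : ι → Ω) : 0 ≤ pw μ ω :=
  Finset.prod_nonneg fun j _ => hμ _

omit [Fintype Ω] [DecidableEq Ω] in
lemma pw_update (μ : Ω → ℝ) (ω : ι → Ω) (i : ι) (w : Ω) :
    pw μ (Function.update ω i w) = μ w * ∏ j ∈ univ.erase i, μ (ω j) := by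
  unfold pw
  rw [← Finset.mul_prod_erase _ _ (mem_univ i), Function.update_self]
  congr 1
  refine Finset.prod_congr rfl fun j hj => ?_
  rw [Function.update_of_ne (ne_of_mem_erase hj)]

omit [DecidableEq Ω] in
lemma sum_pw {μ : Ω → ℝ} (hμ : ∑ w, μ w = 1) : ∑ ω : ι → Ω, pw μ ω = 1 := by
  unfold pw
  rw [← Fintype.piFinset_univ, ← Finset.prod_univ_sum]
  simp [hμ]

omit [DecidableEq Ω] in
lemma resample {μ : Ω → ℝ} {K : Ω → Ω → ℝ} (hK : ∀ b, ∑ a, μ a * K a b = μ b) (i : ι)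
    (G : (ι → Ω) → ℝ) :
    ∑ ω, pw μ ω * ∑ w, K (ω i) w * G (Function.update ω i w) = ∑ ω, pw μ ω * G ω := by
  let e : (ι → Ω) × Ω → (ι → Ω) × Ω := fun p => (Function.update p.1 i p.2, p.1 i)
  have he : Function.Involutive e := by
    rintro ⟨ω, w⟩
    simp [e]
  have h1 : ∑ ω, pw μ ω * ∑ w, K (ω i) w * G (Function.update ω i w) =
      ∑ p : (ι → Ω) × Ω, pw μ p.1 * (K (p.1 i) p.2 * G (Function.update p.1 i p.2)) := by
    rw [Fintype.sum_prod_type]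
    simp only [Finset.mul_sum]
  rw [h1, ← Equiv.sum_comp he.toPerm, Fintype.sum_prod_type]
  refine Finset.sum_congr rfl fun ω _ => ?_
  simp only [Function.Involutive.coe_toPerm, e, Function.update_self, Function.update_idem,
    Function.update_eq_self, pw_update]
  have h2 : pw μ ω = μ (ω i) * ∏ j ∈ univ.erase i, μ (ω j) := by
    rw [← pw_update, Function.update_eq_self]
  rw [h2, ← hK (ω i), Finset.sum_mul, Finset.sum_mul]
  refine Finset.sum_congr rfl fun w _ => ?_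
  ring

omit [Fintype D] [DecidableEq D] in
lemma cnd_empty (K : Ω → Ω → ℝ) (H : (ι → Ω) → Matrix D D ℂ) (ω : ι → Ω) :
    cnd K ∅ H ω = H ω := by
  unfold cnd
  rw [Finset.sum_eq_single ω]
  · simp
  · intro ω' _ hne
    obtain ⟨j, hj⟩ := Function.ne_iff.mp hne
    rw [Finset.prod_eq_zero (mem_univ j) (by simp [hj.symm])]
    simp
  · simp

omit [Fintype D] [DecidableEq D] in
lemma cnd_insert (K : Ω → Ω → ℝ) {U : Finset ι} {i : ι} (hi : i ∉ U)
    (H : (ι → Ω) → Matrix D D ℂ) (ω : ι → Ω) :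
    cnd K (insert i U) H ω = ∑ w, (K (ω i) w : ℂ) • cnd K U H (Function.update ω i w) := by
  unfold cnd
  simp only [Finset.smul_sum, smul_smul]
  rw [Finset.sum_comm]
  refine Finset.sum_congr rfl fun ω' _ => ?_
  rw [← Finset.sum_smul]
  congr 1
  rw [Finset.sum_eq_single (ω' i)]
  · rw [← Complex.ofReal_mul]
    congr 1
    rw [← Finset.mul_prod_erase _ _ (mem_univ i), ← Finset.mul_prod_erase _ _ (mem_univ i)]
    simp only [mem_insert, true_or, if_true, hi, if_false, Function.update_self, one_mul]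
    congr 1
    refine Finset.prod_congr rfl fun j hj => ?_
    have hji := ne_of_mem_erase hj
    simp [hji]
  · intro w _ hw
    rw [Finset.prod_eq_zero (mem_univ i) (by simp [hi, hw])]
    simp
  · simp

omit [Fintype D] [DecidableEq D] in
lemma cnd_sum {κ : Type} (s : Finset κ) (K : Ω → Ω → ℝ) (U : Finset ι)
    (H : κ → (ι → Ω) → Matrix D D ℂ) (ω : ι → Ω) :
    ∑ a ∈ s, cnd K U (H a) ω = cnd K U (fun ω' => ∑ a ∈ s, H a ω') ω := by
  unfold cnd
  simp only [Finset.smul_sum]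
  rw [Finset.sum_comm]

omit [Fintype D] [DecidableEq D] in
lemma cnd_update (K : Ω → Ω → ℝ) {U : Finset ι} {i : ι} (hi : i ∉ U)
    (H : (ι → Ω) → Matrix D D ℂ) (w : Ω) (ω : ι → Ω) :
    cnd K U H (Function.update ω i w) = cnd K U (fun ω' => H (Function.update ω' i w)) ω := by
  induction U using Finset.induction_on generalizing ω with
  | empty => simp [cnd_empty]
  | insert j U hj ih =>
    rw [mem_insert, not_or] at hi
    rw [cnd_insert K hj, cnd_insert K hj, Function.update_of_ne (Ne.symm hi.1)]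
    refine Finset.sum_congr rfl fun w' _ => ?_
    rw [Function.update_comm hi.1, ih hi.2]

variable {μ : Ω → ℝ} {r r' : Ω → Ω → Prop} {K : Ω → Ω → ℝ}

omit [DecidableEq D] in
lemma cnd_psd (hK : Ker μ r K) (U : Finset ι) {H : (ι → Ω) → Matrix D D ℂ}
    (hH : ∀ ω, (H ω).PosSemidef) (ω : ι → Ω) : (cnd K U H ω).PosSemidef := by
  induction U using Finset.induction_on generalizing ω with
  | empty => rw [cnd_empty]; exact hH ω
  | insert j U hj ih =>
    rw [cnd_insert K hj]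
    refine posSemidef_sum _ fun w _ => (ih _).smul ?_
    exact_mod_cast hK.nonneg _ _

lemma cnd_le_one (hK : Ker μ r K) (U : Finset ι) {H : (ι → Ω) → Matrix D D ℂ}
    (hH : ∀ ω, (1 - H ω).PosSemidef) (ω : ι → Ω) : (1 - cnd K U H ω).PosSemidef := by
  induction U using Finset.induction_on generalizing ω with
  | empty => rw [cnd_empty]; exact hH ω
  | insert j U hj ih =>
    rw [cnd_insert K hj]
    have : (1 : Matrix D D ℂ) - ∑ w, (K (ω j) w : ℂ) • cnd K U H (Function.update ω j w) =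
        ((1 - ∑ w, K (ω j) w : ℝ) : ℂ) • (1 : Matrix D D ℂ) +
          ∑ w, (K (ω j) w : ℂ) • (1 - cnd K U H (Function.update ω j w)) := by
      simp only [smul_sub, Finset.sum_sub_distrib, ← Finset.sum_smul]
      push_cast
      rw [sub_smul, one_smul]; abel
    rw [this]
    refine PosSemidef.add (PosSemidef.one.smul ?_) (posSemidef_sum _ fun w _ => (ih _).smul ?_)
    · have := hK.row (ω j)
      exact_mod_cast sub_nonneg.mpr this
    · exact_mod_cast hK.nonneg _ _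

omit [Fintype D] [DecidableEq D] in
lemma cnd_inv_mem (hK : Ker μ r K) {U : Finset ι} {i : ι} (hi : i ∈ U)
    (H : (ι → Ω) → Matrix D D ℂ) : Inv r (cnd K U H) i := by
  intro ω w hw
  rw [← Finset.insert_erase hi, cnd_insert K (notMem_erase i U), cnd_insert K (notMem_erase i U)]
  simp only [Function.update_self, Function.update_idem, hK.idem _ _ hw]

omit [Fintype D] [DecidableEq D] in
lemma cnd_inv_not_mem (K : Ω → Ω → ℝ) {U : Finset ι} {i : ι} (hi : i ∉ U)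
    {H : (ι → Ω) → Matrix D D ℂ} (hH : Inv r' H i) : Inv r' (cnd K U H) i := by
  induction U using Finset.induction_on with
  | empty => intro ω w hw; rw [cnd_empty, cnd_empty, hH ω w hw]
  | insert j U hj ih =>
    rw [mem_insert, not_or] at hi
    intro ω w hw
    rw [cnd_insert K hj, cnd_insert K hj, Function.update_of_ne (Ne.symm hi.1)]
    refine Finset.sum_congr rfl fun w' _ => ?_
    rw [Function.update_comm hi.1, ih hi.2]
    rwa [Function.update_of_ne hi.1]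

/-- real trace pairing -/
noncomputable def tp (ρ M : Matrix D D ℂ) : ℝ := (trace (ρ * M)).re

omit [DecidableEq D] in
lemma tp_add (ρ M M' : Matrix D D ℂ) : tp ρ (M + M') = tp ρ M + tp ρ M' := by
  simp [tp, Matrix.mul_add]

omit [DecidableEq D] in
lemma tp_sub (ρ M M' : Matrix D D ℂ) : tp ρ (M - M') = tp ρ M - tp ρ M' := by
  simp [tp, Matrix.mul_sub]

omit [DecidableEq D] in
lemma tp_smul (ρ M : Matrix D D ℂ) (c : ℝ) : tp ρ ((c : ℂ) • M) = c * tp ρ M := by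
  simp [tp]

omit [DecidableEq D] in
lemma tp_sum {κ : Type} (s : Finset κ) (ρ : Matrix D D ℂ) (M : κ → Matrix D D ℂ) :
    tp ρ (∑ a ∈ s, M a) = ∑ a ∈ s, tp ρ (M a) := by
  simp [tp, Matrix.mul_sum]

omit [DecidableEq D] in
lemma tp_nonneg {ρ M : Matrix D D ℂ} (hρ : ρ.PosSemidef) (hM : M.PosSemidef) : 0 ≤ tp ρ M :=
  re_trace_mul_nonneg hρ hM

omit [DecidableEq D] in
lemma mart (hK : Ker μ r K) {U : Finset ι} {i : ι} (hi : i ∉ U) (H : (ι → Ω) → Matrix D D ℂ)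
    {ρ : (ι → Ω) → Matrix D D ℂ} (hρ : Inv r ρ i) :
    ∑ ω, pw μ ω * tp (ρ ω) (cnd K (insert i U) H ω) = ∑ ω, pw μ ω * tp (ρ ω) (cnd K U H ω) := by
  rw [← resample hK.stat i (fun ω => tp (ρ ω) (cnd K U H ω))]
  refine Finset.sum_congr rfl fun ω _ => ?_
  rw [cnd_insert K hi, tp_sum]
  congr 1
  refine Finset.sum_congr rfl fun w _ => ?_
  rw [tp_smul]
  by_cases h : K (ω i) w = 0
  · simp [h]
  · rw [hρ ω w (hK.supp _ _ h)]

omit [DecidableEq D] in
lemma collapse (hK : Ker μ r K) (U : Finset ι) (H : (ι → Ω) → Matrix D D ℂ)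
    {ρ : (ι → Ω) → Matrix D D ℂ} (hρ : ∀ i ∈ U, Inv r ρ i) :
    ∑ ω, pw μ ω * tp (ρ ω) (cnd K U H ω) = ∑ ω, pw μ ω * tp (ρ ω) (H ω) := by
  induction U using Finset.induction_on with
  | empty => simp [cnd_empty]
  | insert j U hj ih =>
    rw [mart hK hj H (hρ j (mem_insert_self _ _)), ih fun i hi => hρ i (mem_insert_of_mem hi)]

lemma tele_step (hμ : ∀ w, 0 ≤ μ w) (hK : Ker μ r K) {U : Finset ι} {i : ι} (hi : i ∉ U)
    {H : (ι → Ω) → Matrix D D ℂ} (hH : ∀ ω, (H ω).PosSemidef)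
    {ρ : (ι → Ω) → Matrix D D ℂ} (hρ0 : ∀ ω, (ρ ω).PosSemidef) (hρ : Inv r ρ i) {s : ℝ}
    (hs : 0 < s) :
    ∑ ω, pw μ ω * en (ρ ω) (J s (cnd K U H ω)) (J s (cnd K (insert i U) H ω)) ≤
      ∑ ω, pw μ ω * tp (ρ ω) (J s (cnd K U H ω)) -
        ∑ ω, pw μ ω * tp (ρ ω) (J s (cnd K (insert i U) H ω)) := by
  set E := cnd K U H with hE
  set E' := cnd K (insert i U) H with hE'
  have pE : ∀ ω, (E ω).PosSemidef := cnd_psd hK U hH
  have pE' : ∀ ω, (E' ω).PosSemidef := cnd_psd hK _ hH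
  have hinv : Inv r (fun ω => J s (E' ω) * ρ ω * J s (E' ω)) i := by
    intro ω w hw
    have := cnd_inv_mem hK (mem_insert_self i U) H ω w hw
    dsimp only
    rw [hρ ω w hw, hE', this]
  have hm := mart hK hi H hinv
  rw [← hE, ← hE'] at hm
  have key : ∀ ω (X : Matrix D D ℂ), tp (ρ ω) (J s (E' ω) * (1 + ((s⁻¹ : ℝ) : ℂ) • X) * J s (E' ω)) =
      tp (ρ ω) (J s (E' ω) * J s (E' ω)) + s⁻¹ * tp (J s (E' ω) * ρ ω * J s (E' ω)) X := by
    intro ω X
    rw [Matrix.mul_add, Matrix.add_mul, tp_add, Matrix.mul_one, Matrix.mul_smul, Matrix.smul_mul,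
      tp_smul]
    congr 2
    unfold tp
    rw [← Matrix.mul_assoc, trace_mul_comm]
    simp only [Matrix.mul_assoc]
  have h1 : ∀ ω, en (ρ ω) (J s (E ω)) (J s (E' ω)) ≤ tp (ρ ω) (J s (E ω)) -
      2 * tp (ρ ω) (J s (E' ω)) + (tp (ρ ω) (J s (E' ω) * J s (E' ω)) +
        s⁻¹ * tp (J s (E' ω) * ρ ω * J s (E' ω)) (E ω)) := by
    intro ω
    have := tp_nonneg (hρ0 ω) (J_step (pE ω) (pE' ω) hs)
    rw [tp_sub, tp_add, tp_sub, key] at this
    have h2 : tp (ρ ω) ((2 : ℂ) • J s (E' ω)) = 2 * tp (ρ ω) (J s (E' ω)) := by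
      rw [← tp_smul]; norm_num
    rw [h2] at this
    unfold en
    unfold tp at this ⊢
    linarith
  have h3 : ∀ ω, tp (ρ ω) (J s (E' ω) * J s (E' ω)) +
      s⁻¹ * tp (J s (E' ω) * ρ ω * J s (E' ω)) (E' ω) = tp (ρ ω) (J s (E' ω)) := by
    intro ω
    rw [← key, (J_mul (pE' ω) hs).1, Matrix.one_mul]
  calc ∑ ω, pw μ ω * en (ρ ω) (J s (E ω)) (J s (E' ω))
      ≤ ∑ ω, pw μ ω * (tp (ρ ω) (J s (E ω)) -
      2 * tp (ρ ω) (J s (E' ω)) + (tp (ρ ω) (J s (E' ω) * J s (E' ω)) +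
        s⁻¹ * tp (J s (E' ω) * ρ ω * J s (E' ω)) (E ω))) :=
        sum_le_sum fun ω _ => mul_le_mul_of_nonneg_left (h1 ω) (pw_nonneg hμ ω)
    _ = ∑ ω, pw μ ω * (tp (ρ ω) (J s (E ω)) - 2 * tp (ρ ω) (J s (E' ω)) +
        tp (ρ ω) (J s (E' ω) * J s (E' ω))) +
        s⁻¹ * ∑ ω, pw μ ω * tp (J s (E' ω) * ρ ω * J s (E' ω)) (E ω) := by
        rw [Finset.mul_sum, ← Finset.sum_add_distrib]
        refine Finset.sum_congr rfl fun ω _ => ?_
        ring
    _ = _ := by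
        rw [← hm, Finset.mul_sum, ← Finset.sum_add_distrib, ← Finset.sum_sub_distrib]
        refine Finset.sum_congr rfl fun ω _ => ?_
        have := h3 ω
        linear_combination (pw μ ω) * this

lemma tele_ends {Λ : Type} [Fintype Λ] (hμ : ∀ w, 0 ≤ μ w) (hK : Ker μ r K) (U : Finset ι)
    {H : Λ → (ι → Ω) → Matrix D D ℂ} (hH : ∀ l ω, (H l ω).PosSemidef)
    (hH1 : ∀ l ω, (1 - H l ω).PosSemidef)
    {ρ : Λ → (ι → Ω) → Matrix D D ℂ} (hρ0 : ∀ l ω, (ρ l ω).PosSemidef)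
    (hρ : ∀ l, ∀ i ∈ U, Inv r (ρ l) i) {f Q : ℝ} (hf : 0 < f) (hQ0 : 0 < Q)
    (hfe : ∑ l, ∑ ω, pw μ ω * tp (ρ l ω) (H l ω) = f)
    (hQ : ∑ l, ∑ ω, pw μ ω * tp (ρ l ω) 1 ≤ Q) {s : ℝ} (hs : 0 < s) :
    ∑ l, ∑ ω, pw μ ω * tp (ρ l ω) (J s (cnd K ∅ (H l) ω)) -
      ∑ l, ∑ ω, pw μ ω * tp (ρ l ω) (J s (cnd K U (H l) ω)) ≤
      f * (1 / (s + f / Q) - 1 / (s + 1)) := by
  set c : ℝ := 1 / (s + f / Q) with hc
  set Q' := ∑ l, ∑ ω, pw μ ω * tp (ρ l ω) 1 with hQ'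
  have h1 : ∑ l, ∑ ω, pw μ ω * tp (ρ l ω) (J s (cnd K ∅ (H l) ω)) ≤ Q' - (1 + s)⁻¹ * f := by
    rw [hQ', ← hfe, Finset.mul_sum, ← Finset.sum_sub_distrib]
    refine sum_le_sum fun l _ => ?_
    rw [Finset.mul_sum, ← Finset.sum_sub_distrib]
    refine sum_le_sum fun ω _ => ?_
    rw [cnd_empty]
    have := tp_nonneg (hρ0 l ω) (J_upper (hH l ω) (hH1 l ω) hs)
    rw [tp_sub, tp_sub, tp_smul] at this
    have := mul_nonneg (pw_nonneg hμ ω) this
    linarith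
  have h2 : (2 * s * c - s ^ 2 * c ^ 2) * Q' - s * c ^ 2 * f ≤
      ∑ l, ∑ ω, pw μ ω * tp (ρ l ω) (J s (cnd K U (H l) ω)) := by
    rw [hQ', ← hfe, Finset.mul_sum, Finset.mul_sum, ← Finset.sum_sub_distrib]
    refine sum_le_sum fun l _ => ?_
    rw [← collapse hK U (H l) (hρ l), Finset.mul_sum, Finset.mul_sum, ← Finset.sum_sub_distrib]
    refine sum_le_sum fun ω _ => ?_
    have := tp_nonneg (hρ0 l ω) (J_lower (cnd_psd hK U (hH l) ω) hs c)
    rw [tp_sub, tp_sub, tp_smul, tp_smul] at this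
    have := mul_nonneg (pw_nonneg hμ ω) this
    linarith
  have h3 : (1 - s * c) ^ 2 * Q' ≤ (1 - s * c) ^ 2 * Q :=
    mul_le_mul_of_nonneg_left hQ (sq_nonneg _)
  have h4 : (1 - s * c) ^ 2 * Q + s * c ^ 2 * f = f * c := by
    rw [hc]; field_simp; ring
  have h5 : (1 + s)⁻¹ = 1 / (s + 1) := by rw [add_comm, one_div]
  rw [h5] at h1
  nlinarith

theorem tele_main {Λ : Type} [Fintype Λ] (hμ : ∀ w, 0 ≤ μ w) (hK : Ker μ r K) (R : Finset ι)
    (hR : R.Nonempty)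
    {H : Λ → (ι → Ω) → Matrix D D ℂ} (hH : ∀ l ω, (H l ω).PosSemidef)
    (hH1 : ∀ l ω, (1 - H l ω).PosSemidef)
    {ρ : Finset ι → Λ → (ι → Ω) → Matrix D D ℂ} (hρ0 : ∀ U' l ω, (ρ U' l ω).PosSemidef)
    (hρ : ∀ U' l, ∀ i ∈ R, i ∉ U' → Inv r (ρ U' l) i) {f Q : ℝ} (hf : 0 < f) (hQ0 : 0 < Q)
    (hfe : ∀ U', U' ⊆ R → ∑ l, ∑ ω, pw μ ω * tp (ρ U' l ω) (H l ω) = f)
    (hQ : ∀ U', U' ⊆ R → ∑ l, ∑ ω, pw μ ω * tp (ρ U' l ω) 1 ≤ Q) {s : ℝ} (hs : 0 < s) :
    ∑ i, ∑ U', ∑ U, wt R i U U' * ∑ l, ∑ ω, pw μ ω *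
      en (ρ U' l ω) (J s (cnd K U (H l) ω)) (J s (cnd K (insert i U) (H l) ω)) ≤
      2 / R.card * (f * (1 / (s + f / Q) - 1 / (s + 1))) := by
  refine sum_wt_tele R (fun U' U => ∑ l, ∑ ω, pw μ ω * tp (ρ U' l ω) (J s (cnd K U (H l) ω)))
    _ _ ?_ ?_ hR
  · intro i U U' hv
    rw [← Finset.sum_sub_distrib]
    refine sum_le_sum fun l _ => ?_
    have hiU : i ∉ U := fun h => by simpa using hv.2.1 h
    have hiU' : i ∉ U' := fun h => by simpa using hv.2.2.1 h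
    exact tele_step hμ hK hiU (hH l) (hρ0 U' l) (hρ U' l i hv.1 hiU') hs
  · intro U' hU'
    refine tele_ends hμ hK (R \ U') hH hH1 (hρ0 U') (fun l i hi => ?_) hf hQ0 (hfe U' hU')
      (hQ U' hU') hs
    rw [mem_sdiff] at hi
    exact hρ U' l i hi.1 hi.2

end Crest.Agent.H9.QP
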