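import Crest.Agent.H6.TkD
import Crest.Agent.Lead.TkK

/-! Row 186: duality between rows/columns with values in `B` and in its dual. -/

set_option autoImplicit false
set_option linter.unusedSectionVars false

noncomputable section
namespace Crest.Agent.H9.Tk
open MulOpposite Finsupp Crest.Agent.H6.Tk Crest.Agent.Lead.Tk

theorem exists_comp_of_ker {k W W' : Type} [Field k] [AddCommGroup W] [Module k W] [AddCommGroup W']
    [Module k W'] (D : W →ₗ[k] W') (g : W →ₗ[k] k) (h : ∀ x, D x = 0 → g x = 0) :
    ∃ u : W' →ₗ[k] k, ∀ x, u (D x) = g x := by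
  have hle : LinearMap.ker D ≤ LinearMap.ker g := fun x hx => h x hx
  obtain ⟨u, hu⟩ := LinearMap.exists_extend
    (((LinearMap.ker D).liftQ g hle) ∘ₗ D.quotKerEquivRange.symm.toLinearMap)
  refine ⟨u, fun x => ?_⟩
  have := LinearMap.congr_fun hu ⟨D x, LinearMap.mem_range_self D x⟩
  simp only [LinearMap.comp_apply, Submodule.subtype_apply, LinearEquiv.coe_coe] at this
  rw [this]
  have e : D.quotKerEquivRange.symm ⟨D x, LinearMap.mem_range_self D x⟩ =
      (LinearMap.ker D).mkQ x := by
    rw [LinearEquiv.symm_apply_eq]; ext; simp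
  rw [e]; simp

variable {k B : Type} [Field k] [Ring B] [Algebra k B]

theorem deg_d (P : Cx B) {i l : P.I} (h : P.d (single i 1) l ≠ 0) : P.deg l = P.deg i + 1 := by
  by_contra hne
  exact h ((P.d_isM i l).1 hne)

theorem d_l (P : Cx B) (i l : P.I) : P.ε i * P.d (single i 1) l = P.d (single i 1) l :=
  (P.d_isM i l).2.1

theorem d_r (P : Cx B) (i l : P.I) : P.d (single i 1) l * P.ε l = P.d (single i 1) l :=
  (P.d_isM i l).2.2

/-- evaluation of a cochain from the point to the point -/
def ev (Θ : Ch (pt B) (pt B) (Du k B)) : k := Du.toL (Θ (single () 1) ()) 1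

theorem ev_add (Θ Θ' : Ch (pt B) (pt B) (Du k B)) : ev (Θ + Θ') = ev Θ + ev Θ' := by
  simp [ev]

theorem ev_zero : ev (0 : Ch (pt B) (pt B) (Du k B)) = 0 := rfl

theorem eq_zero_of_bd_pt {V : Type} [AddCommGroup V] [Module B V] [Module Bᵐᵒᵖ V]
    [SMulCommClass B Bᵐᵒᵖ V] {n : ℤ} {Θ : Ch (pt B) (pt B) V} (h : Bd _ _ V n Θ) : Θ = 0 := by
  obtain ⟨s, -, rfl⟩ := h
  rw [δ_pt_right]
  have : (pt B).d = 0 := rfl
  rw [this, LinearMap.comp_zero]

theorem ev_tens (P : Cx B) (v : Ch (pt B) P (Du k B)) (w : Ch P (pt B) B) :
    ev (tens (Du k B) w ∘ₗ v) =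
      ∑ j ∈ (v (single () 1)).support, Du.toL (v (single () 1) j) (w (single j 1) ()) := by
  rw [ev, LinearMap.comp_apply, tens_app, map_sum, LinearMap.sum_apply]
  simp

/-- rows with values in the dual -/
theorem bd_row (P : Cx B) (t : ℤ) (v : Ch (pt B) P (Du k B)) (hv : IsC (pt B) P (Du k B) t v)
    (h : ∀ w, Cy P (pt B) B (-t) w → ev (tens (Du k B) w ∘ₗ v) = 0) : Bd (pt B) P (Du k B) t v := by
  classical
  set y := v (single () 1) with hy
  have y0 : ∀ j, P.deg j ≠ t → y j = 0 := fun j hj => (hv () j).1 (by simpa [pt] using hj)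
  have y1 : ∀ j x, Du.toL (y j) (P.ε j * x) = Du.toL (y j) x := fun j x => by
    have := congrArg (fun φ => Du.toL φ x) (hv () j).2.2
    simpa using this
  let Dm : (P.I → B) →ₗ[k] (P.I → B) := LinearMap.pi fun i =>
    if P.deg i = t - 1 then ∑ l ∈ (P.d (single i 1)).support,
      LinearMap.mulLeft k (P.d (single i 1) l) ∘ₗ LinearMap.proj l else 0
  have hDm : ∀ c i, Dm c i = if P.deg i = t - 1 then
      ∑ l ∈ (P.d (single i 1)).support, P.d (single i 1) l * c l else 0 := fun c i => by
    simp only [Dm, LinearMap.pi_apply]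
    split_ifs <;> simp [LinearMap.sum_apply]
  let g : (P.I → B) →ₗ[k] k := ∑ j ∈ y.support, Du.toL (y j) ∘ₗ LinearMap.proj j
  have hg : ∀ c, g c = ∑ j ∈ y.support, Du.toL (y j) (c j) := fun c => by
    simp [g, LinearMap.sum_apply]
  obtain ⟨u, hu⟩ := exists_comp_of_ker Dm g fun c hc => by
    have := h (colC fun l => if P.deg l = t then P.ε l * c l else 0) ⟨fun i o => by
      rw [colC_app]
      refine ⟨fun hi => if_neg (by simp only [pt] at hi; omega), ?_, one_smul _ _⟩
      split_ifs
      · rw [smul_eq_mul, ← mul_assoc, P.idem]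
      · simp, ch_ext fun i o => by
      rw [δ_pt_right, LinearMap.comp_apply, app_eq]
      simp only [colC_app]
      have h1 := congrFun hc i
      rw [hDm] at h1
      by_cases hi : P.deg i = t - 1
      · rw [if_pos hi] at h1
        refine Eq.trans (Finset.sum_congr rfl fun l hl => ?_) h1
        have := deg_d P (Finsupp.mem_support_iff.1 hl)
        rw [if_pos (by omega), smul_eq_mul, ← mul_assoc, d_r]
      · refine Finset.sum_eq_zero fun l hl => ?_
        have := deg_d P (Finsupp.mem_support_iff.1 hl)
        rw [if_neg (by omega), smul_zero]⟩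
    rw [ev_tens] at this
    rw [hg, ← this]
    refine Finset.sum_congr rfl fun j hj => ?_
    have hj' : P.deg j = t := by
      by_contra hne
      exact Finsupp.mem_support_iff.1 hj (y0 j hne)
    have e := colC_app (P := P) (fun l => if P.deg l = t then P.ε l * c l else 0) j ()
    rw [e, if_pos hj', y1]
  let a : (pt B).I → P.I → Du k B := fun _ i =>
    Du.ofL (u ∘ₗ LinearMap.single k (fun _ => B) i ∘ₗ LinearMap.mulLeft k (P.ε i))
  refine ⟨ofEnt (pt B) P (t - 1) a, isC_ofEnt _ (fun _ _ => one_smul _ _) (fun o i => ?_),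
    ch_ext fun o j => ?_⟩
  · ext x; simp [a, ← mul_assoc, P.idem]
  · obtain rfl : o = () := rfl
    rw [δ_pt_left, LinearMap.comp_apply, tens_app]
    ext b
    have hs : ∀ i, ofEnt (pt B) P (t - 1) a (single () 1) i = if P.deg i = t - 1 then a () i else 0 :=
      fun i => by
        have := ofEnt_ent (P := pt B) (P' := P) (t - 1) a () i
        simpa [pt] using this
    have e1 : Dm (Pi.single j b) = ∑ i ∈ (P.fin (t - 1)).toFinset,
        Pi.single i (P.d (single i 1) j * b) := by
      funext i
      rw [hDm, Finset.sum_apply]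
      simp only [Pi.single_apply, mul_ite, mul_zero, Finset.sum_ite_eq', Finset.sum_ite_eq,
        Set.Finite.mem_toFinset, Set.mem_setOf_eq, Finsupp.mem_support_iff]
      split_ifs with h1 h2 <;> simp_all
    have e2 := hu (Pi.single j b)
    rw [e1, map_sum, hg] at e2
    have e3 : ∑ j' ∈ y.support, Du.toL (y j') (Pi.single (M := fun _ => B) j b j') = Du.toL (y j) b := by
      rw [Finset.sum_eq_single j]
      · simp
      · intro j' _ hne; simp [Pi.single_eq_of_ne hne]
      · intro hj; rw [Finsupp.notMem_support_iff.1 hj]; simp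
    rw [e3] at e2
    rw [← hy, ← e2, map_sum, LinearMap.sum_apply]
    rw [Finset.sum_subset (s₂ := (P.fin (t - 1)).toFinset)]
    · refine Finset.sum_congr rfl fun i hi => ?_
      rw [hs, if_pos (by simpa using hi)]
      simp [a, ← mul_assoc, d_l]
    · intro i hi
      rw [Finsupp.mem_support_iff, hs] at hi
      by_contra hne
      exact hi (if_neg (by simpa using hne))
    · intro i _ hi
      rw [Finsupp.notMem_support_iff.1 hi]; simp

/-- columns with values in the dual -/
theorem bd_col (P : Cx B) (s : ℤ) (w : Ch P (pt B) (Du k B)) (hw : IsC P (pt B) (Du k B) s w)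
    (h : ∀ v, Cy (pt B) P B (-s) v → ev (w ∘ₗ v) = 0) : Bd P (pt B) (Du k B) s w := by
  classical
  let E : (P.I →₀ B) →ₗ[B] (P.I →₀ B) := Finsupp.linearCombination B fun i =>
    if P.deg i = -s then single i (P.ε i) else 0
  have hE : ∀ i b, E (single i b) = if P.deg i = -s then single i (b * P.ε i) else 0 := fun i b => by
    simp only [E, Finsupp.linearCombination_single]
    split_ifs <;> simp
  have hE' : ∀ x j, E x j = if P.deg j = -s then x j * P.ε j else 0 := fun x j => by
    induction x using Finsupp.induction_linear with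
    | zero => simp
    | add x y hx hy => rw [map_add, Finsupp.add_apply, hx, hy]; split_ifs <;> simp [add_mul]
    | single i b =>
      rw [hE]
      by_cases hij : i = j
      · subst hij; split_ifs <;> simp
      · split_ifs <;> simp [Finsupp.single_eq_of_ne' hij, Finsupp.single_apply, hij]
  have w0 : ∀ i, P.deg i ≠ -s → w (single i 1) () = 0 := fun i hi =>
    (hw i ()).1 (by simp only [pt]; omega)
  have wb : ∀ i b, w (single i b) () = b • w (single i 1) () := fun i b => by
    have : (single i b : P.I →₀ B) = b • single i 1 := by simp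
    rw [this, map_smul, Finsupp.smul_apply]
  have wE : w ∘ₗ E = w := ch_ext fun i o => by
    obtain rfl : o = () := rfl
    rw [LinearMap.comp_apply, hE]
    split_ifs with hi
    · rw [wb, one_mul]; exact (hw i ()).2.1
    · rw [map_zero, w0 i hi]; rfl
  let g : (P.I →₀ B) →ₗ[k] k :=
    { toFun := fun x => Du.toL (w x ()) 1
      map_add' := fun x y => by simp
      map_smul' := fun a x => by
        rw [← algebraMap_smul B a x, map_smul, Finsupp.smul_apply, Du.smul_apply, one_mul,
          Algebra.algebraMap_eq_smul_one, map_smul]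
        rfl }
  obtain ⟨u, hu⟩ := exists_comp_of_ker ((P.d ∘ₗ E).restrictScalars k) g fun x hx => by
    have := h (rowC (E x)) ⟨fun o j => by
      rw [rowC_app, hE']
      refine ⟨fun hj => if_neg (by simp only [pt] at hj; omega), one_smul _ _, ?_⟩
      split_ifs
      · rw [op_smul_eq_mul, mul_assoc, P.idem]
      · simp, ch_ext fun o j => by
      rw [δ_pt_left, tens_self, LinearMap.comp_apply, rowC_app]
      have hx' : P.d (E x) = 0 := hx
      rw [hx']; rfl⟩
    rw [ev, LinearMap.comp_apply] at this
    have e := rowC_app (P' := P) (E x) ()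
    rw [e, ← LinearMap.comp_apply w E, wE] at this
    exact this
  let c : P.I → Du k B := fun l => if P.deg l = -s + 1 then
    Du.ofL (u ∘ₗ (Finsupp.lsingle l : B →ₗ[k] _) ∘ₗ LinearMap.mulRight k (P.ε l)) else 0
  refine ⟨colC c, fun i o => ?_, ch_ext fun i o => ?_⟩
  · rw [colC_app]
    refine ⟨fun hi => if_neg (by simp only [pt] at hi; omega), ?_, one_smul _ _⟩
    simp only [c]
    split_ifs
    · ext x; simp [mul_assoc, P.idem]
    · simp
  · obtain rfl : o = () := rfl
    rw [δ_pt_right, LinearMap.comp_apply, app_eq]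
    have e : ∀ l, colC (P := P) c (single l 1) () = c l := fun l => colC_app c l ()
    simp only [e]
    by_cases hi : P.deg i = -s
    · ext b
      have e2 := hu (single i b)
      have e3 : ((P.d ∘ₗ E).restrictScalars k) (single i b) =
          ∑ l ∈ (P.d (single i 1)).support, single l (b * P.d (single i 1) l) := by
        change P.d (E (single i b)) = _
        rw [hE, if_pos hi]
        have : (single i (b * P.ε i) : P.I →₀ B) = (b * P.ε i) • single i 1 := by simp
        rw [this, map_smul]
        ext l
        rw [Finsupp.smul_apply, smul_eq_mul, mul_assoc, d_l, Finset.sum_apply']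
        rw [Finset.sum_eq_single l]
        · simp
        · intro l' _ hne; simp [Finsupp.single_apply, hne]
        · intro hl; rw [Finsupp.notMem_support_iff.1 hl]; simp
      rw [e3, map_sum] at e2
      have e4 : g (single i b) = Du.toL (w (single i 1) ()) b := by
        change Du.toL (w (single i b) ()) 1 = _
        rw [wb]; simp
      rw [← e4, ← e2, map_sum, LinearMap.sum_apply]
      refine Finset.sum_congr rfl fun l hl => ?_
      have := deg_d P (Finsupp.mem_support_iff.1 hl)
      simp only [c]
      rw [if_pos (by omega)]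
      simp [mul_assoc, d_r]
    · rw [w0 i hi]
      refine Finset.sum_eq_zero fun l hl => ?_
      have := deg_d P (Finsupp.mem_support_iff.1 hl)
      simp only [c]
      rw [if_neg (by omega), smul_zero]

end Crest.Agent.H9.Tk
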