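import Crest.Agent.H9.TkQ1

/-! Row 186: finite reduction and the blocks of the cone. -/

set_option autoImplicit false
set_option linter.unusedSectionVars false

noncomputable section
namespace Crest.Agent.H9.Tk
open MulOpposite Finsupp Crest.Agent.H6.Tk Crest.Agent.Lead.Tk

section gen
variable {R : Type} [Ring R] {V : Type} [AddCommGroup V] [Module R V] [Module Rᵐᵒᵖ V]
  [SMulCommClass R Rᵐᵒᵖ V] {P P' : Cx R}

theorem deg_d' (P : Cx R) {i l : P.I} (h : P.d (single i 1) l ≠ 0) : P.deg l = P.deg i + 1 := by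
  by_contra hne
  exact h ((P.d_isM i l).1 hne)

theorem isC_rowC {n : ℤ} {Φ : Ch P P' V} (h : IsC P P' V n Φ) (i : P.I) :
    IsC (pt R) P' V (P.deg i + n) (rowC (Φ (single i 1))) := fun u j => by
  rw [rowC_app]
  exact ⟨fun hj => (h i j).1 (by simpa [pt] using hj), one_smul _ _, (h i j).2.2⟩

/-- one step of the reduction of the rows -/
theorem step (h2 : (2 : R) = 0) (n b : ℤ) (S : P.I → Prop) (Φ : Ch P P' V) (hΦ : Cy P P' V n Φ)
    (h0 : ∀ i, b < P.deg i → Φ (single i 1) = 0)
    (hS : ∀ i, P.deg i = b → S i → Cy (pt R) P' V (P.deg i + n) (rowC (Φ (single i 1))) →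
      Bd (pt R) P' V (P.deg i + n) (rowC (Φ (single i 1)))) :
    ∃ Ψ, IsC P P' V (n - 1) Ψ ∧
      ∀ i, (b < P.deg i ∨ (P.deg i = b ∧ S i)) → (Φ + δ P P' V Ψ) (single i 1) = 0 := by
  classical
  have key : ∀ i, (P.deg i = b ∧ S i) → ∃ y : P'.I →₀ V,
      (∀ j, P'.deg j ≠ P.deg i + (n - 1) → y j = 0) ∧ (∀ j, op (P'.ε j) • y j = y j) ∧
      tens V P'.d y = Φ (single i 1) := fun i hi => by
    have hrow : Φ (P.d (single i 1)) = 0 := Finsupp.ext fun j => by
      rw [app_eq]
      refine Finset.sum_eq_zero fun i' hi' => ?_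
      have := deg_d' P (Finsupp.mem_support_iff.1 hi')
      rw [h0 i' (by omega)]; simp
    have hδ : tens V P'.d (Φ (single i 1)) = 0 := by
      have := LinearMap.congr_fun hΦ.2 (single i 1)
      rwa [δ, LinearMap.add_apply, LinearMap.comp_apply, hrow, zero_add] at this
    obtain ⟨s, hs, hs'⟩ := hS i hi.1 hi.2 ⟨isC_rowC hΦ.1 i,
      ch_ext fun u j => by rw [δ_pt_left, LinearMap.comp_apply, rowC_app, hδ]; rfl⟩
    refine ⟨s (single () 1), fun j hj => (hs () j).1 (by simp only [pt]; omega),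
      fun j => (hs () j).2.2, ?_⟩
    have := LinearMap.congr_fun hs' (single () 1)
    rw [δ_pt_left, LinearMap.comp_apply] at this
    exact this.trans (rowC_app _ _)
  choose! y hy1 hy2 hy3 using key
  let Θ : Ch P P' V := Finsupp.linearCombination R fun i =>
    if P.deg i = b ∧ S i then P.ε i • y i else 0
  have hΘ : ∀ i, Θ (single i 1) = if P.deg i = b ∧ S i then P.ε i • y i else 0 :=
    fun i => by simp [Θ]
  refine ⟨Θ, fun i j => ?_, fun i hi => ?_⟩
  · rw [hΘ]
    split_ifs with hi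
    · rw [Finsupp.smul_apply]
      exact ⟨fun hj => by rw [hy1 i hi j hj, smul_zero], by rw [smul_smul, P.idem],
        by rw [← smul_comm, hy2 i hi]⟩
    · simp
  · have hb : b ≤ P.deg i := by rcases hi with hi | hi <;> omega
    have hrow : Θ (P.d (single i 1)) = 0 := Finsupp.ext fun j => by
      rw [app_eq]
      refine Finset.sum_eq_zero fun i' hi' => ?_
      have := deg_d' P (Finsupp.mem_support_iff.1 hi')
      rw [hΘ, if_neg (by omega)]
      simp
    rw [LinearMap.add_apply, δ, LinearMap.add_apply, LinearMap.comp_apply, hrow, zero_add,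
      LinearMap.comp_apply, hΘ]
    rcases hi with hi | hi
    · rw [if_neg (by omega), h0 i hi, map_zero, add_zero]
    · rw [if_pos hi, map_smul, hy3 i hi]
      ext j
      rw [Finsupp.add_apply, Finsupp.smul_apply, (hΦ.1 i j).2.1]
      exact two_V h2 _

/-- reduction to the rows outside `S`, all of the lowest degree -/
theorem reduce (h2 : (2 : R) = 0) (n lo : ℤ) (S : P.I → Prop) (hlo : ∀ i, lo ≤ P.deg i)
    (hS0 : ∀ i, lo < P.deg i → S i)
    (hS : ∀ i, S i → ∀ v, Cy (pt R) P' V (P.deg i + n) v →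
      P.ε i • v (single () 1) = v (single () 1) → Bd (pt R) P' V (P.deg i + n) v) (t : ℕ) :
    ∀ Φ : Ch P P' V, Cy P P' V n Φ → (∀ i, lo + t < P.deg i → Φ (single i 1) = 0) →
      ∃ Ψ, IsC P P' V (n - 1) Ψ ∧ ∀ i, S i → (Φ + δ P P' V Ψ) (single i 1) = 0 := by
  have aux : ∀ (b : ℤ) (Φ : Ch P P' V), Cy P P' V n Φ → ∀ i, P.deg i = b → S i →
      Cy (pt R) P' V (P.deg i + n) (rowC (Φ (single i 1))) →
      Bd (pt R) P' V (P.deg i + n) (rowC (Φ (single i 1))) := fun b Φ hΦ i _ hi hc => by
    refine hS i hi _ hc ?_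
    have e := rowC_app (P' := P') (Φ (single i 1)) ()
    exact (congrArg (fun z => P.ε i • z) e).trans
      ((Finsupp.ext fun j => (hΦ.1 i j).2.1).trans e.symm)
  induction t with
  | zero =>
    intro Φ hΦ h0
    obtain ⟨Ψ, h1, h3⟩ := step h2 n lo S Φ hΦ (fun i hi => h0 i (by simpa using hi)) (aux lo Φ hΦ)
    refine ⟨Ψ, h1, fun i hi => h3 i ?_⟩
    have := hlo i
    by_cases h : lo < P.deg i
    · exact Or.inl h
    · exact Or.inr ⟨by omega, hi⟩
  | succ t ih =>
    intro Φ hΦ h0
    obtain ⟨Ψ, h1, h3⟩ := step h2 n (lo + (t + 1 : ℕ)) S Φ hΦ h0 (aux _ Φ hΦ)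
    obtain ⟨Ψ', h4, h5⟩ := ih (Φ + δ P P' V Ψ) (cy_add hΦ (cy_of_bd h2 ⟨Ψ, h1, rfl⟩)) fun i hi => by
      refine h3 i ?_
      by_cases h : lo + (t + 1 : ℕ) < P.deg i
      · exact Or.inl h
      · exact Or.inr ⟨by push_cast at h ⊢; omega, hS0 i (by omega)⟩
    refine ⟨Ψ + Ψ', isC_add h1 h4, fun i hi => ?_⟩
    rw [δ_add, ← add_assoc]
    exact h5 i hi

end gen

variable {k B : Type} [Field k] [Ring B] [Algebra k B]

/-- multiplication by an element on the point -/
def mulP (b : B) : Ch (pt B) (pt B) B := rowC (P' := pt B) (single () b)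

theorem mulP_app (b : B) : mulP b (single () 1) = single () b := rowC_app (P' := pt B) _ ()

theorem cy_mulP (b : B) : Cy (pt B) (pt B) B 0 (mulP b) :=
  ⟨fun u j => ⟨fun h => absurd rfl h, one_smul _ _, one_smul _ _⟩, by
    rw [δ_pt_right]
    have : (pt B).d = 0 := rfl
    rw [this, LinearMap.comp_zero]⟩

theorem pt_ext {V : Type} [AddCommGroup V] [Module B V] {J : Type}
    {v w : (Unit →₀ B) →ₗ[B] (J →₀ V)} (h : v (single () 1) = w (single () 1)) : v = w :=
  Finsupp.lhom_ext' fun u => LinearMap.ext_ring h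

theorem comp_mulP {V : Type} [AddCommGroup V] [Module B V] {J : Type}
    (v : (Unit →₀ B) →ₗ[B] (J →₀ V)) (b : B) :
    (v ∘ₗ mulP b) (single () 1) = b • v (single () 1) := by
  have : (single () b : Unit →₀ B) = b • single () 1 := by simp
  exact (congrArg v (mulP_app b)).trans (by rw [this, map_smul])

theorem row_app (P : Cx B) (i : P.I) : P.row i (single () 1) = single i (P.ε i) := by
  simp [Cx.row]

theorem col_app (P : Cx B) (i j : P.I) [Decidable (j = i)] :
    P.col i (single j 1) () = if j = i then P.ε i else 0 := by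
  have : P.col i (single j 1) () = P.one (single j 1) i := Finsupp.single_eq_same
  rw [this, one_single, one_mul]
  split_ifs with h
  · subst h; simp
  · exact Finsupp.single_eq_of_ne' h

variable {m : ℕ} (X : BD k B m)

theorem cy_row_ip : Cy (pt B) X.Qp B 0 (X.Qp.row X.ip) := by
  classical
  refine ⟨fun u j => ?_, pt_ext ?_⟩
  · obtain rfl : u = () := rfl
    rw [row_app, Finsupp.single_apply]
    split_ifs with h
    · subst h
      exact ⟨fun h => absurd (by simp [pt, X.deg_ip]) h, one_smul _ _, X.Qp.idem _⟩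
    · simp
  · rw [δ_pt_left, tens_self]
    change X.Qp.d (X.Qp.row X.ip (single () 1)) = 0
    rw [row_app]
    have : (single X.ip (X.Qp.ε X.ip) : X.Qp.I →₀ B) = X.Qp.ε X.ip • single X.ip 1 := by simp
    rw [this, map_smul]
    have : X.Qp.d (single X.ip 1) = 0 := Finsupp.ext fun l => by
      by_contra h
      have := deg_d' X.Qp h
      have := X.degp l
      have := X.deg_ip
      omega
    rw [this, smul_zero]

theorem cy_col_im : Cy X.Qm (pt B) B m (X.Qm.col X.im) := by
  classical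
  refine ⟨fun j u => ?_, ch_ext fun j u => ?_⟩
  · obtain rfl : u = () := rfl
    rw [col_app]
    split_ifs with h
    · subst h
      exact ⟨fun h => absurd (by simp [pt, X.deg_im]) h, X.Qm.idem _, one_smul _ _⟩
    · simp
  · obtain rfl : u = () := rfl
    rw [δ_pt_right, LinearMap.comp_apply, app_eq]
    refine Finset.sum_eq_zero fun l hl => ?_
    have := deg_d' X.Qm (Finsupp.mem_support_iff.1 hl)
    have := X.degm j
    have := X.deg_im
    rw [col_app, if_neg (by rintro rfl; omega), smul_zero]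

end Crest.Agent.H9.Tk
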