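import Crest.Agent.H9.TkQ2

/-! Row 186: the blocks `(Qm,Qm)` and `(Qm,Qp)` with values in the dual bimodule. -/

set_option autoImplicit false
set_option linter.unusedSectionVars false

noncomputable section
namespace Crest.Agent.H9.Tk
open MulOpposite Finsupp Crest.Agent.H6.Tk Crest.Agent.Lead.Tk

variable {k B : Type} [Field k] [Ring B] [Algebra k B]

theorem two_B (k B : Type) [Field k] [CharP k 2] [Ring B] [Algebra k B] : (2 : B) = 0 := by
  have : (2 : k) = 0 := by exact_mod_cast CharP.cast_eq_zero k 2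
  rw [← map_ofNat (algebraMap k B) 2, this, map_zero]

theorem toL_alg (a : k) (φ : Du k B) (x : B) : Du.toL (algebraMap k B a • φ) x = a * Du.toL φ x := by
  rw [Du.smul_apply, ← Algebra.commutes, ← Algebra.smul_def, map_smul, smul_eq_mul]

theorem ev_comp_smul (P : Cx B) (w : Ch P (pt B) (Du k B)) (v : Ch (pt B) P B) (c : k) :
    ev (w ∘ₗ (c • v)) = c * ev (w ∘ₗ v) := by
  rw [ev, ev, LinearMap.comp_apply, LinearMap.comp_apply, LinearMap.smul_apply,
    ← algebraMap_smul B c, map_smul, Finsupp.smul_apply, toL_alg]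

theorem ev_tens_smul (P : Cx B) (v : Ch (pt B) P (Du k B)) (w : Ch P (pt B) B) (c : k) :
    ev (tens (Du k B) (c • w) ∘ₗ v) = c * ev (tens (Du k B) w ∘ₗ v) := by
  rw [ev_tens, ev_tens, Finset.mul_sum]
  refine Finset.sum_congr rfl fun j _ => ?_
  rw [LinearMap.smul_apply, Finsupp.smul_apply, map_smul, smul_eq_mul]

theorem mulP_ent (e : B) (x : Unit →₀ B) : mulP e x () = x () * e := by
  have h1 : x = x () • single () 1 := by ext; simp
  have h2 : mulP e x = x () • mulP e (single () 1) := by rw [← map_smul]; exact congrArg _ h1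
  rw [h2, mulP_app]
  change x () * (single () e : Unit →₀ B) () = _
  rw [Finsupp.single_eq_same]

variable [CharP k 2] {m : ℕ} (X : BD k B m)

theorem van_mm (n : ℤ) (hn : n ≠ -(m : ℤ)) : Van X.Qm X.Qm (Du k B) n := by
  have h2 := two_B k B
  refine (kStmt B h2 X.Qm X.Qm (Du k B) n).2 ⟨_, X.degm⟩ fun j w hw hε =>
    bd_col _ _ w hw.1 fun v hv => ?_
  have z : ∀ {t : ℤ} {u : Ch (pt B) X.Qm B}, Bd _ _ B t u → ev (w ∘ₗ u) = 0 := fun hu => by
    rw [eq_zero_of_bd_pt (bd_comp_left h2 hu hw), ev_zero]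
  by_cases ht : -(n - X.Qm.deg j) = 0
  · obtain ⟨c, hc⟩ := (X.rowm _ v hv).2
    have h1 := z hc
    rw [LinearMap.comp_add, ev_add, ev_comp_smul] at h1
    have hj : j ≠ X.im := by
      rintro rfl
      have := X.deg_im
      omega
    have h3 : Bd (pt B) X.Qp B (0 + 0) (X.Qp.row X.ip ∘ₗ mulP (X.Qm.ε j)) := by
      refine X.rowp _ _ (cy_comp h2 (cy_mulP _) (cy_row_ip X)) ?_
      have e := comp_mulP (X.Qp.row X.ip) (X.Qm.ε j)
      have e' : (X.Qp.row X.ip ∘ₗ mulP (X.Qm.ε j)) (single () 1) X.ip =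
          X.Qm.ε j * X.Qp.ε X.ip := by
        refine (congrArg (fun z => z X.ip) e).trans ?_
        have e3 := row_app X.Qp X.ip
        refine (congrArg (fun z => (X.Qm.ε j • z) X.ip) e3).trans ?_
        simp
      exact (congrArg X.χ e').trans (by rw [map_mul, X.χm j hj, zero_mul])
    have h4 := eq_zero_of_bd_pt (bd_comp_left h2 h3 (cy_comp h2 X.φ_cy hw))
    have h5 : ∀ x, op (X.Qm.ε j) • w x () = w x () := fun x => by
      rw [app_eq, Finset.smul_sum]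
      exact Finset.sum_congr rfl fun i _ => by rw [← smul_comm, hε]
    have h6 : ev (w ∘ₗ (X.φ ∘ₗ X.Qp.row X.ip)) = 0 := by
      have e := comp_mulP (w ∘ₗ (X.φ ∘ₗ X.Qp.row X.ip)) (X.Qm.ε j)
      have e0 : ((w ∘ₗ (X.φ ∘ₗ X.Qp.row X.ip)) ∘ₗ mulP (X.Qm.ε j)) (single () 1) = 0 :=
        LinearMap.congr_fun h4 (single () 1)
      have e1 := congrArg (fun z => Du.toL (z ()) 1) (e.symm.trans e0)
      have e2 := congrArg (fun z => Du.toL z 1) (h5 ((X.φ ∘ₗ X.Qp.row X.ip) (single () 1)))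
      simp only [Du.op_apply, unop_op, mul_one] at e2
      change Du.toL (X.Qm.ε j • w ((X.φ ∘ₗ X.Qp.row X.ip) (single () 1)) ()) 1 = 0 at e1
      rw [Du.smul_apply, one_mul, e2] at e1
      exact e1
    rwa [h6, mul_zero, add_zero] at h1
  · exact z ((X.rowm _ v hv).1 ht)

/-- the obstruction of a row -/
def lam (v : Ch (pt B) X.Qp (Du k B)) : k := ev (tens (Du k B) (X.Qm.col X.im ∘ₗ X.φ) ∘ₗ v)

theorem mp_row (t : ℤ) (v : Ch (pt B) X.Qp (Du k B)) (hv : Cy _ _ _ t v)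
    (h : t = -(m : ℤ) → lam X v = 0) : Bd _ _ _ t v := by
  have h2 := two_B k B
  refine bd_row _ _ v hv.1 fun w hw => ?_
  have z : ∀ {t : ℤ} {u : Ch X.Qp (pt B) B}, Bd _ _ B t u → ev (tens (Du k B) u ∘ₗ v) = 0 :=
    fun hu => by rw [eq_zero_of_bd_pt (bd_tens_right h2 hv hu), ev_zero]
  by_cases ht : -t = m
  · obtain ⟨c, hc⟩ := (X.colp _ w hw).2
    have h1 := z hc
    have h3 := h (by omega)
    rw [lam] at h3
    rwa [tens_add, LinearMap.add_comp, ev_add, ev_tens_smul, h3, mul_zero, add_zero] at h1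
  · exact z ((X.colp _ w hw).1 ht)

theorem lam_zero (t : ℤ) (v : Ch (pt B) X.Qp (Du k B)) (hv : Cy _ _ _ t v) (e : B) (he : X.χ e = 0)
    (h : e • v (single () 1) = v (single () 1)) : lam X v = 0 := by
  classical
  have h2 := two_B k B
  have h3 : Bd X.Qm (pt B) B (m + 0) (mulP e ∘ₗ X.Qm.col X.im) := by
    refine X.colm _ _ (cy_comp h2 (cy_col_im X) (cy_mulP _)) ?_
    have e' : (mulP e ∘ₗ X.Qm.col X.im) (single X.im 1) () = X.Qm.ε X.im * e := by
      refine (mulP_ent e _).trans ?_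
      have := col_app X.Qm X.im X.im
      rw [if_pos rfl] at this
      exact congrArg (· * e) this
    exact (congrArg X.χ e').trans (by rw [map_mul, he, mul_zero])
  have h4 := eq_zero_of_bd_pt (bd_tens_right h2 hv (bd_comp_right h2 X.φ_cy h3))
  have h5 := ev_tens X.Qp v ((mulP e ∘ₗ X.Qm.col X.im) ∘ₗ X.φ)
  rw [h4, ev_zero] at h5
  rw [lam, ev_tens, h5]
  refine Finset.sum_congr rfl fun j _ => ?_
  have e1 : ((mulP e ∘ₗ X.Qm.col X.im) ∘ₗ X.φ) (single j 1) () =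
      (X.Qm.col X.im ∘ₗ X.φ) (single j 1) () * e := mulP_ent e _
  have e2 : e • v (single () 1) j = v (single () 1) j := congrArg (fun z => z j) h
  rw [e1, ← Du.smul_apply, e2]

theorem mp_red (n : ℤ) (Θ : Ch X.Qm X.Qp (Du k B)) (hΘ : Cy _ _ _ n Θ) :
    ∃ Ψ, IsC X.Qm X.Qp (Du k B) (n - 1) Ψ ∧
      ∀ i, i ≠ X.im → (Θ + δ X.Qm X.Qp (Du k B) Ψ) (single i 1) = 0 := by
  refine reduce (two_B k B) n (-(m : ℤ)) (· ≠ X.im) X.degm (fun i hi => ?_)
    (fun i hi v hv h => mp_row X _ v hv fun _ => lam_zero X _ v hv _ (X.χm i hi) h)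
    (m - n).toNat Θ hΘ fun i hi => Finsupp.ext fun j => (hΘ.1 i j).1 ?_
  · rintro rfl
    have := X.deg_im
    omega
  · have := X.degp j
    omega

theorem mp_fin (n : ℤ) (Θ : Ch X.Qm X.Qp (Du k B)) (hΘ : Cy _ _ _ n Θ)
    (h0 : ∀ i, i ≠ X.im → Θ (single i 1) = 0)
    (h : n = 0 → lam X (rowC (Θ (single X.im 1))) = 0) : Bd _ _ _ n Θ := by
  have h2 := two_B k B
  obtain ⟨Ψ, h3, h4⟩ := step h2 n (-(m : ℤ)) (fun _ => True) Θ hΘ (fun i hi => h0 i (by
    rintro rfl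
    have := X.deg_im
    omega)) fun i hi _ hc => by
      by_cases him : i = X.im
      · subst him
        exact mp_row X _ _ hc fun ht => h (by omega)
      · have : (rowC (Θ (single i 1)) : Ch (pt B) X.Qp (Du k B)) = 0 := by
          rw [h0 i him]; exact ch_ext fun u j => by rw [rowC_app]; rfl
        rw [this]; exact bd_zero _
  refine ⟨Ψ, h3, ch_ext fun i j => ?_⟩
  have h5 := h4 i (by
    have := X.degm i
    by_cases h : -(m : ℤ) < X.Qm.deg i
    · exact Or.inl h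
    · exact Or.inr ⟨by omega, trivial⟩)
  have h6 := congrArg (fun z => z j) h5
  simp only [LinearMap.add_apply, Finsupp.add_apply, Finsupp.zero_apply] at h6
  rw [← two_V h2 (Θ (single i 1) j)] at h6
  exact add_left_cancel h6

theorem van_mp (n : ℤ) (hn : n ≠ 0) : Van X.Qm X.Qp (Du k B) n := fun Θ hΘ => by
  have h2 := two_B k B
  obtain ⟨Ψ, h3, h4⟩ := mp_red X n Θ hΘ
  exact bd_of_add h2 (mp_fin X n _ (cy_add hΘ (cy_of_bd h2 ⟨Ψ, h3, rfl⟩)) h4 fun h => absurd h hn)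
    ⟨Ψ, h3, rfl⟩

/-- scalar multiples of cochains -/
def sc {P P' : Cx B} (a : k) (Θ : Ch P P' (Du k B)) : Ch P P' (Du k B) :=
  Θ ∘ₗ (a • (LinearMap.id : (P.I →₀ B) →ₗ[B] (P.I →₀ B)))

theorem sc_app {P P' : Cx B} (a : k) (Θ : Ch P P' (Du k B)) (x : P.I →₀ B) :
    sc a Θ x = algebraMap k B a • Θ x := by
  rw [sc, LinearMap.comp_apply, LinearMap.smul_apply, LinearMap.id_apply, ← map_smul,
    algebraMap_smul]

theorem sc_add {P P' : Cx B} (a : k) (Θ Θ' : Ch P P' (Du k B)) : sc a (Θ + Θ') = sc a Θ + sc a Θ' :=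
  LinearMap.add_comp _ _ _

theorem isC_sc {P P' : Cx B} (a : k) {n : ℤ} {Θ : Ch P P' (Du k B)} (h : IsC _ _ _ n Θ) :
    IsC _ _ _ n (sc a Θ) := fun i j => by
  rw [sc_app, Finsupp.smul_apply]
  refine ⟨fun hj => by rw [(h i j).1 hj, smul_zero], ?_, ?_⟩
  · rw [smul_smul, ← Algebra.commutes, ← smul_smul, (h i j).2.1]
  · rw [← smul_comm, (h i j).2.2]

theorem δ_sc {P P' : Cx B} (a : k) (Θ : Ch P P' (Du k B)) : δ _ _ _ (sc a Θ) = sc a (δ _ _ _ Θ) :=
  LinearMap.ext fun x => by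
    rw [sc_app, δ, δ]
    simp only [LinearMap.add_apply, LinearMap.comp_apply, sc_app, map_smul, smul_add]

theorem mp_two (Θ Θ' : Ch X.Qm X.Qp (Du k B)) (hΘ : Cy _ _ _ 0 Θ) (hΘ' : Cy _ _ _ 0 Θ')
    (hne : ¬ Bd _ _ _ 0 Θ) : ∃ a : k, Bd _ _ _ 0 (Θ' + sc a Θ) := by
  have h2 := two_B k B
  obtain ⟨Ψ, h3, h4⟩ := mp_red X 0 Θ hΘ
  obtain ⟨Ψ', h3', h4'⟩ := mp_red X 0 Θ' hΘ'
  have c1 := cy_add hΘ (cy_of_bd h2 ⟨Ψ, h3, rfl⟩)
  have c2 := cy_add hΘ' (cy_of_bd h2 ⟨Ψ', h3', rfl⟩)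
  obtain ⟨T, hT⟩ : ∃ T, T = Θ + δ _ _ _ Ψ := ⟨_, rfl⟩
  obtain ⟨T', hT'⟩ : ∃ T', T' = Θ' + δ _ _ _ Ψ' := ⟨_, rfl⟩
  rw [← hT] at c1 h4
  rw [← hT'] at c2 h4'
  have hc : lam X (rowC (T (single X.im 1))) ≠ 0 := fun h =>
    hne (bd_of_add h2 (hT ▸ mp_fin X 0 _ c1 h4 fun _ => h) ⟨Ψ, h3, rfl⟩)
  set c := lam X (rowC (T (single X.im 1))) with hcd
  set c' := lam X (rowC (T' (single X.im 1))) with hcd'
  refine ⟨-(c' / c), ?_⟩
  have h5 : Bd _ _ _ 0 (T' + sc (-(c' / c)) T) := by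
    refine mp_fin X 0 _ (cy_add c2 ⟨isC_sc _ c1.1, by rw [δ_sc, c1.2]; exact LinearMap.zero_comp _⟩)
      (fun i hi => by rw [LinearMap.add_apply, sc_app, h4 i hi, h4' i hi, smul_zero, add_zero])
      fun _ => ?_
    have e : (rowC ((T' + sc (-(c' / c)) T) (single X.im 1)) : Ch (pt B) X.Qp (Du k B)) =
        rowC (T' (single X.im 1)) + sc (-(c' / c)) (rowC (T (single X.im 1))) :=
      ch_ext fun u j => by
        rw [LinearMap.add_apply, LinearMap.add_apply, sc_app, sc_app, rowC_app, rowC_app, rowC_app]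
    have e2 : lam X (sc (-(c' / c)) (rowC (T (single X.im 1)))) = -(c' / c) * c := by
      rw [hcd, lam, lam, ev, ev, LinearMap.comp_apply, LinearMap.comp_apply, sc_app, map_smul,
        Finsupp.smul_apply, toL_alg]
    rw [e, lam, LinearMap.comp_add, ev_add]
    change c' + lam X _ = 0
    rw [e2]
    field_simp
    ring
  have h6 : Bd _ _ _ 0 (δ _ _ _ Ψ' + sc (-(c' / c)) (δ _ _ _ Ψ)) :=
    ⟨Ψ' + sc (-(c' / c)) Ψ, isC_add h3' (isC_sc _ h3), by rw [δ_add, δ_sc]⟩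
  refine bd_of_add h2 ?_ h6
  rw [hT, hT', sc_add] at h5
  convert h5 using 1
  abel

end Crest.Agent.H9.Tk
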