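import Crest.Agent.H9.TkQ3

/-! Row 186: cohomology of the cone with values in the dual bimodule. -/

set_option autoImplicit false
set_option linter.unusedSectionVars false

noncomputable section
namespace Crest.Agent.H9.Tk
open MulOpposite Finsupp Crest.Agent.H6.Tk Crest.Agent.Lead.Tk

variable {k B : Type} [Field k] [Ring B] [Algebra k B]

theorem lin_ext {I W : Type} [AddCommGroup W] [Module B W] {f g : (I →₀ B) →ₗ[B] W}
    (h : ∀ i, f (single i 1) = g (single i 1)) : f = g :=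
  Finsupp.lhom_ext' fun i => LinearMap.ext_ring (h i)

theorem eps_d {P P' : Cx B} {n : ℤ} {u : Ch P P' B} (h : IsC P P' B n u) (i : P.I) :
    P.ε i • u (single i 1) = u (single i 1) := Finsupp.ext fun j => (h i j).2.1

theorem one_d {P P' : Cx B} {n : ℤ} {u : Ch P P' B} (h : IsC P P' B n u) (x : P.I →₀ B) :
    P'.one (u x) = u x := LinearMap.congr_fun (one_comp h) x

theorem single_eq {I : Type} (i : I) (b : B) : (single i b : I →₀ B) = b • single i 1 := by simp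

variable [CharP k 2] {m : ℕ} {X : BD k B m} (H : HD X)

def ιm : Ch X.Qm H.H B := Finsupp.linearCombination B fun i => single (H.e (.inr i)) (X.Qm.ε i)
def ιp : Ch X.Qp H.H B := Finsupp.linearCombination B fun i => single (H.e (.inl i)) (X.Qp.ε i)
def πm : Ch H.H X.Qm B := Finsupp.linearCombination B fun x =>
  Sum.elim (fun _ => 0) (fun i => single i (X.Qm.ε i)) (H.e.symm x)
def πp : Ch H.H X.Qp B := Finsupp.linearCombination B fun x =>
  Sum.elim (fun i => single i (X.Qp.ε i)) (fun _ => 0) (H.e.symm x)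

theorem ιm_s (i : X.Qm.I) (b : B) : ιm H (single i b) = single (H.e (.inr i)) (b * X.Qm.ε i) := by
  simp [ιm]
theorem ιp_s (i : X.Qp.I) (b : B) : ιp H (single i b) = single (H.e (.inl i)) (b * X.Qp.ε i) := by
  simp [ιp]
theorem πm_r (i : X.Qm.I) (b : B) : πm H (single (H.e (.inr i)) b) = single i (b * X.Qm.ε i) := by
  simp [πm]
theorem πm_l (i : X.Qp.I) (b : B) : πm H (single (H.e (.inl i)) b) = 0 := by simp [πm]
theorem πp_l (i : X.Qp.I) (b : B) : πp H (single (H.e (.inl i)) b) = single i (b * X.Qp.ε i) := by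
  simp [πp]
theorem πp_r (i : X.Qm.I) (b : B) : πp H (single (H.e (.inr i)) b) = 0 := by simp [πp]

theorem H_ext {W : Type} [AddCommGroup W] [Module B W] {f g : (H.H.I →₀ B) →ₗ[B] W}
    (hl : ∀ i, f (single (H.e (.inl i)) 1) = g (single (H.e (.inl i)) 1))
    (hr : ∀ i, f (single (H.e (.inr i)) 1) = g (single (H.e (.inr i)) 1)) : f = g :=
  lin_ext fun x => by
    obtain ⟨y, rfl⟩ := H.e.surjective x
    rcases y with i | i
    · exact hl i
    · exact hr i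

theorem isC_single {P P' : Cx B} {n : ℤ} {u : Ch P P' B}
    (h : ∀ i, u (single i 1) = 0 ∨ ∃ j, u (single i 1) = single j (P.ε i) ∧ P'.ε j = P.ε i ∧
      P'.deg j = P.deg i + n) : IsC P P' B n u := fun i j => by
  classical
  rcases h i with h | ⟨j', h1, h2, h3⟩
  · rw [h]; simp
  · rw [h1, Finsupp.single_apply]
    split_ifs with hj
    · subst hj
      exact ⟨fun h => absurd h3 h, P.idem i, by rw [h2]; exact P.idem i⟩
    · simp

theorem isC_ιm : IsC X.Qm H.H B 1 (ιm H) :=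
  isC_single fun i => Or.inr ⟨_, by rw [ιm_s, one_mul], H.ε_r i, H.deg_r i⟩
theorem isC_ιp : IsC X.Qp H.H B 0 (ιp H) :=
  isC_single fun i => Or.inr ⟨_, by rw [ιp_s, one_mul], H.ε_l i, by rw [H.deg_l, add_zero]⟩
theorem isC_πm : IsC H.H X.Qm B (-1) (πm H) := isC_single fun x => by
  obtain ⟨y, rfl⟩ := H.e.surjective x
  rcases y with i | i
  · exact Or.inl (πm_l H i 1)
  · exact Or.inr ⟨i, by rw [πm_r, one_mul, H.ε_r], (H.ε_r i).symm, by rw [H.deg_r]; omega⟩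
theorem isC_πp : IsC H.H X.Qp B 0 (πp H) := isC_single fun x => by
  obtain ⟨y, rfl⟩ := H.e.surjective x
  rcases y with i | i
  · exact Or.inr ⟨i, by rw [πp_l, one_mul, H.ε_l], (H.ε_l i).symm, by rw [H.deg_l]; omega⟩
  · exact Or.inl (πp_r H i 1)

theorem πm_ιm : πm H ∘ₗ ιm H = X.Qm.one := lin_ext fun i => by
  rw [LinearMap.comp_apply, ιm_s, πm_r, one_single, mul_assoc, X.Qm.idem]
theorem πp_ιp : πp H ∘ₗ ιp H = X.Qp.one := lin_ext fun i => by
  rw [LinearMap.comp_apply, ιp_s, πp_l, one_single, mul_assoc, X.Qp.idem]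
theorem πp_ιm : πp H ∘ₗ ιm H = 0 := lin_ext fun i => by
  rw [LinearMap.comp_apply, ιm_s, πp_r]; rfl
theorem πm_ιp : πm H ∘ₗ ιp H = 0 := lin_ext fun i => by
  rw [LinearMap.comp_apply, ιp_s, πm_l]; rfl
theorem ι_π : ιp H ∘ₗ πp H + ιm H ∘ₗ πm H = H.H.one := H_ext H (fun i => by
    rw [LinearMap.add_apply, LinearMap.comp_apply, LinearMap.comp_apply, πp_l, πm_l, map_zero,
      add_zero, ιp_s, one_single, mul_assoc, X.Qp.idem, H.ε_l]) fun i => by
    rw [LinearMap.add_apply, LinearMap.comp_apply, LinearMap.comp_apply, πp_r, πm_r, map_zero,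
      zero_add, ιm_s, one_single, mul_assoc, X.Qm.idem, H.ε_r]

theorem ιm_eq (x : X.Qm.I →₀ B) : ιm H x = (X.Qm.one x).mapDomain (fun j => H.e (.inr j)) := by
  induction x using Finsupp.induction_linear with
  | zero => simp
  | add x y hx hy => rw [map_add, map_add, mapDomain_add, hx, hy]
  | single i b => rw [ιm_s, one_single, mapDomain_single]
theorem ιp_eq (x : X.Qp.I →₀ B) : ιp H x = (X.Qp.one x).mapDomain (fun j => H.e (.inl j)) := by
  induction x using Finsupp.induction_linear with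
  | zero => simp
  | add x y hx hy => rw [map_add, map_add, mapDomain_add, hx, hy]
  | single i b => rw [ιp_s, one_single, mapDomain_single]

theorem d_ιm : H.H.d ∘ₗ ιm H = ιm H ∘ₗ X.Qm.d := lin_ext fun i => by
  rw [LinearMap.comp_apply, LinearMap.comp_apply, ιm_s, one_mul, single_eq, map_smul, H.d_r,
    ιm_eq, one_d isC_d, ← mapDomain_smul, eps_d isC_d]
theorem d_ιp : H.H.d ∘ₗ ιp H = ιp H ∘ₗ X.Qp.d + ιm H ∘ₗ X.φ := lin_ext fun i => by
  rw [LinearMap.add_apply, LinearMap.comp_apply, LinearMap.comp_apply, LinearMap.comp_apply, ιp_s,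
    one_mul, single_eq, map_smul, H.d_l, ιm_eq, ιp_eq, one_d isC_d, one_d X.φ_cy.1, smul_add,
    ← mapDomain_smul, ← mapDomain_smul, eps_d isC_d, eps_d X.φ_cy.1]

theorem d_eq : H.H.d = (ιp H ∘ₗ X.Qp.d + ιm H ∘ₗ X.φ) ∘ₗ πp H + (ιm H ∘ₗ X.Qm.d) ∘ₗ πm H := by
  rw [← d_ιp, ← d_ιm, LinearMap.comp_assoc, LinearMap.comp_assoc, ← LinearMap.comp_add, ι_π]
  exact (comp_one isC_d).symm

theorem πp_d : πp H ∘ₗ H.H.d = X.Qp.d ∘ₗ πp H := by
  conv_lhs => rw [d_eq]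
  simp only [LinearMap.comp_add, LinearMap.add_comp, ← LinearMap.comp_assoc, πp_ιm, πp_ιp,
    LinearMap.zero_comp, add_zero]
  rw [one_comp isC_d]
theorem πm_d : πm H ∘ₗ H.H.d = X.φ ∘ₗ πp H + X.Qm.d ∘ₗ πm H := by
  conv_lhs => rw [d_eq]
  simp only [LinearMap.comp_add, LinearMap.add_comp, ← LinearMap.comp_assoc, πm_ιm, πm_ιp,
    LinearMap.zero_comp, zero_add]
  rw [one_comp isC_d, one_comp X.φ_cy.1]

theorem δ_ιm : δ _ _ B (ιm H) = 0 := by rw [δ_self, d_ιm]; exact two_Ch (two_B k B) _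
theorem δ_πp : δ _ _ B (πp H) = 0 := by rw [δ_self, πp_d]; exact two_Ch (two_B k B) _
theorem δ_ιp : δ _ _ B (ιp H) = ιm H ∘ₗ X.φ := by
  rw [δ_self, d_ιp, ← add_assoc, two_Ch (two_B k B), zero_add]
theorem δ_πm : δ _ _ B (πm H) = X.φ ∘ₗ πp H := by
  rw [δ_self, πm_d, add_assoc, two_Ch (two_B k B), add_zero]

theorem cy_ιm : Cy _ _ B 1 (ιm H) := ⟨isC_ιm H, δ_ιm H⟩
theorem cy_πp : Cy _ _ B 0 (πp H) := ⟨isC_πp H, δ_πp H⟩

/-- the block from `Qm` to `Qp` -/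
def blk (Φ : Ch H.H H.H (Du k B)) : Ch X.Qm X.Qp (Du k B) :=
  tens (Du k B) (πp H) ∘ₗ (Φ ∘ₗ ιm H)

theorem cy_blk {n : ℤ} {Φ : Ch H.H H.H (Du k B)} (h : Cy _ _ _ n Φ) : Cy _ _ _ (n + 1) (blk H Φ) := by
  have := cy_tens (two_B k B) (cy_comp (two_B k B) (cy_ιm H) h) (cy_πp H)
  rwa [add_zero, add_comm] at this

theorem row_du (hc : Col H.H B) : Row H.H (Du k B) := fun n v hv =>
  bd_row _ _ v hv.1 fun w hw => by
    rw [eq_zero_of_bd_pt (bd_tens_right (two_B k B) hv (hc _ w hw)), ev_zero]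

theorem bd_of_blk (hc : Col H.H B) {n : ℤ} (hn : n ≠ -(m : ℤ)) {Φ : Ch H.H H.H (Du k B)}
    (hΦ : Cy _ _ _ n Φ) (hb : Bd _ _ _ (n + 1) (blk H Φ)) : Bd _ _ _ n Φ := by
  have h2 := two_B k B
  have tt : ∀ {I J L M : Type} (g : (J →₀ B) →ₗ[B] (L →₀ B)) (g' : (L →₀ B) →ₗ[B] (M →₀ B))
      (Θ : (I →₀ B) →ₗ[B] (J →₀ Du k B)),
      tens (Du k B) g' ∘ₗ (tens (Du k B) g ∘ₗ Θ) = tens (Du k B) (g' ∘ₗ g) ∘ₗ Θ := fun g g' Θ => by
    rw [tens_comp, LinearMap.comp_assoc]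
  -- step C
  have hC : ∀ Φ : Ch H.H H.H (Du k B), Cy _ _ _ n Φ → Φ ∘ₗ ιm H = 0 → Bd _ _ _ n Φ := fun Φ hΦ h0 => by
    have c3 : Cy X.Qp H.H (Du k B) n (Φ ∘ₗ ιp H) := ⟨by simpa using isC_comp (isC_ιp H) hΦ.1, by
      rw [δ_comp h2, hΦ.2, δ_ιp, ← LinearMap.comp_assoc, h0]; simp⟩
    have b3 := (kStmt B h2 X.Qp H.H (Du k B) n).1 ⟨0, X.degp⟩
      (fun i v hv _ => row_du H hc _ v hv) _ c3
    have b4 := bd_comp_right h2 (cy_πp H) b3
    rw [zero_add] at b4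
    have : Φ = (Φ ∘ₗ ιp H) ∘ₗ πp H := by
      conv_lhs => rw [← comp_one hΦ.1, ← ι_π, LinearMap.comp_add, ← LinearMap.comp_assoc,
        ← LinearMap.comp_assoc, h0, LinearMap.zero_comp, add_zero]
    rwa [← this] at b4
  -- step B
  have hB : ∀ Φ : Ch H.H H.H (Du k B), Cy _ _ _ n Φ → blk H Φ = 0 → Bd _ _ _ n Φ := fun Φ hΦ h0 => by
    have c1 := cy_comp h2 (cy_ιm H) hΦ
    have h0' : tens (Du k B) (πp H) ∘ₗ (Φ ∘ₗ ιm H) = 0 := h0
    have c2 : Cy X.Qm X.Qm (Du k B) n (tens (Du k B) (πm H) ∘ₗ (Φ ∘ₗ ιm H)) :=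
      ⟨by simpa using isC_tens c1.1 (isC_πm H), by
        rw [δ_tens h2, c1.2, δ_πm, ← tt, h0']; simp⟩
    obtain ⟨Ψ, p1, p2⟩ := van_mm X n hn _ c2
    have q1 : IsC H.H H.H (Du k B) (n - 1) (tens (Du k B) (ιm H) ∘ₗ (Ψ ∘ₗ πm H)) := by
      have := isC_tens (isC_comp (isC_πm H) p1) (isC_ιm H)
      rwa [show -1 + (n - 1) + 1 = n - 1 by ring] at this
    refine bd_of_add h2 (hC _ (cy_add hΦ (cy_of_bd h2 ⟨_, q1, rfl⟩)) ?_) ⟨_, q1, rfl⟩
    have e1 : Φ ∘ₗ ιm H = tens (Du k B) (ιm H) ∘ₗ (tens (Du k B) (πm H) ∘ₗ (Φ ∘ₗ ιm H)) := by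
      conv_lhs => rw [← tens_one c1.1, ← ι_π, tens_add, LinearMap.add_comp, ← tt, ← tt, h0',
        LinearMap.comp_zero, zero_add]
    rw [δ_tens h2, δ_ιm, tens_zero, LinearMap.zero_comp, zero_add, δ_comp h2, δ_πm, p2,
      LinearMap.add_comp, LinearMap.comp_assoc, LinearMap.add_comp, LinearMap.comp_assoc (ιm H),
      LinearMap.comp_assoc (ιm H), LinearMap.comp_assoc (ιm H), πm_ιm, πp_ιm, comp_one c2.1,
      LinearMap.comp_zero, LinearMap.comp_zero, add_zero, ← e1]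
    exact two_Ch h2 _
  -- step A
  obtain ⟨Ψ, p1, p2⟩ := hb
  have q1 : IsC H.H H.H (Du k B) (n - 1) (tens (Du k B) (ιp H) ∘ₗ (Ψ ∘ₗ πm H)) := by
    have := isC_tens (isC_comp (isC_πm H) p1) (isC_ιp H)
    rwa [show -1 + (n + 1 - 1) + 0 = n - 1 by ring] at this
  refine bd_of_add h2 (hB _ (cy_add hΦ (cy_of_bd h2 ⟨_, q1, rfl⟩)) ?_) ⟨_, q1, rfl⟩
  have cb := cy_blk H hΦ
  have e2 : blk H (δ _ _ _ (tens (Du k B) (ιp H) ∘ₗ (Ψ ∘ₗ πm H))) = blk H Φ := by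
    rw [blk, δ_tens h2, δ_ιp, δ_comp h2, δ_πm, p2, LinearMap.add_comp, LinearMap.comp_add,
      LinearMap.comp_assoc (ιm H), LinearMap.comp_assoc (ιm H), LinearMap.comp_assoc (ιm H), tt, tt,
      ← LinearMap.comp_assoc X.φ, πp_ιm, πp_ιp, LinearMap.zero_comp, tens_zero, LinearMap.zero_comp,
      zero_add, LinearMap.add_comp, LinearMap.comp_assoc (ιm H), LinearMap.comp_assoc (ιm H),
      LinearMap.comp_assoc (ιm H), πm_ιm, πp_ιm, comp_one cb.1, LinearMap.comp_zero,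
      LinearMap.comp_zero, add_zero, tens_one cb.1]
  have e3 : ∀ Φ Φ' : Ch H.H H.H (Du k B), blk H (Φ + Φ') = blk H Φ + blk H Φ' := fun Φ Φ' => by
    rw [blk, LinearMap.add_comp, LinearMap.comp_add]; rfl
  rw [e3, e2]
  exact two_Ch h2 _

theorem comp_smul_one {P P' : Cx B} {n : ℤ} {Θ : Ch P P' (Du k B)} (h : IsC _ _ _ n Θ) (a : k) :
    Θ ∘ₗ (a • P.one) = sc a Θ := LinearMap.ext fun x => by
  rw [sc_app, LinearMap.comp_apply, LinearMap.smul_apply, ← algebraMap_smul B a, map_smul,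
    ← LinearMap.comp_apply, comp_one h]

theorem qbStmt : QBStmt := by
  intro k _ _ B _ _ m hm X H _ hc
  have h2 := two_B k B
  refine ⟨fun n h1 hn Φ hΦ => bd_of_blk H hc hn hΦ (van_mp X _ (by omega) _ (cy_blk H hΦ)), ?_⟩
  have hn : (-1 : ℤ) ≠ -(m : ℤ) := by omega
  by_cases h : ∀ Φ, Cy H.H H.H (Du k B) (-1) Φ → Bd _ _ _ (-1) Φ
  · exact ⟨0, cy_zero _, fun Φ hΦ => ⟨0, by
      rw [LinearMap.zero_comp, add_zero]; exact h Φ hΦ⟩⟩
  · push Not at h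
    obtain ⟨ω, hω, hb⟩ := h
    refine ⟨ω, hω, fun Φ hΦ => ?_⟩
    obtain ⟨a, ha⟩ := mp_two X (blk H ω) (blk H Φ) (cy_blk H hω) (cy_blk H hΦ)
      fun h => hb (bd_of_blk H hc hn hω h)
    refine ⟨a, ?_⟩
    rw [comp_smul_one hω.1]
    refine bd_of_blk H hc hn (cy_add hΦ ⟨isC_sc _ hω.1, by
      rw [δ_sc, hω.2]; exact LinearMap.zero_comp _⟩) ?_
    have : blk H (Φ + sc a ω) = blk H Φ + sc a (blk H ω) := LinearMap.ext fun x => by
      simp only [blk, LinearMap.add_apply, LinearMap.comp_apply, sc_app, map_add, map_smul]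
    rw [this]
    exact ha

end Crest.Agent.H9.Tk
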